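import Vale.Agent.P108.Stm

/-! P108: elementary API (linear part). -/

namespace Vale.Agent.P108

open MeasureTheory Filter Real Set

noncomputable section

section ring
variable {R : Type} [CommRing R]

@[simp] theorem D_zero (v : ℕ → R) : D v 0 = 0 := rfl
@[simp] theorem D_one (v : ℕ → R) : D v 1 = 1 := rfl
theorem D_add_two (v : ℕ → R) (l : ℕ) : D v (l + 2) = v (l + 1) * D v (l + 1) - D v l := rfl
@[simp] theorem E_zero (v : ℕ → R) : E v 0 = 1 := rfl
@[simp] theorem E_one (v : ℕ → R) : E v 1 = 0 := rfl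
theorem E_add_two (v : ℕ → R) (l : ℕ) : E v (l + 2) = v (l + 1) * E v (l + 1) - E v l := rfl

theorem solN_D (v : ℕ → R) (N : ℕ) : SolN v (D v) N := fun _ _ => rfl
theorem solN_E (v : ℕ → R) (N : ℕ) : SolN v (E v) N := fun _ _ => rfl

theorem SolN.mono {v y : ℕ → R} {N N' : ℕ} (h : SolN v y N) (hN : N' ≤ N) : SolN v y N' :=
  fun l hl => h l (by omega)

theorem SolN.shift {v y : ℕ → R} {N : ℕ} (h : SolN v y N) (n : ℕ) :
    SolN (fun l => v (n + l)) (fun l => y (n + l)) (N - n) :=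
  fun l hl => h (n + l) (by omega)

/-- time reversal -/
theorem SolN.rev {v y : ℕ → R} {N : ℕ} (h : SolN v y N) :
    SolN (fun l => v (N + 1 - l)) (fun l => y (N + 1 - l)) N := by
  intro l hl
  have := h (N - 1 - l) (by omega)
  have e1 : N - 1 - l + 2 = N + 1 - l := by omega
  have e2 : N - 1 - l + 1 = N + 1 - (l + 1) := by omega
  have e3 : N - 1 - l = N + 1 - (l + 2) := by omega
  rw [e1, e2] at this
  show y (N + 1 - (l + 2)) = v (N + 1 - (l + 1)) * y (N + 1 - (l + 1)) - y (N + 1 - l)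
  rw [← e3, this]; ring

theorem SolN.congr {v v' y : ℕ → R} {N : ℕ} (h : SolN v y N)
    (hv : ∀ l, 1 ≤ l → l ≤ N → v' l = v l) : SolN v' y N :=
  fun l hl => by rw [hv (l + 1) (by omega) (by omega)]; exact h l hl

theorem SolN.lin {v y y' : ℕ → R} {N : ℕ} (h : SolN v y N) (h' : SolN v y' N) (a b : R) :
    SolN v (fun l => a * y l + b * y' l) N :=
  fun l hl => by simp only [h l hl, h' l hl]; ring

theorem SolN.smul {v y : ℕ → R} {N : ℕ} (h : SolN v y N) (a : R) :
    SolN v (fun l => a * y l) N :=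
  fun l hl => by simp only [h l hl]; ring

/-- the Wronskian of two solutions is constant -/
theorem wronsk2 {v y y' : ℕ → R} {N : ℕ} (h : SolN v y N) (h' : SolN v y' N) (n : ℕ) (hn : n ≤ N) :
    y n * y' (n + 1) - y (n + 1) * y' n = y 0 * y' 1 - y 1 * y' 0 := by
  induction n with
  | zero => rfl
  | succ n ih => rw [← ih (by omega), h n (by omega), h' n (by omega)]; ring

theorem wronsk (v : ℕ → R) (n : ℕ) : E v n * D v (n + 1) - E v (n + 1) * D v n = 1 := by
  rw [wronsk2 (solN_E v n) (solN_D v n) n le_rfl]; simp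

/-- two solutions with the same initial data agree -/
theorem SolN.uniq {v y y' : ℕ → R} {N : ℕ} (h : SolN v y N) (h' : SolN v y' N) (h0 : y 0 = y' 0)
    (h1 : y 1 = y' 1) (l : ℕ) (hl : l ≤ N + 1) : y l = y' l := by
  induction l using Nat.twoStepInduction with
  | zero => exact h0
  | one => exact h1
  | more l ih1 ih2 => rw [h l (by omega), h' l (by omega), ih1 (by omega), ih2 (by omega)]

theorem sol_eq {v y : ℕ → R} {N : ℕ} (h : SolN v y N) (l : ℕ) (hl : l ≤ N + 1) :
    y l = y 0 * E v l + y 1 * D v l :=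
  h.uniq ((solN_E v N).lin (solN_D v N) (y 0) (y 1)) (by simp) (by simp) l hl

theorem D_congr {v v' : ℕ → R} {n : ℕ} (h : ∀ l, 1 ≤ l → l < n → v l = v' l) : D v n = D v' n := by
  rcases n with _ | n
  · rfl
  · exact ((solN_D v' n).congr (fun l h1 h2 => h l h1 (by omega))).uniq (solN_D v n) rfl rfl
      (n + 1) le_rfl |>.symm

theorem E_congr {v v' : ℕ → R} {n : ℕ} (h : ∀ l, 1 ≤ l → l < n → v l = v' l) : E v n = E v' n := by
  rcases n with _ | n
  · rfl
  · exact ((solN_E v' n).congr (fun l h1 h2 => h l h1 (by omega))).uniq (solN_E v n) rfl rfl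
      (n + 1) le_rfl |>.symm

/-- `E` is a shifted Dirichlet solution -/
theorem E_succ (v : ℕ → R) (n : ℕ) : E v (n + 1) = -D (fun l => v (1 + l)) n := by
  have h := sol_eq ((solN_E v (n + 1)).shift 1) n (by omega)
  simp only [add_zero, E_one, zero_mul, zero_add] at h
  rw [add_comm 1 n] at h
  rw [h, show (1 + 1 : ℕ) = 0 + 2 from rfl, E_add_two]; simp

/-- the Dirichlet solution is symmetric under reversal of the word -/
theorem D_rev (v : ℕ → R) (n : ℕ) : D (fun l => v (n + 1 - l)) (n + 1) = D v (n + 1) := by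
  have h := wronsk2 (solN_D v n).rev (solN_D (fun l => v (n + 1 - l)) n) n le_rfl
  simp only [show n + 1 - n = 1 by omega, Nat.sub_self, D_one, D_zero, Nat.sub_zero] at h
  linear_combination h

/-- entries of the reversed transfer matrix -/
theorem DE_rev (v : ℕ → R) (n : ℕ) :
    D (fun l => v (n + 1 - l)) n = -E v (n + 1) ∧ E (fun l => v (n + 1 - l)) (n + 1) = -D v n ∧
      E (fun l => v (n + 1 - l)) n = E v n := by
  have h1 := wronsk2 (solN_E v n).rev (solN_D (fun l => v (n + 1 - l)) n) n le_rfl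
  have h2 := wronsk2 (solN_D v n).rev (solN_E (fun l => v (n + 1 - l)) n) n le_rfl
  have h3 := wronsk2 (solN_E v n).rev (solN_E (fun l => v (n + 1 - l)) n) n le_rfl
  simp only [show n + 1 - n = 1 by omega, Nat.sub_self, D_one, D_zero, E_one, E_zero, Nat.sub_zero,
    show n + 1 - 1 = n by omega] at h1 h2 h3
  exact ⟨by linear_combination -h1, by linear_combination h2, by linear_combination -h3⟩

end ring

/-! ### norms -/

theorem pn_nonneg (y : ℕ → ℝ) (n : ℕ) : 0 ≤ pn y n := by unfold pn; positivity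
theorem abs_le_pn (y : ℕ → ℝ) (n : ℕ) : |y n| ≤ pn y n := by
  unfold pn; linarith [abs_nonneg (y (n + 1))]
theorem abs_succ_le_pn (y : ℕ → ℝ) (n : ℕ) : |y (n + 1)| ≤ pn y n := by
  unfold pn; linarith [abs_nonneg (y n)]
theorem pn_smul (a : ℝ) (y : ℕ → ℝ) (n : ℕ) : pn (fun l => a * y l) n = |a| * pn y n := by
  simp only [pn, abs_mul]; ring
theorem pn_shift (y : ℕ → ℝ) (n m : ℕ) : pn (fun l => y (n + l)) m = pn y (n + m) := rfl
theorem pn_rev (y : ℕ → ℝ) (N n : ℕ) (h : n ≤ N) :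
    pn (fun l => y (N + 1 - l)) n = pn y (N - n) := by
  simp only [pn]
  rw [show N + 1 - (n + 1) = N - n by omega, show N + 1 - n = N - n + 1 by omega, add_comm]
@[simp] theorem pn_D_zero (v : ℕ → ℝ) : pn (D v) 0 = 1 := by simp [pn]
@[simp] theorem pn_E_zero (v : ℕ → ℝ) : pn (E v) 0 = 1 := by simp [pn]
@[simp] theorem NN_zero (v : ℕ → ℝ) : NN v 0 = 2 := by simp [NN]; norm_num

theorem pn_D_congr {v v' : ℕ → ℝ} {n : ℕ} (h : ∀ l, 1 ≤ l → l ≤ n → v l = v' l) :
    pn (D v) n = pn (D v') n := by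
  unfold pn
  rw [D_congr (n := n + 1) fun l a b => h l a (by omega),
    D_congr (n := n) fun l a b => h l a (by omega)]

theorem NN_congr {v v' : ℕ → ℝ} {n : ℕ} (h : ∀ l, 1 ≤ l → l ≤ n → v l = v' l) :
    NN v n = NN v' n := by
  unfold NN
  rw [pn_D_congr h]; unfold pn
  rw [E_congr (n := n + 1) fun l a b => h l a (by omega),
    E_congr (n := n) fun l a b => h l a (by omega)]

theorem RegD.congr {μ : ℝ} {N : ℕ} {v v' : ℕ → ℝ} (H : RegD μ N v)
    (h : ∀ l, 1 ≤ l → l ≤ N → v' l = v l) : RegD μ N v' :=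
  fun n hn => by rw [pn_D_congr fun l a b => h l a (by omega)]; exact H n hn

theorem RegN.congr {μ : ℝ} {N : ℕ} {v v' : ℕ → ℝ} (H : RegN μ N v)
    (h : ∀ l, 1 ≤ l → l ≤ N → v' l = v l) : RegN μ N v' :=
  fun n h1 hn => by rw [NN_congr fun l a b => h l a (by omega)]; exact H n h1 hn

theorem RegD.mono {μ : ℝ} {N N' : ℕ} {v : ℕ → ℝ} (H : RegD μ N v) (h : N' ≤ N) : RegD μ N' v :=
  fun n hn => H n (by omega)

theorem RegN.mono {μ : ℝ} {N N' : ℕ} {v : ℕ → ℝ} (H : RegN μ N v) (h : N' ≤ N) : RegN μ N' v :=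
  fun n h1 hn => H n h1 (by omega)

theorem NN_rev (v : ℕ → ℝ) (n : ℕ) : NN (fun l => v (n + 1 - l)) n = NN v n := by
  obtain ⟨h1, h2, h3⟩ := DE_rev v n
  simp only [NN, pn, D_rev, h1, h2, h3, abs_neg]; ring

theorem pn_le_NN {v y : ℕ → ℝ} {N : ℕ} (h : SolN v y N) (n : ℕ) (hn : n ≤ N) :
    pn y n ≤ NN v n * pn y 0 := by
  have a (l : ℕ) (hl : l ≤ N + 1) : |y l| ≤ (|D v l| + |E v l|) * pn y 0 := by
    rw [sol_eq h l hl]
    refine (abs_add_le _ _).trans ?_
    rw [abs_mul, abs_mul]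
    have := mul_le_mul_of_nonneg_right (abs_le_pn y 0) (abs_nonneg (E v l))
    have := mul_le_mul_of_nonneg_right (abs_succ_le_pn y 0) (abs_nonneg (D v l))
    simp only [zero_add] at this
    linarith
  have := a n (by omega)
  have := a (n + 1) (by omega)
  unfold NN; unfold pn at *; linarith

theorem pn_zero_le {v y : ℕ → ℝ} {N : ℕ} (h : SolN v y N) (n : ℕ) (hn : n ≤ N) :
    pn y 0 ≤ NN v n * pn y n := by
  have := pn_le_NN (h.mono hn).rev n le_rfl
  rwa [pn_rev y n n le_rfl, pn_rev y n 0 (by omega), NN_rev, Nat.sub_self, Nat.sub_zero] at this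

theorem one_le_NN (v : ℕ → ℝ) (n : ℕ) : 1 ≤ NN v n := by
  have h := pn_zero_le (solN_D v n) n le_rfl
  rw [pn_D_zero] at h
  have h2 : pn (D v) n ≤ NN v n := by unfold NN; linarith [pn_nonneg (E v) n]
  have := pn_nonneg (D v) n
  nlinarith

theorem NN_pos (v : ℕ → ℝ) (n : ℕ) : 0 < NN v n := by linarith [one_le_NN v n]

theorem pn_D_le_NN (v : ℕ → ℝ) (n : ℕ) : pn (D v) n ≤ NN v n := by
  unfold NN; linarith [pn_nonneg (E v) n]

theorem pn_E_le_NN (v : ℕ → ℝ) (n : ℕ) : pn (E v) n ≤ NN v n := by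
  unfold NN; linarith [pn_nonneg (D v) n]

theorem pn_pos {v y : ℕ → ℝ} {N : ℕ} (h : SolN v y N) (h0 : 0 < pn y 0) (n : ℕ) (hn : n ≤ N) :
    0 < pn y n := by
  have := pn_zero_le h n hn
  by_contra hc
  have : pn y n = 0 := le_antisymm (not_lt.1 hc) (pn_nonneg _ _)
  simp_all only [mul_zero]; linarith

theorem pn_D_pos (v : ℕ → ℝ) (n : ℕ) : 0 < pn (D v) n :=
  pn_pos (solN_D v n) (by simp) n le_rfl

/-- a solution written on the shifted basis -/
theorem sol_shift {v y : ℕ → ℝ} {N : ℕ} (h : SolN v y N) (n m : ℕ) (hm : n + m ≤ N + 1) (hn : n ≤ N) :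
    y (n + m) = y n * E (fun l => v (n + l)) m + y (n + 1) * D (fun l => v (n + l)) m :=
  sol_eq (h.shift n) m (by omega)

/-- submultiplicativity -/
theorem NN_add_le (v : ℕ → ℝ) (n m : ℕ) : NN v (n + m) ≤ NN v n * NN (fun l => v (n + l)) m := by
  have h1 := pn_le_NN ((solN_D v (n + m)).shift n) m (by omega)
  have h2 := pn_le_NN ((solN_E v (n + m)).shift n) m (by omega)
  rw [pn_shift, pn_shift, add_zero] at h1 h2
  rw [NN, NN]; linarith

theorem NN_le_add (v : ℕ → ℝ) (n m : ℕ) : NN v n ≤ NN v (n + m) * NN (fun l => v (n + l)) m := by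
  have h1 := pn_zero_le ((solN_D v (n + m)).shift n) m (by omega)
  have h2 := pn_zero_le ((solN_E v (n + m)).shift n) m (by omega)
  rw [pn_shift, pn_shift, add_zero] at h1 h2
  rw [NN, NN]; linarith

theorem NN_shift_le (v : ℕ → ℝ) (n m : ℕ) : NN (fun l => v (n + l)) m ≤ NN v n * NN v (n + m) := by
  have h := NN_le_add (fun l => v (n + m + 1 - l)) m n
  have e1 : NN (fun l => v (n + m + 1 - l)) m = NN (fun l => v (n + l)) m := by
    rw [← NN_rev (fun l => v (n + l)) m]
    exact NN_congr fun l a b => by congr 1; omega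
  have e2 : NN (fun l => v (n + m + 1 - l)) (m + n) = NN v (n + m) := by
    rw [add_comm m n, NN_rev]
  have e3 : NN (fun l => v (n + m + 1 - (m + l))) n = NN v n := by
    rw [← NN_rev v n]
    exact NN_congr fun l a b => by congr 1; omega
  rw [e1, e2, e3] at h; linarith

theorem Bd.two_le {ω : ℝ} {v : ℕ → ℝ} (h : Bd ω v) : 2 ≤ ω ^ 10000 := by
  have := h 0; linarith [abs_nonneg (v 0)]

theorem Bd.comp {ω : ℝ} {v : ℕ → ℝ} (h : Bd ω v) (f : ℕ → ℕ) : Bd ω fun l => v (f l) :=
  fun l => h (f l)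

theorem pn_succ_le' {ω : ℝ} {v y : ℕ → ℝ} {N n : ℕ} (hb : Bd ω v) (h : SolN v y N) (hn : n < N) :
    pn y (n + 1) ≤ (ω ^ 10000 - 1) * |y (n + 1)| + |y n| := by
  unfold pn
  rw [h n hn]
  have h1 := abs_sub (v (n + 1) * y (n + 1)) (y n)
  rw [abs_mul] at h1
  have h2 := mul_le_mul_of_nonneg_right (hb (n + 1)) (abs_nonneg (y (n + 1)))
  linarith

theorem pn_succ_le {ω : ℝ} {v y : ℕ → ℝ} {N n : ℕ} (hb : Bd ω v) (h : SolN v y N) (hn : n < N) :
    pn y (n + 1) ≤ (ω ^ 10000 - 1) * pn y n := by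
  have h1 := pn_succ_le' hb h hn
  have h2 := hb.two_le
  have := abs_nonneg (y n)
  unfold pn at *; nlinarith

theorem pn_le_succ {ω : ℝ} {v y : ℕ → ℝ} {N n : ℕ} (hb : Bd ω v) (h : SolN v y N) (hn : n < N) :
    pn y n ≤ (ω ^ 10000 - 1) * pn y (n + 1) := by
  have e : y n = v (n + 1) * y (n + 1) - y (n + 2) := by rw [h n hn]; ring
  have h1 := abs_sub (v (n + 1) * y (n + 1)) (y (n + 2))
  rw [abs_mul, ← e] at h1
  have h2 := mul_le_mul_of_nonneg_right (hb (n + 1)) (abs_nonneg (y (n + 1)))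
  have h3 := hb.two_le
  have := abs_nonneg (y (n + 2))
  unfold pn; nlinarith

theorem pn_add_le {ω : ℝ} {v y : ℕ → ℝ} {N : ℕ} (hb : Bd ω v) (h : SolN v y N) (n m : ℕ)
    (hn : n + m ≤ N) : pn y (n + m) ≤ ω ^ (10000 * m) * pn y n := by
  induction m with
  | zero => simp
  | succ m ih =>
    have h1 := pn_succ_le hb h (n := n + m) (by omega)
    have h2 := ih (by omega)
    have h3 := hb.two_le
    have h4 := pn_nonneg y (n + m)
    rw [mul_add, pow_add, mul_one, ← add_assoc]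
    generalize ω ^ 10000 = L at *
    nlinarith

theorem pn_le_add {ω : ℝ} {v y : ℕ → ℝ} {N : ℕ} (hb : Bd ω v) (h : SolN v y N) (n m : ℕ)
    (hn : n + m ≤ N) : pn y n ≤ ω ^ (10000 * m) * pn y (n + m) := by
  induction m with
  | zero => simp
  | succ m ih =>
    have h1 := pn_le_succ hb h (n := n + m) (by omega)
    have h2 := ih (by omega)
    have h3 := hb.two_le
    have h4 := pn_nonneg y (n + m + 1)
    have h5 : 0 ≤ ω ^ (10000 * m) := by rw [pow_mul]; positivity
    rw [mul_add, pow_add, mul_one, ← add_assoc]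
    generalize ω ^ 10000 = L at *
    generalize ω ^ (10000 * m) = P at *
    nlinarith [mul_le_mul_of_nonneg_left h1 h5, mul_nonneg h5 h4]

theorem pn_D_le {ω : ℝ} {v : ℕ → ℝ} (hb : Bd ω v) (n : ℕ) : pn (D v) n ≤ ω ^ (10000 * n) := by
  simpa using pn_add_le hb (solN_D v n) 0 n (by omega)

theorem pn_E_le {ω : ℝ} {v : ℕ → ℝ} (hb : Bd ω v) (n : ℕ) : pn (E v) n ≤ ω ^ (10000 * n) := by
  simpa using pn_add_le hb (solN_E v n) 0 n (by omega)

theorem NN_succ_le {ω : ℝ} {v : ℕ → ℝ} (hb : Bd ω v) (n : ℕ) :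
    NN v (n + 1) ≤ ω ^ 10000 * NN v n := by
  have h1 := pn_succ_le hb (solN_D v (n + 1)) (n := n) (by omega)
  have h2 := pn_succ_le hb (solN_E v (n + 1)) (n := n) (by omega)
  have := pn_nonneg (D v) n
  have := pn_nonneg (E v) n
  unfold NN; nlinarith

theorem NN_le_succ {ω : ℝ} {v : ℕ → ℝ} (hb : Bd ω v) (n : ℕ) :
    NN v n ≤ ω ^ 10000 * NN v (n + 1) := by
  have h1 := pn_le_succ hb (solN_D v (n + 1)) (n := n) (by omega)
  have h2 := pn_le_succ hb (solN_E v (n + 1)) (n := n) (by omega)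
  have := pn_nonneg (D v) (n + 1)
  have := pn_nonneg (E v) (n + 1)
  unfold NN; nlinarith

theorem NN_le {ω : ℝ} {v : ℕ → ℝ} (hb : Bd ω v) (n : ℕ) (hn : 1 ≤ n) : NN v n ≤ ω ^ (10000 * n) := by
  induction n, hn using Nat.le_induction with
  | base =>
    have := hb 1
    simp only [NN, pn, D_add_two, E_add_two, show (1 + 1 : ℕ) = 0 + 2 from rfl]
    simp; linarith
  | succ n hn ih =>
    have h1 := NN_succ_le hb n
    have h3 := hb.two_le
    rw [mul_add, pow_add, mul_one]
    generalize ω ^ 10000 = L at *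
    nlinarith

/-- monotonicity of powers -/
theorem pw_le {ω : ℝ} (h : 10 ^ 6 ≤ ω) {a b : ℕ} (hab : a ≤ b) : ω ^ a ≤ ω ^ b :=
  pow_le_pow_right₀ (by linarith) hab

theorem pw_pos {ω : ℝ} (h : 10 ^ 6 ≤ ω) (a : ℕ) : 0 < ω ^ a := pow_pos (by linarith) a

theorem one_le_pw {ω : ℝ} (h : 10 ^ 6 ≤ ω) (a : ℕ) : 1 ≤ ω ^ a := one_le_pow₀ (by linarith)

/-- a constant is absorbed by one power -/
theorem pw_lt {ω : ℝ} (h : 10 ^ 6 ≤ ω) {a b : ℕ} (hab : a < b) : 10 ^ 6 * ω ^ a ≤ ω ^ b := by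
  have h1 := pw_le h (a := a + 1) (b := b) hab
  rw [pow_succ] at h1
  nlinarith [pw_pos h a]

/-! ### orbits -/

@[simp] theorem X_zero (k a b : ℝ) : X k a b 0 = a := rfl
@[simp] theorem X_one (k a b : ℝ) : X k a b 1 = b := rfl
theorem X_add_two (k a b : ℝ) (l : ℕ) :
    X k a b (l + 2) = 2 * X k a b (l + 1) - X k a b l + k * sin (2 * π * X k a b (l + 1)) := rfl
@[simp] theorem XC_zero (k a : ℝ) (β : ℂ) : XC k a β 0 = a := rfl
@[simp] theorem XC_one (k a : ℝ) (β : ℂ) : XC k a β 1 = β := rfl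
theorem XC_add_two (k a : ℝ) (β : ℂ) (l : ℕ) : XC k a β (l + 2) =
    2 * XC k a β (l + 1) - XC k a β l + k * Complex.sin (2 * π * XC k a β (l + 1)) := rfl

/-- a sequence satisfying the recursion is an orbit -/
theorem X_uniq {k : ℝ} {x : ℕ → ℝ} {N : ℕ}
    (h : ∀ l < N, x (l + 2) = 2 * x (l + 1) - x l + k * sin (2 * π * x (l + 1))) (l : ℕ)
    (hl : l ≤ N + 1) : X k (x 0) (x 1) l = x l := by
  induction l using Nat.twoStepInduction with
  | zero => rfl
  | one => rfl
  | more l ih1 ih2 => rw [X_add_two, h l (by omega), ih1 (by omega), ih2 (by omega)]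

theorem X_shift (k a b : ℝ) (t l : ℕ) :
    X k (X k a b t) (X k a b (t + 1)) l = X k a b (t + l) :=
  X_uniq (x := fun l => X k a b (t + l)) (N := l) (fun l _ => X_add_two k a b (t + l)) l (by omega)

theorem X_rev (k a b : ℝ) (t l : ℕ) (hl : l ≤ t + 1) :
    X k (X k a b (t + 1)) (X k a b t) l = X k a b (t + 1 - l) := by
  refine X_uniq (x := fun l => X k a b (t + 1 - l)) (N := t) (fun l hl => ?_) l hl
  have := X_add_two k a b (t - 1 - l)
  rw [show t - 1 - l + 2 = t + 1 - l by omega, show t - 1 - l + 1 = t + 1 - (l + 1) by omega,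
    show t - 1 - l = t + 1 - (l + 2) by omega] at this
  show X k a b (t + 1 - (l + 2)) = 2 * X k a b (t + 1 - (l + 1)) - X k a b (t + 1 - l) + _
  linarith

theorem Tm_iter (k : ℝ) (z : ℝ × ℝ) (t : ℕ) :
    (Tm k)^[t] z = (X k z.1 z.2 t, X k z.1 z.2 (t + 1)) := by
  induction t with
  | zero => rfl
  | succ t ih => rw [Function.iterate_succ_apply', ih]; rfl

theorem wd_iter (k : ℝ) (z : ℝ × ℝ) (t l : ℕ) : wd k ((Tm k)^[t] z) l = wd k z (t + l) := by
  rw [Tm_iter]; unfold wd; rw [X_shift]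

theorem wd_iter' (k : ℝ) (z : ℝ × ℝ) (t : ℕ) : wd k ((Tm k)^[t] z) = fun l => wd k z (t + l) :=
  funext (wd_iter k z t)

theorem wd_swap_iter (k : ℝ) (z : ℝ × ℝ) (t l : ℕ) (hl : l ≤ t + 1) :
    wd k ((Tm k)^[t] z).swap l = wd k z (t + 1 - l) := by
  rw [Tm_iter]; unfold wd; simp only [Prod.swap_prod_mk]; rw [X_rev _ _ _ _ _ hl]

@[simp] theorem lf_lf (k : ℝ) (z : ℝ × ℝ) : lf k (lf k z) = z := by
  ext <;> simp [lf]; ring

@[simp] theorem lf_fst (k : ℝ) (z : ℝ × ℝ) : (lf k z).1 = z.1 := rfl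

theorem lf_Tm (k : ℝ) (z : ℝ × ℝ) : lf k (Tm k z) = z.swap := by
  ext <;> simp [lf, Tm]; ring

theorem Tm_swap (k : ℝ) (z : ℝ × ℝ) : Tm k z.swap = lf k z := by
  ext <;> simp [lf, Tm]

theorem lf_iter_succ (k : ℝ) (z : ℝ × ℝ) (t : ℕ) :
    lf k ((Tm k)^[t + 1] z) = ((Tm k)^[t] z).swap := by
  rw [Function.iterate_succ_apply', lf_Tm]

theorem lf_add (k : ℝ) (z : ℝ × ℝ) (h : ℝ) :
    lf k (z.1, z.2 + h) = ((lf k z).1, (lf k z).2 + -h) := by
  ext <;> simp [lf]; ring

theorem wd_lf_zero (k : ℝ) (z : ℝ × ℝ) : wd k (lf k z) 0 = wd k z 0 := rfl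

theorem wd_lf_iter (k : ℝ) (z : ℝ × ℝ) (t l : ℕ) (hl : l ≤ t) :
    wd k (lf k ((Tm k)^[t] z)) l = wd k z (t - l) := by
  rcases t with _ | t
  · obtain rfl : l = 0 := by omega
    rfl
  · rw [lf_iter_succ, wd_swap_iter _ _ _ _ hl]

/-- the word of the swapped point continues the backward word -/
theorem wd_swap_succ (k : ℝ) (z : ℝ × ℝ) (l : ℕ) : wd k z.swap (1 + l) = wd k (lf k z) l := by
  rw [← wd_iter, Function.iterate_one, Tm_swap]

/-- the whole backward word: beyond time zero it is the word of the reflected point -/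
theorem wd_lf_iter_add (k : ℝ) (z : ℝ × ℝ) (t l : ℕ) :
    wd k (lf k ((Tm k)^[t] z)) (t + l) = wd k (lf k z) l := by
  induction t with
  | zero => simp
  | succ t ih => rw [lf_iter_succ, show t + 1 + l = 1 + (t + l) by omega, wd_swap_succ, ih]

/-! ### periodicity -/

theorem X_per (k a b : ℝ) (p q : ℤ) (l : ℕ) :
    X k (a + p) (b + q) l = X k a b l + ((p + l * (q - p) : ℤ) : ℝ) := by
  have h := X_uniq (k := k) (x := fun l => X k a b l + ((p + l * (q - p) : ℤ) : ℝ)) (N := l)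
    (fun l _ => by
      show X k a b (l + 2) + _ = 2 * (X k a b (l + 1) + _) - (X k a b l + _) +
        k * sin (2 * π * (X k a b (l + 1) + _))
      rw [mul_add (2 * π), mul_comm (2 * π) (((p + ((l + 1 : ℕ) : ℤ) * (q - p) : ℤ)) : ℝ),
        sin_add_int_mul_two_pi, X_add_two]
      push_cast; ring) l (by omega)
  simpa using h

theorem vv_per (k x : ℝ) (n : ℤ) : vv k (x + n) = vv k x := by
  unfold vv; rw [mul_add (2 * π) x, mul_comm (2 * π) (n : ℝ), cos_add_int_mul_two_pi]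

theorem per_wd (k : ℝ) : Per (wd k) := fun z p q => by
  funext l; unfold wd; rw [X_per, vv_per]

theorem per_wd_swap (k : ℝ) : Per fun z : ℝ × ℝ => wd k z.swap := fun z p q =>
  per_wd k z.swap q p

theorem lf_per (k : ℝ) (z : ℝ × ℝ) (p q : ℤ) :
    lf k (z.1 + p, z.2 + q) = ((lf k z).1 + p, (lf k z).2 + (2 * p - q : ℤ)) := by
  ext
  · rfl
  · simp only [lf]
    rw [mul_add (2 * π), mul_comm (2 * π) (p : ℝ), sin_add_int_mul_two_pi]; push_cast; ring

theorem Tm_per (k : ℝ) (z : ℝ × ℝ) (p q : ℤ) :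
    Tm k (z.1 + p, z.2 + q) = ((Tm k z).1 + q, (Tm k z).2 + (2 * q - p : ℤ)) := by
  ext
  · rfl
  · simp only [Tm]
    rw [mul_add (2 * π), mul_comm (2 * π) (q : ℝ), sin_add_int_mul_two_pi]; push_cast; ring

theorem per_wd_lf (k : ℝ) : Per fun z : ℝ × ℝ => wd k (lf k z) := fun z p q => by
  show wd k (lf k _) = _
  rw [lf_per, per_wd]

theorem Per.comp_Tm {α : Type} {F : ℝ × ℝ → α} (h : Per F) (k : ℝ) : Per fun z => F (Tm k z) :=
  fun z p q => by
    show F (Tm k _) = _
    rw [Tm_per, h]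

theorem Per.comp_iter {α : Type} {F : ℝ × ℝ → α} (h : Per F) (k : ℝ) (n : ℕ) :
    Per fun z => F ((Tm k)^[n] z) := by
  induction n with
  | zero => exact h
  | succ n ih => exact ih.comp_Tm k

/-! ### continuity and derivatives -/

theorem cont_vv (k : ℝ) : Continuous (vv k) := by unfold vv; fun_prop

theorem cont_X (k : ℝ) (l : ℕ) : Continuous fun z : ℝ × ℝ => X k z.1 z.2 l := by
  induction l using Nat.twoStepInduction with
  | zero => exact continuous_fst
  | one => exact continuous_snd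
  | more l ih1 ih2 => simp only [X_add_two]; fun_prop

theorem cont_wd (k : ℝ) (l : ℕ) : Continuous fun z : ℝ × ℝ => wd k z l :=
  (cont_vv k).comp (cont_X k l)

theorem cont_Tm (k : ℝ) : Continuous (Tm k) := by unfold Tm; fun_prop
theorem cont_lf (k : ℝ) : Continuous (lf k) := by unfold lf; fun_prop

theorem cont_D {α : Type} [TopologicalSpace α] {v : α → ℕ → ℝ} (h : ∀ l, Continuous fun a => v a l)
    (l : ℕ) : Continuous fun a => D (v a) l := by
  induction l using Nat.twoStepInduction with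
  | zero => exact continuous_const
  | one => exact continuous_const
  | more l ih1 ih2 => simp only [D_add_two]; exact ((h _).mul ih2).sub ih1

theorem cont_E {α : Type} [TopologicalSpace α] {v : α → ℕ → ℝ} (h : ∀ l, Continuous fun a => v a l)
    (l : ℕ) : Continuous fun a => E (v a) l := by
  induction l using Nat.twoStepInduction with
  | zero => exact continuous_const
  | one => exact continuous_const
  | more l ih1 ih2 => simp only [E_add_two]; exact ((h _).mul ih2).sub ih1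

theorem cont_pnD {α : Type} [TopologicalSpace α] {v : α → ℕ → ℝ}
    (h : ∀ l, Continuous fun a => v a l) (l : ℕ) : Continuous fun a => pn (D (v a)) l :=
  (cont_D h _).abs.add (cont_D h _).abs

theorem cont_NN {α : Type} [TopologicalSpace α] {v : α → ℕ → ℝ}
    (h : ∀ l, Continuous fun a => v a l) (l : ℕ) : Continuous fun a => NN (v a) l :=
  (cont_pnD h l).add ((cont_E h _).abs.add (cont_E h _).abs)

/-- derivative of the orbit along a differentiable path of initial data -/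
theorem hasDerivAt_X' (k : ℝ) {f g : ℝ → ℝ} {f' g' t : ℝ} (hf : HasDerivAt f f' t)
    (hg : HasDerivAt g g' t) (l : ℕ) : HasDerivAt (fun s => X k (f s) (g s) l)
      (f' * E (wd k (f t, g t)) l + g' * D (wd k (f t, g t)) l) t := by
  induction l using Nat.twoStepInduction with
  | zero => simpa using hf
  | one => simpa using hg
  | more l ih1 ih2 =>
    simp only [X_add_two]
    refine (((ih2.const_mul 2).sub ih1).add ((ih2.const_mul (2 * π)).sin.const_mul k)).congr_deriv ?_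
    rw [D_add_two, E_add_two]; simp only [wd, vv]; ring

theorem hasDerivAt_X (k a b : ℝ) (l : ℕ) :
    HasDerivAt (fun s => X k a s l) (D (wd k (a, b)) l) b := by
  simpa using hasDerivAt_X' k (hasDerivAt_const b a) (hasDerivAt_id' b) l

theorem hasDerivAt_X_fst (k a b : ℝ) (l : ℕ) :
    HasDerivAt (fun s => X k s b l) (E (wd k (a, b)) l) a := by
  simpa using hasDerivAt_X' k (hasDerivAt_id' a) (hasDerivAt_const a b) l

/-- the difference of two orbits is a Jacobi solution for intermediate potentials -/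
theorem X_sub_sol (k a b a' b' : ℝ) : ∃ ξ : ℕ → ℝ,
    (∀ l, |ξ l - X k a b l| ≤ |X k a' b' l - X k a b l|) ∧
    ∀ N, SolN (fun l => vv k (ξ l)) (fun l => X k a' b' l - X k a b l) N := by
  have h (x y : ℝ) : ∃ ξ, |ξ - x| ≤ |y - x| ∧
      sin (2 * π * y) - sin (2 * π * x) = 2 * π * cos (2 * π * ξ) * (y - x) := by
    have hd (t : ℝ) : HasDerivAt (fun t => sin (2 * π * t)) (2 * π * cos (2 * π * t)) t := by
      convert ((hasDerivAt_id' t).const_mul (2 * π)).sin using 1; ring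
    rcases lt_trichotomy x y with h | rfl | h
    · obtain ⟨c, hc, e⟩ := exists_hasDerivAt_eq_slope _ _ h
        (fun t _ => (hd t).continuousAt.continuousWithinAt) (fun t _ => hd t)
      refine ⟨c, ?_, ?_⟩
      · rw [abs_of_pos (by linarith [hc.1]), abs_of_pos (by linarith)]; linarith [hc.2]
      · rw [e, div_mul_cancel₀ _ (by linarith)]
    · exact ⟨x, le_rfl, by simp⟩
    · obtain ⟨c, hc, e⟩ := exists_hasDerivAt_eq_slope _ _ h
        (fun t _ => (hd t).continuousAt.continuousWithinAt) (fun t _ => hd t)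
      refine ⟨c, ?_, ?_⟩
      · rw [abs_of_neg (by linarith [hc.2]), abs_of_neg (by linarith)]; linarith [hc.1]
      · have : x - y ≠ 0 := by linarith [sub_pos.2 h] |> fun h : 0 < x - y => h.ne'
        rw [e]; field_simp; ring
  choose ξ h1 h2 using h
  refine ⟨fun l => ξ (X k a b l) (X k a' b' l), fun l => h1 _ _, fun N l _ => ?_⟩
  have := h2 (X k a b (l + 1)) (X k a' b' (l + 1))
  simp only [X_add_two, vv]
  linear_combination k * this

/-! ### the parameter range -/

namespace Big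
variable {k θ ω : ℝ} (B : Big k θ ω)
include B

theorem om : 10 ^ 6 ≤ ω := by
  have h1 := B.hω
  have h2 := B.θ0
  have h3 := B.θ1
  have : 0 < ω := by by_contra h; nlinarith
  nlinarith

theorem bd_vv (x : ℝ) : |vv k x| ≤ ω ^ 10000 - 2 := by
  have h1 : 0 < 2 * π * k := by have := B.k0; positivity
  have h2 := abs_cos_le_one (2 * π * x)
  have h3 := abs_add_le 2 (2 * π * k * cos (2 * π * x))
  rw [abs_mul, abs_of_pos h1, abs_two] at h3
  rw [← B.hΛ, vv]; nlinarith

theorem bd (z : ℝ × ℝ) : Bd ω (wd k z) := fun _ => B.bd_vv _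

theorem vv_lip (x y : ℝ) : |vv k x - vv k y| ≤ 7 * ω ^ 10000 * |x - y| := by
  have h1 : 0 < 2 * π * k := by have := B.k0; positivity
  have h2 := abs_cos_sub_cos_le (2 * π * x) (2 * π * y)
  rw [← mul_sub, abs_mul, abs_of_pos (by positivity : 0 < 2 * π)] at h2
  have e : vv k x - vv k y = 2 * π * k * (cos (2 * π * x) - cos (2 * π * y)) := by unfold vv; ring
  rw [e, abs_mul, abs_of_pos h1, ← B.hΛ]
  have h3 := abs_nonneg (x - y)
  have h4 : 2 * π * |x - y| ≤ 7 * |x - y| := by nlinarith [pi_lt_d2]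
  nlinarith [mul_le_mul_of_nonneg_left (h2.trans h4) h1.le]

theorem cl_iff (x : ℝ) : Cl k θ (vv k x) ↔ θ ≤ |cos (2 * π * x)| := by
  have h1 : 0 < 2 * π * k := by have := B.k0; positivity
  unfold Cl vv
  rw [add_sub_cancel_left, abs_mul, abs_of_pos h1, mul_comm θ]
  exact mul_le_mul_iff_right₀ h1

theorem g_le : 10 ^ 5 * ω ^ 9999 ≤ θ * ω ^ 10000 / 2 := by
  have h1 := B.hω
  have h2 := pw_pos B.om 9999
  rw [pow_succ ω 9999]
  generalize ω ^ 9999 = P at *
  nlinarith

theorem g_le' : θ * ω ^ 10000 / 2 ≤ ω ^ 10000 := by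
  have h2 := pw_pos B.om 10000
  have := B.θ1
  nlinarith

theorem cl_ge {x : ℝ} (h : Cl k θ x) : θ * ω ^ 10000 / 2 ≤ |x| := by
  have h1 := B.g_le
  have h2 := one_le_pw B.om 9999
  have h3 := abs_sub x 2
  have h4 := B.hΛ
  have h5 := B.θ1
  unfold Cl at h
  rw [abs_two] at h3
  generalize ω ^ 9999 = P at *
  generalize ω ^ 10000 = L at *
  have : θ * (2 * π * k) = θ * L - 4 * θ := by rw [← h4]; ring
  linarith

theorem lam_le : ω ^ 10000 / 2 ≤ 2 * π * k ∧ 2 * π * k ≤ ω ^ 10000 := by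
  have h1 := pw_lt B.om (a := 0) (b := 10000) (by norm_num)
  have h4 := B.hΛ
  rw [pow_zero] at h1
  constructor <;> linarith

/-- crude Lipschitz bound for orbits -/
theorem X_lip (a b a' b' : ℝ) (l : ℕ) :
    |X k a' b' (l + 1) - X k a b (l + 1)| + |X k a' b' l - X k a b l| ≤
      ω ^ (10000 * l) * (|b' - b| + |a' - a|) := by
  obtain ⟨ξ, -, h⟩ := X_sub_sol k a b a' b'
  simpa [pn] using pn_add_le (ω := ω) (fun l => B.bd_vv (ξ l)) (h l) 0 l (by omega)

end Big

/-! ### complex orbits -/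

theorem D_map {R S : Type} [Ring R] [Ring S] (f : R →+* S) (v : ℕ → R) (l : ℕ) :
    D (fun i => f (v i)) l = f (D v l) := by
  induction l using Nat.twoStepInduction with
  | zero => simp [D]
  | one => simp [D]
  | more l ih1 ih2 => simp only [D, ih1, ih2, map_sub, map_mul]

theorem E_map {R S : Type} [Ring R] [Ring S] (f : R →+* S) (v : ℕ → R) (l : ℕ) :
    E (fun i => f (v i)) l = f (E v l) := by
  induction l using Nat.twoStepInduction with
  | zero => simp [E]
  | one => simp [E]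
  | more l ih1 ih2 => simp only [E, ih1, ih2, map_sub, map_mul]

theorem XC_ofReal (k a b : ℝ) (l : ℕ) : XC k a (b : ℂ) l = (X k a b l : ℝ) := by
  induction l using Nat.twoStepInduction with
  | zero => rfl
  | one => rfl
  | more l ih1 ih2 => rw [XC_add_two, X_add_two, ih1, ih2]; push_cast; rfl

theorem wC_ofReal (k a b : ℝ) (l : ℕ) : wC k a (b : ℂ) l = (wd k (a, b) l : ℝ) := by
  simp only [wC, wd, vv, XC_ofReal]; push_cast; rfl

theorem DC_ofReal (k a b : ℝ) (l : ℕ) : D (wC k a (b : ℂ)) l = (D (wd k (a, b)) l : ℝ) := by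
  rw [show wC k a (b : ℂ) = fun i => Complex.ofRealHom (wd k (a, b) i) from
    funext (wC_ofReal k a b), D_map]; rfl

theorem EC_ofReal (k a b : ℝ) (l : ℕ) : E (wC k a (b : ℂ)) l = (E (wd k (a, b)) l : ℝ) := by
  rw [show wC k a (b : ℂ) = fun i => Complex.ofRealHom (wd k (a, b) i) from
    funext (wC_ofReal k a b), E_map]; rfl

theorem diff_XC (k a : ℝ) (l : ℕ) : Differentiable ℂ fun β => XC k a β l := by
  induction l using Nat.twoStepInduction with
  | zero => exact differentiable_const _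
  | one => exact differentiable_id
  | more l ih1 ih2 => simp only [XC_add_two]; fun_prop

theorem diff_wC (k a : ℝ) (l : ℕ) : Differentiable ℂ fun β => wC k a β l := by
  have := diff_XC k a l
  unfold wC; fun_prop

theorem diff_DC (k a : ℝ) (l : ℕ) : Differentiable ℂ fun β => D (wC k a β) l := by
  induction l using Nat.twoStepInduction with
  | zero => exact differentiable_const _
  | one => exact differentiable_const _
  | more l ih1 ih2 => simp only [D_add_two]; exact ((diff_wC k a _).mul ih2).sub ih1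

theorem diff_EC (k a : ℝ) (l : ℕ) : Differentiable ℂ fun β => E (wC k a β) l := by
  induction l using Nat.twoStepInduction with
  | zero => exact differentiable_const _
  | one => exact differentiable_const _
  | more l ih1 ih2 => simp only [E_add_two]; exact ((diff_wC k a _).mul ih2).sub ih1

end

end Vale.Agent.P108
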