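import Vale.Agent.P108.Basic

/-! P108: the bootstrap. -/

namespace Vale.Agent.P108

open MeasureTheory Filter Real Set

namespace Boot

theorem ex_n0 {δ : ℝ} (hδ : 0 < δ) : ∃ n0 : ℕ, 1 ≤ n0 ∧ 1 ≤ δ * n0 ∧
    ∀ x : ℝ, n0 ≤ x → 10 ^ 6 * (1 + log (x + 3)) ≤ δ * x / 10 := by
  set ε : ℝ := δ / (2 * 10 ^ 7) with hε
  have hε0 : 0 < ε := by positivity
  obtain ⟨n0, hn⟩ := exists_nat_ge (max (max 1 (1 / δ)) (2 * 10 ^ 7 * (3 * ε - log ε) / δ))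
  have h1 : (1 : ℝ) ≤ n0 := ((le_max_left _ _).trans (le_max_left _ _)).trans hn
  have h2 : 1 / δ ≤ n0 := ((le_max_right _ _).trans (le_max_left _ _)).trans hn
  have h3 : 2 * 10 ^ 7 * (3 * ε - log ε) / δ ≤ n0 := (le_max_right _ _).trans hn
  refine ⟨n0, by exact_mod_cast h1, ?_, fun x hx => ?_⟩
  · rw [div_le_iff₀ hδ] at h2
    linarith
  · have h4 := h3.trans hx
    rw [div_le_iff₀ hδ] at h4
    have h5 : 0 < x + 3 := by linarith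
    have h6 := Real.log_le_sub_one_of_pos (mul_pos hε0 h5)
    rw [Real.log_mul hε0.ne' h5.ne'] at h6
    have h7 : ε * x * (2 * 10 ^ 7) = δ * x := by
      rw [hε]
      field_simp
    linarith

theorem ex_root {n : ℕ} (hn : n ≠ 0) {a : ℝ} (ha : 0 ≤ a) : ∃ ω : ℝ, a = ω ^ n ∧
    ∀ b : ℝ, b ^ n ≤ a → b ≤ ω := by
  refine ⟨a ^ ((n : ℝ)⁻¹), (Real.rpow_inv_natCast_pow ha hn).symm, fun b hb => ?_⟩
  refine le_of_pow_le_pow_left₀ hn (Real.rpow_nonneg ha _) ?_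
  rwa [Real.rpow_inv_natCast_pow ha hn]

theorem step {δ θ L n I2 I4 I8 m u d W A B : ℝ} (hδ : 0 < δ) (hδ' : 10 ^ 24 * δ ≤ 1)
    (hL : 1 ≤ L) (hn : 1 ≤ δ * n) (h2 : I2 ≤ δ * (2 * n) * (10 ^ 4 * L))
    (h4 : I4 ≤ 18 * I2 + 4) (h8 : I8 ≤ 18 * I4 + 4) (hm : 4 * n * L * m ≤ I8) (hm0 : 0 ≤ m)
    (hu : u ≤ 10 ^ 5 * θ) (hθ : 2 * 10 ^ 12 * θ ≤ δ) (hd : d ≤ u + 10 ^ 5 * m ^ 2)
    (hW : W ≤ δ / 10 ^ 7) (hA : A ≤ δ * L / 10) (hB : 10 ^ 6 * B ≤ δ * (4 * n) / 10)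
    (hc : I4 ≤ 4 * n * A + 10 ^ 4 * L * 10 ^ 6 * (B + 4 * n * (u + d + W))) :
    I4 ≤ δ * (4 * n) * (10 ^ 4 * L) := by
  have hn0 : 0 < n := pos_of_mul_pos_left (show 0 < n * δ by linarith) hδ.le
  have hL0 : 0 < L := by linarith
  have hP : 1 ≤ δ * n * L := one_le_mul_of_one_le_of_one_le hn hL
  have a1 : 4 * (n * L) * m ≤ 4 * (n * L) * (2 * 10 ^ 6 * δ) := by linarith
  have a2 : m ≤ 2 * 10 ^ 6 * δ := le_of_mul_le_mul_left a1 (by positivity)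
  have a3 : m ^ 2 ≤ (2 * 10 ^ 6 * δ) ^ 2 := pow_le_pow_left₀ hm0 a2 2
  have a4 : 10 ^ 24 * δ * δ ≤ 1 * δ := mul_le_mul_of_nonneg_right hδ' hδ.le
  have a5 : u + d + W ≤ 6 * δ / 10 ^ 7 := by linarith
  have a6 := mul_le_mul_of_nonneg_left a5 (show 0 ≤ 4 * n by positivity)
  have a7 : B + 4 * n * (u + d + W) ≤ 28 * (δ * n) / 10 ^ 7 := by linarith
  have a8 := mul_le_mul_of_nonneg_left a7 (show 0 ≤ 10 ^ 4 * L * 10 ^ 6 by positivity)
  have a9 := mul_le_mul_of_nonneg_left hA (show 0 ≤ 4 * n by positivity)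
  linarith

theorem log_pw (ω : ℝ) : log (ω ^ 10000) = 10 ^ 4 * log ω := by
  rw [Real.log_pow]
  norm_num

end Boot

open Boot in
theorem s_boot (hu : S_unc) (hw : S_wg) (hi : S_ind) (hm : S_max) (hd : S_dbl) (hc : S_cnt)
    (hv : S_inv) : S_boot := by
  obtain ⟨δ, hδ, hδ'⟩ : ∃ δ : ℝ, 0 < δ ∧ 10 ^ 24 * δ ≤ 1 := ⟨1 / 10 ^ 24, by norm_num, by norm_num⟩
  obtain ⟨n0, n1, n2, n3⟩ := ex_n0 hδ
  have n1' : (1 : ℝ) ≤ n0 := by exact_mod_cast n1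
  obtain ⟨θ, t0, t2, t3⟩ : ∃ θ : ℝ, 0 < θ ∧ θ ≤ δ / (2 * 10 ^ 12) ∧ θ ≤ δ / (4 * n0) :=
    ⟨min (δ / (2 * 10 ^ 12)) (δ / (4 * n0)), lt_min (by positivity) (by positivity),
      min_le_left _ _, min_le_right _ _⟩
  rw [le_div_iff₀ (by positivity)] at t2 t3
  have t1 : θ ≤ 1 := by linarith
  obtain ⟨ω₀, hω₀⟩ := hw θ (δ / 10 ^ 7) t0 t1 (by positivity)
  obtain ⟨Ω, o1, o2, o3, o4⟩ : ∃ Ω : ℝ, 10 ^ 6 / θ ≤ Ω ∧ ω₀ ≤ Ω ∧
      exp (log (4 / θ) * 10 / δ) ≤ Ω ∧ exp 1 ≤ Ω :=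
    ⟨max (max (10 ^ 6 / θ) ω₀) (max (exp (log (4 / θ) * 10 / δ)) (exp 1)),
      (le_max_left _ _).trans (le_max_left _ _), (le_max_right _ _).trans (le_max_left _ _),
      (le_max_left _ _).trans (le_max_right _ _), (le_max_right _ _).trans (le_max_right _ _)⟩
  refine ⟨max 1 (Ω ^ 10000), fun k hk => ?_⟩
  have k1 : 1 ≤ k := (le_max_left _ _).trans hk
  have k2 : Ω ^ 10000 ≤ k := (le_max_right _ _).trans hk
  have k3 : k ≤ 2 * π * k + 4 := by nlinarith [Real.pi_gt_three]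
  obtain ⟨ω, e1, e2⟩ := ex_root (n := 10000) (by norm_num) (show 0 ≤ 2 * π * k + 4 by linarith)
  have e3 : Ω ≤ ω := e2 Ω (k2.trans k3)
  clear e2 k2 hk
  have hB : Big k θ ω := ⟨t0, t1, by linarith, e1, by
    have := o1.trans e3
    rw [div_le_iff₀ t0] at this
    linarith⟩
  clear e1
  have w0 : 0 < ω := (exp_pos 1).trans_le (o4.trans e3)
  have hL : 1 ≤ log ω := (Real.le_log_iff_exp_le w0).2 (o4.trans e3)
  have hA : log (4 / θ) ≤ δ * log ω / 10 := by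
    have := (Real.le_log_iff_exp_le w0).2 (o3.trans e3)
    rw [div_le_iff₀ hδ] at this
    linarith
  have key : ∀ l : ℕ, ∫ z, df k ω (2 * (2 ^ l * n0)) z ∂mu ≤
      δ * (2 * ((2 ^ l * n0 : ℕ) : ℝ)) * (10 ^ 4 * log ω) := by
    intro l
    induction l with
    | zero =>
      have h := (hu k θ ω hB).2 (2 * n0) (by omega)
      rw [log_pw] at h
      rw [pow_zero, one_mul]
      push_cast at h
      have b1 := mul_le_mul_of_nonneg_left hA (show (0 : ℝ) ≤ 2 * n0 by positivity)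
      have b2 := mul_le_mul_of_nonneg_left t3 (show (0 : ℝ) ≤ n0 * log ω by positivity)
      have b3 : 0 ≤ δ * n0 * log ω := by positivity
      linarith
    | succ l ih =>
      have c0 : n0 ≤ 2 ^ l * n0 := Nat.le_mul_of_pos_left _ (Nat.two_pow_pos l)
      have c1 : 2 ^ (l + 1) * n0 = 2 * (2 ^ l * n0) := by ring
      rw [c1]
      generalize 2 ^ l * n0 = n at ih c0 ⊢
      have c2 : (n0 : ℝ) ≤ n := by exact_mod_cast c0
      have c3 : 2 * (2 * n) = 4 * n := by ring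
      have h4 := hd k θ ω n hB (by omega)
      have h8 := hd k θ ω (2 * n) hB (by omega)
      have h9 := hm k θ ω (4 * n) hB (by omega)
      have h10 := hc k θ ω (4 * n) hB (by omega)
      rw [c3] at h8 ⊢
      rw [show 2 * (4 * n) = 4 * (2 * n) by ring] at h9
      rw [log_pw] at h10
      push_cast at h9 h10 ⊢
      rw [show (2 : ℝ) * (2 * n) = 4 * n by ring]
      exact step hδ hδ' hL (n2.trans (mul_le_mul_of_nonneg_left c2 hδ.le)) ih h4 h8 h9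
        measureReal_nonneg (hu k θ ω hB).1 (by linarith) (hi k θ ω (4 * n) hB)
        (hω₀ k ω hB (o2.trans e3) (4 * n + 2)) hA (n3 _ (by linarith)) h10
  refine ⟨θ, ω, hB, fun N => ?_⟩
  have c0 : N ≤ 2 ^ N * n0 := (Nat.lt_two_pow_self).le.trans (Nat.le_mul_of_pos_right _ n1)
  have c1 : 1 ≤ 2 ^ N * n0 := Nat.mul_pos (Nat.two_pow_pos N) n1
  have h1 := (hm k θ ω _ hB c1).trans (key N)
  generalize 2 ^ N * n0 = n at h1 c0 c1
  have c2 : (0 : ℝ) < n := by exact_mod_cast c1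
  have := hv.1
  have h2 : mu.real (IrrN k ω N) ≤ mu.real (IrrN k ω n) :=
    measureReal_mono fun z hz h => hz (h.mono c0)
  have h3 : n * log ω * mu.real (IrrN k ω n) ≤ n * log ω * (2 * 10 ^ 4 * δ) := by linarith
  have h4 := le_of_mul_le_mul_left h3 (by positivity)
  linarith

end Vale.Agent.P108
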