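import Vale.Agent.P108.Basic

/-! P108: closeness of stable curves and the strip around a curve. -/

namespace Vale.Agent.P108

open MeasureTheory Filter Real Set

namespace Close

theorem pert (hp : S_pert) {k θ ω : ℝ} {N : ℕ} {z : ℝ × ℝ} {s : ℝ → ℝ} (B : Big k θ ω)
    (C : Cv k ω N z s) (hN : 1 ≤ N) {x b : ℝ} (hx : x ∈ Icc (0 : ℝ) 1)
    (hb : |b - s x| * ω ^ (15000 * N) ≤ 10) {ξ : ℕ → ℝ}
    (hξ : ∀ l, |ξ l - X k x (s x) l| ≤ |X k x b l - X k x (s x) l|) (l : ℕ)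
    (hl : l = N ∨ l = N + 1) :
    |D (fun l => vv k (ξ l)) l - D (wd k z) l| ≤ |D (wd k z) l| / 10 + ω ^ (6000 * N) := by
  obtain ⟨φ, h1, h2, h3⟩ := C.ph
  refine hp ω |b - s x| N (wd k z) (fun l => vv k (ξ l)) φ B.om (B.bd z) (fun l => B.bd_vv _) hN
    h1 h2 h3 (abs_nonneg _) hb (fun l l1 l2 => ?_) l hl
  refine (B.vv_lip (ξ l) (X k z.1 z.2 l)).trans
    (mul_le_mul_of_nonneg_left ?_ (mul_nonneg (by norm_num) (pw_pos B.om _).le))
  have h4 := B.X_lip x (s x) x b l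
  have h5 := C.sh x hx l l1 l2
  have h6 := pw_pos B.om (9800 * l)
  have h7 : |X k x (s x) l - X k z.1 z.2 l| ≤ 100 / ω ^ (9800 * l) := by
    rw [le_div_iff₀ h6]
    linarith
  have h8 := abs_sub_le (ξ l) (X k x (s x) l) (X k z.1 z.2 l)
  have h9 := hξ l
  have h10 := abs_nonneg (X k x b (l + 1) - X k x (s x) (l + 1))
  rw [sub_self, abs_zero, add_zero, mul_comm] at h4
  linarith

theorem lin (hp : S_pert) {k θ ω : ℝ} {N u : ℕ} {z : ℝ × ℝ} {s : ℝ → ℝ} (B : Big k θ ω)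
    (C : Cv k ω N z s) (hN : 1 ≤ N) (hu : u = N ∨ u = N + 1)
    (hD : ω ^ (9996 * N) ≤ 2 * |D (wd k z) u|) {x b : ℝ} (hx : x ∈ Icc (0 : ℝ) 1)
    (hb : |b - s x| * ω ^ (15000 * N) ≤ 10) :
    4 / 5 * |D (wd k z) u| * |b - s x| ≤ |X k x b u - X k x (s x) u| ∧
      |X k x b u - X k x (s x) u| ≤ 6 / 5 * |D (wd k z) u| * |b - s x| := by
  obtain ⟨ξ, h1, h2⟩ := X_sub_sol k x (s x) x b
  have h3 := pert hp B C hN hx hb h1 u hu
  have h4 := sol_eq (h2 N) u (by omega)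
  simp only [X_zero, X_one, sub_self, zero_mul, zero_add] at h4
  have h5 := pw_lt B.om (a := 6000 * N) (b := 9996 * N) (by omega)
  have h6 := abs_sub_abs_le_abs_sub (D (fun l => vv k (ξ l)) u) (D (wd k z) u)
  have h7 := abs_sub_abs_le_abs_sub (D (wd k z) u) (D (fun l => vv k (ξ l)) u)
  rw [abs_sub_comm] at h7
  have h8 := abs_nonneg (D (wd k z) u)
  rw [h4, abs_mul, mul_comm |b - s x|]
  constructor <;> refine mul_le_mul_of_nonneg_right ?_ (abs_nonneg _) <;> linarith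

theorem near {k θ ω : ℝ} {N N' u : ℕ} {z : ℝ × ℝ} {s : ℝ → ℝ} (B : Big k θ ω)
    (C : Cv k ω N' z s) (hN : 1 ≤ N) (hN' : N ≤ N') (hu : u = N ∨ u = N + 1) {x : ℝ}
    (hx : x ∈ Icc (0 : ℝ) 1) :
    |X k x (s x) u - X k z.1 z.2 u| * ω ^ (9800 * N) ≤ 10 * ω ^ 9800 := by
  by_cases h : u ≤ N'
  · have h1 := C.sh x hx u (by omega) h
    have h2 := mul_le_mul_of_nonneg_left (pw_le B.om (a := 9800 * N) (b := 9800 * u) (by omega))
      (abs_nonneg (X k x (s x) u - X k z.1 z.2 u))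
    have h3 := one_le_pw B.om 9800
    linarith
  · obtain rfl : N = N' := by omega
    obtain rfl : u = N + 1 := by omega
    exact C.sh' x hx

theorem step (hp : S_pert) {k θ ω : ℝ} {N N' : ℕ} {z z' : ℝ × ℝ} {s s' : ℝ → ℝ} (B : Big k θ ω)
    (C : Cv k ω N z s) (C' : Cv k ω N' z' s') (hN : 10 ≤ N) (hN' : N ≤ N') {a x : ℝ}
    (ha : a ∈ Icc (0 : ℝ) 1) (hx : x ∈ Icc (0 : ℝ) 1) (h0 : |s' a - s a| * ω ^ (15000 * N) ≤ 2)
    (h1 : |s' x - s x| * ω ^ (15000 * N) ≤ 10) : |s' x - s x| * ω ^ (15000 * N) ≤ 4 := by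
  obtain ⟨u, hu, hD, ht⟩ := C.top
  have h2 := (lin hp B C (by omega) hu hD hx h1).1
  have h3 := (lin hp B C (by omega) hu hD ha (by linarith)).2
  have h4 := near B C' (by omega) hN' hu hx
  have h5 := near B C' (by omega) hN' hu ha
  rw [ht x hx] at h2
  rw [ht a ha] at h3
  rw [abs_sub_comm] at h5
  have h6 := abs_sub_le (X k x (s' x) u) (X k z'.1 z'.2 u) (X k z.1 z.2 u)
  have h7 := abs_sub_le (X k z'.1 z'.2 u) (X k a (s' a) u) (X k z.1 z.2 u)
  have h8 := pw_lt B.om (a := 9800 + 5200 * N) (b := 9996 * N) (by omega)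
  have e : ω ^ (15000 * N) = ω ^ (9800 * N) * ω ^ (5200 * N) := by
    rw [← pow_add]
    congr 1
    omega
  rw [pow_add] at h8
  have p1 := pw_pos B.om (15000 * N)
  have p2 := pw_pos B.om (5200 * N)
  have p3 := pw_pos B.om (9996 * N)
  have h9 := mul_le_mul_of_nonneg_right h4 p2.le
  have h10 := mul_le_mul_of_nonneg_right h5 p2.le
  rw [mul_assoc, ← e] at h9 h10
  have h11 := mul_le_mul_of_nonneg_right (h2.trans (h6.trans (add_le_add_right (h7.trans
    (add_le_add_right h3 _)) _))) p1.le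
  have h12 := mul_le_mul_of_nonneg_left h0 (abs_nonneg (D (wd k z) u))
  have h13 : |D (wd k z) u| * (|s' x - s x| * ω ^ (15000 * N)) ≤ |D (wd k z) u| * 4 := by
    generalize ω ^ (15000 * N) = P at *
    generalize ω ^ (9996 * N) = Q at *
    generalize ω ^ (5200 * N) = R at *
    generalize ω ^ 9800 = T at *
    linarith
  exact le_of_mul_le_mul_left h13 (by linarith)

theorem cont {k ω : ℝ} {N : ℕ} {z : ℝ × ℝ} {s : ℝ → ℝ} (C : Cv k ω N z s) :
    ContinuousOn s (Icc 0 1) := by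
  refine (LipschitzOnWith.of_dist_le_mul (K := 1) fun a ha a' ha' => ?_).continuousOn
  have h := C.lip a ha a' ha'
  have h1 := abs_nonneg (a - a')
  simp only [Real.dist_eq, NNReal.coe_one]
  linarith

end Close

open Close in
theorem s_close (hp : S_pert) : S_close := by
  intro k θ ω N N' z z' s s' B C C' hN hN' a₀ h0 a ha h
  by_contra hc
  have h1 : ContinuousOn (fun x => |s' x - s x| * ω ^ (15000 * N)) (uIcc a₀ a) :=
    ((((cont C').sub (cont C)).abs).mul continuousOn_const).mono (uIcc_subset_Icc h0 ha)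
  rw [abs_sub_comm] at h hc
  obtain ⟨x, hx, e⟩ := intermediate_value_uIcc h1 (show (10 : ℝ) ∈ _ from
    mem_uIcc_of_le (by linarith) (not_le.1 hc).le)
  have h2 := step hp B C C' hN hN' h0 (uIcc_subset_Icc h0 ha hx) h (le_of_eq e)
  have h3 : |s' x - s x| * ω ^ (15000 * N) = 10 := e
  linarith

open Close in
theorem s_strip (hp : S_pert) (hl : S_l1) : S_strip := by
  intro k θ ω N M z s B C hN hM hD a ha b hb hR
  have h1 := hl ω 9999 M _ B.om (B.bd (a, b)) (by norm_num) (by norm_num) hR N hM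
  have h2 := pert hp B C (by omega) ha (b := b) (by linarith) (ξ := X k a b) fun _ => le_rfl
  have h3 := h2 N (Or.inl rfl)
  have h4 := h2 (N + 1) (Or.inr rfl)
  have h5 := abs_sub_abs_le_abs_sub (D (wd k (a, b)) N) (D (wd k z) N)
  have h6 := abs_sub_abs_le_abs_sub (D (wd k (a, b)) (N + 1)) (D (wd k z) (N + 1))
  have h7 := pw_lt B.om (a := 9998 * N) (b := 9999 * N) (by omega)
  have h8 := pw_le B.om (a := 6000 * N) (b := 9998 * N) (by omega)
  have h9 := pw_pos B.om (9998 * N)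
  rw [← pow_mul] at hD
  change |D (wd k (a, b)) N - _| ≤ _ at h3
  change |D (wd k (a, b)) (N + 1) - _| ≤ _ at h4
  unfold pn at h1 hD
  linarith

end Vale.Agent.P108
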