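import Vale.Agent.P108.Basic

/-! P108: covering of the irregular set by strips around stable curves. -/

namespace Vale.Agent.P108

open MeasureTheory Filter Real Set Topology
open scoped Classical

namespace Cover

/-- growth on a clean stretch -/
theorem grow {P Q g : ℝ} {v : ℕ → ℝ} (hQ : 1 ≤ Q) (hP : Q ≤ P) (hg : 10 ^ 5 * P ≤ g) {m : ℕ}
    (hv : ∀ l ≤ m, g ≤ |v l|) (n : ℕ) (hn : n ≤ m) :
    |D v n| ≤ |D v (n + 1)| ∧ Q ^ n ≤ |D v (n + 1)| := by
  induction n with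
  | zero => simp
  | succ n ih =>
    obtain ⟨h1, h2⟩ := ih (by omega)
    have h3 := hv (n + 1) hn
    have h4 : |v (n + 1) * D v (n + 1)| - |D v n| ≤ |D v (n + 1 + 1)| := by
      rw [show n + 1 + 1 = n + 2 from rfl, D_add_two]
      exact abs_sub_abs_le_abs_sub _ _
    rw [abs_mul] at h4
    have h5 := abs_nonneg (D v (n + 1))
    have h6 : 10 ^ 5 * Q * |D v (n + 1)| ≤ |v (n + 1)| * |D v (n + 1)| :=
      mul_le_mul_of_nonneg_right (by linarith) h5
    have h7 : |D v (n + 1)| ≤ Q * |D v (n + 1)| := le_mul_of_one_le_left h5 hQ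
    have h8 : Q ^ n * Q ≤ |D v (n + 1)| * Q := mul_le_mul_of_nonneg_right h2 (by linarith)
    rw [pow_succ]
    constructor <;> nlinarith

theorem arith {A C L p q : ℝ} (h0 : 0 < L) (h1 : A * L ≤ C) (h2 : C ≤ p) (h3 : p ≤ (L - 1) * q)
    (h4 : 0 ≤ q) : A ≤ q :=
  le_of_mul_le_mul_right (by nlinarith) h0

/-- the curve attached to a point -/
theorem data (hc : S_curve) {k θ ω : ℝ} (B : Big k θ ω) (M : ℕ) (z : ℝ × ℝ)
    (hz : z.1 ∈ Icc (0 : ℝ) 1) (h1 : z ∈ IrrD k ω M) (h2 : z ∉ Unc k θ) :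
    ∃ (N : ℕ) (s : ℝ → ℝ), 10 ≤ N ∧ N ≤ M ∧ pn (D (wd k z)) N < (ω ^ 9998) ^ N ∧ Cv k ω N z s := by
  have hω := B.om
  have hex : ∃ n, n ≤ M ∧ pn (D (wd k z)) n < (ω ^ 9998) ^ n := by
    by_contra h
    refine h1 fun n hn => ?_
    by_contra h'
    exact h ⟨n, hn, not_le.1 h'⟩
  obtain ⟨hM, hN⟩ := Nat.find_spec hex
  have hmin : ∀ n < Nat.find hex, (ω ^ 9998) ^ n ≤ pn (D (wd k z)) n := fun n hn => by
    by_contra h
    exact Nat.find_min hex hn ⟨by omega, not_le.1 h⟩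
  generalize Nat.find hex = N at hM hN hmin
  have hcl : ∀ l ≤ 10001, θ * ω ^ 10000 / 2 ≤ |wd k z l| := fun l hl => by
    refine B.cl_ge ?_
    by_contra h
    exact h2 ⟨l, hl, Or.inl h⟩
  have hbig : 10001 < N := by
    by_contra h
    have h3 := (grow (one_le_pw hω 9998) (pw_le hω (a := 9998) (b := 9999) (by omega)) B.g_le hcl N
      (by omega)).2
    have h4 := abs_succ_le_pn (D (wd k z)) N
    linarith
  have hreg : RegD (ω ^ 9996) N (wd k z) := fun n hn => by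
    rcases hn.lt_or_eq with h | h
    · refine le_trans ?_ (hmin n h)
      rw [← pow_mul, ← pow_mul]
      exact pw_le hω (by omega)
    · obtain ⟨m, rfl⟩ : ∃ m, N = m + 1 := ⟨N - 1, by omega⟩
      rw [h]
      have h3 := hmin m (by omega)
      have h4 := pn_le_succ (B.bd z) (solN_D (wd k z) (m + 1)) (n := m) (by omega)
      have h5 := pn_nonneg (D (wd k z)) (m + 1)
      have h6 : (ω ^ 9996) ^ (m + 1) * ω ^ 10000 ≤ (ω ^ 9998) ^ m := by
        rw [← pow_mul, ← pow_mul, ← pow_add]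
        exact pw_le hω (by omega)
      exact arith (pw_pos hω 10000) h6 h3 h4 h5
  obtain ⟨s, hs⟩ := hc k θ ω N z B hz (by omega) hreg
  exact ⟨N, s, by omega, hM, hN, hs⟩

/-- a vertical slice of at most average measure -/
theorem slice {A : Set (ℝ × ℝ)} (hA : MeasurableSet A) :
    ∃ a ∈ Ico (0 : ℝ) 1, volume (Prod.mk a ⁻¹' A ∩ Ico (0 : ℝ) 1) ≤ mu A := by
  have : IsProbabilityMeasure ((volume : Measure ℝ).restrict (Ico 0 1)) := ⟨by simp⟩
  have e : mu A = ∫⁻ a, (volume : Measure ℝ).restrict (Ico 0 1) (Prod.mk a ⁻¹' A)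
      ∂((volume : Measure ℝ).restrict (Ico 0 1)) := by
    rw [← Measure.prod_apply hA, Measure.prod_restrict]; rfl
  obtain ⟨a, ha, h⟩ := exists_notMem_null_le_lintegral
    (μ := (volume : Measure ℝ).restrict (Ico 0 1)) (N := (Ico (0 : ℝ) 1)ᶜ)
    (measurable_measure_prodMk_left (ν := (volume : Measure ℝ).restrict (Ico 0 1)) hA).aemeasurable
    (by rw [Measure.restrict_apply measurableSet_Ico.compl]; simp)
  refine ⟨a, by simpa using ha, ?_⟩
  rw [e, ← Measure.restrict_apply (measurable_prodMk_left hA)]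
  exact h

/-- three periods -/
theorem per3 {T : Set ℝ} (hT : ∀ (b : ℝ) (q : ℤ), b ∈ T → b + q ∈ T) :
    volume (T ∩ Ico (-1) 2) ≤ 3 * volume (T ∩ Ico 0 1) := by
  have hs : T ∩ Ico (-1) 2 ⊆ ((fun b => b + 1) ⁻¹' (T ∩ Ico 0 1) ∪ T ∩ Ico 0 1) ∪
      (fun b => b + -1) ⁻¹' (T ∩ Ico 0 1) := by
    rintro b ⟨hb, h1, h2⟩
    by_cases h3 : b < 0
    · exact Or.inl (Or.inl ⟨by simpa using hT b 1 hb, by linarith, by linarith⟩)
    · by_cases h4 : b < 1
      · exact Or.inl (Or.inr ⟨hb, by linarith, h4⟩)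
      · exact Or.inr ⟨by simpa using hT b (-1) hb, by linarith, by linarith⟩
  refine (measure_mono hs).trans ((measure_union_le _ _).trans ?_)
  refine (add_le_add_left (measure_union_le _ _) _).trans ?_
  rw [measure_preimage_add_right, measure_preimage_add_right]
  exact le_of_eq (by ring)

end Cover

open Cover in
theorem s_cover (hc : S_curve) (hcl : S_close) (hs : S_strip) (hm : S_meas) : S_cover := by
  intro k θ ω M B
  have hω := B.om
  obtain ⟨-, ⟨hA, hP⟩, -⟩ := hm k θ ω M 0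
  obtain ⟨a₀, ha₀, hsl⟩ := slice hA
  have ha₀' : a₀ ∈ Icc (0 : ℝ) 1 := Ico_subset_Icc_self ha₀
  set t : Set (ℝ × ℝ) :=
    {z | z ∈ Ico (0 : ℝ) 1 ×ˢ Ico (0 : ℝ) 1 ∧ z ∈ IrrD k ω M ∧ z ∉ Unc k θ} with ht
  have hd : ∀ z : ℝ × ℝ, ∃ (N : ℕ) (s : ℝ → ℝ), z ∈ t →
      10 ≤ N ∧ N ≤ M ∧ pn (D (wd k z)) N < (ω ^ 9998) ^ N ∧ Cv k ω N z s := fun z => by
    by_cases hz : z ∈ t
    · obtain ⟨N, s, h⟩ := data hc B M z (Ico_subset_Icc_self hz.1.1) hz.2.1 hz.2.2
      exact ⟨N, s, fun _ => h⟩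
    · exact ⟨0, fun _ => 0, fun h => absurd h hz⟩
  choose N s hN using hd
  obtain ⟨W, hW⟩ : ∃ W : ℝ × ℝ → ℝ, ∀ z, W z = ω ^ (15000 * N z) := ⟨_, fun _ => rfl⟩
  have hW0 : ∀ z, 0 < W z := fun z => by rw [hW]; exact pw_pos hω _
  have hW1 : ∀ z ∈ t, 10 ^ 6 ≤ W z := fun z hz => by
    have := pw_lt hω (a := 0) (b := 15000 * N z) (by have := (hN z hz).1; omega)
    rw [hW]; simpa using this
  have hw0 : ∀ z, 0 < 1 / W z := fun z => one_div_pos.2 (hW0 z)
  have hw1 : ∀ z ∈ t, 1 / W z ≤ 1 / 2 := fun z hz =>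
    one_div_le_one_div_of_le (by norm_num) (by linarith [hW1 z hz])
  obtain ⟨u, hut, hdis, hcov⟩ := Vitali.exists_disjoint_subfamily_covering_enlargement
    (fun z : ℝ × ℝ => Metric.closedBall (s z a₀) (1 / W z)) t (fun z => 1 / W z) 2 (by norm_num)
    (fun z _ => (hw0 z).le) (1 / 2) hw1 (fun z _ => Metric.nonempty_closedBall.2 (hw0 z).le)
  have hcount : u.Countable := hdis.countable_of_nonempty_interior fun z _ =>
    (Metric.nonempty_ball.2 (hw0 z)).mono Metric.ball_subset_interior_closedBall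
  refine ⟨u, s, fun z => 1 / W z, hcount, fun y hy => ⟨(hw0 y).le, (hN y (hut hy)).2.2.2.lip⟩,
    fun z hz h1 h2 => ?_, ?_⟩
  · have hzt : z ∈ t := ⟨hz, h1, h2⟩
    obtain ⟨y, hy, ⟨b, hb1, hb2⟩, hle⟩ := hcov z hzt
    refine ⟨y, hy, ?_⟩
    have hyt := hut hy
    have hyz : N y ≤ N z := by
      by_contra h
      have h3 := pw_lt hω (a := 15000 * N z) (b := 15000 * N y) (by omega)
      rw [← hW, ← hW] at h3
      have h4 := hW0 z
      have h5 := hW0 y
      rw [mul_one_div, div_le_div_iff₀ h4 h5] at hle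
      linarith
    have h3 : W y ≤ W z := by rw [hW, hW]; exact pw_le hω (by omega)
    have h4 : 1 / W z ≤ 1 / W y := one_div_le_one_div_of_le (hW0 y) h3
    rw [Metric.mem_closedBall, Real.dist_eq] at hb1 hb2
    have h5 : |s y a₀ - s z a₀| ≤ 2 * (1 / W y) := by
      have := abs_sub_le (s y a₀) b (s z a₀)
      rw [abs_sub_comm (s y a₀) b] at this
      linarith
    have h6 := hcl k θ ω (N y) (N z) y z (s y) (s z) B (hN y hyt).2.2.2 (hN z hzt).2.2.2
      (hN y hyt).1 hyz a₀ ha₀' z.1 (Ico_subset_Icc_self hz.1)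
      (by rw [← hW]; rwa [mul_one_div, le_div_iff₀ (hW0 y)] at h5)
    rw [← hW, (hN z hzt).2.2.2.base, abs_sub_comm, ← le_div_iff₀ (hW0 y), ← mul_one_div] at h6
    have := hw0 y
    show |z.2 - s y z.1| ≤ 20 * (1 / W y)
    linarith
  · have hsub : (⋃ y ∈ u, Metric.closedBall (s y a₀) (1 / W y)) ⊆
        Prod.mk a₀ ⁻¹' IrrN k ω M ∩ Ico (-1) 2 := by
      intro b hb
      obtain ⟨y, hy, hb⟩ := mem_iUnion₂.1 hb
      have hyt := hut hy
      obtain ⟨n1, n2, n3, cv⟩ := hN y hyt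
      rw [Metric.mem_closedBall, Real.dist_eq] at hb
      refine ⟨hs k θ ω (N y) M y (s y) B cv n1 n2 n3 a₀ ha₀' b
        (by rw [← hW]; rwa [le_div_iff₀ (hW0 y)] at hb), ?_⟩
      have h1 := cv.lip a₀ ha₀' y.1 (Ico_subset_Icc_self hyt.1.1)
      rw [cv.base] at h1
      have h2 : |a₀ - y.1| ≤ 1 := by
        rw [abs_le]; constructor <;> linarith [ha₀.1, ha₀.2, hyt.1.1.1, hyt.1.1.2]
      have h3 := hw1 y hyt
      have h4 := abs_le.1 (h1.trans (by linarith : |a₀ - y.1| / 10 ≤ 1 / 10))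
      have h5 := abs_le.1 (hb.trans h3)
      constructor <;> linarith [hyt.1.2.1, hyt.1.2.2, h4.1, h4.2, h5.1, h5.2]
    have hper : ∀ (b : ℝ) (q : ℤ), b ∈ Prod.mk a₀ ⁻¹' IrrN k ω M →
        b + q ∈ Prod.mk a₀ ⁻¹' IrrN k ω M := fun b q hb => by
      have := hP (a₀, b) 0 q
      simp only [Int.cast_zero, add_zero] at this
      exact this.mpr hb
    calc ∑' y : u, ENNReal.ofReal (1 / W y)
        ≤ ∑' y : u, volume (Metric.closedBall (s y a₀) (1 / W y)) := by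
          refine ENNReal.tsum_le_tsum fun y => ?_
          rw [Real.volume_closedBall]
          exact ENNReal.ofReal_le_ofReal (by linarith [hw0 y])
      _ = volume (⋃ y ∈ u, Metric.closedBall (s y a₀) (1 / W y)) :=
          (measure_biUnion hcount hdis fun _ _ => measurableSet_closedBall).symm
      _ ≤ 3 * volume (Prod.mk a₀ ⁻¹' IrrN k ω M ∩ Ico 0 1) := (measure_mono hsub).trans (per3 hper)
      _ ≤ 3 * mu (IrrN k ω M) := by gcongr

end Vale.Agent.P108
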