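import Vale.Agent.P108.Basic

/-! P108: the deterministic counting inequality. -/

namespace Vale.Agent.P108

open Real Finset
open scoped Classical

namespace Cseq

theorem up {g : ℝ} {w y : ℕ → ℝ} (hy : ∀ N, SolN w y N) {t : ℕ} (hc : g ≤ |w (t + 1)|)
    (ha : |y t| ≤ |y (t + 1)|) : (g - 1) * |y (t + 1)| ≤ |y (t + 2)| := by
  have e : w (t + 1) * y (t + 1) = y (t + 2) + y t := by rw [hy (t + 1) t (by omega)]; ring
  have h1 := abs_add_le (y (t + 2)) (y t)
  rw [← e, abs_mul] at h1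
  nlinarith [mul_le_mul_of_nonneg_right hc (abs_nonneg (y (t + 1)))]

theorem dn1 {g : ℝ} {w y : ℕ → ℝ} (hy : ∀ N, SolN w y N) {t : ℕ} (hc : g ≤ |w (t + 1)|)
    (ha : |y (t + 2)| ≤ |y (t + 1)|) : (g - 1) * |y (t + 1)| ≤ |y t| := by
  have e : w (t + 1) * y (t + 1) = y (t + 2) + y t := by rw [hy (t + 1) t (by omega)]; ring
  have h1 := abs_add_le (y (t + 2)) (y t)
  rw [← e, abs_mul] at h1
  nlinarith [mul_le_mul_of_nonneg_right hc (abs_nonneg (y (t + 1)))]

theorem dn {g : ℝ} (hg : 2 ≤ g) {w y : ℕ → ℝ} (hy : ∀ N, SolN w y N) (a : ℕ) :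
    ∀ s, (∀ i, 1 ≤ i → i ≤ a + 1 → g ≤ |w (s + i)|) → |y (s + a + 2)| ≤ |y (s + a + 1)| →
      (g - 1) * |y (s + 1)| ≤ |y s| := by
  induction a with
  | zero => exact fun s hc ha => dn1 hy (hc 1 le_rfl le_rfl) ha
  | succ a ih =>
    intro s hc ha
    have h1 := ih (s + 1) (fun i h1 h2 => by
      rw [add_assoc]; exact hc _ (by omega) (by omega)) (by
      rw [show s + 1 + a = s + (a + 1) by omega]; exact ha)
    refine dn1 hy (hc 1 le_rfl (by omega)) ?_
    have := abs_nonneg (y (s + 1 + 1))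
    show |y (s + 1 + 1)| ≤ _
    nlinarith

theorem card_le_two {S : Finset ℕ}
    (h : ∀ a ∈ S, ∀ b ∈ S, ∀ c ∈ S, a < b → b < c → False) : S.card ≤ 2 := by
  by_contra hc
  obtain ⟨a, b, c, ha, hb, hc, h1, h2, h3⟩ := Finset.two_lt_card_iff.1 (not_le.1 hc)
  rcases lt_or_gt_of_ne h1 with h1 | h1 <;> rcases lt_or_gt_of_ne h2 with h2 | h2 <;>
    rcases lt_or_gt_of_ne h3 with h3 | h3
  all_goals first
    | exact h a ha b hb c hc (by omega) (by omega)
    | exact h a ha c hc b hb (by omega) (by omega)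
    | exact h b hb a ha c hc (by omega) (by omega)
    | exact h b hb c hc a ha (by omega) (by omega)
    | exact h c hc a ha b hb (by omega) (by omega)
    | exact h c hc b hb a ha (by omega) (by omega)

section
variable {ω g : ℝ} {cl : ℝ → Prop} {M : ℕ} {w : ℕ → ℝ} {bw : ℕ → ℕ → ℝ} {U Q : ℕ → Prop}
  {y : ℕ → ℝ} (C : Cnt ω g cl M w bw U Q) (hy : ∀ N, SolN w y N)
include C

theorem g1 : ω ^ 9999 ≤ g - 1 ∧ 2 ≤ g := by
  have h1 := C.hg
  have h2 := one_le_pw C.hω 9999
  constructor <;> linarith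

include hy

theorem gdrop {t : ℕ} (hU : ¬ U t) (ha : ¬ |y (t + 13)| ≤ |y (t + 13 + 1)|) :
    ω ^ 9999 * pn y (t + 1) ≤ pn y t := by
  have h1 := dn (g1 C).2 hy 12 t (fun i h1 h2 => C.hcl _ (C.hU t hU _ (by omega) (by omega)))
    (not_le.1 ha).le
  have h2 := dn (g1 C).2 hy 11 (t + 1)
    (fun i h1 h2 => C.hcl _ (C.hU t hU _ (by omega) (by omega))) (by
      rw [show t + 1 + 11 + 2 = t + 13 + 1 by omega, show t + 1 + 11 + 1 = t + 13 by omega]
      exact (not_le.1 ha).le)
  have h3 := mul_le_mul_of_nonneg_right (g1 C).1 (pn_nonneg y (t + 1))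
  unfold pn at *
  linarith

theorem logs (h1 : y 1 = 1) (t : ℕ) : log (pn y 0) + t * log (g / 2) ≤ log (pn y t) +
    2 * log (ω ^ 10000) * ((range t).filter fun s => U s ∨ ¬ |y s| ≤ |y (s + 1)|).card := by
  have p0 : 0 < pn y 0 := by
    have := abs_succ_le_pn y 0
    rw [zero_add, h1, abs_one] at this; linarith
  have hg := (g1 C).2
  have hL := pw_pos C.hω 10000
  induction t with
  | zero => simp
  | succ t ih =>
    have pt := pn_pos (hy t) p0 t le_rfl
    have pt' := pn_pos (hy (t + 1)) p0 (t + 1) le_rfl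
    rw [range_add_one, filter_insert]
    split_ifs with h
    · rw [card_insert_of_notMem (by simp)]
      have h2 := pn_le_succ C.bd (hy (t + 1)) (n := t) (by omega)
      have h3 : log (pn y t) ≤ log (ω ^ 10000) + log (pn y (t + 1)) := by
        rw [← log_mul hL.ne' pt'.ne']
        exact log_le_log pt (by nlinarith)
      have h4 : log (g / 2) ≤ log (ω ^ 10000) := log_le_log (by linarith) (by linarith [C.hg'])
      push_cast; linarith
    · rw [not_or, not_not] at h
      have h2 := up hy (C.hcl _ (C.hU t h.1 (t + 1) (by omega) (by omega))) h.2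
      have h3 : log (g / 2) + log (pn y t) ≤ log (pn y (t + 1)) := by
        rw [← log_mul (by linarith) pt.ne']
        refine log_le_log (by positivity) ?_
        have := h.2
        unfold pn; nlinarith
      push_cast; linarith

theorem low (h1 : y 1 = 1) (h0 : 0 ≤ y 0) (h0' : y 0 ≤ 1)
    (hl : ∀ t ≤ M, 1 ≤ (M + 3) * pn y t ^ 2) :
    (((range M).filter fun t => (¬ U t ∧ ¬ |y (t + 13)| ≤ |y (t + 13 + 1)|) ∧
      ∀ s < t, pn y t < pn y s).card : ℝ) ≤ 1 + log (M + 3) := by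
  have key (n : ℕ) : ∃ s ≤ n, ω ^ (9999 * ((range n).filter fun t =>
      (¬ U t ∧ ¬ |y (t + 13)| ≤ |y (t + 13 + 1)|) ∧ ∀ s < t, pn y t < pn y s).card) * pn y s
        ≤ pn y 0 := by
    induction n with
    | zero => exact ⟨0, le_rfl, by simp⟩
    | succ n ih =>
      obtain ⟨s, hs, ih⟩ := ih
      rw [range_add_one, filter_insert]
      split_ifs with h
      · refine ⟨n + 1, le_rfl, ?_⟩
        rw [card_insert_of_notMem (by simp), mul_add, pow_add, mul_one, mul_assoc]
        refine le_trans (mul_le_mul_of_nonneg_left ((gdrop C hy h.1.1 h.1.2).trans ?_)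
          (pw_pos C.hω _).le) ih
        rcases hs.eq_or_lt with rfl | hs
        · exact le_rfl
        · exact (h.2 s hs).le
      · exact ⟨s, by omega, ih⟩
  obtain ⟨s, hs, h⟩ := key M
  generalize ((range M).filter fun t =>
      (¬ U t ∧ ¬ |y (t + 13)| ≤ |y (t + 13 + 1)|) ∧ ∀ s < t, pn y t < pn y s).card = K at h ⊢
  have p0 : pn y 0 ≤ 2 := by
    unfold pn; rw [zero_add, h1, abs_one, abs_of_nonneg h0]; linarith
  have h2 : exp K ≤ ω ^ (9999 * K) := by
    rw [← exp_one_pow]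
    refine le_trans (pow_le_pow_left₀ (exp_pos 1).le ?_ K) (pw_le C.hω (a := K) (by omega))
    linarith [exp_one_lt_d9, C.hω]
  have h3 := hl s hs
  have h4 := pn_nonneg y s
  have h5 : exp K * pn y s ≤ 2 := by nlinarith
  have hM : (0 : ℝ) < M + 3 := by positivity
  have h6 : exp K ^ 2 ≤ 4 * (M + 3) := by
    have h7 : (exp K * pn y s) ^ 2 ≤ 2 ^ 2 := pow_le_pow_left₀ (by positivity) h5 2
    nlinarith [sq_nonneg (exp K)]
  have h8 : 2 * K ≤ log 4 + log (M + 3) := by
    rw [← log_mul (by norm_num) hM.ne', le_log_iff_exp_le (by positivity), two_mul, exp_add]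
    nlinarith
  have h9 : log 4 ≤ 2 := by
    rw [show (4 : ℝ) = 2 ^ 2 by norm_num, log_pow]; push_cast; linarith [log_two_lt_d9]
  have : 0 ≤ log (M + 3 : ℝ) := log_nonneg (by linarith [(Nat.cast_nonneg M : (0 : ℝ) ≤ M)])
  linarith

theorem re (h1 : y 1 = 1) (h0 : 0 ≤ y 0) (h0' : y 0 ≤ 1) :
    ((range M).filter fun s => 10000 ≤ s ∧ ¬ U s ∧ ¬ |y (s - 13)| ≤ |y (s - 13 + 1)| ∧
      pn y s ≤ pn y (s + 1)).card ≤ 14 * ((range M).filter U).card := by
  have a0 : |y 0| ≤ |y (0 + 1)| := by rw [zero_add, h1, abs_one, abs_of_nonneg h0]; exact h0'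
  have hg := (g1 C).2
  have hg5 : 4 ≤ g := by linarith [C.hg, one_le_pw C.hω 9999]
  refine card_le_mul_card_image_of_maps_to
    (f := fun s => Nat.findGreatest (fun q => |y q| ≤ |y (q + 1)|) (s - 13)) ?_ 14 ?_
  · intro s hs
    simp only [mem_filter, mem_range] at hs ⊢
    have q1 := Nat.findGreatest_spec (P := fun q => |y q| ≤ |y (q + 1)|) (Nat.zero_le (s - 13)) a0
    have q2 := Nat.findGreatest_le (P := fun q => |y q| ≤ |y (q + 1)|) (s - 13)
    have q3 := @Nat.findGreatest_is_greatest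
    set q := Nat.findGreatest (fun q => |y q| ≤ |y (q + 1)|) (s - 13) with hq
    have q4 : q ≠ s - 13 := fun h => hs.2.2.2.1 (h ▸ q1)
    refine ⟨by omega, ?_⟩
    by_contra hU
    have h2 := up hy (C.hcl _ (C.hU q hU (q + 1) (by omega) (by omega))) q1
    refine Nat.findGreatest_is_greatest (P := fun q => |y q| ≤ |y (q + 1)|) (n := s - 13)
      (k := q + 1) (by omega) (by omega) ?_
    have := abs_nonneg (y (q + 1))
    show |y (q + 1)| ≤ |y (q + 2)|
    nlinarith
  · intro b _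
    set S := ((range M).filter fun s => 10000 ≤ s ∧ ¬ U s ∧ ¬ |y (s - 13)| ≤ |y (s - 13 + 1)| ∧
      pn y s ≤ pn y (s + 1)).filter fun s =>
        Nat.findGreatest (fun q => |y q| ≤ |y (q + 1)|) (s - 13) = b with hS
    rcases S.eq_empty_or_nonempty with h | h
    · simp [h]
    obtain ⟨s₀, m1, m2⟩ := S.exists_min_image id h
    refine le_trans (card_le_card (t := Ico s₀ (s₀ + 14)) fun s hs => ?_) (by simp)
    rw [mem_Ico]
    refine ⟨m2 s hs, ?_⟩
    by_contra hc
    simp only [hS, mem_filter, mem_range] at m1 hs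
    have a1 : |y (s₀ + 1)| ≤ |y (s₀ + 1 + 1)| := by
      by_contra ha
      have h2 := dn1 hy (C.hcl _ (C.hU s₀ m1.1.2.2.1 (s₀ + 1) (by omega) (by omega)))
        (not_le.1 ha).le
      have h3 := m1.1.2.2.2.2
      have := abs_nonneg (y (s₀ + 1 + 1))
      unfold pn at h3
      nlinarith [not_le.1 ha]
    have q1 := Nat.le_findGreatest (P := fun q => |y q| ≤ |y (q + 1)|) (n := s - 13)
      (m := s₀ + 1) (by omega) a1
    have q2 := Nat.findGreatest_le (P := fun q => |y q| ≤ |y (q + 1)|) (s₀ - 13)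
    omega

/-- the matching map is at most two to one -/
theorem two (h1 : y 1 = 1) (S T : Finset ℕ) (m : ℕ → ℕ)
    (hS : ∀ t ∈ S, (¬ U t ∧ ¬ |y (t + 13)| ≤ |y (t + 13 + 1)|) ∧ m t < t ∧ pn y (m t) ≤ pn y t ∧
      (∀ r, m t < r → r < t → pn y t < pn y r) ∧ m t ∈ T) : S.card ≤ 2 * T.card := by
  have p0 : 0 < pn y 0 := by
    have := abs_succ_le_pn y 0
    rw [zero_add, h1, abs_one] at this; linarith
  refine card_le_mul_card_image_of_maps_to (f := m) (fun t ht => (hS t ht).2.2.2.2) 2 fun b _ => ?_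
  have le (t : ℕ) (ht : t ∈ S) (r : ℕ) (h1 : m t < r) (h2 : r ≤ t) : pn y t ≤ pn y r := by
    rcases h2.eq_or_lt with rfl | h2
    · exact le_rfl
    · exact ((hS t ht).2.2.2.1 r h1 h2).le
  refine card_le_two fun a ha b' hb c hc h1 h2 => ?_
  simp only [mem_filter] at ha hb hc
  have d1 := gdrop C hy (hS a ha.1).1.1 (hS a ha.1).1.2
  have d2 := gdrop C hy (hS b' hb.1).1.1 (hS b' hb.1).1.2
  have ma := (hS a ha.1).2.1
  have e1 := le b' hb.1 (a + 1) (by omega) (by omega)
  have e2 := le c hc.1 (b' + 1) (by omega) (by omega)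
  have e3 := le a ha.1 (b + 1) (by omega) (by omega)
  have e4 := (hS c hc.1).2.2.1
  rw [hc.2] at e4
  have e5 := pn_succ_le C.bd (hy (b + 1)) (n := b) (by omega)
  have e6 := pn_pos (hy b) p0 b le_rfl
  have e7 : ω ^ 10000 ≤ ω ^ 9999 * ω ^ 9999 := by
    rw [← pow_add]; exact pw_le C.hω (by omega)
  have e8 := pw_pos C.hω 9999
  generalize ω ^ 10000 = L at *
  generalize ω ^ 9999 = P at *
  have f1 : P * pn y b ≤ pn y b' := by nlinarith
  have f2 : P * pn y b' ≤ pn y a := by nlinarith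
  have f3 : P * (P * pn y b) ≤ (L - 1) * pn y b := by nlinarith
  nlinarith

theorem good (hk : S_key) (hg : S_gc) (h1 : y 1 = 1) (h0 : 0 ≤ y 0) (h0' : y 0 ≤ 1) :
    ((range M).filter fun t => ¬ U t ∧ ¬ |y (t + 13)| ≤ |y (t + 13 + 1)|).card ≤
      ((range M).filter fun t => (¬ U t ∧ ¬ |y (t + 13)| ≤ |y (t + 13 + 1)|) ∧
        ∀ s < t, pn y t < pn y s).card + 20000 + 30 * ((range M).filter U).card +
      60000 * ((range M).filter fun t => U t ∨ Q t).card + ∑ p ∈ Pairs (M + 2) 2,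
        ((range M).filter fun t => PE ω cl p.1 p.2 (fun i => w (t + i)) (bw t)).card := by
  set m : ℕ → ℕ := fun t => Nat.findGreatest (fun s => s < t ∧ pn y s ≤ pn y t) t with hm
  set G := (range M).filter fun t => ¬ U t ∧ ¬ |y (t + 13)| ≤ |y (t + 13 + 1)| with hG
  set Low := (range M).filter fun t => (¬ U t ∧ ¬ |y (t + 13)| ≤ |y (t + 13 + 1)|) ∧
        ∀ s < t, pn y t < pn y s with hLow
  set B1 := (range M).filter fun s => ∃ n, 1 ≤ n ∧ s + n ≤ M ∧
    n ≤ 20000 * ((Ico s (s + n)).filter fun t => U t ∨ Q t).card with hB1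
  set B2 := (range M).filter fun s => ∃ n, 1 ≤ n ∧ n ≤ s + 1 ∧
    n ≤ 20000 * ((Ico (s + 1 - n) (s + 1)).filter fun t => U t ∨ Q t).card with hB2
  set RE := (range M).filter fun s => 10000 ≤ s ∧ ¬ U s ∧ ¬ |y (s - 13)| ≤ |y (s - 13 + 1)| ∧
      pn y s ≤ pn y (s + 1) with hRE
  set T := range 10000 ∪ (range M).filter U ∪ B1 ∪ RE with hT
  set S := G.filter fun t => m t < t ∧ pn y (m t) ≤ pn y t ∧
      (∀ r, m t < r → r < t → pn y t < pn y r) ∧ m t ∈ T with hS
  set P := (Pairs (M + 2) 2).biUnion fun p =>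
    ((range M).filter fun t => PE ω cl p.1 p.2 (fun i => w (t + i)) (bw t)).image
      fun l => l + p.1 - 1 with hP
  have c1 : B1.card ≤ 20000 * ((range M).filter fun t => U t ∨ Q t).card := by
    have := hg.2.1 M 20000 B1 (fun t => U t ∨ Q t) fun s hs => by
      obtain ⟨n, h⟩ := (mem_filter.1 hs).2
      exact ⟨n, by convert h⟩
    convert this
  have c2 : B2.card ≤ 20000 * ((range M).filter fun t => U t ∨ Q t).card := by
    have := hg.2.2 M 20000 B2 (fun t => U t ∨ Q t) fun s hs => by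
      obtain ⟨n, h⟩ := (mem_filter.1 hs).2
      exact ⟨mem_range.1 (mem_filter.1 hs).1, n, by convert h⟩
    convert this
  have c3 : RE.card ≤ 14 * ((range M).filter U).card := re C hy h1 h0 h0'
  have c4 : T.card ≤ 10000 + ((range M).filter U).card + B1.card + RE.card := by
    refine (card_union_le _ _).trans (Nat.add_le_add_right ((card_union_le _ _).trans
      (Nat.add_le_add_right ((card_union_le _ _).trans (by simp)) _)) _)
  have c5 : S.card ≤ 2 * T.card := two C hy h1 S T m fun t ht =>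
    ⟨(mem_filter.1 (mem_filter.1 ht).1).2, (mem_filter.1 ht).2⟩
  have c6 : P.card ≤ ∑ p ∈ Pairs (M + 2) 2,
      ((range M).filter fun t => PE ω cl p.1 p.2 (fun i => w (t + i)) (bw t)).card :=
    card_biUnion_le.trans (sum_le_sum fun p _ => card_image_le)
  have c7 : G ⊆ Low ∪ B2 ∪ S ∪ P := by
    intro t ht
    obtain ⟨htM, hGt⟩ := mem_filter.1 ht
    by_contra hc
    simp only [mem_union, not_or] at hc
    obtain ⟨⟨⟨n1, n2⟩, n3⟩, n4⟩ := hc
    have e1 : ∃ s < t, pn y s ≤ pn y t := by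
      by_contra h
      exact n1 (mem_filter.2 ⟨htM, hGt, fun s hs => not_le.1 fun h' => h ⟨s, hs, h'⟩⟩)
    obtain ⟨s, hs, hs'⟩ := e1
    have e2 : m t < t ∧ pn y (m t) ≤ pn y t :=
      Nat.findGreatest_spec (P := fun s => s < t ∧ pn y s ≤ pn y t) hs.le ⟨hs, hs'⟩
    have e3 (r : ℕ) (h1 : m t < r) (h2 : r < t) : pn y t < pn y r := not_le.1 fun h =>
      Nat.findGreatest_is_greatest (P := fun s => s < t ∧ pn y s ≤ pn y t) h1 h2.le ⟨h2, h⟩
    have e4 : m t ∉ T := fun h => n3 (mem_filter.2 ⟨ht, e2.1, e2.2, e3, h⟩)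
    have htM' := mem_range.1 htM
    have hmM : m t ∈ range M := mem_range.2 (by omega)
    simp only [hT, mem_union, not_or] at e4
    obtain ⟨⟨⟨k1, k2⟩, k3⟩, k4⟩ := e4
    have k1' : 10000 ≤ m t := by simpa using k1
    have k2' : ¬ U (m t) := fun h => k2 (mem_filter.2 ⟨hmM, h⟩)
    have k5 : pn y (m t) ≤ pn y (m t + 1) := by
      rcases (Nat.succ_le_of_lt e2.1).eq_or_lt with h | h
      · rw [show m t + 1 = t from h]; exact e2.2
      · exact e2.2.trans (e3 _ (by omega) h).le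
    have k4' : |y (m t - 13)| ≤ |y (m t - 12)| := by
      by_contra h
      refine k4 (mem_filter.2 ⟨hmM, k1', k2', ?_, k5⟩)
      rwa [show m t - 13 + 1 = m t - 12 by omega]
    obtain ⟨l, j, j', hl, hp, e, hPE⟩ := hk ω g cl M w bw U Q y (m t) t C hy (by rw [h1]; norm_num)
      e2.1 htM' e2.2 e3 k2' hGt.1 k1' k4' (not_le.1 hGt.2)
      (fun n a b => not_le.1 fun h => k3 (mem_filter.2 ⟨hmM, n, a, b, by convert h⟩))
      (fun n a b => not_le.1 fun h => n2 (mem_filter.2 ⟨htM, n, a, b, by convert h⟩))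
    exact n4 (mem_biUnion.2 ⟨(j, j'), hp, mem_image.2
      ⟨l, mem_filter.2 ⟨mem_range.2 hl, hPE⟩, by simp only; omega⟩⟩)
  have c8 : G.card ≤ Low.card + B2.card + S.card + P.card :=
    (card_le_card c7).trans ((card_union_le _ _).trans (Nat.add_le_add_right
      ((card_union_le _ _).trans (Nat.add_le_add_right (card_union_le _ _) _)) _))
  omega

omit C hy in
theorem dsc : ((range M).filter fun s => U s ∨ ¬ |y s| ≤ |y (s + 1)|).card ≤
    13 + 2 * ((range M).filter U).card +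
      ((range M).filter fun t => ¬ U t ∧ ¬ |y (t + 13)| ≤ |y (t + 13 + 1)|).card := by
  have c : ((range M).filter fun s => U s ∨ ¬ |y s| ≤ |y (s + 1)|) ⊆
      range 13 ∪ (range M).filter U ∪ ((range M).filter U).image (· + 13) ∪
      ((range M).filter fun t => ¬ U t ∧ ¬ |y (t + 13)| ≤ |y (t + 13 + 1)|).image (· + 13) := by
    intro s hs
    simp only [mem_filter, mem_range, mem_union, mem_image] at hs ⊢
    rcases hs.2 with h | h
    · exact Or.inl (Or.inl (Or.inr ⟨hs.1, h⟩))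
    by_cases h13 : s < 13
    · exact Or.inl (Or.inl (Or.inl h13))
    obtain ⟨t, rfl⟩ : ∃ t, s = t + 13 := ⟨s - 13, by omega⟩
    by_cases hU : U t
    · exact Or.inl (Or.inr ⟨t, ⟨by omega, hU⟩, rfl⟩)
    · exact Or.inr ⟨t, ⟨by omega, hU, h⟩, rfl⟩
  refine (card_le_card c).trans ((card_union_le _ _).trans (Nat.add_le_add
    ((card_union_le _ _).trans ?_) card_image_le))
  have h1 := card_union_le (range 13) ((range M).filter U)
  have h2 : (((range M).filter U).image (· + 13)).card ≤ _ := card_image_le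
  rw [card_range] at h1
  omega

end

end Cseq

theorem s_cseq (hk : S_key) (hs : S_sol) (hg : S_gc) : S_cseq := by
  intro ω g cl M w bw U Q C _
  obtain ⟨y, hy, h1, h0, h0', hl⟩ := hs w M
  have a1 := Cseq.logs C hy h1 M
  have a2 := Cseq.low C hy h1 h0 h0' hl
  have a3 := Cseq.good C hy hk hg h1 h0 h0'
  have a4 := Cseq.dsc (M := M) (U := U) (y := y)
  have a5 : ((range M).filter fun t => U t ∨ Q t).card ≤
      ((range M).filter U).card + ((range M).filter Q).card := by
    rw [filter_or]; exact card_union_le _ _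
  have p0 : 0 < pn y 0 := by
    have := abs_succ_le_pn y 0
    rw [zero_add, h1, abs_one] at this; linarith
  have a6 : log (pn y M) ≤ log (NN w M) + log (pn y 0) := by
    rw [← log_mul (NN_pos _ _).ne' p0.ne']
    exact log_le_log (pn_pos (hy M) p0 M le_rfl) (pn_le_NN (hy M) M le_rfl)
  have hg2 := (Cseq.g1 C).2
  have hL := pw_pos C.hω 10000
  have a7 : log (2 * ω ^ 10000 / g) = log (ω ^ 10000) - log (g / 2) := by
    rw [← log_div hL.ne' (by linarith)]; congr 1; field_simp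
  have a8 : 0 ≤ log (ω ^ 10000) := log_nonneg (one_le_pw C.hω _)
  have a9 : 0 ≤ log (M + 3 : ℝ) := log_nonneg (by linarith [(Nat.cast_nonneg M : (0 : ℝ) ≤ M)])
  rw [a7, ← Nat.cast_sum]
  generalize (∑ p ∈ Pairs (M + 2) 2,
    ((range M).filter fun t => PE ω cl p.1 p.2 (fun i => w (t + i)) (bw t)).card) = e at *
  generalize ((range M).filter fun t => (¬ U t ∧ ¬ |y (t + 13)| ≤ |y (t + 13 + 1)|) ∧
    ∀ s < t, pn y t < pn y s).card = K at *
  generalize ((range M).filter fun s => U s ∨ ¬ |y s| ≤ |y (s + 1)|).card = b at *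
  generalize ((range M).filter U).card = u at *
  generalize ((range M).filter Q).card = q at *
  have b1 : b ≤ 20013 + K + 60032 * u + 60000 * q + e := by omega
  have b2 : (b : ℝ) ≤ 20013 + K + 60032 * u + 60000 * q + e := by exact_mod_cast b1
  have b3 : 2 * (b : ℝ) ≤ 10 ^ 6 * (1 + log (M + 3) + u + q + e) := by
    have := (Nat.cast_nonneg u : (0 : ℝ) ≤ u)
    have := (Nat.cast_nonneg q : (0 : ℝ) ≤ q)
    have := (Nat.cast_nonneg e : (0 : ℝ) ≤ e)
    linarith
  have b4 := mul_le_mul_of_nonneg_left b3 a8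
  generalize log (ω ^ 10000) = Γ at *
  linarith

end Vale.Agent.P108
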