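import Vale.Agent.P108.Basic

/-! P108: the local stable curve. -/

namespace Vale.Agent.P108

open MeasureTheory Filter Real Set Topology
open scoped Classical

noncomputable section

namespace Curve

/-- real form of the shadowing estimate with `J = p` and `R = 3` -/
theorem real_sh (hsh : S_sh) {k θ ω : ℝ} (B : Big k θ ω) (y : ℝ × ℝ) (u : ℕ) (hu : 1 ≤ u)
    (hp : Prof ω 9800 1 u (wd k y)) (hd : D (wd k y) u ≠ 0) (t : ℝ) (ht : |t| ≤ 3) (l : ℕ)
    (hl : l ≤ u) :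
    |X k y.1 (y.2 + t / D (wd k y) u) l - X k y.1 y.2 l - D (wd k y) l * (t / D (wd k y) u)| *
      ω ^ (19600 * (u - l + 1)) ≤ 9 * ω ^ 10001 ∧
    |D (wd k (y.1, y.2 + t / D (wd k y) u)) l - D (wd k y) l| * ω ^ (19600 * (u - l + 1)) ≤
      3 * |D (wd k y) u| * ω ^ 10002 := by
  have e : ((y.2 + t / D (wd k y) u : ℝ) : ℂ) - (y.2 : ℂ) = ((t / D (wd k y) u : ℝ) : ℂ) := by
    push_cast; ring
  have h3 : (3 : ℝ) ≤ ω ^ (9400 * (u - u + 1)) := by
    have h1 := pw_lt B.om (a := 0) (b := 9400 * (u - u + 1)) (by omega)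
    rw [pow_zero] at h1
    linarith
  obtain ⟨h1, h2, -⟩ := hsh k θ ω y u u 3 ((y.2 + t / D (wd k y) u : ℝ) : ℂ) B hu hp le_rfl
    (by norm_num) h3 (by
      rw [e, Complex.norm_real, Real.norm_eq_abs, abs_div, div_mul_cancel₀ _ (abs_ne_zero.2 hd)]
      exact ht) l hl
  rw [e, XC_ofReal, ← Complex.ofReal_mul, ← Complex.ofReal_sub, ← Complex.ofReal_sub,
    Complex.norm_real, Real.norm_eq_abs, show (3 : ℝ) ^ 2 = 9 by norm_num] at h1
  rw [DC_ofReal, ← Complex.ofReal_sub, Complex.norm_real, Real.norm_eq_abs] at h2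
  exact ⟨h1, h2⟩

theorem small {ω x c : ℝ} (h : 10 ^ 6 ≤ ω) {a b : ℕ} (hab : a < b) (hx : 0 ≤ x)
    (H : x * ω ^ b ≤ c * ω ^ a) : x ≤ c / 10 ^ 6 := by
  have h1 := pw_lt h hab
  have h2 := pw_pos h a
  generalize ω ^ a = P at *
  generalize ω ^ b = Q at *
  have h3 : x * (10 ^ 6 * P) ≤ c * P := (mul_le_mul_of_nonneg_left h1 hx).trans H
  rw [le_div_iff₀ (by norm_num)]
  have h4 : (x * 10 ^ 6) * P ≤ c * P := by linarith
  exact le_of_mul_le_mul_right h4 h2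

theorem mvt {f f' : ℝ → ℝ} {C : ℝ} (hf : ∀ t, |t| ≤ 3 → HasDerivAt f (f' t) t)
    (hC : ∀ t, |t| ≤ 3 → |f' t| ≤ C) {t t' : ℝ} (ht : |t| ≤ 3) (ht' : |t'| ≤ 3) :
    |f t - f t'| ≤ C * |t - t'| := by
  have := (convex_Icc (-3 : ℝ) 3).norm_image_sub_le_of_norm_hasDerivWithin_le (f := f) (f' := f')
    (C := C) (fun x hx => (hf x (abs_le.2 hx)).hasDerivWithinAt) (fun x hx => hC x (abs_le.2 hx))
    (abs_le.1 ht') (abs_le.1 ht)
  simpa [Real.norm_eq_abs] using this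

/-- the curve, for a reversed base point `y` with the profile condition -/
theorem core (hsh : S_sh) {k θ ω : ℝ} (B : Big k θ ω) (y : ℝ × ℝ) (m : ℕ)
    (hp : Prof ω 9800 1 (m + 1) (wd k y)) (hd : D (wd k y) (m + 1) ≠ 0)
    (h0 : X k y.1 y.2 (m + 1) ∈ Icc (0 : ℝ) 1) :
    ∃ b : ℝ → ℝ, (∀ a ∈ Icc (0 : ℝ) 1, X k y.1 (b a) (m + 1) = a) ∧
      b (X k y.1 y.2 (m + 1)) = y.2 ∧
      (∀ a ∈ Icc (0 : ℝ) 1, ∀ a' ∈ Icc (0 : ℝ) 1,
        |X k y.1 (b a) m - X k y.1 (b a') m| ≤ |a - a'| / 10) ∧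
      ∀ a ∈ Icc (0 : ℝ) 1, ∀ l ≤ m + 1,
        |X k y.1 (b a) l - X k y.1 y.2 l| * ω ^ (9800 * (m + 1 - l)) ≤ 10 := by
  have hω := B.om
  have R := real_sh hsh B y (m + 1) (by omega) hp hd
  set d := D (wd k y) (m + 1) with hd_def
  have hda : 0 < |d| := abs_pos.2 hd
  have der (l : ℕ) (t : ℝ) : HasDerivAt (fun t => X k y.1 (y.2 + t / d) l)
      (D (wd k (y.1, y.2 + t / d)) l / d) t := by
    have h1 : HasDerivAt (fun t : ℝ => y.2 + t / d) (1 / d) t :=
      ((hasDerivAt_id' t).div_const d).const_add y.2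
    have h2 := (hasDerivAt_X k y.1 (y.2 + t / d) l).comp t h1
    refine h2.congr_deriv ?_
    ring
  -- the top coordinate
  have G0 (t : ℝ) (ht : |t| ≤ 3) :
      |X k y.1 (y.2 + t / d) (m + 1) - X k y.1 y.2 (m + 1) - t| ≤ 1 / 2 := by
    have h1 := (R t ht (m + 1) le_rfl).1
    rw [← hd_def, mul_div_cancel₀ _ hd] at h1
    have := small hω (by omega) (abs_nonneg _) h1
    linarith
  have G1 (t : ℝ) (ht : |t| ≤ 3) : |D (wd k (y.1, y.2 + t / d)) (m + 1) / d - 1| ≤ 1 / 10 := by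
    have h1 := (R t ht (m + 1) le_rfl).2
    rw [← hd_def] at h1
    have h2 := small hω (by omega) (abs_nonneg _) h1
    rw [div_sub_one hd, abs_div, div_le_iff₀ hda]
    linarith
  have H1 (t : ℝ) (ht : |t| ≤ 3) : |D (wd k (y.1, y.2 + t / d)) m / d| ≤ 1 / 100 := by
    have h1 := (R t ht m (by omega)).2
    have h2 := small hω (by omega) (abs_nonneg _) h1
    have h3 := hp m (by omega)
    rw [← hd_def, one_mul, ← mul_one |d|, ← pow_zero ω] at h3
    have h4 := small hω (by omega) (abs_nonneg _) h3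
    rw [abs_div, div_le_iff₀ hda]
    have h5 := abs_add_le (D (wd k (y.1, y.2 + t / d)) m - D (wd k y) m) (D (wd k y) m)
    rw [sub_add_cancel] at h5
    linarith
  have GLo {t t' : ℝ} (ht : |t| ≤ 3) (ht' : |t'| ≤ 3) : 9 / 10 * |t - t'| ≤
      |X k y.1 (y.2 + t / d) (m + 1) - X k y.1 (y.2 + t' / d) (m + 1)| := by
    have h1 := mvt (f := fun t => X k y.1 (y.2 + t / d) (m + 1) - t)
      (fun t _ => (der (m + 1) t).sub (hasDerivAt_id' t)) G1 ht ht'
    have h2 := abs_sub (X k y.1 (y.2 + t / d) (m + 1) - X k y.1 (y.2 + t' / d) (m + 1))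
      (X k y.1 (y.2 + t / d) (m + 1) - t - (X k y.1 (y.2 + t' / d) (m + 1) - t'))
    rw [show X k y.1 (y.2 + t / d) (m + 1) - X k y.1 (y.2 + t' / d) (m + 1) -
      (X k y.1 (y.2 + t / d) (m + 1) - t - (X k y.1 (y.2 + t' / d) (m + 1) - t')) = t - t' by
        ring] at h2
    linarith
  have HL {t t' : ℝ} (ht : |t| ≤ 3) (ht' : |t'| ≤ 3) :
      |X k y.1 (y.2 + t / d) m - X k y.1 (y.2 + t' / d) m| ≤ 1 / 100 * |t - t'| :=
    mvt (f := fun t => X k y.1 (y.2 + t / d) m) (fun t _ => der m t) H1 ht ht'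
  have ex (a : ℝ) : ∃ t : ℝ, a ∈ Icc (0 : ℝ) 1 → |t| ≤ 3 ∧ X k y.1 (y.2 + t / d) (m + 1) = a := by
    by_cases ha : a ∈ Icc (0 : ℝ) 1
    · have hc : ContinuousOn (fun t => X k y.1 (y.2 + t / d) (m + 1)) (Icc (-3) 3) :=
        fun t _ => (der (m + 1) t).continuousAt.continuousWithinAt
      have h1 := abs_le.1 (G0 (-3) (by norm_num))
      have h2 := abs_le.1 (G0 3 (by norm_num))
      obtain ⟨t, ht, e⟩ := intermediate_value_Icc (by norm_num : (-3 : ℝ) ≤ 3) hc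
        (show a ∈ Icc _ _ from ⟨by linarith [h0.2, ha.1, h1.2], by linarith [h0.1, ha.2, h2.1]⟩)
      exact ⟨t, fun _ => ⟨abs_le.2 ht, e⟩⟩
    · exact ⟨0, fun h => absurd h ha⟩
  choose τ hτ using ex
  refine ⟨fun a => y.2 + τ a / d, fun a ha => (hτ a ha).2, ?_, fun a ha a' ha' => ?_,
    fun a ha l hl => ?_⟩
  · have h1 := GLo (hτ _ h0).1 (show |(0 : ℝ)| ≤ 3 by norm_num)
    rw [(hτ _ h0).2, zero_div, add_zero, sub_self, abs_zero, sub_zero] at h1
    have h2 : τ (X k y.1 y.2 (m + 1)) = 0 :=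
      abs_eq_zero.1 (le_antisymm (by linarith) (abs_nonneg _))
    show y.2 + τ _ / d = y.2
    rw [h2, zero_div, add_zero]
  · have h1 := GLo (hτ a ha).1 (hτ a' ha').1
    rw [(hτ a ha).2, (hτ a' ha').2] at h1
    have h2 := HL (hτ a ha).1 (hτ a' ha').1
    have h3 := abs_nonneg (τ a - τ a')
    show |X k y.1 (y.2 + τ a / d) m - X k y.1 (y.2 + τ a' / d) m| ≤ _
    linarith
  · show |X k y.1 (y.2 + τ a / d) l - X k y.1 y.2 l| * _ ≤ _
    have ht := (hτ a ha).1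
    generalize τ a = t at ht
    have h1 := (R t ht l hl).1
    have h3 := hp l hl
    rw [← hd_def, one_mul] at h3
    have hP := pw_pos hω (9800 * (m + 1 - l))
    have h4 : |X k y.1 (y.2 + t / d) l - X k y.1 y.2 l - D (wd k y) l * (t / d)| *
        ω ^ (9800 * (m + 1 - l)) * ω ^ (9800 * (m + 1 - l) + 19600) ≤ 9 * ω ^ 10001 := by
      rw [mul_assoc, ← pow_add, show 9800 * (m + 1 - l) + (9800 * (m + 1 - l) + 19600) =
        19600 * (m + 1 - l + 1) by omega]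
      exact h1
    have h5 := small hω (by omega) (by positivity) h4
    have h6 := abs_add_le (X k y.1 (y.2 + t / d) l - X k y.1 y.2 l - D (wd k y) l * (t / d))
      (D (wd k y) l * (t / d))
    rw [sub_add_cancel] at h6
    have h7 : |D (wd k y) l * (t / d)| * ω ^ (9800 * (m + 1 - l)) ≤ 3 := by
      rw [abs_mul, abs_div, mul_right_comm]
      calc _ ≤ |d| * (|t| / |d|) := mul_le_mul_of_nonneg_right h3 (by positivity)
        _ = |t| := mul_div_cancel₀ _ hda.ne'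
        _ ≤ 3 := ht
    have h8 := mul_le_mul_of_nonneg_right h6 hP.le
    rw [add_mul] at h8
    linarith

end Curve

theorem s_curve (hl : S_lin) (hsh : S_sh) : S_curve := by
  intro k θ ω N z B hz hN hreg
  obtain ⟨φ, u, hsol, hφ0, hu, hφu, htop, hφ⟩ := hl ω 9996 9800 N (wd k z) B.om (B.bd z)
    (by norm_num) (by norm_num) hreg
  obtain ⟨m, rfl⟩ : ∃ m, u = m + 1 := ⟨u - 1, by omega⟩
  set y : ℝ × ℝ := ((Tm k)^[m] z).swap with hy
  have hy1 : y.1 = X k z.1 z.2 (m + 1) := by rw [hy, Tm_iter]; rfl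
  have hy2 : y.2 = X k z.1 z.2 m := by rw [hy, Tm_iter]; rfl
  have hX (l : ℕ) (hl : l ≤ m + 1) : X k y.1 y.2 l = X k z.1 z.2 (m + 1 - l) := by
    rw [hy1, hy2, X_rev _ _ _ _ _ hl]
  have hs : SolN (wd k y) (fun l => φ (m + 1 - l)) m :=
    (hsol m).rev.congr fun l _ h => wd_swap_iter k z m l (by omega)
  have hφD (l : ℕ) (hl : l ≤ m + 1) : φ (m + 1 - l) = φ m * D (wd k y) l := by
    have := sol_eq hs l hl
    simp only [Nat.sub_zero, hφu, zero_mul, zero_add, Nat.add_sub_cancel] at this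
    exact this
  have h1 : φ m * D (wd k y) (m + 1) = 1 := by rw [← hφD _ le_rfl, Nat.sub_self, hφ0]
  have hd : D (wd k y) (m + 1) ≠ 0 := right_ne_zero_of_mul_eq_one h1
  have hp : Prof ω 9800 1 (m + 1) (wd k y) := by
    intro l hl
    have e : D (wd k y) l = φ (m + 1 - l) * D (wd k y) (m + 1) := by
      rw [hφD l hl, mul_right_comm, h1, one_mul]
    rw [e, abs_mul, mul_right_comm]
    refine mul_le_mul_of_nonneg_right ?_ (abs_nonneg _)
    generalize hn : m + 1 - l = n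
    rcases Nat.eq_zero_or_pos n with rfl | hn0
    · rw [hφ0, mul_zero, pow_zero, abs_one, one_mul]
    · by_cases hnN : n ≤ N
      · exact (mul_le_mul_of_nonneg_right (abs_le_pn φ n) (pw_pos B.om _).le).trans
          (hφ n hn0 hnN)
      · rw [show n = m + 1 by omega, hφu, abs_zero, zero_mul]
        exact zero_le_one
  have hz1 : X k y.1 y.2 (m + 1) = z.1 := by rw [hX _ le_rfl, Nat.sub_self, X_zero]
  obtain ⟨b, hb1, hb2, hb3, hb4⟩ := Curve.core hsh B y m hp hd (by rw [hz1]; exact hz)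
  have hrev (a : ℝ) (ha : a ∈ Icc (0 : ℝ) 1) (l : ℕ) (hl : l ≤ m + 1) :
      X k a (X k y.1 (b a) m) l = X k y.1 (b a) (m + 1 - l) := by
    have := X_rev k y.1 (b a) m l hl
    rwa [hb1 a ha] at this
  have htop' (a : ℝ) (ha : a ∈ Icc (0 : ℝ) 1) :
      X k a (X k y.1 (b a) m) (m + 1) = X k z.1 z.2 (m + 1) := by
    rw [hrev a ha _ le_rfl, Nat.sub_self, X_zero, hy1]
  have hsh1 (a : ℝ) (ha : a ∈ Icc (0 : ℝ) 1) (l : ℕ) (hl : l ≤ m + 1) :
      |X k a (X k y.1 (b a) m) l - X k z.1 z.2 l| * ω ^ (9800 * l) ≤ 10 := by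
    have h := hb4 a ha (m + 1 - l) (by omega)
    rw [hX _ (by omega), show m + 1 - (m + 1 - l) = l by omega] at h
    rw [hrev a ha l hl]
    exact h
  refine ⟨fun a => X k y.1 (b a) m, ⟨φ, hsol N, hφ0, hφ⟩, ⟨m + 1, hu, htop, htop'⟩, ?_, hb3,
    fun a ha l _ hl => hsh1 a ha l (by omega), fun a ha => ?_⟩
  · show X k y.1 (b z.1) m = z.2
    rw [← hz1, hb2, hX m (by omega), show m + 1 - m = 1 by omega, X_one]
  · show |X k a (X k y.1 (b a) m) (N + 1) - X k z.1 z.2 (N + 1)| * _ ≤ _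
    have hP := pw_pos B.om 9800
    rcases hu with hu | hu
    · subst hu
      rw [show m + 1 + 1 = m + 2 from rfl, X_add_two, X_add_two, htop' a ha]
      have h := hsh1 a ha m (by omega)
      rw [show 9800 * (m + 1) = 9800 * m + 9800 by ring, pow_add, ← mul_assoc]
      refine mul_le_mul_of_nonneg_right ?_ hP.le
      rw [abs_sub_comm] at h
      refine le_of_eq_of_le ?_ h
      congr 2
      ring
    · rw [← hu, htop' a ha, sub_self, abs_zero, zero_mul]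
      positivity

end

end Vale.Agent.P108
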