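import Mathlib

/-! P108: the notions of the statement. -/

namespace Vale.Agent.P108

open MeasureTheory Filter Real
open scoped ENNReal

theorem sin_per : Function.Periodic (fun x : ℝ => sin (2 * π * x)) 1 := fun x => by
  show sin (2 * π * (x + 1)) = sin (2 * π * x)
  rw [mul_add, mul_one, sin_add_two_pi]

/-- The function `x ↦ sin (2 π x)` on the circle `ℝ / ℤ`. -/
noncomputable def sinT : UnitAddCircle → ℝ := sin_per.lift

/-- The standard map of the torus `ℝ² / ℤ²`. -/
noncomputable def stdMap (k : ℝ) (z : UnitAddCircle × UnitAddCircle) :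
    UnitAddCircle × UnitAddCircle :=
  (z.1 + z.2 + ((k * sinT z.1 : ℝ) : UnitAddCircle), z.2 + ((k * sinT z.1 : ℝ) : UnitAddCircle))

/-- Shannon entropy of the finite partition given by the level sets of `P`. -/
noncomputable def shannon {X ι : Type} [MeasurableSpace X] [Fintype ι] (μ : Measure X)
    (P : X → ι) : ℝ :=
  ∑ i, negMulLog (μ.real (P ⁻¹' {i}))

/-- Kolmogorov-Sinai entropy. -/
noncomputable def ksEntropy {X : Type} [MeasurableSpace X] (μ : Measure X) (T : X → X) : ℝ≥0∞ :=
  ⨆ (r : ℕ) (P : X → Fin r) (_ : Measurable P),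
    liminf (fun N : ℕ =>
      ENNReal.ofReal (shannon μ (fun (x : X) (t : Fin N) => P (T^[t] x)) / N)) atTop

end Vale.Agent.P108
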