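import Vale.Agent.P108.Basic

/-! P108: descent, top and failure lemmas. -/

namespace Vale.Agent.P108

open MeasureTheory Filter Real Set
open scoped Classical

noncomputable section

namespace Desc

theorem dec {v y φ : ℕ → ℝ} {N : ℕ} (hy : SolN v y N) (hφ : SolN v φ N) (h0 : φ 0 = 1) (l : ℕ)
    (hl : l ≤ N + 1) : y l = y 0 * φ l + (y 1 - y 0 * φ 1) * D v l :=
  hy.uniq (hφ.lin (solN_D v N) (y 0) (y 1 - y 0 * φ 1)) (by simp [h0]) (by simp) l hl

theorem up1 {x a b p d : ℝ} (h : x = a * p + b * d) : |x| ≤ |a| * |p| + |b| * |d| := by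
  rw [h, ← abs_mul, ← abs_mul]; exact abs_add_le _ _

theorem lo1 {x a b p d : ℝ} (h : x = a * p + b * d) : |b| * |d| ≤ |x| + |a| * |p| := by
  rw [← abs_mul, ← abs_mul, show b * d = x - a * p by rw [h]; ring]; exact abs_sub _ _

theorem up {v y φ : ℕ → ℝ} {N : ℕ} (hy : SolN v y N) (hφ : SolN v φ N) (h0 : φ 0 = 1) (n : ℕ)
    (hn : n ≤ N) : pn y n ≤ |y 0| * pn φ n + |y 1 - y 0 * φ 1| * pn (D v) n := by
  have h1 := up1 (dec hy hφ h0 n (by omega))
  have h2 := up1 (dec hy hφ h0 (n + 1) (by omega))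
  unfold pn; linarith

theorem lo {v y φ : ℕ → ℝ} {N : ℕ} (hy : SolN v y N) (hφ : SolN v φ N) (h0 : φ 0 = 1) (n : ℕ)
    (hn : n ≤ N) : |y 1 - y 0 * φ 1| * pn (D v) n ≤ pn y n + |y 0| * pn φ n := by
  have h1 := lo1 (dec hy hφ h0 n (by omega))
  have h2 := lo1 (dec hy hφ h0 (n + 1) (by omega))
  unfold pn; linarith

theorem big {ω : ℝ} (h : 10 ^ 6 ≤ ω) {a : ℕ} (ha : 0 < a) : 10 ^ 6 ≤ ω ^ a := by
  have := pw_lt h ha
  rwa [pow_zero, mul_one] at this

theorem small {ω p : ℝ} (h : 10 ^ 6 ≤ ω) {a : ℕ} (ha : 0 < a) (hp : 0 ≤ p) (h1 : p * ω ^ a ≤ 1) :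
    p ≤ 1 / 10 := by
  have h2 := mul_le_mul_of_nonneg_left (big h ha) hp
  generalize ω ^ a = P at *
  linarith

end Desc

open Desc

theorem s_desc (hl : S_lin) : S_desc := by
  intro ω N v y hω hb hr hy h01 n hn1 hn
  obtain ⟨φ, u, hφ, h0, -, -, -, hdec⟩ := hl ω 9998 9993 N v hω hb (by norm_num) (by norm_num) hr
  have a1 : pn φ 1 ≤ 1 / 10 := small hω (by norm_num) (pn_nonneg _ _) (hdec 1 le_rfl (by omega))
  have a2 : pn φ n ≤ 1 / 10 := small hω (by omega) (pn_nonneg _ _) (hdec n hn1 hn)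
  have a3 : |φ 1| ≤ 1 / 10 := (abs_le_pn φ 1).trans a1
  have a4 : 9 / 10 * |y 1| ≤ |y 1 - y 0 * φ 1| := by
    have b1 := abs_sub_abs_le_abs_sub (y 1) (y 0 * φ 1)
    rw [abs_mul] at b1
    have b2 := mul_le_mul h01 a3 (abs_nonneg _) (abs_nonneg _)
    linarith
  have a5 := lo hy (hφ N) h0 n hn
  have a6 : ω ^ (9998 * n) ≤ pn (D v) n := by rw [pow_mul]; exact hr n hn
  have a7 := big hω (a := 9998 * n) (by omega)
  have a8 := mul_le_mul a4 a6 (pw_pos hω _).le (abs_nonneg _)
  have a9 := mul_le_mul h01 a2 (pn_nonneg _ _) (abs_nonneg _)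
  have b1 : pn y 0 ≤ 2 * |y 1| := by
    unfold pn; rw [zero_add]; linarith
  have b2 := mul_le_mul_of_nonneg_left b1 (pw_pos hω (9998 * n)).le
  have b3 := mul_le_mul_of_nonneg_right a7 (abs_nonneg (y 1))
  have b4 := abs_nonneg (y 1)
  generalize ω ^ (9998 * n) = P at *
  linarith

theorem s_top (hl : S_lin) : S_top := by
  intro ω N A v y hω hb hr hy hA hAN hmax hne
  obtain ⟨φ, u, hφ, h0, -, -, -, hdec⟩ := hl ω 9998 9993 N v hω hb (by norm_num) (by norm_num) hr
  obtain ⟨h, hh⟩ : ∃ h, h = A / 2 := ⟨_, rfl⟩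
  rw [← hh]
  obtain ⟨B, rfl⟩ : ∃ B, A = B + 1 := ⟨A - 1, by omega⟩
  have a1 : |φ (B + 1)| ≤ 1 / 10 := (abs_le_pn φ _).trans
    (small hω (by omega) (pn_nonneg _ _) (hdec (B + 1) (by omega) hAN))
  have a2 : |D v (B + 1)| ≤ ω ^ (10007 * h) * ω ^ (9993 * h) := by
    refine ((abs_succ_le_pn _ _).trans (pn_D_le hb B)).trans ?_
    rw [← pow_add]
    exact pw_le hω (by omega)
  have a3 := up1 (dec hy (hφ N) h0 (B + 1) (by omega))
  have a4 := hmax 0 (by omega)
  have a5 := mul_le_mul a4 a1 (abs_nonneg _) (abs_nonneg _)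
  have a6 := mul_le_mul_of_nonneg_left a2 (abs_nonneg (y 1 - y 0 * φ 1))
  have a7 : 0 < |y (B + 1)| := abs_pos.2 hne
  have a8 := up hy (hφ N) h0 h (by omega)
  have a9 := lo hy (hφ N) h0 N le_rfl
  have b1 : pn (D v) h ≤ ω ^ (10007 * h) := (pn_D_le hb h).trans (pw_le hω (by omega))
  have b2 : 10 ^ 6 * ω ^ (10007 * h) ≤ pn (D v) N := by
    refine (pw_lt hω (b := 9998 * N) (by omega)).trans ?_
    rw [pow_mul]; exact hr N le_rfl
  have b3 := hdec h (by omega) (by omega)
  have b4 : pn φ N * ω ^ (9993 * h) ≤ 1 :=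
    (mul_le_mul_of_nonneg_left (pw_le hω (by omega)) (pn_nonneg _ _)).trans
      (hdec N (by omega) le_rfl)
  have c0 := abs_nonneg (y 1 - y 0 * φ 1)
  have p1 := pw_pos hω (10007 * h)
  have p2 := pw_pos hω (9993 * h)
  have p3 := pn_nonneg φ h
  have p4 := pn_nonneg φ N
  generalize ω ^ (10007 * h) = P at *
  generalize ω ^ (9993 * h) = Q at *
  generalize |y 1 - y 0 * φ 1| = c at *
  have d1 : |y 0| ≤ 2 * (c * P) * Q := by linarith
  have d2 : 0 < c * P := by
    by_contra hc
    have : c * P * Q ≤ 0 := mul_nonpos_of_nonpos_of_nonneg (not_lt.1 hc) p2.le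
    linarith
  have d3 : |y 0| * pn φ h ≤ 2 * (c * P) := by
    have e1 := mul_le_mul_of_nonneg_right d1 p3
    have e2 := mul_le_mul_of_nonneg_left b3 d2.le
    linarith
  have d4 : |y 0| * pn φ N ≤ 2 * (c * P) := by
    have e1 := mul_le_mul_of_nonneg_right d1 p4
    have e2 := mul_le_mul_of_nonneg_left b4 d2.le
    linarith
  have d5 := mul_le_mul_of_nonneg_left b1 c0
  have d6 := mul_le_mul_of_nonneg_left b2 c0
  linarith

theorem s_fail (hd : S_desc) (ht : S_top) : S_fail := by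
  intro ω g cl bad τ A n v y hω hb hg hcl hy hmin h01 hA hmax hne hn hlt hbad
  have p0 : 0 < pn y 0 := by
    have a1 := pn_le_NN hy A hA
    have a2 := abs_le_pn y A
    have a3 : 0 < |y A| := abs_pos.2 hne
    by_contra hc
    have : NN v A * pn y 0 ≤ 0 := mul_nonpos_of_nonneg_of_nonpos (NN_pos v A).le (not_lt.1 hc)
    linarith
  have good : ∀ t < n, ¬ bad t → ω ^ 9999 * pn y t ≤ pn y (t + 1) := by
    intro t htn hb'
    have h1 := fun h => hb' (hbad t htn h)
    have c1 : cl (v (t + 1)) := by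
      by_contra hc; exact h1 (Or.inl hc)
    have c2 : t + 2 ≤ A := by
      by_contra hc; exact h1 (Or.inr (Or.inl (not_le.1 hc)))
    have c3 : ¬ RegD (ω ^ 9998) (τ - t) (fun l => v (t + l)) := by
      intro hr
      have e1 : t + (A - t) = A := by omega
      have := ht ω (τ - t) (A - t) _ (fun l => y (t + l)) hω (hb.comp _) hr (hy.shift t)
        (by omega) (by omega) (fun l hl => by simp only [e1]; exact hmax _ (by omega))
        (by simp only [e1]; exact hne)
      rw [pn_shift, pn_shift, show t + (τ - t) = τ by omega] at this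
      exact absurd (hmin (t + (A - t) / 2) (by omega) (by omega)).2 (not_le.2 this)
    have c4 : RegD (ω ^ 9998) t fun l => v (t + 1 - l) := by
      by_contra hc; exact h1 (Or.inr (Or.inr ⟨c3, hc⟩))
    have pt : 0 < pn y t := pn_pos hy p0 t (by omega)
    have c5 : |y t| ≤ |y (t + 1)| := by
      rcases Nat.eq_zero_or_pos t with rfl | ht0
      · exact h01
      · by_contra hc
        have := hd ω t _ (fun l => y (t + 1 - l)) hω (hb.comp _) c4 (hy.mono (by omega)).rev
          (not_le.1 hc).le t ht0 le_rfl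
        rw [pn_rev y t 0 (by omega), pn_rev y t t le_rfl, Nat.sub_self, Nat.sub_zero] at this
        have a1 := (hmin t ht0 (by omega)).1
        have a2 := mul_le_mul_of_nonneg_right (big hω (a := 9998 * t) (by omega)) pt.le
        generalize ω ^ (9998 * t) = P at *
        linarith
    have d1 : y (t + 2) = v (t + 1) * y (t + 1) - y t := hy t (by omega)
    have d2 := abs_sub_abs_le_abs_sub (v (t + 1) * y (t + 1)) (y t)
    rw [← d1, abs_mul] at d2
    have d3 := mul_le_mul_of_nonneg_right (hg.trans (hcl _ c1)) (abs_nonneg (y (t + 1)))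
    have d4 := mul_le_mul_of_nonneg_left c5 (pw_pos hω 9999).le
    have d5 := mul_nonneg (pw_pos hω 9999).le (abs_nonneg (y (t + 1)))
    unfold pn
    generalize ω ^ 9999 = P at *
    linarith
  have ind : ∀ s ≤ n, ω ^ (9999 * s) * pn y 0 ≤
      ω ^ (19999 * ((Finset.range s).filter bad).card) * pn y s := by
    intro s
    induction s with
    | zero => intro _; simp
    | succ s ih =>
      intro hs
      have h1 := mul_le_mul_of_nonneg_left (ih (by omega)) (pw_pos hω 9999).le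
      have e1 : ω ^ (9999 * (s + 1)) = ω ^ 9999 * ω ^ (9999 * s) := by
        rw [← pow_add]
        exact congrArg (fun a : ℕ => ω ^ a) (by omega)
      rw [e1, mul_assoc, Finset.range_add_one, Finset.filter_insert]
      refine h1.trans ?_
      have p1 := pw_pos hω (19999 * ((Finset.range s).filter bad).card)
      split_ifs with hbs
      · rw [Finset.card_insert_of_notMem (by simp)]
        have e2 : ω ^ (19999 * (((Finset.range s).filter bad).card + 1)) =
            ω ^ 9999 * (ω ^ (19999 * ((Finset.range s).filter bad).card) * ω ^ (10000 * 1)) := by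
          rw [← pow_add, ← pow_add]
          exact congrArg (fun a : ℕ => ω ^ a) (by omega)
        rw [e2, mul_assoc, mul_assoc]
        exact mul_le_mul_of_nonneg_left (mul_le_mul_of_nonneg_left
          (pn_le_add hb hy s 1 (by omega)) p1.le) (pw_pos hω 9999).le
      · rw [mul_left_comm]
        exact mul_le_mul_of_nonneg_left (good s (by omega) hbs) p1.le
  have f1 := (ind n le_rfl).trans_lt (mul_lt_mul_of_pos_left hlt (pw_pos hω _))
  rw [← mul_assoc, ← pow_add] at f1
  have f2 := lt_of_mul_lt_mul_right f1 p0.le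
  by_contra hc
  exact absurd (pw_le hω (by omega)) (not_le.2 f2)

end

end Vale.Agent.P108
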