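import Vale.Agent.P108.Core

/-! P108: interface statements. See `skel/P108/BLUEPRINT.md`. -/

namespace Vale.Agent.P108

open MeasureTheory Filter Real Set Topology
open scoped Classical

noncomputable section

/-! ### pure analysis -/

/-- a pointwise limit that is analytic and small on large sets vanishes -/
def S_z : Prop := ∀ (H : ℝ → ℝ) (G : ℕ → ℝ → ℝ) (δ : ℕ → ℝ) (κ : ℝ), 0 < κ →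
  AnalyticOnNhd ℝ H univ → (∀ n, Measurable (G n)) →
  (∀ s ∈ Icc (-5 : ℝ) 5, Tendsto (fun n => G n s) atTop (𝓝 (H s))) → Tendsto δ atTop (𝓝 0) →
  (∀ n, ENNReal.ofReal κ ≤ volume {s | s ∈ Icc (-5 : ℝ) 5 ∧ |G n s| ≤ δ n}) → ∀ s, H s = 0

def S_remez : Prop := ∀ κ : ℝ, 0 < κ → ∃ δ : ℝ, 0 < δ ∧ ∀ (p : Fin 5 → ℝ) (s₁ : ℝ), |s₁| ≤ 1 →
  pol p s₁ ≠ 0 → volume {s | s ∈ Icc (-5 : ℝ) 5 ∧ |pol p s| ≤ δ * |pol p s₁|} ≤ ENNReal.ofReal κ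

def S_wm1 : Prop := ∀ θ κ : ℝ, 0 < θ → θ ≤ 1 → 0 < κ → ∃ δ : ℝ, 0 < δ ∧
  ∀ (p : Fin 5 → ℝ) (y₀ : ℝ) (A : Set ℝ), A ⊆ Icc (-5) 5 →
  (∀ s ∈ A, ∃ u y e : ℝ, |u - 1| ≤ δ ∧ |y - y₀ - s| ≤ δ ∧ |e| ≤ δ ∧ θ ≤ |cos (2 * π * y)| ∧
    |pol p s - 1 / (u ^ 2 * (cos (2 * π * y) + e))| ≤ δ) → volume A ≤ ENNReal.ofReal κ

def Dn (ϱ α β y₀ e s : ℝ) : ℝ := (ϱ + α * s) ^ 2 * (cos (2 * π * (y₀ + ϱ * s + β * s ^ 2)) + e)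

def S_w2 : Prop := ∀ κ ϱ₁ : ℝ, 0 < κ → 0 < ϱ₁ → ∃ δ : ℝ, 0 < δ ∧
  ∀ (e ϱ : ℝ) (p : Fin 5 → ℝ) (y₀ y₀' α β α' β' : ℝ), 0 < e → e ≤ δ → ϱ₁ ≤ |ϱ| → |ϱ| ≤ 1 →
  |α| ≤ δ → |β| ≤ δ → |α'| ≤ δ → |β'| ≤ δ →
  volume {s | s ∈ Icc (-5 : ℝ) 5 ∧ |pol p s * Dn 1 α β y₀ e s * Dn ϱ α' β' y₀' e s -
    Dn 1 α β y₀ e s - Dn ϱ α' β' y₀' e s| ≤ δ * e} ≤ ENNReal.ofReal κ

def S_wm2 : Prop := ∀ θ κ ϱ₁ : ℝ, 0 < θ → θ ≤ 1 → 0 < κ → 0 < ϱ₁ → ∃ δ : ℝ, 0 < δ ∧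
  ∀ (e ϱ : ℝ) (p : Fin 5 → ℝ) (y₀ y₀' α β α' β' : ℝ) (A : Set ℝ), 0 < e → e ≤ δ → ϱ₁ ≤ |ϱ| →
  |ϱ| ≤ 1 → |α| ≤ δ → |β| ≤ δ → |α'| ≤ δ → |β'| ≤ δ → A ⊆ Icc (-5) 5 →
  (∀ s ∈ A, ∃ u u' y y' e₁ e₂ : ℝ, |u - 1 - α * s| ≤ δ * e ∧ |u' - ϱ - α' * s| ≤ δ * e ∧
    |y - (y₀ + s + β * s ^ 2)| ≤ δ * e ∧ |y' - (y₀' + ϱ * s + β' * s ^ 2)| ≤ δ * e ∧
    |e₁ - e| ≤ δ * e ∧ |e₂ - e| ≤ δ * e ∧ θ ≤ |cos (2 * π * y)| ∧ θ ≤ |cos (2 * π * y')| ∧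
    |pol p s - 1 / (u ^ 2 * (cos (2 * π * y) + e₁)) - 1 / (u' ^ 2 * (cos (2 * π * y') + e₂))|
      ≤ δ * e) → volume A ≤ ENNReal.ofReal κ

/-- Taylor expansion of a bounded holomorphic function -/
def S_tay : Prop := ∀ (n : ℕ) (f : ℂ → ℂ) (R B : ℝ), 0 < R → DifferentiableOn ℂ f (Metric.ball 0 R) →
  (∀ s ∈ Metric.ball (0 : ℂ) R, ‖f s‖ ≤ B) → ∃ c : ℕ → ℂ, (0 < n → c 0 = f 0) ∧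
    (∀ i < n, ‖c i‖ * R ^ i ≤ 2 ^ i * B) ∧ ∀ s ∈ Metric.ball (0 : ℂ) R,
      ‖f s - ∑ i ∈ Finset.range n, c i * s ^ i‖ ≤ 2 ^ n * B * (‖s‖ / R) ^ n

/-- greedy covering, to the right and to the left -/
def S_gc : Prop :=
  (∀ (M : ℕ) (F : ℕ → ℝ) (c : ℝ) (S : Finset ℕ), 0 ≤ c → (∀ s t, s ≤ t → t ≤ M → F t ≤ F s) →
    (∀ s ∈ S, ∃ n, 1 ≤ n ∧ s + n ≤ M ∧ c * n + F (s + n) ≤ F s) → c * S.card ≤ F 0 - F M) ∧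
  (∀ (M L : ℕ) (S : Finset ℕ) (bad : ℕ → Prop),
    (∀ s ∈ S, ∃ n, 1 ≤ n ∧ s + n ≤ M ∧ n ≤ L * ((Finset.Ico s (s + n)).filter bad).card) →
    S.card ≤ L * ((Finset.range M).filter bad).card) ∧
  ∀ (M L : ℕ) (S : Finset ℕ) (bad : ℕ → Prop),
    (∀ s ∈ S, s < M ∧ ∃ n, 1 ≤ n ∧ n ≤ s + 1 ∧
      n ≤ L * ((Finset.Ico (s + 1 - n) (s + 1)).filter bad).card) →
    S.card ≤ L * ((Finset.range M).filter bad).card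

/-! ### linear lemmas -/

/-- the stable solution -/
def S_lin : Prop := ∀ (ω : ℝ) (e f N : ℕ) (v : ℕ → ℝ), 10 ^ 6 ≤ ω → Bd ω v → f + 20001 ≤ 3 * e →
  e ≤ 10000 → RegD (ω ^ e) N v → ∃ (φ : ℕ → ℝ) (u : ℕ), (∀ N', SolN v φ N') ∧ φ 0 = 1 ∧
    (u = N ∨ u = N + 1) ∧ φ u = 0 ∧ ω ^ (e * N) ≤ 2 * |D v u| ∧
    ∀ n, 1 ≤ n → n ≤ N → pn φ n * ω ^ (f * n) ≤ 1

def S_l1 : Prop := ∀ (ω : ℝ) (e N : ℕ) (v : ℕ → ℝ), 10 ^ 6 ≤ ω → Bd ω v → 9000 ≤ e → e ≤ 10000 →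
  RegN (ω ^ e) N v → ∀ n ≤ N, ω ^ (e * n) ≤ 4 * pn (D v) n

/-- perturbation of the word -/
def S_pert : Prop := ∀ (ω w : ℝ) (N : ℕ) (v v' φ : ℕ → ℝ), 10 ^ 6 ≤ ω → Bd ω v → Bd ω v' → 1 ≤ N →
  SolN v φ N → φ 0 = 1 → (∀ n, 1 ≤ n → n ≤ N → pn φ n * ω ^ (9800 * n) ≤ 1) → 0 ≤ w →
  w * ω ^ (15000 * N) ≤ 10 →
  (∀ l, 1 ≤ l → l ≤ N → |v' l - v l| ≤ 7 * ω ^ 10000 * (100 / ω ^ (9800 * l) + w * ω ^ (10000 * l))) →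
  ∀ l, l = N ∨ l = N + 1 → |D v' l - D v l| ≤ |D v l| / 10 + ω ^ (6000 * N)

def S_desc : Prop := ∀ (ω : ℝ) (N : ℕ) (v y : ℕ → ℝ), 10 ^ 6 ≤ ω → Bd ω v → RegD (ω ^ 9998) N v →
  SolN v y N → |y 0| ≤ |y 1| → ∀ n, 1 ≤ n → n ≤ N → ω ^ (9998 * n) * pn y 0 ≤ 8 * pn y n

def S_top : Prop := ∀ (ω : ℝ) (N A : ℕ) (v y : ℕ → ℝ), 10 ^ 6 ≤ ω → Bd ω v → RegD (ω ^ 9998) N v →
  SolN v y N → 2 ≤ A → A ≤ N → (∀ l ≤ N + 1, |y l| ≤ |y A|) → y A ≠ 0 → pn y (A / 2) < pn y N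

/-- failure of growth forces many bad times -/
def S_fail : Prop := ∀ (ω g : ℝ) (cl : ℝ → Prop) (bad : ℕ → Prop) (τ A n : ℕ) (v y : ℕ → ℝ),
  10 ^ 6 ≤ ω → Bd ω v → 10 ^ 5 * ω ^ 9999 ≤ g → (∀ x, cl x → g ≤ |x|) → SolN v y τ →
  (∀ t, 0 < t → t < τ → pn y 0 ≤ pn y t ∧ pn y τ ≤ pn y t) → |y 0| ≤ |y 1| → A ≤ τ →
  (∀ l ≤ τ + 1, |y l| ≤ |y A|) → y A ≠ 0 → n ≤ A → pn y n < ω ^ (9998 * n) * pn y 0 →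
  (∀ t < n, ¬ cl (v (t + 1)) ∨ A < t + 2 ∨
    (¬ RegD (ω ^ 9998) (τ - t) (fun l => v (t + l)) ∧ ¬ RegD (ω ^ 9998) t fun l => v (t + 1 - l)) →
    bad t) → n ≤ 20000 * ((Finset.range n).filter bad).card

/-- one side of a tangency -/
def S_side : Prop := ∀ (ω g : ℝ) (cl : ℝ → Prop) (j : ℕ) (v y : ℕ → ℝ), 10 ^ 6 ≤ ω → Bd ω v →
  10 ^ 5 * ω ^ 9999 ≤ g → (∀ x, cl x → g ≤ |x|) → 1 ≤ j → SolN v y (j + 12) →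
  (∀ l ≤ 12, cl (v (j + l))) → |y (j + 13)| ≤ |y (j + 12)| →
  (∀ n ≤ j - 1, ω ^ (9980 * n) * pn y (j - 1) ≤ pn y (j - 1 - n)) →
  pn y 0 ≤ 2 * ω ^ 10000 * |y 0| → y 0 ≠ 0 →
  Prof ω 9800 1 j v ∧ |y 0| ≤ 2 * (|D v j| * pn y (j - 1)) ∧ |D v j| * pn y (j - 1) ≤ 4 * |y 0| ∧
    ∀ a ≤ 10, |y 1 / y 0 + E v (j + a + 1) / D v (j + a + 1)| ≤
      2 / |D v (j + a + 1) * D v (j + a + 2)|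

/-- the data of the counting lemmas -/
structure Cnt (ω g : ℝ) (cl : ℝ → Prop) (M : ℕ) (w : ℕ → ℝ) (bw : ℕ → ℕ → ℝ)
    (U Q : ℕ → Prop) : Prop where
  hω : 10 ^ 6 ≤ ω
  bd : Bd ω w
  bd' : ∀ t, Bd ω (bw t)
  hbw : ∀ t l, l ≤ t → bw t l = w (t - l)
  hg : 10 ^ 5 * ω ^ 9999 ≤ g
  hg' : g ≤ ω ^ 10000
  hcl : ∀ x, cl x → g ≤ |x|
  hU : ∀ t, ¬ U t → ∀ l, t ≤ l + 10000 → l ≤ t + 10000 → cl (w l)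
  hQ : ∀ t, ¬ RegD (ω ^ 9998) M (fun l => w (t + l)) → ¬ RegD (ω ^ 9998) M (bw (t + 1)) → Q t

/-- a matched pair of times with growth on both sides is a tangency -/
def S_key : Prop := ∀ (ω g : ℝ) (cl : ℝ → Prop) (M : ℕ) (w : ℕ → ℝ) (bw : ℕ → ℕ → ℝ)
  (U Q : ℕ → Prop) (y : ℕ → ℝ) (t₁ t₂ : ℕ), Cnt ω g cl M w bw U Q → (∀ N, SolN w y N) → y 1 ≠ 0 →
  t₁ < t₂ → t₂ < M → pn y t₁ ≤ pn y t₂ → (∀ t, t₁ < t → t < t₂ → pn y t₂ < pn y t) →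
  ¬ U t₁ → ¬ U t₂ → 10000 ≤ t₁ → |y (t₁ - 13)| ≤ |y (t₁ - 12)| → |y (t₂ + 14)| < |y (t₂ + 13)| →
  (∀ n, 1 ≤ n → t₁ + n ≤ M →
    20000 * ((Finset.Ico t₁ (t₁ + n)).filter fun t => U t ∨ Q t).card < n) →
  (∀ n, 1 ≤ n → n ≤ t₂ + 1 →
    20000 * ((Finset.Ico (t₂ + 1 - n) (t₂ + 1)).filter fun t => U t ∨ Q t).card < n) →
  ∃ l j j', l < M ∧ (j, j') ∈ Pairs (M + 2) 2 ∧ l + j = t₂ + 1 ∧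
    PE ω cl j j' (fun i => w (l + i)) (bw l)

def S_sol : Prop := ∀ (w : ℕ → ℝ) (M : ℕ), ∃ y : ℕ → ℝ, (∀ N, SolN w y N) ∧ y 1 = 1 ∧ 0 ≤ y 0 ∧
  y 0 ≤ 1 ∧ ∀ t ≤ M, 1 ≤ (M + 3) * pn y t ^ 2

/-- the deterministic counting inequality -/
def S_cseq : Prop := ∀ (ω g : ℝ) (cl : ℝ → Prop) (M : ℕ) (w : ℕ → ℝ) (bw : ℕ → ℕ → ℝ)
  (U Q : ℕ → Prop), Cnt ω g cl M w bw U Q → 1 ≤ M →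
  M * log (ω ^ 10000) - log (NN w M) ≤ M * log (2 * ω ^ 10000 / g) + log (ω ^ 10000) * 10 ^ 6 *
    (1 + log (M + 3) + ((Finset.range M).filter U).card + ((Finset.range M).filter Q).card +
      ∑ p ∈ Pairs (M + 2) 2,
        (((Finset.range M).filter fun t => PE ω cl p.1 p.2 (fun i => w (t + i)) (bw t)).card : ℝ))

/-! ### shadowing and expansions -/

def S_sh : Prop := ∀ (k θ ω : ℝ) (z : ℝ × ℝ) (J p : ℕ) (R : ℝ) (β : ℂ), Big k θ ω → 1 ≤ J →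
  Prof ω 9800 1 J (wd k z) → p ≤ J → 0 ≤ R → R ≤ ω ^ (9400 * (J - p + 1)) →
  ‖β - z.2‖ * |D (wd k z) J| ≤ R → ∀ l ≤ p,
    ‖XC k z.1 β l - X k z.1 z.2 l - (D (wd k z) l : ℝ) * (β - z.2)‖ * ω ^ (19600 * (J - l + 1))
      ≤ R ^ 2 * ω ^ 10001 ∧
    ‖D (wC k z.1 β) l - (D (wd k z) l : ℝ)‖ * ω ^ (19600 * (J - l + 1))
      ≤ R * |D (wd k z) J| * ω ^ 10002 ∧
    (l < p → ‖wC k z.1 β l - wd k z l‖ * ω ^ (9800 * (J - l)) ≤ 26 * R * ω ^ 10000)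

/-- the point at rescaled distance `s` on the line -/
def pt (k : ℝ) (z : ℝ × ℝ) (J : ℕ) (s : ℝ) : ℝ × ℝ := (z.1, z.2 + s / D (wd k z) J)

def S_pa : Prop := ∀ (k θ ω : ℝ) (z : ℝ × ℝ) (J : ℕ), Big k θ ω → 1 ≤ J →
  Prof ω 9800 1 J (wd k z) → ∃ (p : Fin 5 → ℝ) (α β : ℝ), |α| * ω ^ 9000 ≤ 1 ∧ |β| * ω ^ 9000 ≤ 1 ∧
    ∀ s : ℝ, |s| ≤ 5 →
      |D (wd k z) J ^ 2 * (E (wd k (pt k z J s)) J / D (wd k (pt k z J s)) J) - pol p s| * ω ^ 26000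
        ≤ |s| ^ 5 ∧
      |D (wd k (pt k z J s)) J / D (wd k z) J - 1 - α * s| * ω ^ 11000 ≤ s ^ 2 ∧
      |X k z.1 (pt k z J s).2 J - X k z.1 z.2 J - s - β * s ^ 2| * ω ^ 11000 ≤ |s| ^ 3 ∧
      |D (wd k (pt k z J s)) (J - 1)| * ω ^ 9000 ≤ |D (wd k z) J| ∧
      Prof ω 9000 2 J (wd k (pt k z J s))

def S_pt : Prop := ∀ (k θ ω : ℝ) (z : ℝ × ℝ) (J : ℕ), Big k θ ω → 1 ≤ J →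
  Prof ω 9800 1 J (wd k z) → Cl k θ (wd k z J) → ∃ p : Fin 5 → ℝ, ∀ s : ℝ, |s| ≤ θ / 200 →
    |2 * π * k * D (wd k z) J ^ 2 / (D (wd k (pt k z J s)) J * D (wd k (pt k z J s)) (J + 1))
      - pol p s| ≤ 10 ^ 20 / θ ^ 6 * |s| ^ 5

/-- growth in a clean stretch -/
def S_prof : Prop := ∀ (ω g : ℝ) (j a : ℕ) (v : ℕ → ℝ), 10 ^ 6 ≤ ω → Bd ω v → 10 ^ 5 * ω ^ 9999 ≤ g →
  1 ≤ j → Prof ω 9800 1 j v → (∀ l < a, g ≤ |v (j + l)|) → Prof ω 9800 1 (j + a) v ∧ D v j ≠ 0 ∧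
    ∀ l < a, ω ^ 9999 * |D v (j + l)| ≤ |D v (j + l + 1)| ∧
      |D v (j + l + 1)| ≤ ω ^ 10000 * |D v (j + l)|

/-- local estimate, ordered form -/
def S_wl0 : Prop := ∀ θ κ : ℝ, 0 < θ → θ ≤ 1 → 0 < κ → ∃ ω₀ : ℝ, ∀ k ω : ℝ, Big k θ ω → ω₀ ≤ ω →
  ∀ (j j' a b : ℕ) (z : ℝ × ℝ), z ∈ EW k θ ω j j' → a ≤ 10 → b ≤ 10 →
  |D (wd k (lf k z)) (j' + b)| ≤ |D (wd k z) (j + a)| →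
  |D (wd k z) (j + a)| ≤ ω ^ 5000 * |D (wd k (lf k z)) (j' + b)| →
  ∃ ρ : ℝ, 0 < ρ ∧ ρ ≤ 1 ∧ (∀ h : ℝ, |h| < ρ → (z.1, z.2 + h) ∈ FW k ω (j + a) (j' + b)) ∧
    volume {h : ℝ | |h| ≤ 5 * ρ ∧ (z.1, z.2 + h) ∈ EW k θ ω j j'} ≤ ENNReal.ofReal (κ * ρ)

/-- local estimate -/
def S_wl : Prop := ∀ θ κ : ℝ, 0 < θ → θ ≤ 1 → 0 < κ → ∃ ω₀ : ℝ, ∀ k ω : ℝ, Big k θ ω → ω₀ ≤ ω →
  ∀ (j j' : ℕ) (z : ℝ × ℝ), z ∈ EW k θ ω j j' → ∃ ρ : ℝ, 0 < ρ ∧ ρ ≤ 1 ∧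
    (∃ a ≤ 10, ∃ b ≤ 10, ∀ h : ℝ, |h| < ρ → (z.1, z.2 + h) ∈ FW k ω (j + a) (j' + b)) ∧
    volume {h : ℝ | |h| ≤ 5 * ρ ∧ (z.1, z.2 + h) ∈ EW k θ ω j j'} ≤ ENNReal.ofReal (κ * ρ)

def S_rm1 : Prop := ∀ (ω : ℝ) (J I : ℕ) (v v' w : ℕ → ℝ), 10 ^ 6 ≤ ω → PF ω J I v v' → v 0 = v' 0 →
  (∀ l ≤ J, w l = v (J - l)) → (∀ l ≤ I, w (J + l) = v' l) → PR ω J I w

def S_rm2 : Prop := ∀ (ω : ℝ) (M : ℕ) (w : ℕ → ℝ), 10 ^ 6 ≤ ω →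
  ((Pairs M 12).filter fun p => PR ω p.1 p.2 w).card ≤ 1000

/-! ### measure -/

def S_meas : Prop := ∀ (k θ ω : ℝ) (i j : ℕ),
  (MeasurableSet (Unc k θ) ∧ Per (· ∈ Unc k θ)) ∧
  (MeasurableSet (IrrN k ω i) ∧ Per (· ∈ IrrN k ω i)) ∧
  (MeasurableSet (IrrD k ω i) ∧ Per (· ∈ IrrD k ω i)) ∧
  (MeasurableSet (DI k ω i) ∧ Per (· ∈ DI k ω i)) ∧
  (MeasurableSet (EW k θ ω i j) ∧ Per (· ∈ EW k θ ω i j)) ∧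
  (MeasurableSet (FW k ω i j) ∧ Per (· ∈ FW k ω i j)) ∧
  (MeasurableSet {z : ℝ × ℝ | PR ω i j (wd k z.swap)} ∧
    Per fun z : ℝ × ℝ => PR ω i j (wd k z.swap)) ∧
  (Continuous (df k ω i) ∧ Per (df k ω i) ∧ Integrable (df k ω i) mu)

def S_inv : Prop := IsProbabilityMeasure mu ∧ MeasurePreserving Prod.swap mu mu ∧
  (∀ (k : ℝ) (n : ℕ) (S : Set (ℝ × ℝ)), MeasurableSet S → Per (· ∈ S) →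
    mu ((Tm k)^[n] ⁻¹' S) = mu S) ∧
  (∀ (k : ℝ) (n : ℕ) (F : ℝ × ℝ → ℝ), Measurable F → Per F → Integrable F mu →
    Integrable (fun z => F ((Tm k)^[n] z)) mu ∧ ∫ z, F ((Tm k)^[n] z) ∂mu = ∫ z, F z ∂mu) ∧
  ∀ (k : ℝ) (M : ℕ) (S : Set (ℝ × ℝ)), MeasurableSet S → Per (· ∈ S) →
    Integrable (fun z => (((Finset.range M).filter fun t => (Tm k)^[t] z ∈ S).card : ℝ)) mu ∧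
    ∫ z, (((Finset.range M).filter fun t => (Tm k)^[t] z ∈ S).card : ℝ) ∂mu = M * mu.real S

def S_unc : Prop := ∀ k θ ω : ℝ, Big k θ ω → mu.real (Unc k θ) ≤ 10 ^ 5 * θ ∧
  ∀ M : ℕ, 1 ≤ M → ∫ z, df k ω M z ∂mu ≤ M * log (4 / θ) + M * log (ω ^ 10000) * (M * θ)

def S_wg : Prop := ∀ θ κ : ℝ, 0 < θ → θ ≤ 1 → 0 < κ → ∃ ω₀ : ℝ, ∀ k ω : ℝ, Big k θ ω → ω₀ ≤ ω →
  ∀ M : ℕ, ∑ p ∈ Pairs M 2, mu.real (EW k θ ω p.1 p.2) ≤ κ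

/-- a full length stable curve through `z` -/
structure Cv (k ω : ℝ) (N : ℕ) (z : ℝ × ℝ) (s : ℝ → ℝ) : Prop where
  ph : ∃ φ : ℕ → ℝ, SolN (wd k z) φ N ∧ φ 0 = 1 ∧ ∀ n, 1 ≤ n → n ≤ N → pn φ n * ω ^ (9800 * n) ≤ 1
  top : ∃ u, (u = N ∨ u = N + 1) ∧ ω ^ (9996 * N) ≤ 2 * |D (wd k z) u| ∧
    ∀ a ∈ Icc (0 : ℝ) 1, X k a (s a) u = X k z.1 z.2 u
  base : s z.1 = z.2
  lip : ∀ a ∈ Icc (0 : ℝ) 1, ∀ a' ∈ Icc (0 : ℝ) 1, |s a - s a'| ≤ |a - a'| / 10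
  sh : ∀ a ∈ Icc (0 : ℝ) 1, ∀ l, 1 ≤ l → l ≤ N →
    |X k a (s a) l - X k z.1 z.2 l| * ω ^ (9800 * l) ≤ 10
  sh' : ∀ a ∈ Icc (0 : ℝ) 1,
    |X k a (s a) (N + 1) - X k z.1 z.2 (N + 1)| * ω ^ (9800 * N) ≤ 10 * ω ^ 9800

def S_curve : Prop := ∀ (k θ ω : ℝ) (N : ℕ) (z : ℝ × ℝ), Big k θ ω → z.1 ∈ Icc (0 : ℝ) 1 → 1 ≤ N →
  RegD (ω ^ 9996) N (wd k z) → ∃ s, Cv k ω N z s

def S_close : Prop := ∀ (k θ ω : ℝ) (N N' : ℕ) (z z' : ℝ × ℝ) (s s' : ℝ → ℝ), Big k θ ω →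
  Cv k ω N z s → Cv k ω N' z' s' → 10 ≤ N → N ≤ N' → ∀ a₀ ∈ Icc (0 : ℝ) 1, ∀ a ∈ Icc (0 : ℝ) 1,
  |s a₀ - s' a₀| * ω ^ (15000 * N) ≤ 2 → |s a - s' a| * ω ^ (15000 * N) ≤ 10

def S_strip : Prop := ∀ (k θ ω : ℝ) (N M : ℕ) (z : ℝ × ℝ) (s : ℝ → ℝ), Big k θ ω →
  Cv k ω N z s → 10 ≤ N → N ≤ M → pn (D (wd k z)) N < (ω ^ 9998) ^ N → ∀ a ∈ Icc (0 : ℝ) 1,
  ∀ b : ℝ, |b - s a| * ω ^ (15000 * N) ≤ 1 → (a, b) ∈ IrrN k ω M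

def S_cover : Prop := ∀ (k θ ω : ℝ) (M : ℕ), Big k θ ω →
  ∃ (u : Set (ℝ × ℝ)) (S : ℝ × ℝ → ℝ → ℝ) (w : ℝ × ℝ → ℝ), u.Countable ∧
    (∀ y ∈ u, 0 ≤ w y ∧ ∀ a ∈ Icc (0 : ℝ) 1, ∀ a' ∈ Icc (0 : ℝ) 1, |S y a - S y a'| ≤ |a - a'| / 10) ∧
    (∀ z ∈ Ico (0 : ℝ) 1 ×ˢ Ico (0 : ℝ) 1, z ∈ IrrD k ω M → z ∉ Unc k θ →
      ∃ y ∈ u, |z.2 - S y z.1| ≤ 20 * w y) ∧
    ∑' y : u, ENNReal.ofReal (w y) ≤ 3 * mu (IrrN k ω M)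

def S_ind : Prop := ∀ (k θ ω : ℝ) (M : ℕ), Big k θ ω →
  mu.real (DI k ω M) ≤ mu.real (Unc k θ) + 10 ^ 5 * mu.real (IrrN k ω M) ^ 2

def S_max : Prop := ∀ (k θ ω : ℝ) (N : ℕ), Big k θ ω → 1 ≤ N →
  N * log ω * mu.real (IrrN k ω N) ≤ ∫ z, df k ω (2 * N) z ∂mu

def S_dbl : Prop := ∀ (k θ ω : ℝ) (n : ℕ), Big k θ ω → 1 ≤ n →
  ∫ z, df k ω (4 * n) z ∂mu ≤ 18 * ∫ z, df k ω (2 * n) z ∂mu + 4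

def S_cnt : Prop := ∀ (k θ ω : ℝ) (M : ℕ), Big k θ ω → 1 ≤ M →
  ∫ z, df k ω M z ∂mu ≤ M * log (4 / θ) + log (ω ^ 10000) * 10 ^ 6 *
    (1 + log (M + 3) + M * (mu.real (Unc k θ) + mu.real (DI k ω M) +
      ∑ p ∈ Pairs (M + 2) 2, mu.real (EW k θ ω p.1 p.2)))

def S_boot : Prop := ∃ k₀ : ℝ, ∀ k, k₀ ≤ k → ∃ θ ω : ℝ, Big k θ ω ∧
  ∀ N, mu.real (IrrN k ω N) ≤ 1 / 2

def S_yom : Prop := ∀ (k θ ω ρ a : ℝ) (c : ℕ → ℝ) (n : ℕ), Big k θ ω → 0 < ρ → ρ ≤ 1 / 28 →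
  volume {b : ℝ | (∀ l, 1 ≤ l → l ≤ n + 1 → |X k a b l - c l| ≤ ρ) ∧
    ω ^ (9998 * n) ≤ pn (D (wd k (a, b))) n} ≤ ENNReal.ofReal (1 / ω ^ (4000 * n))

def S_ent : Prop := ∀ k θ ω : ℝ, Big k θ ω → (∀ N, mu.real (IrrN k ω N) ≤ 1 / 2) →
  0 < ksEntropy volume (stdMap k)

end

end Vale.Agent.P108
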