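import Vale.Agent.P108.Basic
import Vale.Agent.P108.Stm

/-! P108: from growth of the Dirichlet solution to positive entropy. -/

namespace Vale.Agent.P108

open MeasureTheory Filter Real Set

namespace EntAux

theorem pt_ineq {p g ε : ℝ} (hg : 0 ≤ g) (hgp : g ≤ p) (hp : p ≤ 1) (hε : g ≤ ε) :
    g * (-log ε) + g - p ≤ negMulLog p := by
  have hp0 : 0 ≤ p := hg.trans hgp
  rcases hg.eq_or_lt with rfl | hg
  · have := negMulLog_nonneg hp0 hp
    simp; linarith
  have hp1 : 0 < p := hg.trans_le hgp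
  have h1 : log p ≤ 0 := log_nonpos hp0 hp
  have h2 : log (p / g) ≤ p / g - 1 := log_le_sub_one_of_pos (by positivity)
  rw [log_div hp1.ne' hg.ne'] at h2
  have h3 : log g ≤ log ε := log_le_log hg hε
  have h4 : g * (log p - log g) ≤ p - g := by
    calc g * (log p - log g) ≤ g * (p / g - 1) := by gcongr
      _ = p - g := by field_simp
  unfold negMulLog
  nlinarith

theorem shannon_ge {Ω ι : Type} [MeasurableSpace Ω] [Fintype ι] (μ : Measure Ω)
    [IsProbabilityMeasure μ] (Q : Ω → ι) (hQ : ∀ i, MeasurableSet (Q ⁻¹' {i})) {G : Set Ω}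
    {ε : ℝ} (hε : ε ≤ 1) (hε0 : 0 ≤ ε) (h2 : 1 / 2 ≤ μ.real G)
    (h : ∀ i, μ.real (Q ⁻¹' {i} ∩ G) ≤ ε) : 1 / 2 * (-log ε) - 1 ≤ shannon μ Q := by
  classical
  have s1 : ∑ i, μ.real (Q ⁻¹' {i}) = 1 := by
    rw [sum_measureReal_preimage_singleton _ fun i _ => hQ i]; simp
  have s2 : ∑ i, μ.real (Q ⁻¹' {i} ∩ G) = μ.real G := by
    have := sum_measureReal_preimage_singleton (μ := μ.restrict G) Finset.univ
      (f := Q) fun i _ => hQ i
    simp only [measureReal_restrict_apply (hQ _)] at this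
    rw [this]; simp
  have hl : 0 ≤ -log ε := neg_nonneg.2 (log_nonpos hε0 hε)
  calc _ ≤ μ.real G * (-log ε) + μ.real G - 1 := by nlinarith
    _ = ∑ i, (μ.real (Q ⁻¹' {i} ∩ G) * (-log ε) + μ.real (Q ⁻¹' {i} ∩ G) - μ.real (Q ⁻¹' {i})) := by
        rw [Finset.sum_sub_distrib, Finset.sum_add_distrib, ← Finset.sum_mul, s1, s2]
    _ ≤ _ := Finset.sum_le_sum fun i _ =>
        pt_ineq measureReal_nonneg (measureReal_mono inter_subset_left) measureReal_le_one (h i)

/-- the projection to the torus -/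
noncomputable def pr (z : ℝ × ℝ) : UnitAddCircle × UnitAddCircle :=
  ((z.2 : UnitAddCircle), ((z.2 - z.1 : ℝ) : UnitAddCircle))

theorem mp_mk : MeasurePreserving (fun x : ℝ => (x : UnitAddCircle))
    (volume.restrict (Ico 0 1)) volume := by
  have := AddCircle.measurePreserving_mk 1 0
  rwa [zero_add, ← Measure.restrict_congr_set Ico_ae_eq_Ioc] at this

theorem mp_pr : MeasurePreserving pr mu volume := by
  have h1 := mp_mk.prod mp_mk
  rw [Measure.prod_restrict] at h1
  have h2 := measurePreserving_prod_sub_swap (volume : Measure UnitAddCircle) volume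
  have h3 := (MeasurePreserving.id (volume : Measure UnitAddCircle)).prod
    (Measure.measurePreserving_neg (volume : Measure UnitAddCircle))
  have h := h3.comp (h2.comp h1)
  have e : pr = Prod.map id Neg.neg ∘ (fun z : UnitAddCircle × UnitAddCircle => (z.2, z.1 - z.2)) ∘
      Prod.map (fun x : ℝ => (x : UnitAddCircle)) fun x : ℝ => (x : UnitAddCircle) := by
    funext z; simp [pr]
  rw [e]; exact h

theorem std_pr (k : ℝ) (z : ℝ × ℝ) : stdMap k (pr z) = pr (Tm k z) := by
  have e : sinT (z.2 : UnitAddCircle) = sin (2 * π * z.2) := sin_per.lift_coe _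
  simp only [stdMap, pr, Tm, e, ← AddCircle.coe_add]
  congr 2 <;> ring

theorem iter_pr (k : ℝ) (z : ℝ × ℝ) (t : ℕ) : (stdMap k)^[t] (pr z) = pr ((Tm k)^[t] z) := by
  induction t with
  | zero => rfl
  | succ t ih => rw [Function.iterate_succ_apply', ih, std_pr, Function.iterate_succ_apply']

theorem meas_std (k : ℝ) : Measurable (stdMap k) := by
  have h : Continuous sinT := continuous_quot_lift _ (by fun_prop)
  have h2 : Continuous fun x : ℝ => (x : UnitAddCircle) := AddCircle.continuous_mk' 1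
  have h3 : Continuous fun z : UnitAddCircle × UnitAddCircle =>
      ((k * sinT z.1 : ℝ) : UnitAddCircle) :=
    h2.comp (continuous_const.mul (h.comp continuous_fst))
  exact (((continuous_fst.add continuous_snd).add h3).prodMk (continuous_snd.add h3)).measurable

/-- the partition -/
noncomputable def cell (r : ℕ) (z : UnitAddCircle × UnitAddCircle) : Fin (r + 1) :=
  Fin.ofNat (r + 1) ⌊((r : ℝ) + 1) * (AddCircle.measurableEquivIco 1 0 z.1 : ℝ)⌋₊

theorem meas_cell (r : ℕ) : Measurable (cell r) := by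
  unfold cell
  refine (measurable_of_countable (Fin.ofNat (r + 1))).comp (Nat.measurable_floor.comp ?_)
  exact measurable_const.mul (measurable_subtype_coe.comp
    ((AddCircle.measurableEquivIco 1 0).measurable.comp measurable_fst))

theorem cell_close {r : ℕ} {z z' : ℝ × ℝ} (h : cell r (pr z) = cell r (pr z')) :
    |Int.fract z.2 - Int.fract z'.2| ≤ 1 / ((r : ℝ) + 1) := by
  have e : ∀ x : ℝ, (AddCircle.measurableEquivIco 1 0 (x : UnitAddCircle) : ℝ) = Int.fract x := by
    intro x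
    have := AddCircle.coe_equivIco_mk_apply (1 : ℝ) x
    rw [div_one, mul_one] at this
    exact this
  have hr : (0 : ℝ) < r + 1 := by positivity
  have lt : ∀ x : ℝ, ⌊((r : ℝ) + 1) * Int.fract x⌋₊ < r + 1 := by
    intro x
    rw [Nat.floor_lt (mul_nonneg hr.le (Int.fract_nonneg x))]
    push_cast
    nlinarith [Int.fract_lt_one x]
  have h1 : ⌊((r : ℝ) + 1) * Int.fract z.2⌋₊ = ⌊((r : ℝ) + 1) * Int.fract z'.2⌋₊ := by
    have := congrArg Fin.val h
    simp only [cell, pr, e, Fin.val_ofNat] at this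
    rwa [Nat.mod_eq_of_lt (lt _), Nat.mod_eq_of_lt (lt _)] at this
  have a1 := Nat.floor_le (mul_nonneg hr.le (Int.fract_nonneg z.2))
  have a2 := Nat.floor_le (mul_nonneg hr.le (Int.fract_nonneg z'.2))
  have b1 := Nat.lt_floor_add_one (((r : ℝ) + 1) * Int.fract z.2)
  have b2 := Nat.lt_floor_add_one (((r : ℝ) + 1) * Int.fract z'.2)
  rw [h1] at a1 b1
  rw [le_div_iff₀ hr, ← abs_of_pos hr, ← abs_mul, abs_le]
  constructor <;> nlinarith

theorem real_close {x y ρ : ℝ} (h : |Int.fract x - Int.fract y| ≤ ρ) (h2 : |x - y| + ρ < 1) :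
    |x - y| ≤ ρ := by
  have e : x - y = (Int.fract x - Int.fract y) + ((⌊x⌋ - ⌊y⌋ : ℤ) : ℝ) := by
    push_cast; rw [Int.fract, Int.fract]; ring
  have h3 : |((⌊x⌋ - ⌊y⌋ : ℤ) : ℝ)| < 1 := by
    have : ((⌊x⌋ - ⌊y⌋ : ℤ) : ℝ) = (x - y) - (Int.fract x - Int.fract y) := by linarith
    rw [this]
    linarith [abs_sub (x - y) (Int.fract x - Int.fract y)]
  have h4 : (⌊x⌋ - ⌊y⌋ : ℤ) = 0 := by
    rw [← Int.cast_abs, ← Int.cast_one, Int.cast_lt] at h3
    exact Int.abs_lt_one_iff.1 h3
  rw [e, h4]; simpa using h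

theorem tube {k θ ω a b b' ρ : ℝ} (B : Big k θ ω) (hρ : ρ * (4 * ω ^ 10000) ≤ 1) (hρ0 : 0 ≤ ρ)
    (hb : b ∈ Ico (0 : ℝ) 1) (hb' : b' ∈ Ico (0 : ℝ) 1) (n : ℕ)
    (h : ∀ l, 1 ≤ l → l ≤ n + 1 → |Int.fract (X k a b l) - Int.fract (X k a b' l)| ≤ ρ) :
    ∀ l, l ≤ n → |X k a b l - X k a b' l| ≤ ρ ∧ |X k a b (l + 1) - X k a b' (l + 1)| ≤ ρ := by
  intro l
  induction l with
  | zero =>
    intro _
    refine ⟨by simpa [X] using hρ0, ?_⟩
    have := h 1 le_rfl (by omega)
    simp only [X, zero_add] at this ⊢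
    rwa [Int.fract_eq_self.2 hb, Int.fract_eq_self.2 hb'] at this
  | succ l ih =>
    intro hl
    obtain ⟨h0, h1⟩ := ih (by omega)
    refine ⟨h1, real_close (h _ (by omega) (by omega)) ?_⟩
    have h2 := B.X_lip (X k a b' l) (X k a b' (l + 1)) (X k a b l) (X k a b (l + 1)) 1
    rw [X_shift, X_shift, X_shift, X_shift, mul_one] at h2
    have hL : 2 ≤ ω ^ 10000 := (B.bd (a, b)).two_le
    have h3 := abs_nonneg (X k a b (l + 1) - X k a b' (l + 1))
    have h4 : ω ^ 10000 * (|X k a b (l + 1) - X k a b' (l + 1)| + |X k a b l - X k a b' l|)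
        ≤ ω ^ 10000 * (2 * ρ) := mul_le_mul_of_nonneg_left (by linarith) (by linarith)
    have h5 : |X k a b (l + 1 + 1) - X k a b' (l + 1 + 1)| ≤ ω ^ 10000 * (2 * ρ) := by
      have e : l + (1 + 1) = l + 1 + 1 := rfl
      rw [e] at h2
      linarith
    generalize ω ^ 10000 = L at *
    nlinarith

end EntAux

open EntAux in
theorem s_ent (hl : S_l1) (hy : S_yom) (_hm : S_meas) (_hi : S_inv) : S_ent := by
  intro k θ ω B hI
  have hω := B.om
  haveI : IsProbabilityMeasure mu := ⟨by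
    simp [mu, Measure.volume_eq_prod, Measure.prod_prod]⟩
  set r := ⌈28 * ω ^ 10000⌉₊ with hr
  have hL : 2 ≤ ω ^ 10000 := (B.bd (0, 0)).two_le
  have hr1 : 28 * ω ^ 10000 ≤ r := Nat.le_ceil _
  set ρ : ℝ := 1 / ((r : ℝ) + 1) with hρ
  have hρ0 : 0 < ρ := by positivity
  have hρ1 : ρ * (4 * ω ^ 10000) ≤ 1 := by
    rw [hρ, one_div_mul_eq_div, div_le_one (by positivity)]; linarith
  have hρ2 : ρ ≤ 1 / 28 := one_div_le_one_div_of_le (by norm_num) (by linarith)
  have key : ∀ n : ℕ, 1 ≤ n → (1 : ℝ) ≤ shannon volume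
      (fun x (t : Fin (n + 1)) => cell r ((stdMap k)^[t] x)) / ((n + 1 : ℕ) : ℝ) := by
    intro n hn
    set Q := fun x (t : Fin (n + 1)) => cell r ((stdMap k)^[t] x) with hQ
    have mQ : Measurable Q := measurable_pi_lambda _ fun t =>
      (meas_cell r).comp ((meas_std k).iterate t)
    have e1 : shannon volume Q = shannon mu (Q ∘ pr) := by
      unfold shannon
      refine Finset.sum_congr rfl fun i _ => ?_
      rw [preimage_comp, mp_pr.measureReal_preimage
        (mQ (measurableSet_singleton i)).nullMeasurableSet]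
    have mQ' : ∀ i, MeasurableSet ((Q ∘ pr) ⁻¹' {i}) := fun i =>
      (mQ.comp mp_pr.measurable) (measurableSet_singleton i)
    have mG : MeasurableSet (IrrN k ω n)ᶜ := by
      have : (IrrN k ω n)ᶜ = ⋂ m, ⋂ (_ : 1 ≤ m), ⋂ (_ : m ≤ n),
          {z | (ω ^ 9999) ^ m ≤ NN (wd k z) m} := by
        ext z; simp [IrrN, RegN]
      rw [this]
      exact MeasurableSet.iInter fun m => MeasurableSet.iInter fun _ => MeasurableSet.iInter fun _ =>
        (isClosed_le continuous_const (cont_NN (cont_wd k) m)).measurableSet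
    have hG : 1 / 2 ≤ mu.real (IrrN k ω n)ᶜ := by
      rw [probReal_compl_eq_one_sub mG.of_compl]; linarith [hI n]
    have hε0 : 0 < 1 / ω ^ (4000 * n) := one_div_pos.2 (pw_pos hω _)
    have hε1 : 1 / ω ^ (4000 * n) ≤ 1 := by
      rw [div_le_one (pw_pos hω _)]; exact one_le_pw hω _
    have hA : ∀ i, mu.real ((Q ∘ pr) ⁻¹' {i} ∩ (IrrN k ω n)ᶜ) ≤ 1 / ω ^ (4000 * n) := by
      intro i
      refine ENNReal.toReal_le_of_le_ofReal hε0.le ?_
      have mS := (mQ' i).inter mG
      set S := (Q ∘ pr) ⁻¹' {i} ∩ (IrrN k ω n)ᶜ with hS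
      rw [mu, Measure.volume_eq_prod, ← Measure.prod_restrict, Measure.prod_apply mS]
      have fib : ∀ a : ℝ, (volume.restrict (Ico (0 : ℝ) 1)) (Prod.mk a ⁻¹' S)
          ≤ ENNReal.ofReal (1 / ω ^ (4000 * n)) := by
        intro a
        rw [Measure.restrict_apply' measurableSet_Ico]
        rcases Set.eq_empty_or_nonempty (Prod.mk a ⁻¹' S ∩ Ico 0 1) with h | ⟨b', hb', hb1⟩
        · rw [h]; simp
        refine le_trans (measure_mono ?_) (hy k θ ω ρ a (X k a b') n B hρ0 hρ2)
        rintro b ⟨hb, hb2⟩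
        have hq : Q (pr (a, b)) = Q (pr (a, b')) := by
          have h1 : Q (pr (a, b)) = i := hb.1
          have h2 : Q (pr (a, b')) = i := hb'.1
          rw [h1, h2]
        have hc : ∀ l, 1 ≤ l → l ≤ n + 1 →
            |Int.fract (X k a b l) - Int.fract (X k a b' l)| ≤ ρ := by
          intro l h1 h2
          obtain ⟨t, rfl⟩ : ∃ t, l = t + 1 := ⟨l - 1, by omega⟩
          have := congrFun hq ⟨t, by omega⟩
          simp only [hQ, iter_pr, Tm_iter] at this
          exact cell_close this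
        refine ⟨fun l h1 h2 => ?_, ?_⟩
        · obtain ⟨t, rfl⟩ : ∃ t, l = t + 1 := ⟨l - 1, by omega⟩
          exact (tube B hρ1 hρ0.le hb2 hb1 n hc t (by omega)).2
        · have hreg : RegN (ω ^ 9999) n (wd k (a, b)) := not_not.1 hb.2
          have h1 := hl ω 9999 n _ hω (B.bd _) (by norm_num) (by norm_num) hreg n le_rfl
          have h2 := pw_lt hω (show 9998 * n < 9999 * n by omega)
          have h3 := pw_pos hω (9998 * n)
          linarith
      calc _ ≤ ∫⁻ _ in Ico (0 : ℝ) 1, ENNReal.ofReal (1 / ω ^ (4000 * n)) := lintegral_mono fib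
        _ = _ := by simp
    have h := shannon_ge mu (Q ∘ pr) mQ' hε1 hε0.le hG hA
    rw [one_div (ω ^ (4000 * n)), log_inv, neg_neg, log_pow] at h
    have hlog : 1 ≤ log ω := by
      rw [le_log_iff_exp_le (by linarith)]
      linarith [exp_one_lt_d9]
    have hn' : (1 : ℝ) ≤ n := by exact_mod_cast hn
    rw [e1, le_div_iff₀ (by positivity)]
    push_cast at h ⊢
    nlinarith
  have h1 : (1 : ENNReal) ≤ liminf (fun N : ℕ => ENNReal.ofReal
      (shannon volume (fun x (t : Fin N) => cell r ((stdMap k)^[t] x)) / N)) atTop := by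
    refine le_liminf_of_le (by isBoundedDefault) ?_
    filter_upwards [eventually_ge_atTop 2] with N hN
    obtain ⟨n, rfl⟩ : ∃ n, N = n + 1 := ⟨N - 1, by omega⟩
    exact ENNReal.one_le_ofReal.2 (key n (by omega))
  refine lt_of_lt_of_le one_pos (h1.trans ?_)
  unfold ksEntropy
  exact le_iSup_of_le (r + 1) (le_iSup_of_le (cell r) (le_iSup_of_le (meas_cell r) le_rfl))

end Vale.Agent.P108
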