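import Vale.Agent.P108.Basic

/-! P108: the independence estimate. -/

namespace Vale.Agent.P108

open MeasureTheory Filter Real Set

namespace Ind

def Lip (S : ℝ → ℝ) : Prop :=
  ∀ a ∈ Icc (0 : ℝ) 1, ∀ a' ∈ Icc (0 : ℝ) 1, |S a - S a'| ≤ |a - a'| / 10

def Z (S S' : ℝ → ℝ) (W W' : ℝ) : Set (ℝ × ℝ) :=
  {z | z.1 ∈ Icc (0 : ℝ) 1 ∧ z.2 ∈ Icc (0 : ℝ) 1 ∧ |z.2 - S z.1| ≤ W ∧ |z.1 - S' z.2| ≤ W'}

theorem ext {S : ℝ → ℝ} (h : Lip S) : ∃ T : ℝ → ℝ, Continuous T ∧ ∀ a ∈ Icc (0 : ℝ) 1, T a = S a := by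
  have h1 : LipschitzOnWith 1 S (Icc 0 1) := LipschitzOnWith.of_dist_le_mul fun a ha a' ha' => by
    rw [Real.dist_eq, Real.dist_eq, NNReal.coe_one]
    linarith [h a ha a' ha', abs_nonneg (a - a')]
  refine ⟨fun a => S (projIcc 0 1 zero_le_one a), ?_, fun a ha => ?_⟩
  · exact h1.continuousOn.domRestrict.comp continuous_projIcc
  · simp only [projIcc_of_mem _ ha]

theorem strip {T : ℝ → ℝ} (hT : Continuous T) (c r W : ℝ) :
    MeasurableSet {z : ℝ × ℝ | |z.1 - c| ≤ r ∧ |z.2 - T z.1| ≤ W} ∧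
    volume {z : ℝ × ℝ | |z.1 - c| ≤ r ∧ |z.2 - T z.1| ≤ W} ≤
      ENNReal.ofReal (2 * W) * ENNReal.ofReal (2 * r) := by
  have hm : MeasurableSet {z : ℝ × ℝ | |z.1 - c| ≤ r ∧ |z.2 - T z.1| ≤ W} :=
    ((isClosed_le (f := fun z : ℝ × ℝ => |z.1 - c|) (by fun_prop) continuous_const).inter
      (isClosed_le (f := fun z : ℝ × ℝ => |z.2 - T z.1|) (by fun_prop)
        continuous_const)).measurableSet
  refine ⟨hm, ?_⟩
  rw [Measure.volume_eq_prod, Measure.prod_apply hm, ← Real.volume_closedBall c r,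
    ← setLIntegral_const, ← lintegral_indicator Metric.isClosed_closedBall.measurableSet]
  refine lintegral_mono fun x => ?_
  by_cases hx : x ∈ Metric.closedBall c r
  · rw [indicator_of_mem hx, ← Real.volume_closedBall (T x) W]
    exact measure_mono fun y hy => hy.2
  · rw [indicator_of_notMem hx]
    refine le_of_eq (measure_mono_null (fun y hy => (hx hy.1).elim) measure_empty)

theorem half {S S' : ℝ → ℝ} (h : Lip S) (h' : Lip S') {W W' : ℝ} (h0 : 0 ≤ W) (hW : W ≤ W') :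
    ∃ A : Set (ℝ × ℝ), MeasurableSet A ∧ Z S S' W W' ⊆ A ∧
      volume A ≤ ENNReal.ofReal (10 * W * W') := by
  rcases (Z S S' W W').eq_empty_or_nonempty with he | ⟨z0, a1, a2, a3, a4⟩
  · exact ⟨∅, MeasurableSet.empty, he.le, by simp⟩
  obtain ⟨T, hT, hTS⟩ := ext h
  obtain ⟨m1, m2⟩ := strip hT z0.1 (5 / 2 * W') W
  refine ⟨_, m1, ?_, m2.trans (le_of_eq ?_)⟩
  · rintro z ⟨b1, b2, b3, b4⟩
    refine ⟨?_, by rwa [hTS _ b1]⟩
    have c1 := h _ b1 _ a1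
    have c2 := h' _ b2 _ a2
    have c3 : |z.2 - z0.2| ≤ 2 * W + |z.1 - z0.1| / 10 := by
      rw [abs_le] at a3 b3 c1
      exact abs_le.2 ⟨by linarith [a3.2, b3.1, c1.1], by linarith [a3.1, b3.2, c1.2]⟩
    have c4 : |z.1 - z0.1| ≤ 2 * W' + |z.2 - z0.2| / 10 := by
      rw [abs_le] at a4 b4 c2
      exact abs_le.2 ⟨by linarith [a4.2, b4.1, c2.1], by linarith [a4.1, b4.2, c2.2]⟩
    linarith
  · rw [← ENNReal.ofReal_mul (by linarith)]
    congr 1
    ring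

theorem vol {S S' : ℝ → ℝ} (h : Lip S) (h' : Lip S') {W W' : ℝ} (h0 : 0 ≤ W) (h0' : 0 ≤ W') :
    volume (Z S S' W W') ≤ ENNReal.ofReal (10 * W * W') := by
  rcases le_total W W' with hW | hW
  · obtain ⟨A, -, h2, h3⟩ := half h h' h0 hW
    exact (measure_mono h2).trans h3
  · obtain ⟨A, h1, h2, h3⟩ := half h' h h0' hW
    have hs : Z S S' W W' ⊆ Prod.swap ⁻¹' A := fun z hz => h2 ⟨hz.2.1, hz.1, hz.2.2.2, hz.2.2.1⟩
    refine (measure_mono hs).trans ?_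
    rw [Measure.volume_eq_prod, Measure.measurePreserving_swap.measure_preimage
      h1.nullMeasurableSet, mul_right_comm]
    exact h3

theorem unc_swap {k θ : ℝ} {z : ℝ × ℝ} (h : z.swap ∈ Unc k θ) : z ∈ Unc k θ := by
  obtain ⟨l, hl, h⟩ := h
  exact ⟨l, hl, h.symm⟩

end Ind

theorem s_ind (hc : S_cover) (_hm : S_meas) (hi : S_inv) : S_ind := by
  intro k θ ω M hb
  obtain ⟨u, S, w, hu, h1, h2, h3⟩ := hc k θ ω M hb
  have := hi.1
  have := hu.to_subtype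
  have hs : (DI k ω M \ Unc k θ) ∩ (Ico 0 1 ×ˢ Ico 0 1) ⊆
      ⋃ y : u, ⋃ y' : u, Ind.Z (S y) (S y') (20 * w y) (20 * w y') := by
    rintro z ⟨⟨⟨a1, a2⟩, a3⟩, a4⟩
    obtain ⟨y, hy, b1⟩ := h2 z a4 a1 a3
    obtain ⟨y', hy', b2⟩ := h2 z.swap ⟨a4.2, a4.1⟩ a2 fun h => a3 (Ind.unc_swap h)
    exact mem_iUnion₂.2 ⟨⟨y, hy⟩, ⟨y', hy'⟩, Ico_subset_Icc_self a4.1, Ico_subset_Icc_self a4.2,
      b1, b2⟩
  have hv : ∀ y y' : u, volume (Ind.Z (S y) (S y') (20 * w y) (20 * w y')) ≤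
      4000 * ENNReal.ofReal (w y) * ENNReal.ofReal (w y') := by
    intro y y'
    have p1 := (h1 y y.2).1
    have p2 := (h1 y' y'.2).1
    refine (Ind.vol (h1 y y.2).2 (h1 y' y'.2).2 (by linarith) (by linarith)).trans (le_of_eq ?_)
    rw [show 10 * (20 * w y) * (20 * w y') = 4000 * w y * w y' by ring,
      ENNReal.ofReal_mul (by positivity), ENNReal.ofReal_mul (by positivity)]
    simp
  have h4 : mu (DI k ω M \ Unc k θ) ≤
      4000 * (3 * mu (IrrN k ω M)) * (3 * mu (IrrN k ω M)) := by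
    rw [mu, Measure.restrict_apply' (measurableSet_Ico.prod measurableSet_Ico), ← mu]
    refine (measure_mono hs).trans ((measure_iUnion_le _).trans ?_)
    refine (ENNReal.tsum_le_tsum fun y => (measure_iUnion_le _).trans
      (ENNReal.tsum_le_tsum fun y' => hv y y')).trans ?_
    simp only [ENNReal.tsum_mul_left, ENNReal.tsum_mul_right]
    gcongr
  have h5 : mu.real (DI k ω M \ Unc k θ) ≤ 36000 * mu.real (IrrN k ω M) ^ 2 := by
    have hf : mu (IrrN k ω M) ≠ ⊤ := measure_ne_top _ _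
    refine (ENNReal.toReal_mono (by finiteness) h4).trans (le_of_eq ?_)
    simp only [ENNReal.toReal_mul, Measure.real, ENNReal.toReal_ofNat]
    ring
  have h6 : mu.real (DI k ω M) ≤ mu.real (Unc k θ) + mu.real (DI k ω M \ Unc k θ) :=
    (measureReal_mono (by rw [union_sdiff_self]; exact subset_union_right)).trans (measureReal_union_le _ _)
  nlinarith [sq_nonneg (mu.real (IrrN k ω M))]

end Vale.Agent.P108
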