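import Vale.Agent.P108.Basic

/-! P108: measurability of the events and invariance of the measure. -/

namespace Vale.Agent.P108

open MeasureTheory Filter Real Set Topology
open scoped Classical

namespace Inv

/-! ### measurability -/

section meas

variable {v v' : ℝ × ℝ → ℕ → ℝ}

theorem mD (h : ∀ l, Continuous fun a => v a l) (l : ℕ) : Measurable fun a => D (v a) l :=
  (cont_D h l).measurable

theorem mE (h : ∀ l, Continuous fun a => v a l) (l : ℕ) : Measurable fun a => E (v a) l :=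
  (cont_E h l).measurable

theorem mNN (h : ∀ l, Continuous fun a => v a l) (l : ℕ) : Measurable fun a => NN (v a) l :=
  (cont_NN h l).measurable

theorem mProf (h : ∀ l, Continuous fun a => v a l) (ω : ℝ) (f : ℕ) (C : ℝ) (J : ℕ) :
    Measurable fun a => Prof ω f C J (v a) :=
  Measurable.forall fun l => measurable_const.imp
    (((mD h l).abs.mul_const _).le' ((mD h J).abs.const_mul _))

theorem mCl (k θ : ℝ) {f : ℝ × ℝ → ℝ} (hf : Continuous f) : Measurable fun a => Cl k θ (f a) :=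
  measurable_const.le' (hf.measurable.sub_const 2).abs

theorem mTh (h : ∀ l, Continuous fun a => v a l) (h' : ∀ l, Continuous fun a => v' a l)
    (J I : ℕ) : Measurable fun a => Th J I (v a) (v' a) :=
  ((h 0).measurable.add ((mE h J).div (mD h J))).add ((mE h' I).div (mD h' I))

theorem mRegN (h : ∀ l, Continuous fun a => v a l) (μ : ℝ) (N : ℕ) :
    Measurable fun a => RegN μ N (v a) :=
  Measurable.forall fun n => measurable_const.imp (measurable_const.imp
    (measurable_const.le' (mNN h n)))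

theorem mRegD (h : ∀ l, Continuous fun a => v a l) (μ : ℝ) (N : ℕ) :
    Measurable fun a => RegD μ N (v a) :=
  Measurable.forall fun n => measurable_const.imp
    (measurable_const.le' (cont_pnD h n).measurable)

theorem PE_iff (ω : ℝ) (cl : ℝ → Prop) (j j' : ℕ) (v v' : ℕ → ℝ) : PE ω cl j j' v v' ↔
    1 ≤ j ∧ 1 ≤ j' ∧ Prof ω 9800 1 j v ∧ Prof ω 9800 1 j' v' ∧ (∀ l ≤ 12, cl (v (j + l))) ∧
    (∀ l ≤ 12, cl (v' (j' + l))) ∧ |D v j| ≤ ω ^ 20000 * |D v' j'| ∧
    |D v' j'| ≤ ω ^ 20000 * |D v j| ∧ ∀ a ≤ 10, ∀ b ≤ 10, |Th (j + a + 1) (j' + b + 1) v v'| ≤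
      3 / |D v (j + a + 1) * D v (j + a + 2)| + 3 / |D v' (j' + b + 1) * D v' (j' + b + 2)| :=
  ⟨fun ⟨a, b, c, d, e, f, g, h, i⟩ => ⟨a, b, c, d, e, f, g, h, i⟩,
    fun ⟨a, b, c, d, e, f, g, h, i⟩ => ⟨a, b, c, d, e, f, g, h, i⟩⟩

theorem PF_iff (ω : ℝ) (J I : ℕ) (v v' : ℕ → ℝ) : PF ω J I v v' ↔
    1 ≤ J ∧ 1 ≤ I ∧ Prof ω 9000 2 J v ∧ Prof ω 9000 2 I v' ∧ |D v J| ≤ ω ^ 10000 * |D v' I| ∧
    |D v' I| ≤ ω ^ 10000 * |D v J| ∧ |Th J I v v'| * (|D v J| * |D v' I|) ≤ ω ^ 40000 :=
  ⟨fun ⟨a, b, c, d, e, f, g⟩ => ⟨a, b, c, d, e, f, g⟩,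
    fun ⟨a, b, c, d, e, f, g⟩ => ⟨a, b, c, d, e, f, g⟩⟩

theorem PR_iff (ω : ℝ) (J I : ℕ) (w : ℕ → ℝ) : PR ω J I w ↔
    1 ≤ J ∧ 1 ≤ I ∧ NN w (J + I - 1) ≤ ω ^ 50000 ∧
    (∀ n ≤ J - 1, ω ^ (9000 * n) ≤ ω ^ 10000 * NN w n) ∧
    ∀ n ≤ I - 1, ω ^ (9000 * n) ≤ ω ^ 10000 * NN (fun l => w (l + (J + I - 1 - n))) n :=
  ⟨fun ⟨a, b, c, d, e⟩ => ⟨a, b, c, d, e⟩, fun ⟨a, b, c, d, e⟩ => ⟨a, b, c, d, e⟩⟩

theorem mPE (h : ∀ l, Continuous fun a => v a l) (h' : ∀ l, Continuous fun a => v' a l)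
    (k θ ω : ℝ) (j j' : ℕ) : Measurable fun a => PE ω (Cl k θ) j j' (v a) (v' a) := by
  simp only [PE_iff]
  refine measurable_const.and (measurable_const.and ((mProf h _ _ _ _).and
    ((mProf h' _ _ _ _).and (Measurable.and ?_ (Measurable.and ?_ (Measurable.and ?_
    (Measurable.and ?_ ?_)))))))
  · exact Measurable.forall fun l => measurable_const.imp (mCl k θ (h _))
  · exact Measurable.forall fun l => measurable_const.imp (mCl k θ (h' _))
  · exact (mD h _).abs.le' ((mD h' _).abs.const_mul _)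
  · exact (mD h' _).abs.le' ((mD h _).abs.const_mul _)
  · exact Measurable.forall fun a => measurable_const.imp (Measurable.forall fun b =>
      measurable_const.imp ((mTh h h' _ _).abs.le'
        ((measurable_const.div ((mD h _).mul (mD h _)).abs).add
          (measurable_const.div ((mD h' _).mul (mD h' _)).abs))))

theorem mPF (h : ∀ l, Continuous fun a => v a l) (h' : ∀ l, Continuous fun a => v' a l)
    (ω : ℝ) (J I : ℕ) : Measurable fun a => PF ω J I (v a) (v' a) := by
  simp only [PF_iff]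
  refine measurable_const.and (measurable_const.and ((mProf h _ _ _ _).and
    ((mProf h' _ _ _ _).and (Measurable.and ?_ (Measurable.and ?_ ?_)))))
  · exact (mD h _).abs.le' ((mD h' _).abs.const_mul _)
  · exact (mD h' _).abs.le' ((mD h _).abs.const_mul _)
  · exact ((mTh h h' _ _).abs.mul ((mD h _).abs.mul (mD h' _).abs)).le' measurable_const

theorem mPR (h : ∀ l, Continuous fun a => v a l) (ω : ℝ) (J I : ℕ) :
    Measurable fun a => PR ω J I (v a) := by
  simp only [PR_iff]
  refine measurable_const.and (measurable_const.and (Measurable.and ?_ (Measurable.and ?_ ?_)))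
  · exact (mNN h _).le' measurable_const
  · exact Measurable.forall fun n => measurable_const.imp
      (measurable_const.le' ((mNN h _).const_mul _))
  · exact Measurable.forall fun n => measurable_const.imp
      (measurable_const.le' ((mNN (v := fun a l => v a (l + (J + I - 1 - n)))
        (fun l => h _) _).const_mul _))

end meas

theorem cw_swap (k : ℝ) (l : ℕ) : Continuous fun z : ℝ × ℝ => wd k z.swap l :=
  (cont_wd k l).comp continuous_swap

theorem cw_lf (k : ℝ) (l : ℕ) : Continuous fun z : ℝ × ℝ => wd k (lf k z) l :=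
  (cont_wd k l).comp (cont_lf k)

theorem per_of {α : Type} (k : ℝ) (F : (ℕ → ℝ) → (ℕ → ℝ) → (ℕ → ℝ) → α) :
    Per fun z => F (wd k z) (wd k z.swap) (wd k (lf k z)) := by
  intro z p q
  have h1 := per_wd k z p q
  have h2 := per_wd_swap k z p q
  have h3 := per_wd_lf k z p q
  simp only at h2 h3 ⊢
  rw [h1, h2, h3]

theorem int_of_cont {F : ℝ × ℝ → ℝ} (hF : Continuous F) : Integrable F mu := by
  have h : IntegrableOn F (Icc (0 : ℝ) 1 ×ˢ Icc (0 : ℝ) 1) volume :=
    hF.continuousOn.integrableOn_compact (isCompact_Icc.prod isCompact_Icc)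
  exact h.mono_set (prod_mono Ico_subset_Icc_self Ico_subset_Icc_self)

/-! ### invariance -/

theorem mu_eq : mu = (volume.restrict (Ico (0 : ℝ) 1)).prod (volume.restrict (Ico (0 : ℝ) 1)) := by
  rw [Measure.prod_restrict]
  rfl

theorem prob1 : IsProbabilityMeasure (volume.restrict (Ico (0 : ℝ) 1)) := ⟨by simp⟩

theorem prob : IsProbabilityMeasure mu := by
  have := prob1
  rw [mu_eq]
  infer_instance

theorem slice (A : Set ℝ) (hA : MeasurableSet A) (hp : ∀ x, x + 1 ∈ A ↔ x ∈ A) (c : ℝ) :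
    volume.restrict (Ico (0 : ℝ) 1) ((fun a => c - a) ⁻¹' A) =
      volume.restrict (Ico (0 : ℝ) 1) A := by
  have hm : Measurable fun a : ℝ => c - a := measurable_const.sub measurable_id
  rw [Measure.restrict_apply (hm hA), Measure.restrict_apply hA]
  have h1 : (fun a => c - a) ⁻¹' A ∩ Ico 0 1 =
      (fun a => c - a) ⁻¹' (A ∩ Ioc (c - 1) (c - 1 + 1)) := by
    ext a
    simp only [mem_inter_iff, mem_preimage, mem_Ico, mem_Ioc]
    constructor
    · rintro ⟨h1, h2, h3⟩
      exact ⟨h1, by linarith, by linarith⟩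
    · rintro ⟨h1, h2, h3⟩
      exact ⟨h1, by linarith, by linarith⟩
  rw [h1, (Measure.measurePreserving_sub_left volume c).measure_preimage
    (hA.inter measurableSet_Ioc).nullMeasurableSet]
  have hper : Function.Periodic (fun x => x ∈ A) (1 : ℝ) := fun x => propext (hp x)
  have : VAddInvariantMeasure (AddSubgroup.zmultiples (1 : ℝ)) ℝ volume :=
    ⟨fun c s _ => measure_preimage_add _ _ _⟩
  have h2 : volume (A ∩ Ioc (c - 1) (c - 1 + 1)) = volume (A ∩ Ioc 0 (0 + 1)) :=
    (isAddFundamentalDomain_Ioc one_pos (c - 1) volume).measure_set_eq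
      (isAddFundamentalDomain_Ioc one_pos 0 volume) hA fun g => Set.ext fun x =>
        (hper.map_vadd_zmultiples g x).to_iff
  rw [h2, zero_add]
  exact measure_congr (ae_eq_set_inter (ae_eq_refl A) Ico_ae_eq_Ioc.symm)

theorem key1 (k : ℝ) (S : Set (ℝ × ℝ)) (hS : MeasurableSet S) (hp : Per (· ∈ S)) :
    mu (Tm k ⁻¹' S) = mu S := by
  rw [mu_eq, Measure.prod_apply_symm ((cont_Tm k).measurable hS), Measure.prod_apply hS]
  refine lintegral_congr fun b => ?_
  rw [← slice (Prod.mk b ⁻¹' S) (measurable_prodMk_left hS) (fun x => ?_)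
    (2 * b + k * sin (2 * π * b))]
  · congr 1
    ext a
    simp only [mem_preimage, Tm]
    rw [show 2 * b - a + k * sin (2 * π * b) = 2 * b + k * sin (2 * π * b) - a by ring]
  · have := hp (b, x) 0 1
    simpa using this

theorem key (k : ℝ) (n : ℕ) (S : Set (ℝ × ℝ)) (hS : MeasurableSet S) (hp : Per (· ∈ S)) :
    mu ((Tm k)^[n] ⁻¹' S) = mu S := by
  induction n with
  | zero => rfl
  | succ n ih =>
    rw [Function.iterate_succ, preimage_comp, key1 k _ (((cont_Tm k).iterate n).measurable hS)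
      (hp.comp_iter k n), ih]

/-- reduction to the unit square -/
noncomputable def fr (z : ℝ × ℝ) : ℝ × ℝ := (Int.fract z.1, Int.fract z.2)

theorem fr_meas : Measurable fr := measurable_fst.fract.prodMk measurable_snd.fract

theorem per_fr : Per fr := fun z p q => by simp [fr]

theorem Per_fr {α : Type} {F : ℝ × ℝ → α} (h : Per F) (z : ℝ × ℝ) : F (fr z) = F z := by
  have := h z (-⌊z.1⌋) (-⌊z.2⌋)
  rw [← this]
  simp only [fr, Int.fract, Int.cast_neg, sub_eq_add_neg]

theorem mu_fr (S : Set (ℝ × ℝ)) (hS : MeasurableSet S) : mu (fr ⁻¹' S) = mu S := by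
  unfold mu
  rw [Measure.restrict_apply (fr_meas hS), Measure.restrict_apply hS]
  congr 1
  ext z
  simp only [mem_inter_iff, mem_preimage]
  refine and_congr_left fun hz => ?_
  have : fr z = z := Prod.ext (Int.fract_eq_self.2 hz.1) (Int.fract_eq_self.2 hz.2)
  rw [this]

theorem mp (k : ℝ) (n : ℕ) : MeasurePreserving (fun z => fr ((Tm k)^[n] z)) mu mu := by
  have hm : Measurable fun z => fr ((Tm k)^[n] z) :=
    fr_meas.comp ((cont_Tm k).iterate n).measurable
  refine ⟨hm, Measure.ext fun S hS => ?_⟩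
  rw [Measure.map_apply hm hS, ← mu_fr S hS, ← key k n (fr ⁻¹' S) (fr_meas hS) fun z p q => by
    simp only [mem_preimage, per_fr z p q]]
  rfl

theorem integ (k : ℝ) (n : ℕ) (F : ℝ × ℝ → ℝ) (hF : Measurable F) (hp : Per F)
    (hi : Integrable F mu) :
    Integrable (fun z => F ((Tm k)^[n] z)) mu ∧ ∫ z, F ((Tm k)^[n] z) ∂mu = ∫ z, F z ∂mu := by
  have e : (fun z => F ((Tm k)^[n] z)) = fun z => F (fr ((Tm k)^[n] z)) :=
    funext fun z => (Per_fr hp _).symm
  rw [e]
  refine ⟨(mp k n).integrable_comp_of_integrable hi, ?_⟩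
  have h := integral_map (μ := mu) (mp k n).measurable.aemeasurable hF.aestronglyMeasurable
  rw [(mp k n).map_eq] at h
  exact h.symm

end Inv

open _root_.Vale.Agent.P108.Inv

theorem s_meas : S_meas := by
  intro k θ ω i j
  refine ⟨⟨?_, ?_⟩, ⟨?_, ?_⟩, ⟨?_, ?_⟩, ⟨?_, ?_⟩, ⟨?_, ?_⟩, ⟨?_, ?_⟩, ⟨?_, ?_⟩, ?_⟩
  · exact measurableSet_setOfPred.2 (Measurable.exists fun l => measurable_const.and
      ((mCl k θ (cont_wd k l)).not.or (mCl k θ (cw_swap k l)).not))
  · exact per_of k fun v v' _ => ∃ l ≤ 10001, ¬ Cl k θ (v l) ∨ ¬ Cl k θ (v' l)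
  · exact measurableSet_setOfPred.2 (mRegN (cont_wd k) _ _).not
  · exact per_of k fun v _ _ => ¬ RegN (ω ^ 9999) i v
  · exact measurableSet_setOfPred.2 (mRegD (cont_wd k) _ _).not
  · exact per_of k fun v _ _ => ¬ RegD (ω ^ 9998) i v
  · exact measurableSet_setOfPred.2 ((mRegD (cont_wd k) _ _).not.and (mRegD (cw_swap k) _ _).not)
  · exact per_of k fun v v' _ => ¬ RegD (ω ^ 9998) i v ∧ ¬ RegD (ω ^ 9998) i v'
  · exact measurableSet_setOfPred.2 (mPE (cont_wd k) (cw_lf k) k θ ω i j)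
  · exact per_of k fun v _ v' => PE ω (Cl k θ) i j v v'
  · exact measurableSet_setOfPred.2 (mPF (cont_wd k) (cw_lf k) ω i j)
  · exact per_of k fun v _ v' => PF ω i j v v'
  · exact measurableSet_setOfPred.2 (mPR (cw_swap k) ω i j)
  · exact per_of k fun _ v _ => PR ω i j v
  · have hc : Continuous (df k ω i) :=
      continuous_const.sub ((cont_NN (cont_wd k) i).log fun z => (NN_pos _ _).ne')
    exact ⟨hc, per_of k fun v _ _ => i * log (ω ^ 10000) - log (NN v i), int_of_cont hc⟩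

theorem s_inv : S_inv := by
  refine ⟨prob, ?_, key, integ, fun k M S hS hp => ?_⟩
  · rw [mu_eq]
    exact Measure.measurePreserving_swap
  · have := prob
    have e : (fun z => (((Finset.range M).filter fun t => (Tm k)^[t] z ∈ S).card : ℝ)) =
        fun z => ∑ t ∈ Finset.range M, ((Tm k)^[t] ⁻¹' S).indicator (1 : ℝ × ℝ → ℝ) z := by
      funext z
      rw [Finset.card_filter]
      push_cast
      refine Finset.sum_congr rfl fun t _ => ?_
      by_cases h : (Tm k)^[t] z ∈ S <;> simp [h, indicator]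
    have hm : ∀ t, MeasurableSet ((Tm k)^[t] ⁻¹' S) := fun t =>
      ((cont_Tm k).iterate t).measurable hS
    have hi : ∀ t ∈ Finset.range M,
        Integrable (((Tm k)^[t] ⁻¹' S).indicator (1 : ℝ × ℝ → ℝ)) mu := fun t _ =>
      (integrable_const (1 : ℝ)).indicator (hm t)
    rw [e]
    refine ⟨integrable_finsetSum _ hi, ?_⟩
    rw [integral_finsetSum _ hi]
    have : ∀ t ∈ Finset.range M,
        ∫ z, ((Tm k)^[t] ⁻¹' S).indicator (1 : ℝ × ℝ → ℝ) z ∂mu = mu.real S := fun t _ => by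
      rw [integral_indicator_one (hm t), Measure.real, key k t S hS hp, Measure.real]
    rw [Finset.sum_congr rfl this, Finset.sum_const, Finset.card_range, nsmul_eq_mul]

end Vale.Agent.P108
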