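import Vale.Agent.P108.Basic

/-! P108: a matched pair of times with growth on both sides is a tangency. -/

namespace Vale.Agent.P108

open Real Set

namespace Key

theorem card_shift (P : ℕ → Prop) [DecidablePred P] (B : ℕ → Prop) [DecidablePred B] (a n : ℕ)
    (h : ∀ t < n, B t → P (a + t)) :
    ((Finset.range n).filter B).card ≤ ((Finset.Ico a (a + n)).filter P).card := by
  refine Finset.card_le_card_of_injOn (fun t => a + t) (fun t ht => ?_) (fun s _ t _ e => ?_)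
  · simp only [Finset.coe_filter, Finset.mem_range, Finset.mem_Ico, Set.mem_ofPred_eq] at ht ⊢
    exact ⟨⟨by omega, by omega⟩, h t ht.1 ht.2⟩
  · simpa using e

theorem card_rev (P : ℕ → Prop) [DecidablePred P] (B : ℕ → Prop) [DecidablePred B] (b n : ℕ)
    (hn : n ≤ b + 1) (h : ∀ t < n, B t → P (b - t)) :
    ((Finset.range n).filter B).card ≤ ((Finset.Ico (b + 1 - n) (b + 1)).filter P).card := by
  refine Finset.card_le_card_of_injOn (fun t => b - t) (fun t ht => ?_) (fun s hs t ht e => ?_)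
  · simp only [Finset.coe_filter, Finset.mem_range, Finset.mem_Ico, Set.mem_ofPred_eq] at ht ⊢
    exact ⟨⟨by omega, by omega⟩, h t ht.1 ht.2⟩
  · simp only [Finset.coe_filter, Finset.mem_range, Set.mem_ofPred_eq] at hs ht
    have := hs.1
    have := ht.1
    simp only at e
    omega

theorem step {g x a b c : ℝ} (hg : 3 ≤ g) (hx : g ≤ |x|) (e : c = x * b - a) (hab : |a| ≤ |b|)
    (hp : 0 < |b| + |a|) : |b| < |c| := by
  have h1 : |x * b| ≤ |c| + |a| := by
    rw [show x * b = c + a by rw [e]; ring]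
    exact abs_add_le _ _
  rw [abs_mul] at h1
  have h2 : 0 < |b| := by linarith
  nlinarith

theorem nb {L x a b c : ℝ} (hx : |x| ≤ L - 2) (e : c = x * b - a) (hab : |a| ≤ |b|) :
    |c| + |b| ≤ 2 * L * |b| ∧ |a| + |b| ≤ 2 * L * |b| := by
  have h1 := abs_sub (x * b) a
  rw [abs_mul, ← e] at h1
  have h2 := abs_nonneg b
  have h3 := abs_nonneg x
  constructor <;> nlinarith

theorem exp_le {ω p : ℝ} (hω : 10 ^ 6 ≤ ω) (hp : 0 < p) {a b : ℕ} (h : ω ^ a * p ≤ ω ^ b * p) :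
    a ≤ b :=
  (pow_le_pow_iff_right₀ (by linarith : 1 < ω)).1 (le_of_mul_le_mul_right h hp)

/-- extension of the growth by a few steps, with a smaller exponent -/
theorem ext {ω : ℝ} (hω : 10 ^ 6 ≤ ω) (F : ℕ → ℝ) (A j : ℕ) (h0 : 0 ≤ F 0)
    (hG : ∀ n ≤ A, ω ^ (9998 * n) * F 0 ≤ F n)
    (hS : ∀ d, A + d ≤ j → F A ≤ ω ^ (10000 * d) * F (A + d))
    (hA : 19980 * (j - A) ≤ 18 * A) (n : ℕ) (hn : n ≤ j) : ω ^ (9980 * n) * F 0 ≤ F n := by
  rcases le_total n A with h | h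
  · exact (mul_le_mul_of_nonneg_right (pw_le hω (by omega)) h0).trans (hG n h)
  · obtain ⟨d, rfl⟩ := Nat.exists_eq_add_of_le h
    have h1 := (hG A le_rfl).trans (hS d hn)
    have h2 : ω ^ (10000 * d) * ω ^ (9980 * (A + d)) ≤ ω ^ (9998 * A) := by
      rw [← pow_add]
      exact pw_le hω (by omega)
    refine le_of_mul_le_mul_left ?_ (pw_pos hω (10000 * d))
    rw [← mul_assoc]
    exact (mul_le_mul_of_nonneg_right h2 h0).trans h1

variable {ω g : ℝ} {cl : ℝ → Prop} {M : ℕ} {w : ℕ → ℝ} {bw : ℕ → ℕ → ℝ} {U Q : ℕ → Prop}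
  {y : ℕ → ℝ} {t₁ t₂ : ℕ}

theorem three_le (C : Cnt ω g cl M w bw U Q) : 3 ≤ g := by
  have h1 := C.hg
  have h2 := one_le_pw C.hω 9999
  generalize ω ^ 9999 = P at *
  linarith

theorem left_win (C : Cnt ω g cl M w bw U Q) (hy : ∀ N, SolN w y N) (hp : ∀ n, 0 < pn y n)
    (hU : ¬ U t₁) (ht : 10000 ≤ t₁) (hL : |y (t₁ - 13)| ≤ |y (t₁ - 12)|) (s : ℕ)
    (h1 : t₁ - 13 ≤ s) (h2 : s + 1 ≤ t₁ + 10000) : |y (s + 1)| < |y (s + 2)| := by
  induction s, h1 using Nat.le_induction with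
  | base =>
    refine step (three_le C) (C.hcl _ (C.hU _ hU (t₁ - 13 + 1) (by omega) h2))
      (hy (t₁ - 13 + 1) _ (by omega)) ?_ (hp _)
    rwa [show t₁ - 13 + 1 = t₁ - 12 by omega]
  | succ s hs ih =>
    exact step (three_le C) (C.hcl _ (C.hU _ hU (s + 1 + 1) (by omega) h2))
      (hy (s + 2) _ (by omega)) (ih (by omega)).le (hp _)

theorem right_win0 (hg : 3 ≤ g) (hy : ∀ N, SolN w y N) (T : ℕ) (hR : |y (T + 1)| < |y T|)
    (d s : ℕ) (hd : T = s + d) (hc : ∀ l, s < l → l ≤ T → g ≤ |w l|) : |y (s + 1)| < |y s| := by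
  induction d generalizing s with
  | zero => rwa [hd] at hR
  | succ d ih =>
    have h3 := ih (s + 1) (by omega) fun l a b => hc l (by omega) b
    have e := hy (s + 1) s (by omega)
    refine step (a := y (s + 2)) hg (hc (s + 1) (by omega) (by omega)) (by rw [e]; ring) h3.le ?_
    linarith [abs_nonneg (y (s + 2)), abs_nonneg (y (s + 1 + 1))]

theorem right_win (C : Cnt ω g cl M w bw U Q) (hy : ∀ N, SolN w y N)
    (hU : ¬ U t₂) (hR : |y (t₂ + 14)| < |y (t₂ + 13)|) (s : ℕ)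
    (h1 : s ≤ t₂ + 13) (h2 : t₂ ≤ s + 10001) : |y (s + 1)| < |y s| :=
  right_win0 (three_le C) hy (t₂ + 13) hR (t₂ + 13 - s) s (by omega) fun l a b =>
    C.hcl _ (C.hU _ hU l (by omega) (by omega))

open scoped Classical in
theorem left_grow (hf : S_fail) (C : Cnt ω g cl M w bw U Q) (hy : ∀ N, SolN w y N)
    (ht : t₂ < M) (h12 : pn y t₁ ≤ pn y t₂) (hmid : ∀ t, t₁ < t → t < t₂ → pn y t₂ < pn y t)
    (h01 : |y t₁| ≤ |y (t₁ + 1)|) {m : ℕ} (hm1 : t₁ < m) (hm2 : m ≤ t₂)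
    (hmax : ∀ l, t₁ ≤ l → l ≤ t₂ + 1 → |y l| ≤ |y m|) (hm0 : y m ≠ 0)
    (hd : ∀ n, 1 ≤ n → t₁ + n ≤ M →
      20000 * ((Finset.Ico t₁ (t₁ + n)).filter fun t => U t ∨ Q t).card < n)
    (n : ℕ) (hn : n ≤ m - t₁ - 1) : ω ^ (9998 * n) * pn y t₁ ≤ pn y (t₁ + n) := by
  rcases Nat.eq_zero_or_pos n with rfl | hn0
  · simp
  by_contra hc
  have em : t₁ + (m - t₁) = m := by omega
  have h := hf ω g cl (fun t => U (t₁ + t) ∨ Q (t₁ + t)) (t₂ - t₁) (m - t₁) n
    (fun l => w (t₁ + l)) (fun l => y (t₁ + l)) C.hω (C.bd.comp _) C.hg C.hcl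
    ((hy t₂).shift t₁)
    (fun t a b => by
      rw [pn_shift, pn_shift, pn_shift, add_zero, show t₁ + (t₂ - t₁) = t₂ by omega]
      have := hmid (t₁ + t) (by omega) (by omega)
      exact ⟨by linarith, this.le⟩)
    h01 (by omega) (fun l hl => by simp only [em]; exact hmax _ (by omega) (by omega))
    (by simp only [em]; exact hm0) (by omega) (not_le.1 hc)
    (fun t ht' H => by
      rcases H with H | H | H
      · left
        by_contra hU
        exact H (C.hU _ hU _ (by omega) (by omega))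
      · omega
      · right
        refine C.hQ _ (fun R => H.1 ?_) (fun R => H.2 ?_)
        · exact (R.mono (by omega)).congr fun l _ _ => by simp only [add_assoc]
        · refine (R.mono (by omega)).congr fun l _ _ => ?_
          rw [C.hbw _ _ (by omega)]
          congr 1; omega)
  have h1 := hd n hn0 (by omega)
  have h2 := @card_shift (fun t => U t ∨ Q t) _ (fun t => U (t₁ + t) ∨ Q (t₁ + t))
    (fun _ => Classical.propDecidable _) t₁ n (fun t _ H => H)
  omega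

open scoped Classical in
theorem right_grow (hf : S_fail) (C : Cnt ω g cl M w bw U Q) (hy : ∀ N, SolN w y N)
    (ht : t₂ < M) (h12 : pn y t₁ ≤ pn y t₂) (hmid : ∀ t, t₁ < t → t < t₂ → pn y t₂ < pn y t)
    (h01 : |y (t₂ + 1)| ≤ |y t₂|) {m : ℕ} (hm1 : t₁ < m) (hm2 : m ≤ t₂)
    (hmax : ∀ l, t₁ ≤ l → l ≤ t₂ + 1 → |y l| ≤ |y m|) (hm0 : y m ≠ 0)
    (hd : ∀ n, 1 ≤ n → n ≤ t₂ + 1 →
      20000 * ((Finset.Ico (t₂ + 1 - n) (t₂ + 1)).filter fun t => U t ∨ Q t).card < n)
    (n : ℕ) (hn : n ≤ t₂ - m) : ω ^ (9998 * n) * pn y t₂ ≤ pn y (t₂ - n) := by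
  rcases Nat.eq_zero_or_pos n with rfl | hn0
  · simp
  by_contra hc
  have em : t₂ + 1 - (t₂ + 1 - m) = m := by omega
  have h := hf ω g cl (fun t => U (t₂ - t) ∨ Q (t₂ - t)) (t₂ - t₁) (t₂ + 1 - m) n
    (fun l => w (t₂ + 1 - l)) (fun l => y (t₂ + 1 - l)) C.hω (C.bd.comp _) C.hg C.hcl
    ((hy t₂).rev.mono (by omega))
    (fun t a b => by
      rw [pn_rev _ _ _ (by omega), pn_rev _ _ _ (by omega), pn_rev _ _ _ (by omega), Nat.sub_zero,
        show t₂ - (t₂ - t₁) = t₁ by omega]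
      have := hmid (t₂ - t) (by omega) (by omega)
      exact ⟨this.le, by linarith⟩)
    h01 (by omega) (fun l hl => by simp only [em]; exact hmax _ (by omega) (by omega))
    (by simp only [em]; exact hm0) (by omega)
    (by rw [pn_rev _ _ _ (by omega), pn_rev _ _ _ (by omega), Nat.sub_zero]; exact not_le.1 hc)
    (fun t ht' H => by
      rcases H with H | H | H
      · left
        by_contra hU
        exact H (C.hU _ hU _ (by omega) (by omega))
      · omega
      · right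
        refine C.hQ _ (fun R => H.2 ?_) (fun R => H.1 ?_)
        · refine (R.mono (by omega)).congr fun l _ _ => ?_
          show w _ = w _
          congr 1; omega
        · refine (R.mono (by omega)).congr fun l _ _ => ?_
          rw [C.hbw _ _ (by omega)]
          congr 1; omega)
  have h1 := hd n hn0 (by omega)
  have h2 := @card_rev (fun t => U t ∨ Q t) _ (fun t => U (t₂ - t) ∨ Q (t₂ - t))
    (fun _ => Classical.propDecidable _) t₂ n (by omega) (fun t _ H => H)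
  omega

theorem ratio {a b p q z K : ℝ} (hb : 0 ≤ b) (hp : 0 < p) (hq : q ≤ K * p)
    (h1 : a * p ≤ 4 * z) (h2 : z ≤ 2 * (b * q)) : a ≤ 8 * K * b := by
  refine le_of_mul_le_mul_right ?_ hp
  nlinarith [mul_le_mul_of_nonneg_left hq hb]

/-- the tangency at a middle point `l` -/
theorem final (hs : S_side) (C : Cnt ω g cl M w bw U Q) (hy : ∀ N, SolN w y N)
    (hp : ∀ n, 0 < pn y n) (h12 : pn y t₁ ≤ pn y t₂) (h21 : pn y t₂ ≤ ω ^ 10000 * pn y t₁)
    (hU1 : ¬ U t₁) (hU2 : ¬ U t₂) (ht : 10000 ≤ t₁) (hL : |y (t₁ - 13)| ≤ |y (t₁ - 12)|)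
    (hR : |y (t₂ + 14)| < |y (t₂ + 13)|) {l j j' : ℕ} (e : l + j = t₂ + 1) (e' : t₁ + j' = l)
    (hj : 1 ≤ j) (hj' : 1 ≤ j') (hl0 : y l ≠ 0)
    (hn : |y (l + 1)| + |y l| ≤ 2 * ω ^ 10000 * |y l|)
    (hn' : |y (l - 1)| + |y l| ≤ 2 * ω ^ 10000 * |y l|)
    (G : ∀ n ≤ j - 1, ω ^ (9980 * n) * pn y t₂ ≤ pn y (t₂ - n))
    (G' : ∀ n ≤ j' - 1, ω ^ (9980 * n) * pn y t₁ ≤ pn y (t₁ + n)) :
    PE ω cl j j' (fun i => w (l + i)) (bw l) := by
  have hc : ∀ i ≤ 12, cl (w (l + (j + i))) := fun i hi => C.hU _ hU2 _ (by omega) (by omega)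
  have hc' : ∀ i ≤ 12, cl (bw l (j' + i)) := fun i hi => by
    rw [C.hbw _ _ (by omega)]
    exact C.hU _ hU1 _ (by omega) (by omega)
  have e1 : l + (j - 1) = t₂ := by omega
  obtain ⟨R1, R2, R3, R4⟩ := hs ω g cl j (fun i => w (l + i)) (fun i => y (l + i)) C.hω
    (C.bd.comp _) C.hg C.hcl hj (((hy (l + (j + 12))).shift l).mono (by omega)) hc
    (by
      rw [show l + (j + 13) = t₂ + 14 by omega, show l + (j + 12) = t₂ + 13 by omega]
      exact hR.le)
    (fun n h => by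
      rw [pn_shift, pn_shift, e1, show l + (j - 1 - n) = t₂ - n by omega]
      exact G n h)
    hn hl0
  obtain ⟨k, rfl⟩ : ∃ k, l = k + 1 := ⟨l - 1, by omega⟩
  have e2 : k - (j' - 1) = t₁ := by omega
  obtain ⟨L1, L2, L3, L4⟩ := hs ω g cl j' (bw (k + 1)) (fun i => y (k + 1 - i)) C.hω
    (C.bd' _) C.hg C.hcl hj'
    (((hy k).rev.mono (by omega)).congr fun i _ _ => C.hbw _ _ (by omega)) hc'
    (by
      rw [show k + 1 - (j' + 13) = t₁ - 13 by omega, show k + 1 - (j' + 12) = t₁ - 12 by omega]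
      exact hL)
    (fun n h => by
      rw [pn_rev _ _ _ (by omega), pn_rev _ _ _ (by omega), e2,
        show k - (j' - 1 - n) = t₁ + n by omega]
      exact G' n h)
    hn' hl0
  rw [pn_shift, e1] at R2 R3
  rw [pn_rev _ _ _ (by omega), e2] at L2 L3
  simp only [add_zero, Nat.sub_zero] at R2 R3 L2 L3
  have w1 := pw_lt C.hω (a := 10000) (b := 20000) (by norm_num)
  have w2 := one_le_pw C.hω 10000
  refine ⟨hj, hj', R1, L1, hc, hc', ?_, ?_, fun a ha b hb => ?_⟩
  · have := ratio (K := 1) (abs_nonneg _) (hp t₂) (by linarith) R3 L2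
    refine this.trans (mul_le_mul_of_nonneg_right ?_ (abs_nonneg _))
    generalize ω ^ 10000 = P at *
    generalize ω ^ 20000 = P' at *
    linarith
  · have := ratio (abs_nonneg _) (hp t₁) h21 L3 R2
    refine this.trans (mul_le_mul_of_nonneg_right ?_ (abs_nonneg _))
    generalize ω ^ 10000 = P at *
    generalize ω ^ 20000 = P' at *
    linarith
  · have a1 := R4 a ha
    have a2 := L4 b hb
    have ew : w (k + 1 + 0) = y (k + 1 + 1) / y (k + 1 + 0) + y (k + 1 - 1) / y (k + 1 - 0) := by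
      have := hy (k + 1) k (by omega)
      simp only [add_zero, Nat.sub_zero, Nat.add_sub_cancel]
      rw [show k + 1 + 1 = k + 2 from rfl, this]
      field_simp
      ring
    have m3 (x : ℝ) : 2 / |x| ≤ 3 / |x| := div_le_div_of_nonneg_right (by norm_num) (abs_nonneg _)
    refine le_trans ?_ (add_le_add (a1.trans (m3 _)) (a2.trans (m3 _)))
    refine le_trans (le_of_eq ?_) (abs_add_le _ _)
    unfold Th
    beta_reduce
    rw [ew]
    congr 1
    ring

end Key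

open Key in
theorem s_key (hf : S_fail) (hs : S_side) : S_key := by
  intro ω g cl M w bw U Q y t₁ t₂ C hy y1 hlt ht h12 hmid hU1 hU2 ht1 hL hR hd1 hd2
  have hp : ∀ n, 0 < pn y n := fun n =>
    pn_pos (hy n) ((abs_pos.2 y1).trans_le (abs_succ_le_pn y 0)) n le_rfl
  have lw : ∀ s, t₁ ≤ s → s ≤ t₁ + 10000 → |y s| < |y (s + 1)| := fun s a b => by
    have := left_win C hy hp hU1 ht1 hL (s - 1) (by omega) (by omega)
    rwa [show s - 1 + 1 = s by omega, show s - 1 + 2 = s + 1 by omega] at this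
  have rw' := right_win C hy hU2 hR
  have hτ : t₁ + 20001 < t₂ := by
    by_contra hc
    have a := lw (max t₁ (t₂ - 10001)) (by omega) (by omega)
    have b := rw' (max t₁ (t₂ - 10001)) (by omega) (by omega)
    linarith
  obtain ⟨m, hm, hmax⟩ := Finset.exists_max_image (Finset.Icc t₁ (t₂ + 1)) (fun l => |y l|)
    ⟨t₁, by simp; omega⟩
  simp only [Finset.mem_Icc, and_imp] at hm hmax
  have hm1 : t₁ + 10001 ≤ m := by
    by_contra hc
    have a := lw m hm.1 (by omega)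
    have b := hmax (m + 1) (by omega) (by omega)
    linarith
  have hm2 : m + 10001 ≤ t₂ := by
    by_contra hc
    have a := rw' (m - 1) (by omega) (by omega)
    have b := hmax (m - 1) (by omega) (by omega)
    rw [show m - 1 + 1 = m by omega] at a
    linarith
  have hm0 : y m ≠ 0 := by
    have a := lw t₁ le_rfl (by omega)
    have b := hmax (t₁ + 1) (by omega) (by omega)
    exact abs_pos.1 (by linarith [abs_nonneg (y t₁)])
  have G1 := left_grow hf C hy ht h12 hmid (lw t₁ le_rfl (by omega)).le (by omega) (by omega)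
    hmax hm0 hd1
  have G2 := right_grow hf C hy ht h12 hmid (rw' t₂ (by omega) (by omega)).le (by omega)
    (by omega) hmax hm0 hd2
  have h21 : pn y t₂ ≤ ω ^ 10000 * pn y t₁ := by
    have a := hmid (t₁ + 1) (by omega) (by omega)
    have b := pn_add_le C.bd (hy (t₁ + 1)) t₁ 1 le_rfl
    rw [mul_one] at b
    linarith
  have c1 : 9998 * (m - t₁ - 1) ≤ 10000 * (t₂ + 1 - m) + 10000 := by
    refine exp_le C.hω (hp t₁) ((G1 _ le_rfl).trans ?_)
    have b := pn_le_add C.bd (hy t₂) (t₁ + (m - t₁ - 1)) (t₂ + 1 - m) (by omega)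
    rw [show t₁ + (m - t₁ - 1) + (t₂ + 1 - m) = t₂ by omega] at b
    rw [pow_add, mul_assoc]
    exact b.trans (mul_le_mul_of_nonneg_left h21 (pw_pos C.hω _).le)
  have c2 : 9998 * (t₂ - m) ≤ 10000 * (m - t₁) := by
    refine exp_le C.hω (hp t₂) ((G2 _ le_rfl).trans ?_)
    have b := pn_add_le C.bd (hy t₂) t₁ (m - t₁) (by omega)
    rw [show t₁ + (m - t₁) = t₂ - (t₂ - m) by omega] at b
    exact b.trans (mul_le_mul_of_nonneg_left h12 (pw_pos C.hω _).le)
  obtain ⟨c, hc1, hc2⟩ : ∃ c, 2 * (c + 1) ≤ t₁ + t₂ + 1 ∧ t₁ + t₂ ≤ 2 * (c + 1) :=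
    ⟨(t₁ + t₂ + 1) / 2 - 1, by omega, by omega⟩
  obtain ⟨l, hl, hl0, hn, hn'⟩ : ∃ l, (l = c + 1 ∨ l = c + 2) ∧ y l ≠ 0 ∧
      |y (l + 1)| + |y l| ≤ 2 * ω ^ 10000 * |y l| ∧
      |y (l - 1)| + |y l| ≤ 2 * ω ^ 10000 * |y l| := by
    have a := hp (c + 1)
    unfold pn at a
    rcases le_total |y (c + 2)| |y (c + 1)| with h | h
    · have e := hy (c + 1) c (by omega)
      obtain ⟨b1, b2⟩ := nb (c := y c) (C.bd (c + 1)) (by rw [e]; ring) h
      exact ⟨c + 1, Or.inl rfl, abs_pos.1 (by linarith), b2, b1⟩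
    · obtain ⟨b1, b2⟩ := nb (C.bd (c + 2)) (hy (c + 2) (c + 1) (by omega)) h
      exact ⟨c + 2, Or.inr rfl, abs_pos.1 (by linarith), b1, b2⟩
  refine ⟨l, t₂ + 1 - l, l - t₁, by omega, ?_, by omega,
    final hs C hy hp h12 h21 hU1 hU2 ht1 hL hR (by omega) (by omega) (by omega) (by omega) hl0
      hn hn' ?_ ?_⟩
  · simp only [Pairs, Finset.mem_filter, Finset.mem_product, Finset.mem_range]
    omega
  · refine ext C.hω (fun n => pn y (t₂ - n)) (t₂ - m) _ (hp _).le G2 (fun d hd => ?_) (by omega)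
    have b := pn_add_le C.bd (hy t₂) (t₂ - (t₂ - m + d)) d (by omega)
    rwa [show t₂ - (t₂ - m + d) + d = t₂ - (t₂ - m) by omega] at b
  · refine ext C.hω (fun n => pn y (t₁ + n)) (m - t₁ - 1) _ (hp _).le G1 (fun d hd => ?_)
      (by omega)
    have b := pn_le_add C.bd (hy (t₂ + 2)) (t₁ + (m - t₁ - 1)) d (by omega)
    rwa [add_assoc] at b

end Vale.Agent.P108
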