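import Vale.Agent.P108.Basic

/-! P108: the contracting solution of a regular word. -/

namespace Vale.Agent.P108

open MeasureTheory Filter Real Set

noncomputable section

namespace Lin

/-- the solution with slope `r` -/
def ps (v : ℕ → ℝ) (r : ℝ) (l : ℕ) : ℝ := E v l - r * D v l

theorem ps_sol (v : ℕ → ℝ) (r : ℝ) (N : ℕ) : SolN v (ps v r) N := fun l _ => by
  simp only [ps, D_add_two, E_add_two]
  ring

theorem ps_le (v : ℕ → ℝ) (r r' : ℝ) (n : ℕ) :
    pn (ps v r') n ≤ pn (ps v r) n + |r - r'| * pn (D v) n := by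
  have a (l : ℕ) : |ps v r' l| ≤ |ps v r l| + |r - r'| * |D v l| := by
    rw [← abs_mul]
    refine le_trans (le_of_eq ?_) (abs_add_le _ _)
    congr 1
    unfold ps
    ring
  have a1 := a n
  have a2 := a (n + 1)
  unfold pn
  linarith

theorem ps_zero (v : ℕ → ℝ) : ps v 0 = E v := by
  funext l
  simp [ps]

theorem pick (v : ℕ → ℝ) (n : ℕ) : ∃ (u : ℕ) (r : ℝ), (u = n ∨ u = n + 1) ∧
    pn (D v) n ≤ 2 * |D v u| ∧ ps v r u = 0 ∧ pn (ps v r) n * pn (D v) n ≤ 2 ∧
    (n = 1 → |r| ≤ 1) := by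
  have hp := pn_D_pos v n
  have hw := wronsk v n
  rcases le_total |D v n| |D v (n + 1)| with h | h
  · have h1 : pn (D v) n ≤ 2 * |D v (n + 1)| := by unfold pn; linarith
    have h2 : D v (n + 1) ≠ 0 := by
      intro h0
      rw [h0, abs_zero] at h1
      linarith
    have h3 : ps v (E v (n + 1) / D v (n + 1)) (n + 1) = 0 := by
      unfold ps
      rw [div_mul_cancel₀ _ h2, sub_self]
    have h4 : ps v (E v (n + 1) / D v (n + 1)) n * D v (n + 1) = 1 := by
      unfold ps
      rw [← hw]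
      field_simp
    refine ⟨n + 1, E v (n + 1) / D v (n + 1), Or.inr rfl, h1, h3, ?_, ?_⟩
    · have h5 := congrArg abs h4
      rw [abs_mul, abs_one] at h5
      rw [pn, h3, abs_zero, zero_add]
      have := mul_le_mul_of_nonneg_left h1 (abs_nonneg (ps v (E v (n + 1) / D v (n + 1)) n))
      linarith
    · rintro rfl
      have e : E v (1 + 1) = -1 := by
        rw [show (1 + 1 : ℕ) = 0 + 2 from rfl, E_add_two]
        simp
      rw [abs_div, e, abs_neg, abs_one, div_le_one (abs_pos.2 h2)]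
      simpa using h
  · have h1 : pn (D v) n ≤ 2 * |D v n| := by unfold pn; linarith
    have h2 : D v n ≠ 0 := by
      intro h0
      rw [h0, abs_zero] at h1
      linarith
    have h3 : ps v (E v n / D v n) n = 0 := by
      unfold ps
      rw [div_mul_cancel₀ _ h2, sub_self]
    have h4 : -(ps v (E v n / D v n) (n + 1) * D v n) = 1 := by
      unfold ps
      rw [← hw]
      field_simp
      ring
    refine ⟨n, E v n / D v n, Or.inl rfl, h1, h3, ?_, ?_⟩
    · have h5 := congrArg abs h4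
      rw [abs_neg, abs_mul, abs_one] at h5
      rw [pn, h3, abs_zero, add_zero]
      have := mul_le_mul_of_nonneg_left h1 (abs_nonneg (ps v (E v n / D v n) (n + 1)))
      linarith
    · rintro rfl
      simp

theorem step1 {ω : ℝ} {v : ℕ → ℝ} (hb : Bd ω v) {r : ℝ} {m : ℕ}
    (h : pn (ps v r) m * pn (D v) m ≤ 2) : pn (ps v r) (m + 1) * pn (D v) m ≤ 2 * ω ^ 10000 := by
  have h1 := pn_succ_le hb (ps_sol v r (m + 1)) (n := m) (by omega)
  have h2 := hb.two_le
  have h3 := pn_D_pos v m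
  generalize ω ^ 10000 = L at *
  have h4 := mul_le_mul_of_nonneg_right h1 h3.le
  have h5 := mul_le_mul_of_nonneg_left h (by linarith : 0 ≤ L - 1)
  nlinarith

theorem common {ω : ℝ} {v : ℕ → ℝ} (hb : Bd ω v) : ∃ (u : ℕ → ℕ) (r : ℕ → ℝ),
    (∀ n, u n = n ∨ u n = n + 1) ∧ (∀ n, pn (D v) n ≤ 2 * |D v (u n)|) ∧
    (∀ n, ps v (r n) (u n) = 0) ∧ (∀ n, pn (ps v (r n)) n * pn (D v) n ≤ 2) ∧ |r 1| ≤ 1 ∧
    ∀ m, |r m - r (m + 1)| * (pn (D v) m * pn (D v) (m + 1)) ≤ 4 * ω ^ 10000 := by
  choose u r h1 h2 h3 h4 h5 using pick v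
  refine ⟨u, r, h1, h2, h3, h4, h5 1 rfl, fun m => ?_⟩
  have a1 := step1 hb (h4 m)
  have a2 : |ps v (r m) (u (m + 1))| ≤ pn (ps v (r m)) (m + 1) := by
    rcases h1 (m + 1) with e | e <;> rw [e]
    · exact abs_le_pn _ _
    · exact abs_succ_le_pn _ _
  have a3 : |r m - r (m + 1)| * |D v (u (m + 1))| = |ps v (r m) (u (m + 1))| := by
    rw [← abs_mul, ← abs_neg]
    congr 1
    have := h3 (m + 1)
    unfold ps at *
    linarith
  have a4 := mul_le_mul_of_nonneg_left (h2 (m + 1)) (abs_nonneg (r m - r (m + 1)))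
  have a5 := pn_D_pos v m
  have a6 : |r m - r (m + 1)| * pn (D v) (m + 1) ≤ 2 * pn (ps v (r m)) (m + 1) := by linarith
  have a7 := mul_le_mul_of_nonneg_right a6 a5.le
  generalize ω ^ 10000 = L at *
  nlinarith

end Lin

open Lin

theorem s_lin : S_lin := by
  intro ω e f N v hω hb hf he hR
  obtain ⟨u, r, h1, h2, h3, h4, -, h6⟩ := common hb
  have reg : ∀ n ≤ N, ω ^ (e * n) ≤ pn (D v) n := fun n hn => by
    rw [pow_mul]
    exact hR n hn
  have hL := pw_pos hω 10000
  have down : ∀ n ≤ N, |r n - r N| * ω ^ (e * (2 * n + 1)) ≤ 8 * ω ^ 10000 := by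
    intro n hn
    induction hn using Nat.decreasingInduction with
    | self => simp only [sub_self, abs_zero, zero_mul]; linarith
    | of_succ k hk ih =>
      have a1 := h6 k
      have a2 : ω ^ (e * (2 * k + 1)) ≤ pn (D v) k * pn (D v) (k + 1) := by
        rw [show e * (2 * k + 1) = e * k + e * (k + 1) by ring, pow_add]
        exact mul_le_mul (reg k hk.le) (reg (k + 1) hk) (pw_pos hω _).le (pn_nonneg _ _)
      have a3 : 10 ^ 6 * ω ^ (e * (2 * k + 1)) ≤ ω ^ (e * (2 * (k + 1) + 1)) :=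
        pw_lt hω (by rw [show e * (2 * (k + 1) + 1) = e * (2 * k + 1) + 2 * e by ring]; omega)
      have a4 := abs_sub_le (r k) (r (k + 1)) (r N)
      have a5 := pw_pos hω (e * (2 * k + 1))
      have a6 := mul_le_mul_of_nonneg_left a2 (abs_nonneg (r k - r (k + 1)))
      have a7 := mul_le_mul_of_nonneg_left a3 (abs_nonneg (r (k + 1) - r N))
      have a8 := mul_le_mul_of_nonneg_right a4 a5.le
      generalize ω ^ 10000 = L at *
      generalize ω ^ (e * (2 * k + 1)) = A at *
      generalize ω ^ (e * (2 * (k + 1) + 1)) = B at *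
      nlinarith
  refine ⟨ps v (r N), u N, ps_sol v _, by simp [ps], h1 N, h3 N, (reg N le_rfl).trans (h2 N),
    fun n hn1 hn => ?_⟩
  have b1 := ps_le v (r n) (r N) n
  have b2 := down n hn
  have b3 := h4 n
  have b4 := reg n hn
  have b5 := pn_D_le hb n
  obtain ⟨k, rfl⟩ : ∃ k, n = k + 1 := ⟨n - 1, by omega⟩
  have c1 : (f + 20001) * (k + 1) ≤ 3 * e * (k + 1) := Nat.mul_le_mul_right _ hf
  have c2 : e * k ≤ 10000 * k := Nat.mul_le_mul_right _ he
  have b6 : 10 ^ 6 * ω ^ (f * (k + 1)) ≤ ω ^ (e * (k + 1)) := pw_lt hω (by nlinarith)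
  have b7 : 10 ^ 6 * ω ^ (10000 + (10000 * (k + 1) + f * (k + 1))) ≤ ω ^ (e * (2 * (k + 1) + 1)) :=
    pw_lt hω (by nlinarith)
  rw [pow_add, pow_add] at b7
  have p1 := pw_pos hω (f * (k + 1))
  have p2 := pw_pos hω (10000 * (k + 1))
  have p3 := pn_nonneg (ps v (r (k + 1))) (k + 1)
  have p4 := abs_nonneg (r (k + 1) - r N)
  generalize ω ^ 10000 = L at *
  generalize ω ^ (f * (k + 1)) = F at *
  generalize ω ^ (10000 * (k + 1)) = T at *
  generalize ω ^ (e * (k + 1)) = A at *
  generalize ω ^ (e * (2 * (k + 1) + 1)) = B at *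
  generalize pn (ps v (r (k + 1))) (k + 1) = x at *
  generalize |r (k + 1) - r N| = d at *
  generalize pn (D v) (k + 1) = P at *
  have d1 : x * (10 ^ 6 * F) ≤ 2 := (mul_le_mul_of_nonneg_left (b6.trans b4) p3).trans b3
  have d2 : d * (10 ^ 6 * (L * (T * F))) ≤ 8 * L := (mul_le_mul_of_nonneg_left b7 p4).trans b2
  have d3 : d * (10 ^ 6 * (T * F)) ≤ 8 := le_of_mul_le_mul_right (by linarith) hL
  have d4 : d * P * F ≤ d * T * F :=
    mul_le_mul_of_nonneg_right (mul_le_mul_of_nonneg_left b5 p4) p1.le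
  have d5 := mul_le_mul_of_nonneg_right b1 p1.le
  linarith

theorem s_l1 : S_l1 := by
  intro ω e N v hω hb he1 he2 hR n
  obtain ⟨u, r, -, -, -, h4, h5, h6⟩ := common hb
  have hL := pw_pos hω 10000
  induction n using Nat.strong_induction_on with
  | _ n ih =>
  intro hn
  rcases n with _ | _ | k
  · simp
  · have a1 := hR 1 le_rfl hn
    have a2 : pn (E v) 1 = 1 := by
      simp only [pn, E_add_two, show (1 + 1 : ℕ) = 0 + 2 from rfl]
      simp
    have a3 : 1 ≤ pn (D v) 1 := by simpa using abs_le_pn (D v) 1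
    rw [NN, a2, pow_one] at a1
    simp only [zero_add, mul_one]
    linarith
  · have rb : ∀ m, 1 ≤ m → m ≤ k + 1 → |r m| * ω ^ m + 1 ≤ 2 * ω ^ m := by
      intro m hm
      induction m, hm using Nat.le_induction with
      | base =>
        intro _
        rw [pow_one]
        nlinarith
      | succ m hm ihm =>
        intro hmk
        have a0 := ihm (by omega)
        have a1 := h6 m
        have a2 : ω ^ (e * m) * ω ^ (e * (m + 1)) ≤ 4 * pn (D v) m * (4 * pn (D v) (m + 1)) :=
          mul_le_mul (ih m (by omega) (by omega)) (ih (m + 1) (by omega) (by omega))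
            (pw_pos hω _).le (by linarith [pn_nonneg (D v) m])
        have c1 : 9000 * m ≤ e * m := Nat.mul_le_mul_right _ he1
        have a3 : 10 ^ 6 * ω ^ (10000 + m) ≤ ω ^ (e * m + e * (m + 1)) :=
          pw_lt hω (by rw [mul_add e m 1]; omega)
        rw [pow_add, pow_add] at a3
        have a4 := abs_sub_abs_le_abs_sub (r (m + 1)) (r m)
        rw [abs_sub_comm] at a4
        have p1 := pw_pos hω m
        have p4 := abs_nonneg (r m - r (m + 1))
        rw [pow_succ ω m]
        generalize ω ^ 10000 = L at *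
        generalize ω ^ m = T at *
        generalize |r m - r (m + 1)| = d at *
        have d1 := mul_le_mul_of_nonneg_left (a3.trans a2) p4
        have d2 : d * (10 ^ 6 * T) ≤ 64 := le_of_mul_le_mul_right (by linarith) hL
        have d3 := mul_le_mul_of_nonneg_right a4 p1.le
        have d4 : |r (m + 1)| * T ≤ 2 * T - 1 / 2 := by linarith
        have d5 := mul_le_mul_of_nonneg_right d4 (by linarith : (0 : ℝ) ≤ ω)
        linarith
    have b0 : |r (k + 1)| ≤ 2 := by
      have a1 := rb (k + 1) (by omega) le_rfl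
      exact le_of_mul_le_mul_right (by linarith) (pw_pos hω (k + 1))
    have b1 := ps_le v (r (k + 1)) 0 (k + 1 + 1)
    rw [ps_zero, sub_zero] at b1
    have b2 := step1 hb (h4 (k + 1))
    have b3 := ih (k + 1) (by omega) (by omega)
    have b4 := hR (k + 1 + 1) (by omega) hn
    rw [← pow_mul, NN] at b4
    have c1 : 9000 * (k + 1) ≤ e * (k + 1) := Nat.mul_le_mul_right _ he1
    have b5 : 10 ^ 6 * ω ^ 10000 ≤ ω ^ (e * (k + 1) + e * (k + 1 + 1)) :=
      pw_lt hω (by rw [mul_add e (k + 1) 1]; omega)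
    rw [pow_add] at b5
    have p1 := pw_pos hω (e * (k + 1))
    have p2 := pn_nonneg (ps v (r (k + 1))) (k + 1 + 1)
    have p3 := pn_nonneg (D v) (k + 1 + 1)
    generalize ω ^ 10000 = L at *
    generalize ω ^ (e * (k + 1)) = A at *
    generalize ω ^ (e * (k + 1 + 1)) = B at *
    generalize pn (ps v (r (k + 1))) (k + 1 + 1) = x at *
    have d1 := mul_le_mul_of_nonneg_left b3 p2
    have d2 : 4 * x ≤ B := le_of_mul_le_mul_right (by linarith) p1
    have d3 := mul_le_mul_of_nonneg_right b0 p3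
    linarith

end

end Vale.Agent.P108
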