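import Vale.Agent.P108.Basic

/-! P108: the maximal inequality and the doubling inequality for the deficit. -/

namespace Vale.Agent.P108

open MeasureTheory Filter Real Set
open scoped Classical

noncomputable section

namespace Max

/-- norm of the block of length `n` starting at `s` -/
def Nb (v : ℕ → ℝ) (s n : ℕ) : ℝ := NN (fun l => v (s + l)) n

theorem Nb_pos (v : ℕ → ℝ) (s n : ℕ) : 0 < Nb v s n := NN_pos _ _

theorem Nb_zero (v : ℕ → ℝ) (n : ℕ) : Nb v 0 n = NN v n := by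
  simp only [Nb, zero_add]

theorem Nb_le {ω : ℝ} {v : ℕ → ℝ} (hb : Bd ω v) (s n : ℕ) (hn : 1 ≤ n) :
    Nb v s n ≤ (ω ^ 10000) ^ n := by
  rw [← pow_mul]
  exact NN_le (hb.comp fun l => s + l) n hn

theorem Nb_add (v : ℕ → ℝ) (s n m : ℕ) : Nb v s (n + m) ≤ Nb v s n * Nb v (s + n) m := by
  have := NN_add_le (fun l => v (s + l)) n m
  simpa only [Nb, add_assoc] using this

/-- deficit of a block -/
def Gd (L : ℝ) (v : ℕ → ℝ) (s n : ℕ) : ℝ := n * log L - log (Nb v s n)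

theorem Gd_add (L : ℝ) (v : ℕ → ℝ) (s n m : ℕ) :
    Gd L v s n + Gd L v (s + n) m ≤ Gd L v s (n + m) := by
  have h := log_le_log (Nb_pos v s (n + m)) (Nb_add v s n m)
  rw [log_mul (Nb_pos _ _ _).ne' (Nb_pos _ _ _).ne'] at h
  unfold Gd
  push_cast
  linarith

theorem Gd_nonneg {ω : ℝ} {v : ℕ → ℝ} (hb : Bd ω v) (s n : ℕ) (hn : 1 ≤ n) :
    0 ≤ Gd (ω ^ 10000) v s n := by
  have h := log_le_log (Nb_pos v s n) (Nb_le hb s n hn)
  rw [log_pow] at h
  unfold Gd
  linarith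

theorem max_pt (hg : S_gc) {ω : ℝ} (hω : 10 ^ 6 ≤ ω) {v : ℕ → ℝ} (hb : Bd ω v) (N : ℕ)
    (hN : 1 ≤ N) (S : Finset ℕ)
    (hS : ∀ s ∈ S, s < N ∧ ¬ RegN (ω ^ 9999) N fun l => v (s + l)) :
    log ω * S.card ≤ Gd (ω ^ 10000) v 0 (2 * N) := by
  have h := hg.1 (2 * N - 1) (fun t => Gd (ω ^ 10000) v t (2 * N - t)) (log ω) S
    (log_nonneg (by linarith)) ?_ ?_
  · have h2 := Gd_nonneg hb (2 * N - 1) (2 * N - (2 * N - 1)) (by omega)
    simp only [Nat.sub_zero] at h
    linarith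
  · intro s t hst ht
    obtain ⟨n, rfl⟩ := Nat.exists_eq_add_of_le hst
    rcases Nat.eq_zero_or_pos n with rfl | hn
    · exact le_rfl
    · have h1 := Gd_add (ω ^ 10000) v s n (2 * N - (s + n))
      have h2 := Gd_nonneg hb s n hn
      rw [show n + (2 * N - (s + n)) = 2 * N - s by omega] at h1
      linarith
  · intro s hs
    obtain ⟨h1, h2⟩ := hS s hs
    unfold RegN at h2
    push Not at h2
    obtain ⟨n, hn1, hn2, h3⟩ := h2
    refine ⟨n, hn1, by omega, ?_⟩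
    have h4 := Gd_add (ω ^ 10000) v s n (2 * N - (s + n))
    rw [show n + (2 * N - (s + n)) = 2 * N - s by omega] at h4
    have h5 : log ω * n ≤ Gd (ω ^ 10000) v s n := by
      have h6 := log_le_log (Nb_pos v s n) h3.le
      rw [log_pow, log_pow] at h6
      unfold Gd
      rw [log_pow]
      push_cast at h6 ⊢
      linarith
    linarith

theorem abs_aux {x y m b c a : ℝ} (e : x * y = m * b + c * a ∨ x * y = m * b - c * a) :
    |x| * |y| ≤ |m| * |b| + |c| * |a| := by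
  rw [← abs_mul, ← abs_mul, ← abs_mul]
  rcases e with e | e
  · rw [e]; exact abs_add_le _ _
  · rw [e]; exact abs_sub _ _

theorem ptol1 (c0 c1 a0 a1 p q r s : ℝ) (h : s * p - q * r = 1) :
    (|r * c1 + p * c0| + |s * c1 + q * c0|) * (|a1 * q + a0 * p| + |a1 * s + a0 * r|) ≤
      |(a1 * s + a0 * r) * c1 + (a1 * q + a0 * p) * c0| * (|p| + |r| + (|q| + |s|)) +
        (|c0| + |c1|) * (|a0| + |a1|) := by
  have h1 := abs_aux (x := r * c1 + p * c0) (y := a1 * q + a0 * p)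
    (m := (a1 * s + a0 * r) * c1 + (a1 * q + a0 * p) * c0) (b := p) (c := c1) (a := a1)
    (Or.inr (by linear_combination (-c1 * a1) * h))
  have h2 := abs_aux (x := r * c1 + p * c0) (y := a1 * s + a0 * r)
    (m := (a1 * s + a0 * r) * c1 + (a1 * q + a0 * p) * c0) (b := r) (c := c0) (a := a1)
    (Or.inl (by linear_combination (c0 * a1) * h))
  have h3 := abs_aux (x := s * c1 + q * c0) (y := a1 * q + a0 * p)
    (m := (a1 * s + a0 * r) * c1 + (a1 * q + a0 * p) * c0) (b := q) (c := c1) (a := a0)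
    (Or.inl (by linear_combination (c1 * a0) * h))
  have h4 := abs_aux (x := s * c1 + q * c0) (y := a1 * s + a0 * r)
    (m := (a1 * s + a0 * r) * c1 + (a1 * q + a0 * p) * c0) (b := s) (c := c0) (a := a0)
    (Or.inr (by linear_combination (-c0 * a0) * h))
  linarith

theorem mulD (v : ℕ → ℝ) (s n m : ℕ) : D (fun l => v (s + l)) (n + m) =
    D (fun l => v (s + l)) n * E (fun l => v (s + n + l)) m +
      D (fun l => v (s + l)) (n + 1) * D (fun l => v (s + n + l)) m := by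
  have := sol_shift (solN_D (fun l => v (s + l)) (n + m)) n m (by omega) (by omega)
  simpa only [add_assoc] using this

theorem mulE (v : ℕ → ℝ) (s n m : ℕ) : E (fun l => v (s + l)) (n + m) =
    E (fun l => v (s + l)) n * E (fun l => v (s + n + l)) m +
      E (fun l => v (s + l)) (n + 1) * D (fun l => v (s + n + l)) m := by
  have := sol_shift (solN_E (fun l => v (s + l)) (n + m)) n m (by omega) (by omega)
  simpa only [add_assoc] using this

/-- the Ptolemy inequality -/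
theorem ptol (v : ℕ → ℝ) (s a b c : ℕ) : Nb v s (a + b) * Nb v (s + a) (b + c) ≤
    Nb v s (a + b + c) * Nb v (s + a) b + Nb v s a * Nb v (s + a + b) c := by
  have hw := wronsk (fun l => v (s + a + l)) b
  have x1 := mulD v s a b
  have x2 := mulD v s a (b + 1)
  have x3 := mulE v s a b
  have x4 := mulE v s a (b + 1)
  have y1 := mulD v (s + a) b c
  have y2 := mulD v (s + a) b (c + 1)
  have y3 := mulE v (s + a) b c
  have y4 := mulE v (s + a) b (c + 1)
  have z1 := mulD v s (a + b) c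
  have z2 := mulD v s (a + b) (c + 1)
  have z3 := mulE v s (a + b) c
  have z4 := mulE v s (a + b) (c + 1)
  simp only [← add_assoc] at x2 x4 y2 y4 z1 z2 z3 z4
  simp only [Nb, NN, pn]
  rw [z1, z2, z3, z4, y1, y2, y3, y4, x1, x2, x3, x4]
  generalize D (fun l => v (s + a + l)) (b + 1) = p at *
  generalize E (fun l => v (s + a + l)) (b + 1) = q at *
  generalize D (fun l => v (s + a + l)) b = r at *
  generalize E (fun l => v (s + a + l)) b = t at *
  generalize D (fun l => v (s + l)) (a + 1) = a0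
  generalize D (fun l => v (s + l)) a = a1
  generalize E (fun l => v (s + l)) (a + 1) = a0'
  generalize E (fun l => v (s + l)) a = a1'
  generalize D (fun l => v (s + a + b + l)) (c + 1) = c0
  generalize E (fun l => v (s + a + b + l)) (c + 1) = c1
  generalize D (fun l => v (s + a + b + l)) c = c0'
  generalize E (fun l => v (s + a + b + l)) c = c1'
  have h1 := ptol1 c0 c1 a0 a1 p q r t hw
  have h2 := ptol1 c0' c1' a0 a1 p q r t hw
  have h3 := ptol1 c0 c1 a0' a1' p q r t hw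
  have h4 := ptol1 c0' c1' a0' a1' p q r t hw
  linarith

theorem real_dbl {Q x1 x2 x3 y1 y2 w : ℝ} (hQ : 2 ≤ Q) (p1 : 0 < x1) (p2 : 0 < x2) (p3 : 0 < x3)
    (l1 : x1 ≤ Q ^ 2) (l2 : x2 ≤ Q ^ 2) (l3 : x3 ≤ Q ^ 2) (hw : 1 ≤ w)
    (h1 : x1 * x2 ≤ y1 * Q + Q ^ 2) (h2 : x2 * x3 ≤ y2 * Q + Q ^ 2)
    (h3 : y1 * y2 ≤ w * Q ^ 2 + Q ^ 2) :
    4 * log Q - log w ≤
      6 * ((2 * log Q - log x1) + (2 * log Q - log x2) + (2 * log Q - log x3)) + 4 := by
  have hQ0 : 0 < Q := by linarith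
  set t := x1 * x2 * x3 / Q ^ 6 with ht
  have t0 : 0 < t := by positivity
  have e : log t = log x1 + log x2 + log x3 - 6 * log Q := by
    rw [ht, log_div (by positivity) (by positivity), log_mul (by positivity) p3.ne',
      log_mul p1.ne' p2.ne', log_pow]
    norm_num
  have et : t * Q ^ 6 = x1 * x2 * x3 := div_mul_cancel₀ _ (by positivity)
  have t1 : t ≤ 1 := by
    rw [ht, div_le_one (by positivity)]
    calc x1 * x2 * x3 ≤ Q ^ 2 * Q ^ 2 * Q ^ 2 := by gcongr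
      _ = Q ^ 6 := by ring
  have lt1 : log t ≤ 0 := log_nonpos t0.le t1
  have lw : 0 ≤ log w := log_nonneg hw
  by_cases hc : 1 ≤ Q * t
  · have key : ∀ u y x : ℝ, 0 < u → x ≤ Q ^ 2 → u * x = t * Q ^ 6 → u ≤ y * Q + Q ^ 2 →
        t * Q ^ 3 / 2 ≤ y := by
      intro u y x hu hx e1 e2
      have a1 : t * Q ^ 4 * Q ^ 2 ≤ u * Q ^ 2 := by
        calc t * Q ^ 4 * Q ^ 2 = u * x := by rw [e1]; ring
          _ ≤ u * Q ^ 2 := by gcongr
      have a2 : t * Q ^ 4 ≤ u := le_of_mul_le_mul_right a1 (by positivity)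
      have a3 : 2 * Q ^ 2 ≤ t * Q ^ 4 := by
        calc 2 * Q ^ 2 ≤ Q * Q ^ 2 * 1 := by rw [mul_one]; gcongr
          _ ≤ Q * Q ^ 2 * (Q * t) := by gcongr
          _ = t * Q ^ 4 := by ring
      have a4 : t * Q ^ 3 / 2 * Q ≤ y * Q := by
        have : t * Q ^ 3 / 2 * Q = t * Q ^ 4 / 2 := by ring
        linarith
      exact le_of_mul_le_mul_right a4 hQ0
    have b1 := key (x1 * x2) y1 x3 (by positivity) l3 et.symm h1
    have b2 := key (x2 * x3) y2 x1 (by positivity) l1 (by rw [et]; ring) h2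
    have b0 : 0 < t * Q ^ 3 / 2 := by positivity
    have b3 : t * Q ^ 3 / 2 * (t * Q ^ 3 / 2) ≤ y1 * y2 :=
      mul_le_mul b1 b2 b0.le (b0.le.trans b1)
    have b4 : t ^ 2 * Q ^ 4 / 2 ^ 3 * Q ^ 2 ≤ w * Q ^ 2 := by
      have c1 : 1 * Q ^ 2 ≤ w * Q ^ 2 := by gcongr
      have c2 : t * Q ^ 3 / 2 * (t * Q ^ 3 / 2) = 2 * (t ^ 2 * Q ^ 4 / 2 ^ 3 * Q ^ 2) := by ring
      linarith
    have b5 : t ^ 2 * Q ^ 4 / 2 ^ 3 ≤ w := le_of_mul_le_mul_right b4 (by positivity)
    have b6 := log_le_log (by positivity) b5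
    rw [log_div (by positivity) (by positivity), log_mul (by positivity) (by positivity), log_pow,
      log_pow, log_pow] at b6
    have b7 := log_le_sub_one_of_pos (x := 2) two_pos
    push_cast at b6
    linarith
  · have b1 : log (Q * t) ≤ 0 := log_nonpos (by positivity) (not_le.1 hc).le
    rw [log_mul hQ0.ne' t0.ne'] at b1
    linarith

theorem dbl_pt {ω : ℝ} {v : ℕ → ℝ} (hb : Bd ω v) (n : ℕ) (hn : 1 ≤ n) :
    Gd (ω ^ 10000) v 0 (4 * n) ≤ 6 * (Gd (ω ^ 10000) v 0 (2 * n) + Gd (ω ^ 10000) v n (2 * n) +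
      Gd (ω ^ 10000) v (2 * n) (2 * n)) + 4 := by
  have h2 := hb.two_le
  have hl : ∀ s, Nb v s n ≤ (ω ^ 10000) ^ n := fun s => Nb_le hb s n hn
  have hl2 : ∀ s, Nb v s (2 * n) ≤ ((ω ^ 10000) ^ n) ^ 2 := fun s => by
    rw [← pow_mul (ω ^ 10000), mul_comm n 2]
    exact Nb_le hb s (2 * n) (by omega)
  have p1 := ptol v 0 n n n
  have p2 := ptol v n n n n
  have p3 := ptol v 0 n (2 * n) n
  rw [zero_add, show n + n + n = 3 * n by omega, show n + n = 2 * n by omega] at p1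
  rw [show n + n + n = 3 * n by omega, show n + n = 2 * n by omega] at p2
  rw [zero_add, show n + 2 * n + n = 4 * n by omega, show n + 2 * n = 3 * n by omega,
    show 2 * n + n = 3 * n by omega] at p3
  unfold Gd
  generalize ω ^ 10000 = L at *
  have hQ : 2 ≤ L ^ n := h2.trans (le_self_pow₀ (by linarith) (by omega))
  have aux : ∀ s s', Nb v s n * Nb v s' n ≤ (L ^ n) ^ 2 := fun s s' => by
    rw [sq]
    exact mul_le_mul (hl s) (hl s') (Nb_pos _ _ _).le (by linarith)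
  have h := real_dbl (y1 := Nb v 0 (3 * n)) (y2 := Nb v n (3 * n)) (w := Nb v 0 (4 * n)) hQ
    (Nb_pos v 0 (2 * n)) (Nb_pos v n (2 * n)) (Nb_pos v (2 * n) (2 * n)) (hl2 _) (hl2 _) (hl2 _)
    (one_le_NN _ _)
    (p1.trans (add_le_add (mul_le_mul_of_nonneg_left (hl _) (Nb_pos _ _ _).le) (aux _ _)))
    (p2.trans (add_le_add (mul_le_mul_of_nonneg_left (hl _) (Nb_pos _ _ _).le) (aux _ _)))
    (p3.trans (add_le_add (mul_le_mul_of_nonneg_left (hl2 _) (Nb_pos _ _ _).le) (aux _ _)))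
  rw [log_pow] at h
  push_cast
  linarith

theorem df_iter (k ω : ℝ) (M t : ℕ) (z : ℝ × ℝ) :
    df k ω M ((Tm k)^[t] z) = Gd (ω ^ 10000) (wd k z) t M := by
  rw [df, wd_iter']
  rfl

theorem df_eq (k ω : ℝ) (M : ℕ) (z : ℝ × ℝ) : df k ω M z = Gd (ω ^ 10000) (wd k z) 0 M :=
  df_iter k ω M 0 z

end Max

theorem s_max (hg : S_gc) (hm : S_meas) (hi : S_inv) : S_max := by
  intro k θ ω N B hN
  obtain ⟨-, ⟨m1, m2⟩, -⟩ := hm k θ ω N 0
  obtain ⟨-, -, -, -, -, -, -, -, -, m3⟩ := hm k θ ω (2 * N) 0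
  obtain ⟨i1, i2⟩ := hi.2.2.2.2 k N (IrrN k ω N) m1 m2
  have h := integral_mono (i1.const_mul (log ω)) m3 fun z => by
    show _ ≤ df k ω (2 * N) z
    rw [Max.df_eq]
    refine Max.max_pt hg B.om (B.bd z) N hN _ fun s hs => ?_
    obtain ⟨h1, h2⟩ := Finset.mem_filter.1 hs
    refine ⟨Finset.mem_range.1 h1, ?_⟩
    rw [← wd_iter']
    exact h2
  rw [integral_const_mul, i2] at h
  linarith

theorem s_dbl (hm : S_meas) (hi : S_inv) : S_dbl := by
  intro k θ ω n B hn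
  obtain ⟨-, -, -, -, -, -, -, c1, c2, c3⟩ := hm k θ ω (2 * n) 0
  obtain ⟨-, -, -, -, -, -, -, -, -, m3⟩ := hm k θ ω (4 * n) 0
  have := hi.1
  obtain ⟨i1, e1⟩ := hi.2.2.2.1 k n _ c1.measurable c2 c3
  obtain ⟨i2, e2⟩ := hi.2.2.2.1 k (2 * n) _ c1.measurable c2 c3
  have j1 : Integrable (fun z => df k ω (2 * n) z + df k ω (2 * n) ((Tm k)^[n] z)) mu := c3.add i1
  have j2 : Integrable (fun z => df k ω (2 * n) z + df k ω (2 * n) ((Tm k)^[n] z) +
    df k ω (2 * n) ((Tm k)^[2 * n] z)) mu := j1.add i2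
  have j3 : Integrable (fun z => 6 * (df k ω (2 * n) z + df k ω (2 * n) ((Tm k)^[n] z) +
    df k ω (2 * n) ((Tm k)^[2 * n] z)) + 4) mu := (j2.const_mul 6).add (integrable_const 4)
  have h := integral_mono m3 j3 fun z => by
    show df k ω (4 * n) z ≤ 6 * (df k ω (2 * n) z + df k ω (2 * n) ((Tm k)^[n] z) +
      df k ω (2 * n) ((Tm k)^[2 * n] z)) + 4
    rw [Max.df_iter, Max.df_iter, Max.df_eq, Max.df_eq]
    exact Max.dbl_pt (B.bd z) n hn
  rw [integral_add (j2.const_mul 6) (integrable_const 4), integral_const_mul, integral_add j1 i2,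
    integral_add c3 i1, e1, e2, integral_const] at h
  simp only [probReal_univ, smul_eq_mul, one_mul] at h
  linarith

end

end Vale.Agent.P108
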