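import Vale.Agent.P108.Defs

/-! P108: the entropy is even in the parameter. -/

namespace Vale.Agent.P108

open MeasureTheory Filter Real

namespace Neg

theorem factor {X : Type} [MeasurableSpace X] {μ : Measure X} {S T φ : X → X}
    (hφ : MeasurePreserving φ μ μ) (hS : Measurable S) (h : Function.Semiconj φ T S) :
    ksEntropy μ S ≤ ksEntropy μ T := by
  refine iSup_le fun r => iSup_le fun P => iSup_le fun hP => ?_
  refine le_iSup_of_le r (le_iSup_of_le (P ∘ φ) (le_iSup_of_le (hP.comp hφ.measurable) (le_of_eq ?_)))
  congr 1
  funext N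
  congr 2
  unfold shannon
  refine Finset.sum_congr rfl fun i _ => ?_
  congr 1
  have hm : Measurable fun (x : X) (t : Fin N) => P (S^[t] x) :=
    measurable_pi_lambda _ fun t => hP.comp (hS.iterate t)
  rw [← hφ.measureReal_preimage (hm (measurableSet_singleton i)).nullMeasurableSet]
  congr 1
  ext x
  simp only [Set.mem_preimage, Function.comp, (h.iterate_right _).eq]

theorem cont_sinT : Continuous sinT := by
  refine (QuotientAddGroup.isQuotientMap_mk _).continuous_iff.2 ?_
  have : sinT ∘ QuotientAddGroup.mk = fun x : ℝ => sin (2 * π * x) :=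
    funext fun x => sin_per.lift_coe x
  rw [this]; fun_prop

theorem cont_stdMap (k : ℝ) : Continuous (stdMap k) := by
  have h : Continuous fun z : UnitAddCircle × UnitAddCircle => ((k * sinT z.1 : ℝ) : UnitAddCircle) :=
    (AddCircle.continuous_mk' 1).comp (continuous_const.mul (cont_sinT.comp continuous_fst))
  exact ((continuous_fst.add continuous_snd).add h).prodMk (continuous_snd.add h)

theorem sinT_half (x : UnitAddCircle) : sinT (x + ((1 / 2 : ℝ) : UnitAddCircle)) = -sinT x := by
  induction x using QuotientAddGroup.induction_on with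
  | H x =>
    rw [← QuotientAddGroup.mk_add]
    simp only [sinT, Function.Periodic.lift_coe]
    rw [show 2 * π * (x + 1 / 2) = 2 * π * x + π by ring, sin_add_pi]

end Neg

theorem ks_neg (k : ℝ) : ksEntropy volume (stdMap k) ≤ ksEntropy volume (stdMap (-k)) := by
  refine Neg.factor (φ := Prod.map (· + ((1 / 2 : ℝ) : UnitAddCircle)) id)
    ((measurePreserving_add_right volume _).prod (MeasurePreserving.id volume))
    (Neg.cont_stdMap k).measurable fun z => ?_
  simp only [stdMap, Prod.map, id, Neg.sinT_half, mul_neg, neg_mul]
  congr 1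
  abel

end Vale.Agent.P108
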