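import Vale.Agent.P108.Basic

/-! P108: Taylor expansions along the line through a profile point. -/

namespace Vale.Agent.P108

open MeasureTheory Filter Real Set

noncomputable section

namespace Pa

theorem shave {ω x y C : ℝ} (hω : 10 ^ 6 ≤ ω) {a b : ℕ} (c : ℕ) (hy : 0 ≤ y) (hC : C ≤ 10 ^ 5)
    (hab : b + c < a) (h : x * ω ^ a ≤ C * ω ^ b * y) : x * ω ^ c ≤ y / 10 := by
  have h1 := pw_lt hω hab
  have h2 := pw_pos hω a
  have h3 := pw_pos hω b
  have h4 := pw_pos hω c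
  rw [pow_add] at h1
  generalize ω ^ a = A at *
  generalize ω ^ b = B at *
  generalize ω ^ c = C' at *
  refine le_of_mul_le_mul_right ?_ h2
  have h5 := mul_le_mul_of_nonneg_right h h4.le
  have h6 : C * (B * C' * y) ≤ 10 ^ 5 * (B * C' * y) :=
    mul_le_mul_of_nonneg_right hC (by positivity)
  have h7 := mul_le_mul_of_nonneg_right h1 hy
  linarith

theorem shave0 {ω x y C : ℝ} (hω : 10 ^ 6 ≤ ω) {a b : ℕ} (hy : 0 ≤ y) (hC : C ≤ 10 ^ 5)
    (hab : b < a) (h : x * ω ^ a ≤ C * ω ^ b * y) : x ≤ y / 10 := by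
  have := shave hω 0 hy hC hab h
  rwa [pow_zero, mul_one] at this

theorem tay_re (ht : S_tay) (n : ℕ) (F : ℂ → ℂ) (g : ℝ → ℝ) {R B : ℝ} (hR : 0 < R)
    (hF : DifferentiableOn ℂ F (Metric.ball 0 R)) (hB : ∀ s : ℂ, ‖s‖ < R → ‖F s‖ ≤ B)
    (hg : ∀ s : ℝ, F s = g s) : ∃ c : ℕ → ℝ, (0 < n → c 0 = g 0) ∧
      (∀ i < n, |c i| * R ^ i ≤ 2 ^ i * B) ∧ ∀ s : ℝ, |s| < R →
        |g s - ∑ i ∈ Finset.range n, c i * s ^ i| * R ^ n ≤ 2 ^ n * B * |s| ^ n := by
  obtain ⟨c, h0, h1, h2⟩ := ht n F R B hR hF fun s hs => hB s (mem_ball_zero_iff.1 hs)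
  refine ⟨fun i => (c i).re, fun hn => ?_, fun i hi => ?_, fun s hs => ?_⟩
  · have := hg 0
    rw [Complex.ofReal_zero] at this
    simp only [h0 hn, this, Complex.ofReal_re]
  · exact (mul_le_mul_of_nonneg_right (Complex.abs_re_le_norm _) (pow_pos hR i).le).trans (h1 i hi)
  · have h3 := h2 s (mem_ball_zero_iff.2 (by simpa using hs))
    have h4 : g s - ∑ i ∈ Finset.range n, (c i).re * s ^ i =
        (F s - ∑ i ∈ Finset.range n, c i * (s : ℂ) ^ i).re := by
      rw [hg, Complex.sub_re, Complex.ofReal_re, Complex.re_sum]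
      congr 1
      refine Finset.sum_congr rfl fun i _ => ?_
      rw [← Complex.ofReal_pow, Complex.re_mul_ofReal]
    rw [h4]
    refine (mul_le_mul_of_nonneg_right ((Complex.abs_re_le_norm _).trans h3)
      (pow_pos hR n).le).trans (le_of_eq ?_)
    rw [Complex.norm_real, Real.norm_eq_abs, div_pow, mul_assoc, div_mul_cancel₀ _ (pow_pos hR n).ne']

theorem zero_of_sq {c C : ℝ} (h : ∀ t : ℝ, 0 < t → t < 1 → |c| * t ≤ C * t ^ 2) : c = 0 := by
  by_contra hc
  have h0 : 0 < |c| := abs_pos.2 hc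
  have h1 : 0 < |c| + |C| + 1 := by positivity
  have h2 : 0 < |c| / (|c| + |C| + 1) := div_pos h0 h1
  have h3 : |c| / (|c| + |C| + 1) < 1 := by
    rw [div_lt_one h1]
    linarith [abs_nonneg C]
  have h4 := h _ h2 h3
  have h5 : |c| / (|c| + |C| + 1) * (|c| + |C| + 1) = |c| := div_mul_cancel₀ _ h1.ne'
  generalize |c| / (|c| + |C| + 1) = t at *
  have h6 : |c| ≤ C * t := by
    refine le_of_mul_le_mul_right ?_ h2
    linarith
  have h7 := mul_le_mul_of_nonneg_right (le_abs_self C) h2.le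
  nlinarith

theorem quot_le {a a' e e' : ℂ} {f P P' N : ℝ} (hf : 0 < |f|) (h : |f| ≤ P * ‖a‖)
    (h' : |f| ≤ P' * ‖a'‖) (hN : ‖e' * a - e * a'‖ ≤ N) :
    ‖(f : ℂ) ^ 2 * (e' / a' - e / a)‖ ≤ P * P' * N := by
  have ha : a ≠ 0 := fun h0 => by
    rw [h0, norm_zero, mul_zero] at h
    linarith
  have ha' : a' ≠ 0 := fun h0 => by
    rw [h0, norm_zero, mul_zero] at h'
    linarith
  have e1 : (f : ℂ) ^ 2 * (e' / a' - e / a) = (f / a) * (f / a') * (e' * a - e * a') := by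
    field_simp
  have h1 : ‖(f : ℂ) / a‖ ≤ P := by
    rw [norm_div, Complex.norm_real, Real.norm_eq_abs, div_le_iff₀ (norm_pos_iff.2 ha)]
    exact h
  have h2 : ‖(f : ℂ) / a'‖ ≤ P' := by
    rw [norm_div, Complex.norm_real, Real.norm_eq_abs, div_le_iff₀ (norm_pos_iff.2 ha')]
    exact h'
  have h3 := (norm_nonneg _).trans h1
  have h4 := (norm_nonneg _).trans h2
  rw [e1, norm_mul, norm_mul]
  exact mul_le_mul (mul_le_mul h1 h2 (norm_nonneg _) h3) hN (norm_nonneg _) (mul_nonneg h3 h4)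

theorem geo (N : ℕ) : ∑ n ∈ Finset.range N, (1 / 2 : ℝ) ^ (N - n) ≤ 1 := by
  have h : ∀ N : ℕ, ∑ n ∈ Finset.range N, (1 / 2 : ℝ) ^ (n + 1) = 1 - (1 / 2) ^ N := by
    intro N
    induction N with
    | zero => simp
    | succ N ih => rw [Finset.sum_range_succ, ih]; ring
  have h2 := Finset.sum_range_reflect (fun n => (1 / 2 : ℝ) ^ (n + 1)) N
  have h3 : ∑ n ∈ Finset.range N, (1 / 2 : ℝ) ^ (N - n) =
      ∑ j ∈ Finset.range N, (1 / 2 : ℝ) ^ (N - 1 - j + 1) :=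
    Finset.sum_congr rfl fun j hj => by
      have := Finset.mem_range.1 hj
      rw [show N - j = N - 1 - j + 1 by omega]
  rw [h3, h2, h]
  have : (0 : ℝ) ≤ (1 / 2) ^ N := by positivity
  linarith

theorem pol_sum (N : ℕ) (c : ℕ → Fin 5 → ℝ) (s : ℝ) :
    pol (fun i => ∑ n ∈ Finset.range N, c n i) s = ∑ n ∈ Finset.range N, pol (c n) s := by
  simp only [pol, Finset.sum_add_distrib, Finset.sum_mul]

/-- the complex second coordinate -/
def bt (k : ℝ) (z : ℝ × ℝ) (J : ℕ) (s : ℂ) : ℂ := (z.2 : ℂ) + s / ((D (wd k z) J : ℝ) : ℂ)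

/-- the index with the larger Dirichlet value -/
def uu (v : ℕ → ℝ) (n : ℕ) : ℕ := if |D v n| ≤ |D v (n + 1)| then n + 1 else n

theorem uu_or (v : ℕ → ℝ) (n : ℕ) : uu v n = n ∨ uu v n = n + 1 := by
  unfold uu
  split_ifs
  · exact Or.inr rfl
  · exact Or.inl rfl

theorem pn_le_uu (v : ℕ → ℝ) (n : ℕ) : pn (D v) n ≤ 2 * |D v (uu v n)| := by
  unfold uu pn
  split_ifs with h
  · linarith
  · linarith [not_le.1 h]

theorem uu_zero (v : ℕ → ℝ) : uu v 0 = 1 := by simp [uu]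

theorem num_le (w : ℕ → ℂ) (n a b : ℕ) (ha : a = n ∨ a = n + 1) (hb : b = n + 1 ∨ b = n + 1 + 1)
    {N : ℝ} (h1 : 1 ≤ N) (h2 : ‖w (n + 1)‖ ≤ N) : ‖E w b * D w a - E w a * D w b‖ ≤ N := by
  have w1 := wronsk w n
  have w2 := wronsk w (n + 1)
  rcases ha with rfl | rfl <;> rcases hb with rfl | rfl
  · rw [show E w (a + 1) * D w a - E w a * D w (a + 1) = -1 by linear_combination -w1]
    simpa using h1
  · rw [show E w (a + 1 + 1) * D w a - E w a * D w (a + 1 + 1) = -w (a + 1) by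
      rw [D_add_two, E_add_two]; linear_combination -w (a + 1) * w1]
    simpa using h2
  · rw [sub_self, norm_zero]
    linarith
  · rw [show E w (n + 1 + 1) * D w (n + 1) - E w (n + 1) * D w (n + 1 + 1) = -1 by
      linear_combination -w2]
    simpa using h1

variable {k θ ω : ℝ} {z : ℝ × ℝ} {J : ℕ}

theorem bt_real (s : ℝ) : bt k z J s = (((pt k z J s).2 : ℝ) : ℂ) := by simp [bt, pt]

theorem DC_real (s : ℝ) (l : ℕ) :
    D (wC k z.1 (bt k z J s)) l = (D (wd k (pt k z J s)) l : ℝ) := by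
  rw [bt_real, DC_ofReal]; rfl

theorem EC_real (s : ℝ) (l : ℕ) :
    E (wC k z.1 (bt k z J s)) l = (E (wd k (pt k z J s)) l : ℝ) := by
  rw [bt_real, EC_ofReal]; rfl

theorem XC_real (s : ℝ) (l : ℕ) :
    XC k z.1 (bt k z J s) l = (X k z.1 (pt k z J s).2 l : ℝ) := by
  rw [bt_real, XC_ofReal]

theorem pt_zero : pt k z J 0 = z := by simp [pt]

theorem diff_bt : Differentiable ℂ (bt k z J) := by
  unfold bt
  fun_prop

theorem one_le_f (B : Big k θ ω) (hJ : 1 ≤ J) (hP : Prof ω 9800 1 J (wd k z)) :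
    1 ≤ |D (wd k z) J| := by
  have h := hP 1 hJ
  rw [D_one, abs_one, one_mul, one_mul] at h
  exact (one_le_pw B.om _).trans h

theorem sh (hsh : S_sh) (B : Big k θ ω) (hJ : 1 ≤ J) (hP : Prof ω 9800 1 J (wd k z)) {p : ℕ}
    (hp : p ≤ J) {R : ℝ} {s : ℂ} (hs : ‖s‖ ≤ R) (hR : R ≤ ω ^ (9400 * (J - p + 1))) {l : ℕ}
    (hl : l ≤ p) :
    ‖XC k z.1 (bt k z J s) l - X k z.1 z.2 l - (D (wd k z) l : ℝ) * (bt k z J s - z.2)‖ *
      ω ^ (19600 * (J - l + 1)) ≤ R ^ 2 * ω ^ 10001 ∧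
    ‖D (wC k z.1 (bt k z J s)) l - (D (wd k z) l : ℝ)‖ * ω ^ (19600 * (J - l + 1))
      ≤ R * |D (wd k z) J| * ω ^ 10002 ∧
    (l < p → ‖wC k z.1 (bt k z J s) l - wd k z l‖ * ω ^ (9800 * (J - l)) ≤ 26 * R * ω ^ 10000) := by
  have hf := one_le_f B hJ hP
  refine hsh k θ ω z J p R _ B hJ hP hp ((norm_nonneg _).trans hs) hR ?_ l hl
  unfold bt
  rw [add_sub_cancel_left, norm_div, Complex.norm_real, Real.norm_eq_abs,
    div_mul_cancel₀ _ (by linarith)]
  exact hs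

theorem five_lt (hω : 10 ^ 6 ≤ ω) {a : ℕ} (ha : 0 < a) : 5 < ω ^ a := by
  have := pw_lt hω ha
  rw [pow_zero] at this
  linarith

theorem part2 (hsh : S_sh) (ht : S_tay) (B : Big k θ ω) (hJ : 1 ≤ J)
    (hP : Prof ω 9800 1 J (wd k z)) : ∃ α : ℝ, |α| * ω ^ 9000 ≤ 1 ∧ ∀ s : ℝ, |s| ≤ 5 →
      |D (wd k (pt k z J s)) J / D (wd k z) J - 1 - α * s| * ω ^ 11000 ≤ s ^ 2 := by
  have hω := B.om
  have hf := one_le_f B hJ hP
  have hf0 : D (wd k z) J ≠ 0 := abs_pos.1 (by linarith)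
  have hf1 : ((D (wd k z) J : ℝ) : ℂ) ≠ 0 := Complex.ofReal_ne_zero.2 hf0
  obtain ⟨c, h0, h1, h2⟩ := tay_re ht 2
    (fun s => D (wC k z.1 (bt k z J s)) J / ((D (wd k z) J : ℝ) : ℂ) - 1)
    (fun s => D (wd k (pt k z J s)) J / D (wd k z) J - 1) (B := 1) (pw_pos hω 9400)
    ((((diff_DC k z.1 J).comp diff_bt).div_const _).sub_const _).differentiableOn
    (fun s hs => by
      have h3 := (sh hsh B hJ hP le_rfl hs.le (pw_le hω (by omega)) le_rfl).2.1
      have h4 := shave0 hω (C := 1) (b := 9400 + 10002) (abs_nonneg (D (wd k z) J))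
        (by norm_num) (by omega) (h3.trans (le_of_eq (by rw [pow_add]; ring)))
      rw [div_sub_one hf1, norm_div, Complex.norm_real, Real.norm_eq_abs,
        div_le_one (by linarith)]
      linarith)
    (fun s => by rw [DC_real]; push_cast; rfl)
  have h3 : c 0 = 0 := by rw [h0 (by norm_num), pt_zero, div_self hf0, sub_self]
  refine ⟨c 1, ?_, fun s hs => ?_⟩
  · have h4 := h1 1 (by norm_num)
    rw [pow_one] at h4
    have := shave hω (C := 2) (a := 9400) (b := 0) 9000 zero_le_one (by norm_num) (by norm_num)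
      (h4.trans (le_of_eq (by rw [pow_zero]; ring)))
    linarith
  · have h4 := h2 s (hs.trans_lt (five_lt hω (by norm_num)))
    rw [← pow_mul, Finset.sum_range_succ, Finset.sum_range_one, h3, zero_mul, zero_add, pow_one,
      sq_abs] at h4
    have := shave hω (C := 4) (b := 0) 11000 (sq_nonneg s) (by norm_num) (by norm_num)
      (h4.trans (le_of_eq (by rw [pow_zero]; ring)))
    linarith [sq_nonneg s]

theorem part3 (hsh : S_sh) (ht : S_tay) (B : Big k θ ω) (hJ : 1 ≤ J)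
    (hP : Prof ω 9800 1 J (wd k z)) : ∃ β : ℝ, |β| * ω ^ 9000 ≤ 1 ∧ ∀ s : ℝ, |s| ≤ 5 →
      |X k z.1 (pt k z J s).2 J - X k z.1 z.2 J - s - β * s ^ 2| * ω ^ 11000 ≤ |s| ^ 3 := by
  have hω := B.om
  have hf := one_le_f B hJ hP
  have hf0 : D (wd k z) J ≠ 0 := abs_pos.1 (by linarith)
  have hf1 : ((D (wd k z) J : ℝ) : ℂ) ≠ 0 := Complex.ofReal_ne_zero.2 hf0
  have key : ∀ s : ℂ, ‖s‖ ≤ ω ^ 9400 →
      ‖XC k z.1 (bt k z J s) J - X k z.1 z.2 J - s‖ * ω ^ 9599 ≤ ‖s‖ ^ 2 := by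
    intro s hs
    have h3 := (sh hsh B hJ hP le_rfl (s := s) le_rfl (hs.trans (pw_le hω (by omega))) le_rfl).1
    have e : ((D (wd k z) J : ℝ) : ℂ) * (bt k z J s - z.2) = s := by
      unfold bt
      rw [add_sub_cancel_left, mul_div_cancel₀ _ hf1]
    rw [e, show 19600 * (J - J + 1) = 9599 + 10001 by omega, pow_add, ← mul_assoc] at h3
    exact le_of_mul_le_mul_right h3 (pw_pos hω _)
  obtain ⟨c, h0, h1, h2⟩ := tay_re ht 3
    (fun s => XC k z.1 (bt k z J s) J - X k z.1 z.2 J - s)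
    (fun s => X k z.1 (pt k z J s).2 J - X k z.1 z.2 J - s) (B := ω ^ 9201) (pw_pos hω 9400)
    ((((diff_XC k z.1 J).comp diff_bt).sub_const _).sub differentiable_id).differentiableOn
    (fun s hs => by
      have h3 := (key s hs.le).trans (pow_le_pow_left₀ (norm_nonneg _) hs.le 2)
      rw [← pow_mul, show 9400 * 2 = 9201 + 9599 by norm_num, pow_add] at h3
      exact le_of_mul_le_mul_right h3 (pw_pos hω _))
    (fun s => by rw [XC_real]; push_cast; rfl)
  have h3 : c 0 = 0 := by rw [h0 (by norm_num), pt_zero, sub_self, sub_self]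
  have h5 : ∀ s : ℝ, |s| ≤ 5 → |X k z.1 (pt k z J s).2 J - X k z.1 z.2 J - s -
      (c 1 * s + c 2 * s ^ 2)| * ω ^ 11000 ≤ |s| ^ 3 := by
    intro s hs
    have h4 := h2 s (hs.trans_lt (five_lt hω (by norm_num)))
    rw [← pow_mul, Finset.sum_range_succ, Finset.sum_range_succ, Finset.sum_range_one, h3,
      zero_mul, zero_add, pow_one] at h4
    have h6 : 0 ≤ |s| ^ 3 := by positivity
    have := shave hω (C := 2 ^ 3) (b := 9201) 11000 h6 (by norm_num) (by norm_num) h4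
    linarith
  have h6 : c 1 = 0 := by
    refine zero_of_sq (C := 2 + |c 2|) fun t t0 t1 => ?_
    have a0 : |t| = t := abs_of_pos t0
    have a1 := h5 t (by rw [a0]; linarith)
    have a2 := key t (by
      rw [Complex.norm_real, Real.norm_eq_abs, a0]
      exact t1.le.trans (one_le_pw hω _))
    rw [XC_real, ← Complex.ofReal_sub, ← Complex.ofReal_sub, Complex.norm_real, Complex.norm_real,
      Real.norm_eq_abs, Real.norm_eq_abs, a0] at a2
    rw [a0] at a1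
    generalize X k z.1 (pt k z J t).2 J - X k z.1 z.2 J - t = g at a1 a2
    have a3 := (le_mul_of_one_le_right (abs_nonneg _) (one_le_pw hω _)).trans a1
    have a4 := (le_mul_of_one_le_right (abs_nonneg _) (one_le_pw hω _)).trans a2
    have a5 : |c 1 * t| ≤ |g| + |g - (c 1 * t + c 2 * t ^ 2)| + |c 2 * t ^ 2| := by
      calc |c 1 * t| = |g - (g - (c 1 * t + c 2 * t ^ 2)) - c 2 * t ^ 2| := by
            congr 1
            ring
        _ ≤ |g - (g - (c 1 * t + c 2 * t ^ 2))| + |c 2 * t ^ 2| := abs_sub _ _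
        _ ≤ _ := by linarith [abs_sub g (g - (c 1 * t + c 2 * t ^ 2))]
    rw [abs_mul, abs_mul, a0, abs_of_nonneg (sq_nonneg t)] at a5
    have a6 : t ^ 3 ≤ t ^ 2 := pow_le_pow_of_le_one t0.le t1.le (by norm_num)
    linarith
  refine ⟨c 2, ?_, fun s hs => ?_⟩
  · have h4 := h1 2 (by norm_num)
    rw [← pow_mul] at h4
    have := shave hω (C := 2 ^ 2) (b := 9201) 9000 zero_le_one (by norm_num) (by norm_num)
      (h4.trans (le_of_eq (mul_one _).symm))
    linarith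
  · have := h5 s hs
    rwa [h6, zero_mul, zero_add] at this

theorem err (hsh : S_sh) (B : Big k θ ω) (hJ : 1 ≤ J) (hP : Prof ω 9800 1 J (wd k z)) {s : ℝ}
    (hs : |s| ≤ 5) {l : ℕ} (hl : l ≤ J) :
    |D (wd k (pt k z J s)) l - D (wd k z) l| * ω ^ (9000 * (J - l)) ≤ |D (wd k z) J| / 10 := by
  have hω := B.om
  have h3 := (sh hsh B hJ hP le_rfl (s := s) (R := 5)
    (by rwa [Complex.norm_real, Real.norm_eq_abs]) (five_lt hω (by omega)).le hl).2.1
  rw [DC_real, ← Complex.ofReal_sub, Complex.norm_real, Real.norm_eq_abs] at h3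
  exact shave hω (C := 5) (b := 10002) _ (abs_nonneg _) (by norm_num) (by omega)
    (h3.trans (le_of_eq (mul_right_comm _ _ _)))

theorem part4 (hsh : S_sh) (B : Big k θ ω) (hJ : 1 ≤ J) (hP : Prof ω 9800 1 J (wd k z)) {s : ℝ}
    (hs : |s| ≤ 5) : |D (wd k (pt k z J s)) (J - 1)| * ω ^ 9000 ≤ |D (wd k z) J| := by
  have hω := B.om
  have h1 := err hsh B hJ hP hs (l := J - 1) (by omega)
  have h2 := shave hω (C := 1) (b := 0) 9000 (abs_nonneg (D (wd k z) J)) (by norm_num) (by omega)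
    ((hP (J - 1) (by omega)).trans (le_of_eq (by rw [pow_zero, mul_one])))
  rw [show 9000 * (J - (J - 1)) = 9000 by omega] at h1
  have h3 := mul_le_mul_of_nonneg_right
    (abs_sub_abs_le_abs_sub (D (wd k (pt k z J s)) (J - 1)) (D (wd k z) (J - 1)))
    (pw_pos hω 9000).le
  have h4 := abs_nonneg (D (wd k z) J)
  generalize ω ^ 9000 = P at *
  linarith

theorem part5 (hsh : S_sh) (B : Big k θ ω) (hJ : 1 ≤ J) (hP : Prof ω 9800 1 J (wd k z)) {s : ℝ}
    (hs : |s| ≤ 5) : Prof ω 9000 2 J (wd k (pt k z J s)) := by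
  intro l hl
  have hω := B.om
  have h1 := err hsh B hJ hP hs hl
  have h2 := err hsh B hJ hP hs le_rfl
  rw [Nat.sub_self, mul_zero, pow_zero, mul_one, abs_sub_comm] at h2
  have h3 := mul_le_mul_of_nonneg_right
    (abs_sub_abs_le_abs_sub (D (wd k (pt k z J s)) l) (D (wd k z) l))
    (pw_pos hω (9000 * (J - l))).le
  have h4 := abs_sub_abs_le_abs_sub (D (wd k z) J) (D (wd k (pt k z J s)) J)
  have h5 := (mul_le_mul_of_nonneg_left
    (pw_le hω (show 9000 * (J - l) ≤ 9800 * (J - l) by omega)) (abs_nonneg _)).trans (hP l hl)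
  have h6 := abs_nonneg (D (wd k z) J)
  generalize ω ^ (9000 * (J - l)) = P at *
  linarith

theorem den (hsh : S_sh) (B : Big k θ ω) (hJ : 1 ≤ J) (hP : Prof ω 9800 1 J (wd k z)) {m e : ℕ}
    (hm : J = m + e + 1) {s : ℂ} (hs : ‖s‖ ≤ ω ^ (9400 * (e + 1))) :
    |D (wd k z) J| ≤ 4 * ω ^ (10000 * e) * ‖D (wC k z.1 (bt k z J s)) (uu (wd k z) m)‖ := by
  have hω := B.om
  have hu := uu_or (wd k z) m
  have h1 := (sh hsh B hJ hP (p := m + 1) (by omega) hs (pw_le hω (by omega))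
    (l := uu (wd k z) m) (by omega)).2.1
  have h2 : |D (wd k z) J| ≤ ω ^ (10000 * e) * (2 * |D (wd k z) (uu (wd k z) m)|) := by
    have a1 := abs_succ_le_pn (D (wd k z)) (m + e)
    rw [← hm] at a1
    exact a1.trans ((pn_add_le (B.bd z) (solN_D _ (m + e)) m e le_rfl).trans
      (mul_le_mul_of_nonneg_left (pn_le_uu _ m) (pw_pos hω _).le))
  have h3 := h1.trans (mul_le_mul_of_nonneg_right
    (mul_le_mul_of_nonneg_left h2 (pw_pos hω _).le) (pw_pos hω _).le)
  have h4 := shave0 hω (C := 2) (b := 9400 * (e + 1) + 10000 * e + 10002)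
    (abs_nonneg (D (wd k z) (uu (wd k z) m))) (by norm_num) (by omega)
    (h3.trans (le_of_eq (by
      rw [pow_add, pow_add]
      generalize ω ^ (9400 * (e + 1)) = P
      generalize ω ^ (10000 * e) = P'
      generalize ω ^ 10002 = P''
      ring)))
  have h5 := norm_sub_norm_le ((D (wd k z) (uu (wd k z) m) : ℝ) : ℂ)
    (D (wC k z.1 (bt k z J s)) (uu (wd k z) m))
  rw [norm_sub_rev, Complex.norm_real, Real.norm_eq_abs] at h5
  have h6 := abs_nonneg (D (wd k z) (uu (wd k z) m))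
  have h7 : 2 * |D (wd k z) (uu (wd k z) m)| ≤
      4 * ‖D (wC k z.1 (bt k z J s)) (uu (wd k z) m)‖ := by linarith
  refine h2.trans ((mul_le_mul_of_nonneg_left h7 (pw_pos hω _).le).trans (le_of_eq ?_))
  generalize ω ^ (10000 * e) = P'
  ring

theorem term (hsh : S_sh) (ht : S_tay) (B : Big k θ ω) (hJ : 1 ≤ J)
    (hP : Prof ω 9800 1 J (wd k z)) {n d : ℕ} (hd : J = n + d + 2) :
    ∃ c : Fin 5 → ℝ, ∀ s : ℝ, |s| ≤ 5 →
      |D (wd k z) J ^ 2 * (E (wd k (pt k z J s)) (uu (wd k z) (n + 1)) /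
          D (wd k (pt k z J s)) (uu (wd k z) (n + 1)) -
        E (wd k (pt k z J s)) (uu (wd k z) n) / D (wd k (pt k z J s)) (uu (wd k z) n)) -
        pol c s| * ω ^ 26000 ≤ (1 / 2) ^ (d + 1) * |s| ^ 5 := by
  have hω := B.om
  have hf := one_le_f B hJ hP
  have d1 : ∀ s : ℂ, ‖s‖ < ω ^ (9400 * (d + 1)) → |D (wd k z) J| ≤
      4 * ω ^ (10000 * d) * ‖D (wC k z.1 (bt k z J s)) (uu (wd k z) (n + 1))‖ :=
    fun s hs => den hsh B hJ hP (by omega) hs.le
  have d2 : ∀ s : ℂ, ‖s‖ < ω ^ (9400 * (d + 1)) → |D (wd k z) J| ≤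
      4 * ω ^ (10000 * (d + 1)) * ‖D (wC k z.1 (bt k z J s)) (uu (wd k z) n)‖ :=
    fun s hs => den hsh B hJ hP (by omega) (hs.le.trans (pw_le hω (by omega)))
  have ne : ∀ {P : ℝ} {a : ℂ}, |D (wd k z) J| ≤ P * ‖a‖ → a ≠ 0 := fun h h0 => by
    rw [h0, norm_zero, mul_zero] at h
    linarith
  have dD : ∀ l, DifferentiableOn ℂ (fun s => D (wC k z.1 (bt k z J s)) l)
      (Metric.ball 0 (ω ^ (9400 * (d + 1)))) :=
    fun l => ((diff_DC k z.1 l).comp diff_bt).differentiableOn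
  have dE : ∀ l, DifferentiableOn ℂ (fun s => E (wC k z.1 (bt k z J s)) l)
      (Metric.ball 0 (ω ^ (9400 * (d + 1)))) :=
    fun l => ((diff_EC k z.1 l).comp diff_bt).differentiableOn
  obtain ⟨c, -, -, h2⟩ := tay_re ht 5
    (fun s => ((D (wd k z) J : ℝ) : ℂ) ^ 2 * (E (wC k z.1 (bt k z J s)) (uu (wd k z) (n + 1)) /
          D (wC k z.1 (bt k z J s)) (uu (wd k z) (n + 1)) -
        E (wC k z.1 (bt k z J s)) (uu (wd k z) n) / D (wC k z.1 (bt k z J s)) (uu (wd k z) n)))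
    (fun s => D (wd k z) J ^ 2 * (E (wd k (pt k z J s)) (uu (wd k z) (n + 1)) /
          D (wd k (pt k z J s)) (uu (wd k z) (n + 1)) -
        E (wd k (pt k z J s)) (uu (wd k z) n) / D (wd k (pt k z J s)) (uu (wd k z) n)))
    (B := 32 * ω ^ (20000 * (d + 1))) (pw_pos hω (9400 * (d + 1)))
    (((((dE _).div (dD _) fun s hs => ne (d1 s (mem_ball_zero_iff.1 hs))).sub
      ((dE _).div (dD _) fun s hs => ne (d2 s (mem_ball_zero_iff.1 hs)))).const_mul _))
    (fun s hs => by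
      have a1 := (sh hsh B hJ hP (p := n + 2) (by omega) hs.le (pw_le hω (by omega))
        (l := n + 1) (by omega)).2.2 (by omega)
      have a2 := shave0 hω (C := 26) (b := 9400 * (d + 1)) (pw_pos hω 10000).le (by norm_num)
        (by omega) a1
      have a3 := norm_sub_norm_le (wC k z.1 (bt k z J s) (n + 1)) ((wd k z (n + 1) : ℝ) : ℂ)
      rw [Complex.norm_real, Real.norm_eq_abs] at a3
      have a4 := B.bd z (n + 1)
      have a5 := one_le_pw hω 10000
      have a6 := num_le (wC k z.1 (bt k z J s)) n _ _ (uu_or (wd k z) n) (uu_or (wd k z) (n + 1))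
        (N := 2 * ω ^ 10000) (by linarith) (by linarith)
      refine (quot_le (by linarith) (d2 s hs) (d1 s hs) a6).trans (le_of_eq ?_)
      rw [show 20000 * (d + 1) = 10000 * (d + 1) + 10000 * d + 10000 by omega, pow_add, pow_add]
      generalize ω ^ (10000 * (d + 1)) = P
      generalize ω ^ (10000 * d) = P'
      generalize ω ^ 10000 = P''
      ring)
    (fun s => by rw [DC_real, DC_real, EC_real, EC_real]; push_cast; rfl)
  refine ⟨fun i => c i, fun s hs => ?_⟩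
  have h3 := h2 s (hs.trans_lt (five_lt hω (by omega)))
  have h4 : ∑ i ∈ Finset.range 5, c i * s ^ i = pol (fun i => c i) s := by
    simp [pol, Finset.sum_range_succ]
  rw [h4, ← pow_mul] at h3
  have h5 : (0 : ℝ) ≤ (1 / 2) ^ (d + 1) * |s| ^ 5 := by positivity
  have h6 : (1 : ℝ) ≤ ω ^ (d + 1) * (1 / 2) ^ (d + 1) := by
    rw [← mul_pow]
    exact one_le_pow₀ (by linarith)
  have h7 : (0 : ℝ) ≤ 2 ^ 5 * (32 * ω ^ (20000 * (d + 1))) * |s| ^ 5 := by
    have := pw_pos hω (20000 * (d + 1))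
    positivity
  have h8 := shave hω (C := 1024) (b := 20000 * (d + 1) + (d + 1)) 26000 h5 (by norm_num)
    (by omega) (h3.trans ((le_mul_of_one_le_right h7 h6).trans (le_of_eq (by
      rw [pow_add ω (20000 * (d + 1))]
      generalize ω ^ (20000 * (d + 1)) = P
      generalize ω ^ (d + 1) = P'
      generalize (1 / 2 : ℝ) ^ (d + 1) = P''
      ring))))
  linarith

theorem part1 (hsh : S_sh) (ht : S_tay) (B : Big k θ ω) (hJ : 1 ≤ J)
    (hP : Prof ω 9800 1 J (wd k z)) : ∃ p : Fin 5 → ℝ, ∀ s : ℝ, |s| ≤ 5 →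
      |D (wd k z) J ^ 2 * (E (wd k (pt k z J s)) J / D (wd k (pt k z J s)) J) - pol p s| *
        ω ^ 26000 ≤ |s| ^ 5 := by
  have hω := B.om
  have hex : ∀ n, ∃ c : Fin 5 → ℝ, n < J - 1 → ∀ s : ℝ, |s| ≤ 5 →
      |D (wd k z) J ^ 2 * (E (wd k (pt k z J s)) (uu (wd k z) (n + 1)) /
          D (wd k (pt k z J s)) (uu (wd k z) (n + 1)) -
        E (wd k (pt k z J s)) (uu (wd k z) n) / D (wd k (pt k z J s)) (uu (wd k z) n)) -
        pol c s| * ω ^ 26000 ≤ (1 / 2) ^ (J - 1 - n) * |s| ^ 5 := by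
    intro n
    by_cases hn : n < J - 1
    · obtain ⟨c, hc⟩ := term hsh ht B hJ hP (n := n) (d := J - n - 2) (by omega)
      rw [show J - n - 2 + 1 = J - 1 - n by omega] at hc
      exact ⟨c, fun _ => hc⟩
    · exact ⟨0, fun h => absurd h hn⟩
  choose c hc using hex
  have hu : uu (wd k z) (J - 1) = J := by
    have h1 := (le_mul_of_one_le_right (abs_nonneg _) (one_le_pw hω _)).trans
      (hP (J - 1) (by omega))
    unfold uu
    rw [show J - 1 + 1 = J by omega, if_pos (by linarith)]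
  refine ⟨fun i => ∑ n ∈ Finset.range (J - 1), c n i, fun s hs => ?_⟩
  have h1 := Finset.sum_range_sub (fun n => E (wd k (pt k z J s)) (uu (wd k z) n) /
    D (wd k (pt k z J s)) (uu (wd k z) n)) (J - 1)
  simp only [hu, uu_zero, E_one, zero_div, sub_zero] at h1
  rw [pol_sum, ← h1, Finset.mul_sum, ← Finset.sum_sub_distrib]
  refine (mul_le_mul_of_nonneg_right (Finset.abs_sum_le_sum_abs _ _) (pw_pos hω _).le).trans ?_
  rw [Finset.sum_mul]
  refine (Finset.sum_le_sum fun n hn => hc n (Finset.mem_range.1 hn) s hs).trans ?_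
  rw [← Finset.sum_mul]
  exact mul_le_of_le_one_left (by positivity) (geo _)

end Pa

theorem s_pa (hsh : S_sh) (ht : S_tay) : S_pa := by
  intro k θ ω z J B hJ hP
  obtain ⟨p, h1⟩ := Pa.part1 hsh ht B hJ hP
  obtain ⟨α, a2, h2⟩ := Pa.part2 hsh ht B hJ hP
  obtain ⟨β, a3, h3⟩ := Pa.part3 hsh ht B hJ hP
  exact ⟨p, α, β, a2, a3, fun s hs => ⟨h1 s hs, h2 s hs, h3 s hs, Pa.part4 hsh B hJ hP hs,
    Pa.part5 hsh B hJ hP hs⟩⟩

end

end Vale.Agent.P108
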