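import Vale.Agent.P108.Basic

/-! P108: perturbation of the word. -/

namespace Vale.Agent.P108

open MeasureTheory Filter Real Set

namespace Pert

theorem key1 {δ φ d L q s w c : ℝ} (hs : 0 < s) (hL : 0 < L) (hq : 0 < q) (hc : 0 < c)
    (hw : 0 ≤ w) (hφ0 : 0 ≤ φ) (hd0 : 0 ≤ d) (h1 : δ ≤ 7 * L * (100 / s + w * (L * q)))
    (h2 : φ * s ≤ 1) (h3 : d ≤ q) (h4 : L * q * c ≤ s * s)
    (h5 : w * (L * q * (L * q) * c) ≤ 10 * s) : δ * φ * d * c ≤ 770 := by
  have e1 : φ ≤ 1 / s := (le_div_iff₀ hs).2 h2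
  have e2 : δ * φ * d * c ≤ 7 * L * (100 / s + w * (L * q)) * (1 / s) * q * c := by
    refine mul_le_mul_of_nonneg_right ?_ hc.le
    refine mul_le_mul ?_ h3 hd0 (by positivity)
    exact mul_le_mul h1 e1 hφ0 (by positivity)
  have e3 : 7 * L * (100 / s + w * (L * q)) * (1 / s) * q * c =
      700 * (L * q * c / (s * s)) + 7 * (w * (L * q * (L * q) * c) / s) := by
    field_simp
    ring
  have e4 : L * q * c / (s * s) ≤ 1 := (div_le_one (by positivity)).2 h4
  have e5 : w * (L * q * (L * q) * c) / s ≤ 10 := (div_le_iff₀ hs).2 h5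
  linarith

theorem key2 {δ d d' L q s w T : ℝ} (hs : 0 < s) (hL : 0 < L) (hq : 0 < q) (hT : 0 < T)
    (hw : 0 ≤ w) (hd0 : 0 ≤ d) (hd0' : 0 ≤ d') (h1 : δ ≤ 7 * L * (100 / s + w * (L * q)))
    (h2 : d ≤ q) (h3 : d' ≤ q) (h4 : 10 ^ 6 * (L * q * q) ≤ s * T)
    (h5 : 10 ^ 6 * (L * q * (L * q) * q) ≤ T * T) (h6 : w * T ≤ 10) : δ * d * d' ≤ T := by
  have e2 : δ * d * d' ≤ 7 * L * (100 / s + w * (L * q)) * q * q := by
    refine mul_le_mul ?_ h3 hd0' (by positivity)
    exact mul_le_mul h1 h2 hd0 (by positivity)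
  have e3 : 7 * L * (100 / s + w * (L * q)) * q * q =
      700 * (L * q * q / s) + 7 * (w * (L * q * (L * q) * q)) := by
    field_simp
    ring
  have e4 : L * q * q / s ≤ T / 10 ^ 6 := by
    rw [div_le_div_iff₀ hs (by norm_num)]
    linarith
  have e5 : 10 ^ 6 * (w * (L * q * (L * q) * q)) ≤ 10 * T := by
    have := mul_le_mul_of_nonneg_left h5 hw
    have := mul_le_mul_of_nonneg_right h6 hT.le
    nlinarith
  linarith

theorem two_pow_le {ω : ℝ} (h : 10 ^ 6 ≤ ω) (n : ℕ) : (2 : ℝ) ^ n ≤ ω ^ n :=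
  pow_le_pow_left₀ (by norm_num) (by linarith) n

end Pert

theorem s_pert : S_pert := by
  intro ω w N v v' φ hω hb hb' hN hφ hφ0 hdec hw hwT hδ
  set A : ℕ → ℝ := fun l => φ l * D v' (l + 1) - φ (l + 1) * D v' l with hA
  set B : ℕ → ℝ := fun l => D v (l + 1) * D v' l - D v l * D v' (l + 1) with hB
  have hAs : ∀ l < N, A (l + 1) - A l = (v' (l + 1) - v (l + 1)) * φ (l + 1) * D v' (l + 1) := by
    intro l hl
    simp only [hA]
    rw [hφ l hl, D_add_two]
    ring
  have hBs : ∀ l, B (l + 1) - B l =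
      -((v' (l + 1) - v (l + 1)) * D v (l + 1) * D v' (l + 1)) := by
    intro l
    simp only [hB]
    rw [D_add_two, D_add_two]
    ring
  have hD : ∀ l, |D v (l + 1)| ≤ ω ^ (10000 * l) := fun l =>
    (abs_succ_le_pn _ l).trans (pn_D_le hb l)
  have hD' : ∀ l, |D v' (l + 1)| ≤ ω ^ (10000 * l) := fun l =>
    (abs_succ_le_pn _ l).trans (pn_D_le hb' l)
  have hδ' : ∀ l < N, |v' (l + 1) - v (l + 1)| ≤ 7 * ω ^ 10000 *
      (100 / ω ^ (9800 * (l + 1)) + w * (ω ^ 10000 * ω ^ (10000 * l))) := by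
    intro l hl
    have := hδ (l + 1) (by omega) (by omega)
    rwa [show 10000 * (l + 1) = 10000 + 10000 * l by ring, pow_add ω 10000] at this
  have hAi : ∀ l < N, |A (l + 1) - A l| ≤ (1 / 2) ^ (l + 1) / 10 := by
    intro l hl
    rw [hAs l hl, abs_mul, abs_mul]
    have h2 : |φ (l + 1)| * ω ^ (9800 * (l + 1)) ≤ 1 :=
      (mul_le_mul_of_nonneg_right (abs_le_pn φ (l + 1)) (pw_pos hω _).le).trans
        (hdec (l + 1) (by omega) (by omega))
    have h := Pert.key1 (c := ω ^ (l + 2)) (pw_pos hω _) (pw_pos hω _) (pw_pos hω _) (pw_pos hω _)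
      hw (abs_nonneg _) (abs_nonneg _) (hδ' l hl) h2 (hD' l)
      (by
        simp only [← pow_add]
        exact pw_le hω (by omega))
      (by
        have e : ω ^ 10000 * ω ^ (10000 * l) * (ω ^ 10000 * ω ^ (10000 * l)) * ω ^ (l + 2) ≤
            ω ^ (15000 * N) * ω ^ (9800 * (l + 1)) := by
          simp only [← pow_add]
          exact pw_le hω (by omega)
        refine (mul_le_mul_of_nonneg_left e hw).trans ?_
        rw [← mul_assoc]
        exact mul_le_mul_of_nonneg_right hwT (pw_pos hω _).le)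
    have h3 : 10 ^ 6 * 2 ^ (l + 1) ≤ ω ^ (l + 2) :=
      (mul_le_mul_of_nonneg_left (Pert.two_pow_le hω (l + 1)) (by norm_num)).trans
        (pw_lt hω (by omega))
    have h4 : 0 ≤ |v' (l + 1) - v (l + 1)| * |φ (l + 1)| * |D v' (l + 1)| := by positivity
    have h5 := (mul_le_mul_of_nonneg_left h3 h4).trans h
    have h6 : (0 : ℝ) < 2 ^ (l + 1) := by positivity
    rw [one_div, inv_pow, le_div_iff₀ (by norm_num), ← one_div, le_div_iff₀ h6]
    linarith
  have hBi : ∀ l < N, |B (l + 1) - B l| ≤ ω ^ (15000 * N) := by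
    intro l hl
    rw [hBs l, abs_neg, abs_mul, abs_mul]
    refine Pert.key2 (pw_pos hω _) (pw_pos hω _) (pw_pos hω _) (pw_pos hω _) hw (abs_nonneg _)
      (abs_nonneg _) (hδ' l hl) (hD l) (hD' l) ?_ ?_ hwT
    · simp only [← pow_add]
      exact pw_lt hω (by omega)
    · simp only [← pow_add]
      exact pw_lt hω (by omega)
  have hA1 : ∀ l ≤ N, |A l - 1| ≤ (1 - (1 / 2) ^ l) / 10 := by
    intro l hl
    induction l with
    | zero => simp [hA, hφ0]
    | succ l ih =>
      have h1 := ih (by omega)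
      have h2 := hAi l (by omega)
      have h3 := abs_add_le (A (l + 1) - A l) (A l - 1)
      rw [show A (l + 1) - A l + (A l - 1) = A (l + 1) - 1 by ring] at h3
      rw [pow_succ] at h2 ⊢
      linarith
  have hB1 : ∀ l ≤ N, |B l| ≤ l * ω ^ (15000 * N) := by
    intro l hl
    induction l with
    | zero => simp [hB]
    | succ l ih =>
      have h1 := ih (by omega)
      have h2 := hBi l (by omega)
      have h3 := abs_add_le (B (l + 1) - B l) (B l)
      rw [show B (l + 1) - B l + B l = B (l + 1) by ring] at h3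
      push_cast
      linarith
  have hAN : |A N - 1| ≤ 1 / 10 := by
    have h1 := hA1 N le_rfl
    have h2 : (0 : ℝ) < (1 / 2) ^ N := by positivity
    linarith
  have hBN : |B N| ≤ ω ^ (6000 * N) * ω ^ (9800 * N) := by
    refine (hB1 N le_rfl).trans ?_
    have h1 : (N : ℝ) ≤ ω ^ (800 * N) := by
      have h2 : (N : ℝ) ≤ 2 ^ N := by exact_mod_cast (Nat.lt_two_pow_self (n := N)).le
      exact h2.trans ((Pert.two_pow_le hω N).trans (pw_le hω (by omega)))
    refine (mul_le_mul_of_nonneg_right h1 (pw_pos hω _).le).trans ?_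
    simp only [← pow_add]
    exact pw_le hω (by omega)
  have hW := wronsk2 hφ (solN_D v N) N le_rfl
  rw [hφ0, D_one, D_zero] at hW
  intro l hl
  have e : D v' l - D v l = (A N - 1) * D v l + B N * φ l := by
    rcases hl with rfl | rfl
    · simp only [hA, hB]
      linear_combination (-D v' l) * hW
    · simp only [hA, hB]
      linear_combination (-D v' (N + 1)) * hW
  have hφl : |φ l| * ω ^ (9800 * N) ≤ 1 := by
    refine le_trans (mul_le_mul_of_nonneg_right ?_ (pw_pos hω _).le) (hdec N hN le_rfl)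
    rcases hl with rfl | rfl
    · exact abs_le_pn φ l
    · exact abs_succ_le_pn φ N
  rw [e]
  refine (abs_add_le _ _).trans ?_
  rw [abs_mul, abs_mul]
  have h1 := mul_le_mul_of_nonneg_right hAN (abs_nonneg (D v l))
  have h2 := mul_le_mul_of_nonneg_right hBN (abs_nonneg (φ l))
  have h3 := mul_le_mul_of_nonneg_left hφl (pw_pos hω (6000 * N)).le
  rw [mul_assoc, mul_comm (ω ^ (9800 * N))] at h2
  linarith

end Vale.Agent.P108
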