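import Vale.Agent.P108.Basic

/-! P108: growth in clean stretches, the spread solution, symmetrisation of the local estimate. -/

namespace Vale.Agent.P108

open MeasureTheory Filter Real Set

namespace Prof

theorem prev {ω : ℝ} {m : ℕ} {v : ℕ → ℝ} (hω : 10 ^ 6 ≤ ω) (h : Prof ω 9800 1 (m + 1) v) :
    |D v m| ≤ |D v (m + 1)| := by
  have h1 := h m (Nat.le_succ m)
  rw [one_mul] at h1
  exact (le_mul_of_one_le_right (abs_nonneg _) (one_le_pw hω _)).trans h1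

theorem step {ω g : ℝ} {m : ℕ} {v : ℕ → ℝ} (hω : 10 ^ 6 ≤ ω) (hb : Bd ω v)
    (hg : 10 ^ 5 * ω ^ 9999 ≤ g) (hv : g ≤ |v (m + 1)|) (hm : |D v m| ≤ |D v (m + 1)|) :
    ω ^ 9999 * |D v (m + 1)| ≤ |D v (m + 2)| ∧ |D v (m + 2)| ≤ ω ^ 10000 * |D v (m + 1)| := by
  have h1 := one_le_pw hω 9999
  have h2 := hb (m + 1)
  rw [D_add_two]
  generalize ω ^ 9999 = A at *
  generalize ω ^ 10000 = B at *
  have h3 := abs_sub_abs_le_abs_sub (v (m + 1) * D v (m + 1)) (D v m)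
  have h4 := abs_sub (v (m + 1) * D v (m + 1)) (D v m)
  rw [abs_mul] at h3 h4
  have h5 := abs_nonneg (D v (m + 1))
  have h6 : (A + 1) * |D v (m + 1)| ≤ |v (m + 1)| * |D v (m + 1)| :=
    mul_le_mul_of_nonneg_right (by linarith) h5
  have h7 := mul_le_mul_of_nonneg_right h2 h5
  constructor <;> linarith

theorem succ {ω : ℝ} {m : ℕ} {v : ℕ → ℝ} (hω : 10 ^ 6 ≤ ω) (h : Prof ω 9800 1 m v)
    (h1 : ω ^ 9999 * |D v m| ≤ |D v (m + 1)|) : Prof ω 9800 1 (m + 1) v := by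
  intro l hl
  rcases Nat.lt_or_ge l (m + 1) with h2 | h2
  · have h3 := h l (by omega)
    rw [one_mul] at h3 ⊢
    rw [show 9800 * (m + 1 - l) = 9800 * (m - l) + 9800 by omega, pow_add, ← mul_assoc]
    refine (mul_le_mul_of_nonneg_right h3 (pw_pos hω _).le).trans (le_trans ?_ h1)
    rw [mul_comm]
    exact mul_le_mul_of_nonneg_right (pw_le hω (by omega)) (abs_nonneg _)
  · obtain rfl : l = m + 1 := by omega
    simp

theorem add {ω g : ℝ} {i : ℕ} {v : ℕ → ℝ} (hω : 10 ^ 6 ≤ ω) (hb : Bd ω v)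
    (hg : 10 ^ 5 * ω ^ 9999 ≤ g) (h : Prof ω 9800 1 (i + 1) v) :
    ∀ a, (∀ l < a, g ≤ |v (i + l + 1)|) → Prof ω 9800 1 (i + a + 1) v
  | 0, _ => h
  | a + 1, hv => by
    have h1 := add hω hb hg h a fun l hl => hv l (by omega)
    exact succ hω h1 (step hω hb hg (hv a (by omega)) (prev hω h1)).1

theorem wr_le (y y' : ℕ → ℝ) (t : ℕ) :
    |y t * y' (t + 1) - y (t + 1) * y' t| ≤ pn y t * pn y' t := by
  have h := abs_sub (y t * y' (t + 1)) (y (t + 1) * y' t)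
  rw [abs_mul, abs_mul] at h
  unfold pn
  have h1 := mul_nonneg (abs_nonneg (y t)) (abs_nonneg (y' t))
  have h2 := mul_nonneg (abs_nonneg (y (t + 1))) (abs_nonneg (y' (t + 1)))
  nlinarith

theorem pe_swap {ω : ℝ} {cl : ℝ → Prop} {j j' : ℕ} {v v' : ℕ → ℝ} (h : PE ω cl j j' v v')
    (h0 : v' 0 = v 0) : PE ω cl j' j v' v := by
  refine ⟨h.j1', h.j1, h.pr', h.pr, h.c', h.c, h.r', h.r, fun a ha b hb => ?_⟩
  have h1 := h.m b hb a ha
  have e : Th (j' + a + 1) (j + b + 1) v' v = Th (j + b + 1) (j' + a + 1) v v' := by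
    unfold Th; rw [h0]; ring
  rw [e, add_comm (3 / _)]
  exact h1

theorem pf_swap {ω : ℝ} {J I : ℕ} {v v' : ℕ → ℝ} (h : PF ω J I v v') (h0 : v' 0 = v 0) :
    PF ω I J v' v := by
  refine ⟨h.j1', h.j1, h.pr', h.pr, h.r', h.r, ?_⟩
  have e : Th I J v' v = Th J I v v' := by
    unfold Th; rw [h0]; ring
  rw [e, mul_comm |D v' I|]
  exact h.m

theorem ew_swap {k θ ω : ℝ} {j j' : ℕ} {z : ℝ × ℝ} (h : z ∈ EW k θ ω j j') :
    lf k z ∈ EW k θ ω j' j := by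
  have h1 : PE ω (Cl k θ) j' j (wd k (lf k z)) (wd k z) := pe_swap h (wd_lf_zero k z)
  show PE ω (Cl k θ) j' j (wd k (lf k z)) (wd k (lf k (lf k z)))
  rwa [lf_lf]

theorem fw_swap {k ω : ℝ} {J I : ℕ} {z : ℝ × ℝ} (h : lf k z ∈ FW k ω I J) : z ∈ FW k ω J I := by
  have h1 : PF ω I J (wd k (lf k z)) (wd k (lf k (lf k z))) := h
  rw [lf_lf] at h1
  exact pf_swap h1 (wd_lf_zero k z).symm

theorem grow {ω : ℝ} (hω : 10 ^ 6 ≤ ω) {f : ℕ → ℝ} {j : ℕ}
    (h : ∀ l < 12, ω ^ 9999 * f (j + l) ≤ f (j + l + 1) ∧ f (j + l + 1) ≤ ω ^ 10000 * f (j + l)) :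
    ∀ n ≤ 12, ω ^ (9999 * n) * f j ≤ f (j + n) ∧ f (j + n) ≤ ω ^ (10000 * n) * f j
  | 0, _ => by simp
  | n + 1, hn => by
    obtain ⟨h1, h2⟩ := grow hω h n (by omega)
    obtain ⟨h3, h4⟩ := h n (by omega)
    rw [show 9999 * (n + 1) = 9999 + 9999 * n by omega,
      show 10000 * (n + 1) = 10000 + 10000 * n by omega, pow_add, pow_add, mul_assoc, mul_assoc]
    exact ⟨(mul_le_mul_of_nonneg_left h1 (pw_pos hω _).le).trans h3,
      h4.trans (mul_le_mul_of_nonneg_left h2 (pw_pos hω _).le)⟩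

theorem pick {ω : ℝ} (hω : 10 ^ 6 ≤ ω) {f f' : ℕ → ℝ} {j j' : ℕ} (h0 : 0 < f j)
    (h : ∀ l < 12, ω ^ 9999 * f (j + l) ≤ f (j + l + 1) ∧ f (j + l + 1) ≤ ω ^ 10000 * f (j + l))
    (h' : ∀ l < 12, ω ^ 9999 * f' (j' + l) ≤ f' (j' + l + 1) ∧
      f' (j' + l + 1) ≤ ω ^ 10000 * f' (j' + l))
    (r : f j ≤ ω ^ 20000 * f' j') (r' : f' j' ≤ ω ^ 20000 * f j) :
    ∃ b ≤ 10, f' (j' + b) ≤ ω ^ 5000 * f (j + 3) ∧ f (j + 3) ≤ ω ^ 5000 * f' (j' + b) := by
  classical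
  obtain ⟨a1, a2⟩ := grow hω h 3 (by omega)
  obtain ⟨a3, -⟩ := grow hω h' 8 (by omega)
  have hF : 0 < f (j + 3) := (mul_pos (pw_pos hω _) h0).trans_le a1
  have h0' : 0 < f' j' := (mul_pos_iff_of_pos_left (pw_pos hω _)).1 (h0.trans_le r)
  have e8 : ω ^ 5000 * f (j + 3) < f' (j' + 8) := by
    have b1 : ω ^ 5000 * f (j + 3) ≤ ω ^ (5000 + (10000 * 3 + 20000)) * f' j' := by
      rw [pow_add, pow_add, mul_assoc, mul_assoc]
      exact mul_le_mul_of_nonneg_left (a2.trans (mul_le_mul_of_nonneg_left r (pw_pos hω _).le))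
        (pw_pos hω _).le
    have b2 := pw_lt hω (show 5000 + (10000 * 3 + 20000) < 9999 * 8 by omega)
    have b3 := pw_pos hω (5000 + (10000 * 3 + 20000))
    refine b1.trans_lt (lt_of_lt_of_le (mul_lt_mul_of_pos_right ?_ h0') a3)
    generalize ω ^ (5000 + (10000 * 3 + 20000)) = A at *
    generalize ω ^ (9999 * 8) = B at *
    linarith
  have e0 : f' (j' + 0) ≤ ω ^ 5000 * f (j + 3) :=
    (r'.trans ((mul_le_mul_of_nonneg_right (pw_le hω (by omega)) h0.le).trans a1)).trans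
      (le_mul_of_one_le_left hF.le (one_le_pw hω _))
  have ex : ∃ b, ω ^ 5000 * f (j + 3) < f' (j' + b) := ⟨8, e8⟩
  have n8 : Nat.find ex ≤ 8 := Nat.find_min' ex e8
  have n1 := Nat.find_spec ex
  obtain ⟨b, hb⟩ : ∃ b, Nat.find ex = b + 1 := by
    refine Nat.exists_eq_succ_of_ne_zero fun h => ?_
    rw [h] at n1
    exact absurd n1 (not_lt.2 e0)
  have n2 := Nat.find_min ex (show b < Nat.find ex by omega)
  rw [hb] at n1
  refine ⟨b, by omega, not_lt.1 n2, ?_⟩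
  have n3 := n1.le.trans (h' b (by omega)).2
  rw [show 10000 = 5000 + 5000 by rfl, pow_add, mul_assoc] at n3
  exact le_of_mul_le_mul_left n3 (pw_pos hω _)

end Prof

theorem s_prof : S_prof := by
  intro ω g j a v hω hb hg hj h hv
  obtain ⟨i, rfl⟩ : ∃ i, j = i + 1 := ⟨j - 1, by omega⟩
  have e : ∀ l, i + 1 + l = i + l + 1 := fun l => by omega
  simp only [e] at hv ⊢
  refine ⟨Prof.add hω hb hg h a hv, fun h0 => ?_, fun l hl => ?_⟩
  · have h1 := h 1 hj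
    rw [h0, abs_zero, mul_zero, show D v 1 = 1 from rfl, abs_one, one_mul] at h1
    exact absurd h1 (not_le.2 (pw_pos hω _))
  · exact Prof.step hω hb hg (hv l hl)
      (Prof.prev hω (Prof.add hω hb hg h l fun l' hl' => hv l' (by omega)))

theorem s_sol : S_sol := by
  intro w M
  obtain ⟨y, hy⟩ : ∃ y : ℕ → ℕ → ℝ,
      y = fun (i l : ℕ) => (i : ℝ) / (M + 1) * E w l + 1 * D w l := ⟨_, rfl⟩
  have hs : ∀ i N, SolN w (y i) N := fun i N => by
    rw [hy]; exact (solN_E w N).lin (solN_D w N) _ _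
  have h0 : ∀ i, y i 0 = (i : ℝ) / (M + 1) := fun i => by simp [hy]
  have h1 : ∀ i, y i 1 = 1 := fun i => by simp [hy]
  have hM : (0 : ℝ) < M + 1 := by positivity
  by_contra hc
  have hb : ∀ i, ∃ t, i ∈ Finset.range (M + 2) →
      t ∈ Finset.range (M + 1) ∧ (M + 3) * pn (y i) t ^ 2 < 1 := fun i => by
    by_cases hi : i ∈ Finset.range (M + 2)
    · by_contra hn
      refine hc ⟨y i, hs i, h1 i, by rw [h0]; positivity, ?_, fun t ht => ?_⟩
      · rw [h0, div_le_one hM]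
        have := Finset.mem_range.1 hi
        exact_mod_cast (by omega : i ≤ M + 1)
      · by_contra h2
        exact hn ⟨t, fun _ => ⟨Finset.mem_range.2 (by omega), not_le.1 h2⟩⟩
    · exact ⟨0, fun h => absurd h hi⟩
  choose t ht using hb
  obtain ⟨i, hi, i', hi', hne, he⟩ := Finset.exists_ne_map_eq_of_card_lt_of_maps_to
    (s := Finset.range (M + 2)) (t := Finset.range (M + 1)) (f := t) (by simp)
    fun i hi => (ht i hi).1
  have a1 := (ht i hi).2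
  have a2 := (ht i' hi').2
  rw [← he] at a2
  have a3 := Prof.wr_le (y i) (y i') (t i)
  rw [wronsk2 (hs i (t i)) (hs i' (t i)) (t i) le_rfl, h0, h0, h1, h1, mul_one, one_mul, ← sub_div,
    abs_div, abs_of_pos hM, div_le_iff₀ hM] at a3
  have a4 : (1 : ℝ) ≤ |(i : ℝ) - i'| := by
    have : (1 : ℤ) ≤ |(i : ℤ) - i'| := Int.one_le_abs (by omega)
    exact_mod_cast this
  have a5 := pn_nonneg (y i) (t i)
  have a6 := pn_nonneg (y i') (t i)
  generalize pn (y i) (t i) = p at *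
  generalize pn (y i') (t i) = q at *
  have a7 := mul_nonneg a5 a6
  have a8 : (M + 3 : ℝ) * (2 * (p * q)) ≤ (M + 3) * (p ^ 2 + q ^ 2) :=
    mul_le_mul_of_nonneg_left (by nlinarith [sq_nonneg (p - q)]) (by positivity)
  nlinarith

theorem s_wl (h0 : S_wl0) (hp : S_prof) : S_wl := by
  intro θ κ hθ0 hθ1 hκ
  obtain ⟨ω₀, h0⟩ := h0 θ κ hθ0 hθ1 hκ
  refine ⟨ω₀, fun k ω B hω j j' z hz => ?_⟩
  have hE : PE ω (Cl k θ) j j' (wd k z) (wd k (lf k z)) := hz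
  obtain ⟨-, p1, p2⟩ := hp ω _ j 12 _ B.om (B.bd z) B.g_le hE.j1 hE.pr
    fun l hl => B.cl_ge (hE.c l hl.le)
  obtain ⟨-, -, p3⟩ := hp ω _ j' 12 _ B.om (B.bd (lf k z)) B.g_le hE.j1' hE.pr'
    fun l hl => B.cl_ge (hE.c' l hl.le)
  obtain ⟨b, hb, q1, q2⟩ := Prof.pick B.om (f := fun l => |D (wd k z) l|)
    (f' := fun l => |D (wd k (lf k z)) l|) (abs_pos.2 p1) p2 p3 hE.r hE.r'
  rcases le_total |D (wd k (lf k z)) (j' + b)| |D (wd k z) (j + 3)| with h | h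
  · obtain ⟨ρ, r1, r2, r3, r4⟩ := h0 k ω B hω j j' 3 b z hz (by omega) hb h q2
    exact ⟨ρ, r1, r2, ⟨3, by omega, b, hb, r3⟩, r4⟩
  · obtain ⟨ρ, r1, r2, r3, r4⟩ := h0 k ω B hω j' j b 3 (lf k z) (Prof.ew_swap hz) hb (by omega)
      (by rwa [lf_lf]) (by rwa [lf_lf])
    refine ⟨ρ, r1, r2, ⟨3, by omega, b, hb, fun h hh => Prof.fw_swap ?_⟩, le_trans ?_ r4⟩
    · rw [lf_add]
      exact r3 _ (by rwa [abs_neg])
    · rw [← Measure.measure_preimage_neg]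
      refine measure_mono fun h hh => ⟨by simpa using hh.1, ?_⟩
      have h2 := Prof.ew_swap hh.2
      rwa [lf_add, neg_neg] at h2

end Vale.Agent.P108
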