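import Vale.Agent.P108.Basic

namespace Vale.Agent.P108

open MeasureTheory Filter Real Set

namespace Pt

theorem tiny {ω x C : ℝ} {a b : ℕ} (h : 10 ^ 6 ≤ ω) (hx : 0 ≤ x) (hab : b < a)
    (h1 : x * ω ^ a ≤ C * ω ^ b) : 10 ^ 6 * x ≤ C := by
  have h2 := pw_lt h hab
  have h3 := pw_pos h b
  generalize ω ^ a = P at *
  generalize ω ^ b = Q at *
  have h4 : 10 ^ 6 * x * Q ≤ C * Q := by
    have := mul_le_mul_of_nonneg_left h2 hx
    linarith
  exact le_of_mul_le_mul_right h4 h3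

theorem cos_near (x : ℝ) (h : ℂ) (hh : ‖h‖ ≤ 1) :
    ‖Complex.cos (x + h) - Complex.cos x‖ ≤ 2 * ‖h‖ := by
  have e : Complex.cos (x + h) - Complex.cos x =
      (Complex.exp (x * Complex.I) * (Complex.exp (h * Complex.I) - 1) +
        Complex.exp ((-x : ℝ) * Complex.I) * (Complex.exp (-h * Complex.I) - 1)) / 2 := by
    rw [Complex.cos, Complex.cos, add_mul, neg_add, add_mul, Complex.exp_add, Complex.exp_add]
    push_cast
    ring
  have h1 : ‖h * Complex.I‖ = ‖h‖ := by simp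
  have h2 : ‖-h * Complex.I‖ = ‖h‖ := by simp
  have h3 := Complex.norm_exp_sub_one_le (x := h * Complex.I) (by rw [h1]; exact hh)
  have h4 := Complex.norm_exp_sub_one_le (x := -h * Complex.I) (by rw [h2]; exact hh)
  rw [h1] at h3
  rw [h2] at h4
  rw [e, norm_div, Complex.norm_two]
  have h5 := norm_add_le (Complex.exp (x * Complex.I) * (Complex.exp (h * Complex.I) - 1))
    (Complex.exp ((-x : ℝ) * Complex.I) * (Complex.exp (-h * Complex.I) - 1))
  rw [norm_mul, norm_mul, Complex.norm_exp_ofReal_mul_I, Complex.norm_exp_ofReal_mul_I] at h5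
  linarith

theorem one_le_f {k θ ω : ℝ} {z : ℝ × ℝ} {J : ℕ} (B : Big k θ ω) (hJ : 1 ≤ J)
    (hP : Prof ω 9800 1 J (wd k z)) : 1 ≤ |D (wd k z) J| := by
  have h1 := hP 1 hJ
  have h2 := one_le_pw B.om (9800 * (J - 1))
  rw [D_one, abs_one, one_mul, one_mul] at h1
  linarith

/-- lower bounds for the denominators on the disc -/
theorem den (hsh : S_sh) {k θ ω : ℝ} {z : ℝ × ℝ} {J : ℕ} (B : Big k θ ω) (hJ : 1 ≤ J)
    (hP : Prof ω 9800 1 J (wd k z)) (hc : Cl k θ (wd k z J)) (s : ℂ) (hs : ‖s‖ ≤ θ / 100) :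
    9 / 10 * |D (wd k z) J| ≤ ‖D (wC k z.1 (z.2 + s / (D (wd k z) J : ℝ))) J‖ ∧
    7 / 10 * (θ * (2 * π * k)) * |D (wd k z) J| ≤
      ‖D (wC k z.1 (z.2 + s / (D (wd k z) J : ℝ))) (J + 1)‖ := by
  have hf := one_le_f B hJ hP
  have hω := B.om
  have hθ0 := B.θ0
  have hθ1 := B.θ1
  have hf0 : ((D (wd k z) J : ℝ) : ℂ) ≠ 0 := by
    rw [Complex.ofReal_ne_zero, ← abs_pos]
    linarith
  set β : ℂ := z.2 + s / (D (wd k z) J : ℝ) with hβ
  have hb1 : β - z.2 = s / (D (wd k z) J : ℝ) := by rw [hβ]; ring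
  have hb2 : ‖β - z.2‖ * |D (wd k z) J| ≤ θ / 100 := by
    rw [hb1, norm_div, Complex.norm_real, Real.norm_eq_abs, div_mul_cancel₀ _ (by linarith)]
    exact hs
  have H := hsh k θ ω z J J (θ / 100) β B hJ hP le_rfl (by linarith)
    (le_trans (by linarith) (one_le_pw hω _)) hb2
  obtain ⟨h1, h2, -⟩ := H J le_rfl
  obtain ⟨-, h3, -⟩ := H (J - 1) (by omega)
  have h1' := tiny hω (norm_nonneg _) (by omega) h1
  have h2' := tiny hω (norm_nonneg _) (by omega) h2
  have h3' := tiny hω (norm_nonneg _) (by omega) h3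
  have h4 := hP (J - 1) (by omega)
  have h4' : 10 ^ 6 * |D (wd k z) (J - 1)| ≤ |D (wd k z) J| :=
    tiny (a := 9800 * (J - (J - 1))) (b := 0) hω (abs_nonneg _) (by omega) (by linarith)
  clear h1 h2 h3 h4 H
  rw [hb1, mul_div_cancel₀ _ hf0] at h1'
  have hθf : θ / 100 * |D (wd k z) J| ≤ |D (wd k z) J| := by nlinarith
  have a1 : 99 / 100 * |D (wd k z) J| ≤ ‖D (wC k z.1 β) J‖ := by
    have h5 := norm_sub_norm_le (((D (wd k z) J : ℝ) : ℂ)) (D (wC k z.1 β) J)
    rw [norm_sub_rev, Complex.norm_real, Real.norm_eq_abs] at h5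
    linarith
  have a2 : ‖D (wC k z.1 β) (J - 1)‖ ≤ |D (wd k z) J| := by
    have h5 := norm_sub_norm_le (D (wC k z.1 β) (J - 1)) (((D (wd k z) (J - 1) : ℝ) : ℂ))
    rw [Complex.norm_real, Real.norm_eq_abs] at h5
    linarith
  have a3 : ‖XC k z.1 β J - X k z.1 z.2 J‖ ≤ θ / 99 := by
    have h5 := norm_sub_norm_le (XC k z.1 β J - X k z.1 z.2 J) s
    nlinarith
  have a4 : ‖(2 * π : ℂ) * (XC k z.1 β J - X k z.1 z.2 J)‖ ≤ 7 * (θ / 99) := by
    rw [norm_mul]
    refine mul_le_mul ?_ a3 (norm_nonneg _) (by norm_num)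
    rw [norm_mul, Complex.norm_two, Complex.norm_real, Real.norm_eq_abs, abs_of_pos pi_pos]
    linarith [pi_lt_d2]
  have a5 := cos_near (2 * π * X k z.1 z.2 J) _ (a4.trans (by linarith))
  have a6 : θ ≤ |cos (2 * π * X k z.1 z.2 J)| := (B.cl_iff _).1 hc
  have a7 : 85 / 100 * θ ≤ ‖Complex.cos (2 * π * XC k z.1 β J)‖ := by
    have e : ((2 * π * X k z.1 z.2 J : ℝ) : ℂ) + 2 * π * (XC k z.1 β J - X k z.1 z.2 J) =
        2 * π * XC k z.1 β J := by
      push_cast
      ring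
    rw [e, ← Complex.ofReal_cos] at a5
    have h5 := norm_sub_norm_le ((cos (2 * π * X k z.1 z.2 J) : ℝ) : ℂ)
      (Complex.cos (2 * π * XC k z.1 β J))
    rw [norm_sub_rev, Complex.norm_real, Real.norm_eq_abs] at h5
    linarith
  have hK : 0 < 2 * π * k := by have := B.k0; positivity
  have hKθ : 10 ^ 5 ≤ θ * (2 * π * k) := by
    have h5 := B.g_le
    have h6 := one_le_pw hω 9999
    have h7 := mul_le_mul_of_nonneg_left B.lam_le.1 hθ0.le
    generalize ω ^ 9999 = P at *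
    generalize ω ^ 10000 = Q at *
    linarith
  have a8 : 8 / 10 * (θ * (2 * π * k)) ≤ ‖wC k z.1 β J‖ := by
    have h5 := norm_sub_le (wC k z.1 β J) 2
    have e : wC k z.1 β J - 2 = ((2 * π * k : ℝ) : ℂ) * Complex.cos (2 * π * XC k z.1 β J) := by
      unfold wC
      push_cast
      ring
    rw [e, norm_mul, Complex.norm_real, Real.norm_eq_abs, abs_of_pos hK, Complex.norm_two] at h5
    have h6 := mul_le_mul_of_nonneg_left a7 hK.le
    linarith
  refine ⟨by linarith, ?_⟩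
  obtain ⟨m, rfl⟩ : ∃ m, J = m + 1 := ⟨J - 1, by omega⟩
  rw [Nat.add_sub_cancel] at a2
  have h5 := norm_sub_norm_le (wC k z.1 β (m + 1) * D (wC k z.1 β) (m + 1)) (D (wC k z.1 β) m)
  rw [← D_add_two, norm_mul] at h5
  have h6 := mul_le_mul a8 a1 (by positivity) (norm_nonneg _)
  have h7 := mul_le_mul_of_nonneg_right hKθ (abs_nonneg (D (wd k z) (m + 1)))
  linarith

end Pt

theorem s_pt (hsh : S_sh) (ht : S_tay) : S_pt := by
  intro k θ ω z J B hJ hP hc
  have hf := Pt.one_le_f B hJ hP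
  have hθ0 := B.θ0
  have hK : 0 < 2 * π * k := by have := B.k0; positivity
  set f : ℝ := D (wd k z) J with hfdef
  have hden : ∀ s ∈ Metric.ball (0 : ℂ) (θ / 100),
      θ / 2 * (2 * π * k * f ^ 2) ≤
        ‖D (wC k z.1 (z.2 + s / f)) J * D (wC k z.1 (z.2 + s / f)) (J + 1)‖ := by
    intro s hs
    obtain ⟨h1, h2⟩ := Pt.den hsh B hJ hP hc s (mem_ball_zero_iff.1 hs).le
    rw [norm_mul]
    refine le_trans ?_ (mul_le_mul h1 h2 (by positivity) (norm_nonneg _))
    rw [← hfdef, ← sq_abs f]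
    have : 0 ≤ θ * (2 * π * k) * |f| ^ 2 := by positivity
    nlinarith
  have hpos : 0 < 2 * π * k * f ^ 2 := by
    have : 0 < f ^ 2 := by rw [← sq_abs]; positivity
    positivity
  have hlin : Differentiable ℂ fun s : ℂ => (z.2 : ℂ) + s / f := by fun_prop
  obtain ⟨c, -, -, hc'⟩ := ht 5 (fun s => ((2 * π * k * f ^ 2 : ℝ) : ℂ) /
    (D (wC k z.1 (z.2 + s / f)) J * D (wC k z.1 (z.2 + s / f)) (J + 1))) (θ / 100) (2 / θ)
    (by positivity)
    ((differentiableOn_const _).div (((diff_DC k z.1 J).comp hlin).mul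
      ((diff_DC k z.1 (J + 1)).comp hlin)).differentiableOn fun s hs => by
        rw [← norm_pos_iff]
        exact lt_of_lt_of_le (by positivity) (hden s hs))
    (fun s hs => by
      have h1 := hden s hs
      rw [norm_div, Complex.norm_real, Real.norm_eq_abs, abs_of_pos hpos,
        div_le_div_iff₀ (lt_of_lt_of_le (by positivity) h1) hθ0]
      linarith)
  refine ⟨fun i => (c i).re, fun s hs => ?_⟩
  have hs' : (s : ℂ) ∈ Metric.ball (0 : ℂ) (θ / 100) := by
    rw [mem_ball_zero_iff, Complex.norm_real, Real.norm_eq_abs]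
    linarith
  have h1 := hc' s hs'
  have e1 : (z.2 : ℂ) + s / f = ((z.2 + s / f : ℝ) : ℂ) := by push_cast; rfl
  simp only [e1, DC_ofReal] at h1
  rw [Complex.norm_real, Real.norm_eq_abs] at h1
  refine le_trans (le_of_eq ?_) ((Complex.abs_re_le_norm _).trans (h1.trans ?_))
  · congr 1
    rw [Complex.sub_re, ← Complex.ofReal_mul, ← Complex.ofReal_div, Complex.ofReal_re]
    simp only [pol, Finset.sum_range_succ, Finset.range_zero, Finset.sum_empty, Complex.add_re,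
      ← Complex.ofReal_pow, Complex.mul_re, Complex.ofReal_re, Complex.ofReal_im, mul_zero,
      sub_zero, Complex.zero_re, zero_add, pow_zero, pow_one, mul_one, pt]
    rfl
  · have e2 : (2 : ℝ) ^ 5 * (2 / θ) * (|s| / (θ / 100)) ^ 5 = 64 * 10 ^ 10 / θ ^ 6 * |s| ^ 5 := by
      field_simp
      ring
    rw [e2]
    gcongr
    norm_num

end Vale.Agent.P108
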