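import Vale.Agent.P108.Basic

/-! P108: complex shadowing along a profile. -/

namespace Vale.Agent.P108

open Real

noncomputable section

namespace Sh

theorem cs {h : ℂ} (hh : ‖h‖ ≤ 1) :
    ‖Complex.cos h - 1‖ ≤ 3 / 5 * ‖h‖ ^ 2 ∧ ‖Complex.sin h - h‖ ≤ 2 / 5 * ‖h‖ ^ 2 := by
  have h0 := norm_nonneg h
  have p4 : ‖h‖ ^ 4 ≤ ‖h‖ ^ 2 := pow_le_pow_of_le_one h0 hh (by norm_num)
  have p3 : ‖h‖ ^ 3 ≤ ‖h‖ ^ 2 := pow_le_pow_of_le_one h0 hh (by norm_num)
  have p5 : ‖h‖ ^ 5 ≤ ‖h‖ ^ 2 := pow_le_pow_of_le_one h0 hh (by norm_num)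
  have p2 : 0 ≤ ‖h‖ ^ 2 := by positivity
  constructor
  · have h1 := Complex.cos_bound hh
    have h2 := norm_sub_le (Complex.cos h - (1 - h ^ 2 / 2)) (h ^ 2 / 2)
    rw [show Complex.cos h - (1 - h ^ 2 / 2) - h ^ 2 / 2 = Complex.cos h - 1 by ring, norm_div,
      norm_pow, Complex.norm_two] at h2
    linarith
  · have h1 := Complex.sin_bound hh
    have h2 := norm_sub_le (Complex.sin h - (h - h ^ 3 / 6)) (h ^ 3 / 6)
    rw [show Complex.sin h - (h - h ^ 3 / 6) - h ^ 3 / 6 = Complex.sin h - h by ring, norm_div,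
      norm_pow, Complex.norm_ofNat] at h2
    linarith

theorem tay (x : ℝ) {h : ℂ} (hh : ‖h‖ ≤ 1) :
    ‖Complex.sin (x + h) - (sin x : ℝ) - h * (cos x : ℝ)‖ ≤ ‖h‖ ^ 2 ∧
      ‖Complex.cos (x + h) - (cos x : ℝ)‖ ≤ 2 * ‖h‖ := by
  obtain ⟨h1, h2⟩ := cs hh
  have h0 := norm_nonneg h
  have s1 : ‖((sin x : ℝ) : ℂ)‖ ≤ 1 := by rw [Complex.norm_real]; exact abs_sin_le_one x
  have c1 : ‖((cos x : ℝ) : ℂ)‖ ≤ 1 := by rw [Complex.norm_real]; exact abs_cos_le_one x
  have m (a b : ℂ) (ha : ‖a‖ ≤ 1) : ‖a * b‖ ≤ ‖b‖ := by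
    rw [norm_mul]; exact mul_le_of_le_one_left (norm_nonneg _) ha
  constructor
  · have e : Complex.sin (x + h) - (sin x : ℝ) - h * (cos x : ℝ) =
        (sin x : ℝ) * (Complex.cos h - 1) + (cos x : ℝ) * (Complex.sin h - h) := by
      rw [Complex.sin_add]; push_cast; ring
    rw [e]
    linarith [norm_add_le (((sin x : ℝ) : ℂ) * (Complex.cos h - 1))
      (((cos x : ℝ) : ℂ) * (Complex.sin h - h)), m _ (Complex.cos h - 1) s1,
      m _ (Complex.sin h - h) c1]
  · have e : Complex.cos (x + h) - (cos x : ℝ) =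
        (cos x : ℝ) * (Complex.cos h - 1) - (sin x : ℝ) * Complex.sin h := by
      rw [Complex.cos_add]; push_cast; ring
    have h3 := norm_add_le (Complex.sin h - h) h
    rw [sub_add_cancel] at h3
    have p2 : ‖h‖ ^ 2 ≤ ‖h‖ := by nlinarith
    rw [e]
    linarith [norm_sub_le (((cos x : ℝ) : ℂ) * (Complex.cos h - 1))
      (((sin x : ℝ) : ℂ) * Complex.sin h), m _ (Complex.cos h - 1) c1, m _ (Complex.sin h) s1]

theorem step {x a b s c P Q T : ℝ} (hx : x ≤ c * a + b + s) (ha0 : 0 ≤ a) (hb0 : 0 ≤ b)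
    (hP : 0 ≤ P) (ha : a * (P * Q) ≤ T) (hb : b * (P * Q * Q) ≤ T) (hs : s * P ≤ T / 2)
    (hc : 4 * c ≤ Q) (hQ : 2 ≤ Q) : x * P ≤ T := by
  have h1 := mul_le_mul_of_nonneg_right hx hP
  have h2 := mul_le_mul_of_nonneg_left hc (mul_nonneg ha0 hP)
  have h3 : 4 ≤ Q * Q := by nlinarith
  have h4 := mul_le_mul_of_nonneg_left h3 (mul_nonneg hb0 hP)
  nlinarith

theorem norm3 (c a b s : ℂ) {M : ℝ} (hc : ‖c‖ ≤ M) : ‖c * a - b + s‖ ≤ M * ‖a‖ + ‖b‖ + ‖s‖ := by
  have h1 := norm_add_le (c * a - b) s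
  have h2 := norm_sub_le (c * a) b
  rw [norm_mul] at h2
  have h3 := mul_le_mul_of_nonneg_right hc (norm_nonneg a)
  linarith

theorem pw_succ (ω : ℝ) (m : ℕ) : ω ^ (19600 * (m + 1)) = ω ^ (19600 * m) * ω ^ 19600 := by
  rw [← pow_add, mul_add, mul_one]

theorem pw_two (ω : ℝ) (m : ℕ) : ω ^ (19600 * m) = ω ^ (9800 * m) * ω ^ (9800 * m) := by
  rw [← pow_add]; congr 1; omega

/-- from the error bound to the bound on the displacement -/
theorem xi_bd {ω R e d x : ℝ} {m : ℕ} (hω : 10 ^ 6 ≤ ω) (hm : 1 ≤ m) (hR0 : 0 ≤ R)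
    (hR : R ≤ ω ^ (9400 * m)) (he : e * ω ^ (19600 * (m + 1)) ≤ R ^ 2 * ω ^ 10001)
    (hd : d * ω ^ (9800 * m) ≤ R) (hx : x ≤ e + d) :
    x * ω ^ (9800 * m) ≤ 2 * R ∧ 7 * x ≤ 1 := by
  have p1 := pw_pos hω (9800 * m)
  have p2 := pw_pos hω (9800 * m + 19600)
  have e1 : ω ^ (19600 * (m + 1)) = ω ^ (9800 * m) * ω ^ (9800 * m + 19600) := by
    have : 19600 * (m + 1) = 9800 * m + (9800 * m + 19600) := by omega
    rw [this, pow_add]
  have h1 : R * ω ^ 10001 ≤ ω ^ (9800 * m + 19600) := by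
    refine (mul_le_mul_of_nonneg_right hR (pw_pos hω _).le).trans ?_
    have hle : 9400 * m + 10001 ≤ 9800 * m + 19600 :=
      add_le_add (Nat.mul_le_mul_right m (by norm_num)) (by norm_num)
    rw [← pow_add]
    exact pw_le hω hle
  have h2 := pw_lt hω (a := 9400 * m) (b := 9800 * m) (by omega)
  rw [e1] at he
  generalize ω ^ (9800 * m + 19600) = S at *
  generalize ω ^ (9800 * m) = P at *
  generalize ω ^ (9400 * m) = U at *
  generalize ω ^ 10001 = W at *
  have h3 : e * P ≤ R := by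
    refine le_of_mul_le_mul_right ?_ p2
    have := mul_le_mul_of_nonneg_left h1 hR0
    nlinarith
  have h4 : x * P ≤ 2 * R := by
    have := mul_le_mul_of_nonneg_right hx p1.le
    nlinarith
  refine ⟨h4, le_of_mul_le_mul_right ?_ p1⟩
  nlinarith

end Sh

open Sh in
theorem s_sh : S_sh := by
  intro k θ ω z J p R β B hJ hP hp hR0 hR hβ
  have hω := B.om
  have hk := B.k0
  have hlam := B.lam_le.2
  have hpi : 2 * π ≤ 7 := by linarith [pi_lt_d2]
  have hpi' : 8 * π ≤ 26 := by linarith [pi_lt_d2]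
  have hpi0 := pi_pos
  have hL := pw_pos hω 10000
  have hQ := pw_lt hω (a := 10000) (b := 19600) (by norm_num)
  have hL1 := one_le_pw hω 10000
  have hW1 := pw_lt hω (a := 10000) (b := 10001) (by norm_num)
  have hW2 := pw_lt hω (a := 10000) (b := 10002) (by norm_num)
  set v := wd k z with hv
  set ξ : ℕ → ℂ := fun l => XC k z.1 β l - X k z.1 z.2 l with hξ
  have n2 (l : ℕ) : ‖2 * π * ξ l‖ = 2 * π * ‖ξ l‖ := by
    rw [norm_mul, norm_mul, Complex.norm_two, Complex.norm_real, Real.norm_of_nonneg hpi0.le]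
  have arg (l : ℕ) : 2 * π * XC k z.1 β l = (2 * π * X k z.1 z.2 l : ℝ) + 2 * π * ξ l := by
    simp only [hξ]; push_cast; ring
  -- displacement
  have hx : ∀ l < p, ‖ξ l - (D v l : ℝ) * (β - z.2)‖ * ω ^ (19600 * (J - l + 1))
      ≤ R ^ 2 * ω ^ 10001 → ‖ξ l‖ * ω ^ (9800 * (J - l)) ≤ 2 * R ∧ ‖2 * π * ξ l‖ ≤ 1 := by
    intro l hl he
    have h1 : ‖((D v l : ℝ) : ℂ) * (β - z.2)‖ * ω ^ (9800 * (J - l)) ≤ R := by
      have h2 := mul_le_mul_of_nonneg_left (hP l (by omega)) (norm_nonneg (β - z.2))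
      rw [norm_mul, Complex.norm_real, Real.norm_eq_abs]
      rw [one_mul] at h2
      generalize ω ^ (9800 * (J - l)) = P at *
      linarith
    have h3 := norm_add_le (ξ l - (D v l : ℝ) * (β - z.2)) ((D v l : ℝ) * (β - z.2))
    rw [sub_add_cancel] at h3
    obtain ⟨h4, h5⟩ := xi_bd hω (by omega : 1 ≤ J - l) hR0
      (hR.trans (pw_le hω (by omega))) he h1 h3
    refine ⟨h4, ?_⟩
    rw [n2]
    linarith [mul_le_mul_of_nonneg_right hpi (norm_nonneg (ξ l))]
  -- first claim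
  have h1 : ∀ l ≤ p, ‖ξ l - (D v l : ℝ) * (β - z.2)‖ * ω ^ (19600 * (J - l + 1))
      ≤ R ^ 2 * ω ^ 10001 := by
    intro l
    induction l using Nat.twoStepInduction with
    | zero =>
      intro _
      have : ξ 0 - (D v 0 : ℝ) * (β - z.2) = 0 := by simp [hξ]
      rw [this, norm_zero, zero_mul]
      exact mul_nonneg (sq_nonneg R) (pw_pos hω _).le
    | one =>
      intro _
      have : ξ 1 - (D v 1 : ℝ) * (β - z.2) = 0 := by simp [hξ]
      rw [this, norm_zero, zero_mul]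
      exact mul_nonneg (sq_nonneg R) (pw_pos hω _).le
    | more l ih1 ih2 =>
      intro hl
      have a1 := ih1 (by omega)
      have a2 := ih2 (by omega)
      obtain ⟨b1, b2⟩ := hx (l + 1) (by omega) a2
      have t := (tay (2 * π * X k z.1 z.2 (l + 1)) b2).1
      rw [← arg, n2] at t
      obtain ⟨m, hm⟩ : ∃ m, J - (l + 1) = m := ⟨_, rfl⟩
      rw [show J - l + 1 = m + 1 + 1 by omega, pw_succ, pw_succ] at a1
      rw [hm, pw_succ] at a2
      rw [hm] at b1
      rw [show J - (l + 2) + 1 = m by omega]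
      have e : ξ (l + 2) - (D v (l + 2) : ℝ) * (β - z.2) =
          (v (l + 1) : ℝ) * (ξ (l + 1) - (D v (l + 1) : ℝ) * (β - z.2)) -
            (ξ l - (D v l : ℝ) * (β - z.2)) +
          k * (Complex.sin (2 * π * XC k z.1 β (l + 1)) -
            (sin (2 * π * X k z.1 z.2 (l + 1)) : ℝ) -
            2 * π * ξ (l + 1) * (cos (2 * π * X k z.1 z.2 (l + 1)) : ℝ)) := by
        have e2 : v (l + 1) = 2 + 2 * π * k * cos (2 * π * X k z.1 z.2 (l + 1)) := rfl
        simp only [hξ]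
        rw [D_add_two, XC_add_two, X_add_two, e2]
        generalize sin (2 * π * X k z.1 z.2 (l + 1)) = s
        generalize cos (2 * π * X k z.1 z.2 (l + 1)) = c
        push_cast; ring
      have hc : ‖((v (l + 1) : ℝ) : ℂ)‖ ≤ ω ^ 10000 := by
        rw [Complex.norm_real, Real.norm_eq_abs]
        linarith [B.bd z (l + 1)]
      rw [e]
      refine step (norm3 _ _ _ _ hc) (norm_nonneg _) (norm_nonneg _) (pw_pos hω _).le a2 a1 ?_
        (by linarith) (by linarith)
      rw [norm_mul, Complex.norm_real, Real.norm_of_nonneg hk.le, pw_two]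
      have p1 := pw_pos hω (9800 * m)
      have x0 := norm_nonneg (ξ (l + 1))
      generalize ω ^ (9800 * m) = P at *
      generalize ω ^ 10000 = L at *
      generalize ω ^ 10001 = W at *
      generalize ‖ξ (l + 1)‖ = x at *
      have c1 := mul_le_mul_of_nonneg_right (mul_le_mul_of_nonneg_left t hk.le)
        (mul_pos p1 p1).le
      have c2 : (x * P) ^ 2 ≤ (2 * R) ^ 2 := pow_le_pow_left₀ (by positivity) b1 2
      have c3 : 2 * π * k * (2 * π) ≤ L * 7 := mul_le_mul hlam hpi (by positivity) hL.le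
      have c4 := mul_le_mul c3 c2 (by positivity) (by positivity)
      have c5 := mul_le_mul_of_nonneg_left hW1 (sq_nonneg R)
      have c6 := mul_nonneg (sq_nonneg R) hL.le
      have c7 : k * (2 * π * x) ^ 2 * (P * P) = 2 * π * k * (2 * π) * (x * P) ^ 2 := by ring
      nlinarith
  -- third claim
  have h3 : ∀ l < p, ‖wC k z.1 β l - v l‖ * ω ^ (9800 * (J - l)) ≤ 26 * R * ω ^ 10000 ∧
      ‖wC k z.1 β l - v l‖ ≤ 2 * ω ^ 10000 := by
    intro l hl
    obtain ⟨b1, b2⟩ := hx l hl (h1 l hl.le)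
    have t := (tay (2 * π * X k z.1 z.2 l) b2).2
    rw [← arg] at t
    have e : wC k z.1 β l - v l = (2 * π * k : ℝ) * (Complex.cos (2 * π * XC k z.1 β l) -
        (cos (2 * π * X k z.1 z.2 l) : ℝ)) := by
      have e2 : v l = 2 + 2 * π * k * cos (2 * π * X k z.1 z.2 l) := rfl
      rw [e2, wC]
      generalize cos (2 * π * X k z.1 z.2 l) = c
      push_cast; ring
    have c1 : ‖wC k z.1 β l - v l‖ ≤ ω ^ 10000 * (2 * ‖2 * π * ξ l‖) := by
      rw [e, norm_mul, Complex.norm_real, Real.norm_of_nonneg (by positivity)]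
      exact mul_le_mul hlam t (norm_nonneg _) hL.le
    have p1 := pw_pos hω (9800 * (J - l))
    constructor
    · rw [n2] at c1
      generalize ω ^ (9800 * (J - l)) = P at *
      generalize ω ^ 10000 = L at *
      have c2 := mul_le_mul_of_nonneg_right c1 p1.le
      have c3 := mul_le_mul_of_nonneg_left b1 (by positivity : 0 ≤ 4 * π * L)
      have c4 := mul_le_mul_of_nonneg_right hpi' (mul_nonneg hR0 hL.le)
      nlinarith
    · generalize ω ^ 10000 = L at *
      nlinarith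
  -- second claim
  have hT : 0 ≤ R * |D v J| := mul_nonneg hR0 (abs_nonneg _)
  have h2 : ∀ l ≤ p, ‖D (wC k z.1 β) l - (D v l : ℝ)‖ * ω ^ (19600 * (J - l + 1))
      ≤ R * |D v J| * ω ^ 10002 := by
    intro l
    induction l using Nat.twoStepInduction with
    | zero =>
      intro _
      have : D (wC k z.1 β) 0 - (D v 0 : ℝ) = 0 := by simp
      rw [this, norm_zero, zero_mul]
      exact mul_nonneg hT (pw_pos hω _).le
    | one =>
      intro _
      have : D (wC k z.1 β) 1 - (D v 1 : ℝ) = 0 := by simp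
      rw [this, norm_zero, zero_mul]
      exact mul_nonneg hT (pw_pos hω _).le
    | more l ih1 ih2 =>
      intro hl
      have a1 := ih1 (by omega)
      have a2 := ih2 (by omega)
      obtain ⟨b1, b2⟩ := h3 (l + 1) (by omega)
      have b3 := hP (l + 1) (by omega)
      obtain ⟨m, hm⟩ : ∃ m, J - (l + 1) = m := ⟨_, rfl⟩
      rw [show J - l + 1 = m + 1 + 1 by omega, pw_succ, pw_succ] at a1
      rw [hm, pw_succ] at a2
      rw [hm] at b1
      rw [hm, one_mul] at b3
      rw [show J - (l + 2) + 1 = m by omega]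
      have e : D (wC k z.1 β) (l + 2) - (D v (l + 2) : ℝ) =
          wC k z.1 β (l + 1) * (D (wC k z.1 β) (l + 1) - (D v (l + 1) : ℝ)) -
            (D (wC k z.1 β) l - (D v l : ℝ)) +
          (wC k z.1 β (l + 1) - v (l + 1)) * (D v (l + 1) : ℝ) := by
        rw [D_add_two, D_add_two]
        push_cast; ring
      have hc : ‖wC k z.1 β (l + 1)‖ ≤ 3 * ω ^ 10000 := by
        have c1 := norm_add_le (wC k z.1 β (l + 1) - v (l + 1)) (v (l + 1) : ℝ)
        rw [sub_add_cancel, Complex.norm_real, Real.norm_eq_abs] at c1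
        linarith [B.bd z (l + 1)]
      rw [e]
      refine step (norm3 _ _ _ _ hc) (norm_nonneg _) (norm_nonneg _) (pw_pos hω _).le a2 a1 ?_
        (by linarith) (by linarith)
      rw [norm_mul, Complex.norm_real, Real.norm_eq_abs, pw_two]
      have p1 := pw_pos hω (9800 * m)
      have c1 := mul_le_mul b1 b3 (mul_nonneg (abs_nonneg _) p1.le)
        (mul_nonneg (mul_nonneg (by norm_num) hR0) hL.le)
      have c2 := mul_le_mul_of_nonneg_left hW2 hT
      have c3 := mul_nonneg hT hL.le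
      generalize ω ^ (9800 * m) = P at *
      generalize ω ^ 10000 = L at *
      generalize ω ^ 10002 = W at *
      nlinarith
  exact fun l hl => ⟨h1 l hl, h2 l hl, fun h => (h3 l h).1⟩

end

end Vale.Agent.P108
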