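import Vale.Agent.P108.Basic

namespace Vale.Agent.P108

namespace Side

theorem grow {g a b c x : ℝ} (hx : g ≤ |x|) (h : a = x * b - c) (hc : |c| ≤ |b|) :
    (g - 1) * |b| ≤ |a| := by
  have h1 := abs_sub_abs_le_abs_sub (x * b) c
  rw [abs_mul, ← h] at h1
  have h2 := mul_le_mul_of_nonneg_right hx (abs_nonneg b)
  linarith

theorem back {g : ℝ} {v y : ℕ → ℝ} {N : ℕ} (hg : 3 ≤ g) (h : SolN v y (N + 13))
    (hc : ∀ l ≤ 12, g ≤ |v (N + 1 + l)|) (h0 : |y (N + 14)| ≤ |y (N + 13)|) (l : ℕ)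
    (h1 : N ≤ l) (h2 : l ≤ N + 12) : 2 * |y (l + 1)| ≤ |y l| := by
  have step : ∀ l, N ≤ l → l ≤ N + 12 → |y (l + 2)| ≤ |y (l + 1)| → 2 * |y (l + 1)| ≤ |y l| := by
    intro l a b c
    have e : y l = v (l + 1) * y (l + 1) - y (l + 2) := by rw [h l (by omega)]; ring
    have hx := hc (l - N) (by omega)
    rw [show N + 1 + (l - N) = l + 1 by omega] at hx
    have h3 := grow hx e c
    nlinarith [abs_nonneg (y (l + 1))]
  have key : ∀ t, t ≤ 13 → ∀ l, l + t = N + 13 → |y (l + 1)| ≤ |y l| := by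
    intro t
    induction t with
    | zero =>
      intro _ l hl
      obtain rfl : l = N + 13 := by omega
      exact h0
    | succ t ih =>
      intro ht l hl
      have := step l (by omega) (by omega) (ih (by omega) (l + 1) (by omega))
      linarith [abs_nonneg (y (l + 1))]
  exact step l h1 h2 (key (N + 12 - l) (by omega) (l + 1) (by omega))

theorem fwd {g : ℝ} {v : ℕ → ℝ} {N : ℕ} (hg : 3 ≤ g) (hc : ∀ l ≤ 12, g ≤ |v (N + 1 + l)|)
    (h0 : |D v N| ≤ |D v (N + 1)|) (t : ℕ) (ht : t ≤ 13) :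
    |D v (N + t)| ≤ |D v (N + t + 1)| ∧ |D v (N + 1)| ≤ |D v (N + t + 1)| := by
  induction t with
  | zero => exact ⟨h0, le_rfl⟩
  | succ t ih =>
    obtain ⟨a, b⟩ := ih (by omega)
    have hx := hc t (by omega)
    rw [show N + 1 + t = N + t + 1 by omega] at hx
    have h3 := grow hx (D_add_two v (N + t)) a
    have h4 : |D v (N + t + 1)| ≤ |D v (N + t + 2)| := by
      nlinarith [abs_nonneg (D v (N + t + 1))]
    exact ⟨h4, b.trans h4⟩

theorem t1 {ω a : ℝ} {i : ℕ} (hω : 10 ^ 6 ≤ ω) (ha : 0 ≤ a) (hi : 1 ≤ i)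
    (h : a * ω ^ (9936 * i) ≤ 1) : 2 * (a * ω ^ (9800 * i)) ≤ 1 := by
  have h1 := mul_le_mul_of_nonneg_left (pw_lt hω (a := 9800 * i) (b := 9936 * i) (by omega)) ha
  have h2 := mul_nonneg ha (pw_pos hω (9800 * i)).le
  generalize ω ^ (9800 * i) = P at *
  generalize ω ^ (9936 * i) = Q at *
  linarith

theorem t2 {ω A b d : ℝ} {m N : ℕ} (hω : 10 ^ 6 ≤ ω) (hb : 0 ≤ b) (hm : m + 1 ≤ N)
    (h1 : b * ω ^ (9936 * N) ≤ 1) (h2 : d ≤ ω ^ (10000 * m))
    (h3 : ω ^ (9980 * N) ≤ 4 * (ω ^ 10000 * A)) : 2 * (b * d * ω ^ (9800 * (m + 1))) ≤ A := by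
  have h4 := pw_lt hω (a := 10000 * m + 9800 * (m + 1) + 10000) (b := 9936 * N + 9980 * N)
    (by omega)
  rw [pow_add, pow_add, pow_add] at h4
  have p1 := pw_pos hω (9800 * (m + 1))
  have p2 := pw_pos hω 10000
  have p3 := pw_pos hω (9980 * N)
  have p4 := pw_pos hω (10000 * m)
  generalize ω ^ (9800 * (m + 1)) = P at *
  generalize ω ^ 10000 = L at *
  generalize ω ^ (9980 * N) = Q at *
  generalize ω ^ (9936 * N) = R at *
  generalize ω ^ (10000 * m) = S at *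
  have h5 : b * d * P ≤ b * S * P :=
    mul_le_mul_of_nonneg_right (mul_le_mul_of_nonneg_left h2 hb) p1.le
  have h6 : b * (10 ^ 6 * (S * P * L)) ≤ b * (R * Q) := mul_le_mul_of_nonneg_left h4 hb
  have h7 : b * R * Q ≤ 1 * Q := mul_le_mul_of_nonneg_right h1 p3.le
  have h8 : L * (10 ^ 6 * (b * S * P)) ≤ L * (4 * A) := by linarith
  have h9 := le_of_mul_le_mul_left h8 p2
  have h10 : 0 ≤ b * S * P := by positivity
  linarith

theorem t3 {ω P A b c y0 y1 : ℝ} {N : ℕ} (hω : 10 ^ 6 ≤ ω) (hN : 1 ≤ N) (hP : 0 < P) (hb : 0 ≤ b)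
    (hA : 0 ≤ A) (h1 : b * ω ^ (9936 * N) ≤ 1) (hy : y1 ≤ P) (hc : c ≤ P)
    (h2 : y0 ≤ y1 * b + c * A) (h3 : ω ^ (9980 * N) * P ≤ 2 * ω ^ 10000 * y0) :
    ω ^ (9980 * N) ≤ 4 * (ω ^ 10000 * A) := by
  have h4 := pw_lt hω (a := 10000) (b := 9936 * N + 9980 * N) (by omega)
  rw [pow_add] at h4
  have p2 := pw_pos hω 10000
  have p3 := pw_pos hω (9980 * N)
  generalize ω ^ 10000 = L at *
  generalize ω ^ (9980 * N) = Q at *
  generalize ω ^ (9936 * N) = R at *
  have h5 : y0 ≤ P * (b + A) := by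
    have := mul_le_mul_of_nonneg_right hy hb
    have := mul_le_mul_of_nonneg_right hc hA
    linarith
  have h6 : P * Q ≤ P * (2 * L * (b + A)) := by
    have := mul_le_mul_of_nonneg_left h5 (by positivity : 0 ≤ 2 * L)
    linarith
  have h7 := le_of_mul_le_mul_left h6 hP
  have h8 : b * (10 ^ 6 * L) ≤ b * (R * Q) := mul_le_mul_of_nonneg_left h4 hb
  have h9 : b * R * Q ≤ 1 * Q := mul_le_mul_of_nonneg_right h1 p3.le
  have h10 : 0 ≤ b * L := by positivity
  linarith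

theorem prof (hl : S_lin) (h1 : S_l1) {ω : ℝ} {v y : ℕ → ℝ} {N : ℕ} (hω : 10 ^ 6 ≤ ω)
    (hb : Bd ω v) (h : SolN v y N) (hd : ∀ n ≤ N, ω ^ (9980 * n) * pn y N ≤ pn y (N - n))
    (h0 : pn y 0 ≤ 2 * ω ^ 10000 * |y 0|) (hy : y 0 ≠ 0) : Prof ω 9800 1 (N + 1) v := by
  intro l hl1
  rw [one_mul]
  rcases Nat.eq_zero_or_pos l with rfl | hl0
  · simp
  rcases eq_or_lt_of_le hl1 with rfl | hl2
  · simp
  have hN : 1 ≤ N := by omega
  have hP : 0 < pn y N := pn_pos h (lt_of_lt_of_le (abs_pos.2 hy) (abs_le_pn y 0)) N le_rfl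
  have hbw : Bd ω fun l => v (N + 1 - l) := hb.comp _
  have hr := h.rev
  have rN : RegN (ω ^ 9980) N fun l => v (N + 1 - l) := by
    intro n _ hn
    have a := pn_le_NN hr n hn
    rw [pn_rev y N n hn, pn_rev y N 0 (by omega), Nat.sub_zero] at a
    rw [← pow_mul]
    exact le_of_mul_le_mul_right ((hd n hn).trans a) hP
  have rD : RegD (ω ^ 9979) N fun l => v (N + 1 - l) := by
    intro n hn
    rcases Nat.eq_zero_or_pos n with rfl | hn0
    · simp
    have a := h1 ω 9980 N _ hω hbw (by norm_num) (by norm_num) rN n hn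
    have b := pw_lt hω (a := 9979 * n) (b := 9980 * n) (by omega)
    have c := pw_pos hω (9979 * n)
    rw [← pow_mul]
    linarith
  obtain ⟨φ, -, hφ, φ0, -, -, -, hdec⟩ := hl ω 9979 9936 N _ hω hbw (by norm_num) (by norm_num) rD
  have dec : ∀ z : ℕ → ℝ, SolN (fun l => v (N + 1 - l)) z N → ∀ i, i ≤ N + 1 →
      z i = z 0 * φ i + (z 1 - z 0 * φ 1) * D (fun l => v (N + 1 - l)) i := fun z hz i hi =>
    hz.uniq ((hφ N).lin (solN_D _ N) (z 0) (z 1 - z 0 * φ 1)) (by simp [φ0]) (by simp) i hi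
  have f1 : |φ 1| ≤ 1 := by
    have a := hdec 1 le_rfl hN
    have b := mul_le_mul_of_nonneg_left (one_le_pw hω (9936 * 1)) (pn_nonneg φ 1)
    linarith [abs_le_pn φ 1]
  have fN : |φ (N + 1)| * ω ^ (9936 * N) ≤ 1 :=
    (mul_le_mul_of_nonneg_right (abs_succ_le_pn φ N) (pw_pos hω _).le).trans (hdec N hN le_rfl)
  have e1 := dec _ hr (N + 1) le_rfl
  simp only [Nat.sub_self, Nat.sub_zero, Nat.add_sub_cancel, D_rev] at e1
  have low : ω ^ (9980 * N) ≤ 4 * (ω ^ 10000 * |D v (N + 1)|) := by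
    refine t3 (y0 := |y 0|) (y1 := |y (N + 1)|) (c := |y N - y (N + 1) * φ 1|) hω hN hP
      (abs_nonneg (φ (N + 1))) (abs_nonneg _) fN (abs_succ_le_pn y N) ?_ ?_ ?_
    · have a := abs_sub (y N) (y (N + 1) * φ 1)
      rw [abs_mul] at a
      have b := mul_le_mul_of_nonneg_left f1 (abs_nonneg (y (N + 1)))
      unfold pn
      linarith
    · rw [← abs_mul, ← abs_mul]
      exact e1.symm ▸ abs_add_le _ _
    · have a := hd N le_rfl
      rw [Nat.sub_self] at a
      exact a.trans h0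
  have hD : D v (N + 1) ≠ 0 := by
    intro e
    rw [e, abs_zero, mul_zero, mul_zero] at low
    exact absurd low (not_le.2 (pw_pos hω _))
  have e2 := dec _ (solN_D v N).rev (N + 1) le_rfl
  simp only [Nat.sub_self, Nat.sub_zero, Nat.add_sub_cancel, D_rev, D_zero] at e2
  have e3 : D v N - D v (N + 1) * φ 1 = -φ (N + 1) := by
    apply mul_right_cancel₀ hD
    linear_combination -e2
  obtain ⟨m, hm⟩ : ∃ m, N + 1 - l = m + 1 := ⟨N - l, by omega⟩
  have e4 := dec _ (solN_D v N).rev (m + 1) (by omega)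
  simp only [Nat.sub_zero, Nat.add_sub_cancel, e3, show N + 1 - (m + 1) = l by omega] at e4
  have a1 := t1 hω (abs_nonneg (φ (m + 1))) (by omega : 1 ≤ m + 1)
    ((mul_le_mul_of_nonneg_right (abs_le_pn φ (m + 1)) (pw_pos hω _).le).trans
      (hdec (m + 1) (by omega) (by omega)))
  have a2 := t2 hω (abs_nonneg (φ (N + 1))) (by omega : m + 1 ≤ N) fN
    ((abs_succ_le_pn _ m).trans (pn_D_le hbw m)) low
  have a3 : |D v l| ≤ |D v (N + 1)| * |φ (m + 1)| +
      |φ (N + 1)| * |D (fun l => v (N + 1 - l)) (m + 1)| := by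
    rw [← abs_neg (φ (N + 1)), ← abs_mul, ← abs_mul]
    exact e4.symm ▸ abs_add_le _ _
  have a4 := mul_le_mul_of_nonneg_right a3 (pw_pos hω (9800 * (m + 1))).le
  have a5 := mul_le_mul_of_nonneg_left a1 (abs_nonneg (D v (N + 1)))
  rw [hm]
  generalize ω ^ (9800 * (m + 1)) = P at *
  linarith

theorem last {y0 y1 ym yn e d d' : ℝ} (h0 : y0 ≠ 0) (hd : d ≠ 0) (hdd : |d| ≤ |d'|)
    (hy : 2 * |yn| ≤ |ym|) (w : ym * d' - yn * d = y0) (s : ym = y0 * e + y1 * d) :
    |y1 / y0 + e / d| ≤ 2 / |d * d'| := by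
  have p0 := abs_pos.2 h0
  have p1 := abs_pos.2 hd
  have p2 : 0 < |d'| := lt_of_lt_of_le p1 hdd
  have e1 : y1 / y0 + e / d = ym / (y0 * d) := by rw [s]; field_simp; ring
  have a := abs_sub_abs_le_abs_sub (ym * d') (yn * d)
  rw [w, abs_mul, abs_mul] at a
  have b : 2 * |yn| * |d| ≤ |ym| * |d'| := mul_le_mul hy hdd p1.le (abs_nonneg _)
  rw [e1, abs_div, abs_mul, abs_mul, div_le_div_iff₀ (by positivity) (by positivity)]
  have c : |ym| * |d'| ≤ 2 * |y0| := by linarith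
  have := mul_le_mul_of_nonneg_right c p1.le
  linarith

end Side

open Side in
theorem s_side (hl : S_lin) (h1 : S_l1) : S_side := by
  intro ω g cl j v y hω hb hg hcl hj h hc hlast hd h0 hy
  obtain ⟨N, rfl⟩ : ∃ N, j = N + 1 := ⟨j - 1, by omega⟩
  simp only [Nat.add_sub_cancel] at hd ⊢
  have hg3 : 3 ≤ g := by
    have := one_le_pw hω 9999
    generalize ω ^ 9999 = P at *
    linarith
  have hc' : ∀ l ≤ 12, g ≤ |v (N + 1 + l)| := fun l a => hcl _ (hc l a)
  have h' : SolN v y (N + 13) := h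
  have hback := back hg3 h' hc' hlast
  have hprof := prof hl h1 hω hb (h'.mono (by omega)) hd h0 hy
  have hDN : 2 * |D v N| ≤ |D v (N + 1)| := by
    have a := hprof N (by omega)
    have b := pw_lt hω (a := 0) (b := 9800 * (N + 1 - N)) (by omega)
    rw [pow_zero] at b
    have c := mul_le_mul_of_nonneg_left b (abs_nonneg (D v N))
    have d := abs_nonneg (D v N)
    generalize ω ^ (9800 * (N + 1 - N)) = P at *
    linarith
  have wr : ∀ n, n ≤ N + 13 → y n * D v (n + 1) - y (n + 1) * D v n = y 0 := fun n hn => by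
    rw [wronsk2 h' (solN_D v _) n hn]; simp
  have w := wr N (by omega)
  have b0 := hback N le_rfl (by omega)
  have n1 := abs_nonneg (y N)
  have n2 := abs_nonneg (y (N + 1))
  have n3 := abs_nonneg (D v N)
  have n4 := abs_nonneg (D v (N + 1))
  have up : |y 0| ≤ 2 * (|D v (N + 1)| * pn y N) := by
    have a := abs_sub (y N * D v (N + 1)) (y (N + 1) * D v N)
    rw [w, abs_mul, abs_mul] at a
    have b := mul_le_mul_of_nonneg_left hDN n2
    have c := mul_nonneg n1 n4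
    have d := mul_nonneg n2 n4
    unfold pn
    linarith
  refine ⟨hprof, up, ?_, fun a ha => ?_⟩
  · have a := abs_sub_abs_le_abs_sub (y N * D v (N + 1)) (y (N + 1) * D v N)
    rw [w, abs_mul, abs_mul] at a
    have b : 2 * |y (N + 1)| * (2 * |D v N|) ≤ |y N| * |D v (N + 1)| := mul_le_mul b0 hDN
      (by positivity) n1
    have c := mul_le_mul_of_nonneg_right b0 n4
    have d := mul_nonneg n1 n4
    unfold pn
    linarith
  · have hD : 0 < |D v (N + 1)| := by
      by_contra hn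
      have e : |D v (N + 1)| = 0 := le_antisymm (not_lt.1 hn) n4
      rw [e, zero_mul, mul_zero] at up
      exact hy (abs_nonpos_iff.1 up)
    have f1 := (fwd hg3 hc' (by linarith) (a + 1) (by omega)).2
    have f2 := (fwd hg3 hc' (by linarith) (a + 2) (by omega)).1
    rw [show N + (a + 1) + 1 = N + 1 + a + 1 by omega] at f1
    rw [show N + (a + 2) = N + 1 + a + 1 by omega] at f2
    exact last hy (abs_pos.1 (lt_of_lt_of_le hD f1)) f2
      (hback (N + 1 + a + 1) (by omega) (by omega)) (wr (N + 1 + a + 1) (by omega))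
      (sol_eq h' (N + 1 + a + 1) (by omega))

end Vale.Agent.P108
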