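import Vale.Agent.P108.Stm

/-! P108: Taylor expansion with the Schwarz lemma, greedy covering. -/

namespace Vale.Agent.P108

open MeasureTheory Filter Real Set Topology
open scoped Classical

noncomputable section

theorem s_tay : S_tay := by
  intro n
  induction n with
  | zero =>
    intro f R B _ _ hb
    exact ⟨fun _ => 0, fun h => absurd h (lt_irrefl 0), fun i hi => absurd hi (Nat.not_lt_zero i),
      fun s hs => by simpa using hb s hs⟩
  | succ n ih =>
    intro f R B hR hd hb
    have h0 : (0 : ℂ) ∈ Metric.ball (0 : ℂ) R := Metric.mem_ball_self hR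
    have hm : MapsTo f (Metric.ball 0 R) (Metric.closedBall (f 0) (2 * B)) := fun s hs => by
      rw [Metric.mem_closedBall, dist_eq_norm]
      linarith [norm_sub_le (f s) (f 0), hb s hs, hb 0 h0]
    obtain ⟨c, -, h2, h3⟩ := ih (dslope f 0) R (2 * B / R) hR
      ((Complex.differentiableOn_dslope (Metric.ball_mem_nhds 0 hR)).2 hd)
      fun s hs => Complex.norm_dslope_le_div_of_mapsTo_ball hd hm hs
    refine ⟨fun i => Nat.casesOn i (f 0) c, fun _ => rfl, fun i hi => ?_, fun s hs => ?_⟩
    · cases i with
      | zero => simpa using hb 0 h0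
      | succ i =>
        have := mul_le_mul_of_nonneg_right (h2 i (by omega)) hR.le
        calc _ = ‖c i‖ * R ^ i * R := by ring
          _ ≤ _ := this
          _ = _ := by field_simp; ring
    · have e : f s - ∑ i ∈ Finset.range (n + 1), (Nat.casesOn i (f 0) c : ℂ) * s ^ i
          = s * (dslope f 0 s - ∑ i ∈ Finset.range n, c i * s ^ i) := by
        have := sub_smul_dslope f 0 s
        rw [sub_zero, smul_eq_mul] at this
        rw [Finset.sum_range_succ', mul_sub, this, Finset.mul_sum]
        have e2 : ∀ i ∈ Finset.range n, (Nat.casesOn (i + 1) (f 0) c : ℂ) * s ^ (i + 1)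
            = s * (c i * s ^ i) := fun i _ => by
          change c i * s ^ (i + 1) = _
          ring
        rw [Finset.sum_congr rfl e2]
        change f s - (_ + f 0 * s ^ 0) = _
        ring
      rw [e, norm_mul]
      calc _ ≤ ‖s‖ * (2 ^ n * (2 * B / R) * (‖s‖ / R) ^ n) :=
            mul_le_mul_of_nonneg_left (h3 s hs) (norm_nonneg _)
        _ = _ := by ring

namespace Tay

theorem gc1 (M : ℕ) (F : ℕ → ℝ) (c : ℝ) (S : Finset ℕ) (hc : 0 ≤ c)
    (hF : ∀ s t, s ≤ t → t ≤ M → F t ≤ F s)
    (hS : ∀ s ∈ S, ∃ n, 1 ≤ n ∧ s + n ≤ M ∧ c * n + F (s + n) ≤ F s) :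
    c * S.card ≤ F 0 - F M := by
  have key : ∀ k s, s ≤ M → M - s = k → c * (S.filter (s ≤ ·)).card ≤ F s - F M := by
    intro k
    induction k using Nat.strong_induction_on with
    | _ k ih =>
      intro s hs hk
      by_cases h : s ∈ S
      · obtain ⟨n, h1, h2, h3⟩ := hS s h
        have h4 := ih (M - (s + n)) (by omega) (s + n) h2 rfl
        have h5 : (S.filter (s ≤ ·)).card ≤ n + (S.filter (s + n ≤ ·)).card := by
          have : S.filter (s ≤ ·) ⊆ Finset.Ico s (s + n) ∪ S.filter (s + n ≤ ·) := fun x hx => by
            simp only [Finset.mem_filter, Finset.mem_union, Finset.mem_Ico] at hx ⊢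
            rcases lt_or_ge x (s + n) with h | h
            · exact Or.inl ⟨hx.2, h⟩
            · exact Or.inr ⟨hx.1, h⟩
          refine (Finset.card_le_card this).trans ((Finset.card_union_le _ _).trans ?_)
          simp
        have h6 : ((S.filter (s ≤ ·)).card : ℝ) ≤ n + (S.filter (s + n ≤ ·)).card := by
          exact_mod_cast h5
        nlinarith [mul_le_mul_of_nonneg_left h6 hc]
      · rcases hs.eq_or_lt with rfl | hlt
        · have : S.filter (s ≤ ·) = ∅ := Finset.filter_eq_empty_iff.2 fun x hx hx' => by
            obtain ⟨n, h1, h2, -⟩ := hS x hx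
            omega
          simp [this]
        · have h4 := ih (M - (s + 1)) (by omega) (s + 1) hlt rfl
          have : S.filter (s ≤ ·) = S.filter (s + 1 ≤ ·) := Finset.filter_congr fun x hx => by
            have : x ≠ s := fun e => h (e ▸ hx)
            omega
          rw [this]
          linarith [hF s (s + 1) (by omega) hlt]
  simpa using key _ 0 (Nat.zero_le _) rfl

theorem add (bad : ℕ → Prop) {a b c : ℕ} (h1 : a ≤ b) (h2 : b ≤ c) :
    ((Finset.Ico a c).filter bad).card =
      ((Finset.Ico a b).filter bad).card + ((Finset.Ico b c).filter bad).card := by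
  simp only [Finset.card_filter]
  exact (Finset.sum_Ico_consecutive _ h1 h2).symm

end Tay

open Tay in
theorem s_gc : S_gc := by
  refine ⟨gc1, fun M L S bad hS => ?_, fun M L S bad hS => ?_⟩
  · have := gc1 M (fun s => ((L * ((Finset.Ico s M).filter bad).card : ℕ) : ℝ)) 1 S zero_le_one
      (fun s t h1 h2 => by
        rw [add bad h1 h2]
        exact_mod_cast Nat.mul_le_mul_left _ (Nat.le_add_left _ _))
      fun s hs => by
        obtain ⟨n, h1, h2, h3⟩ := hS s hs
        refine ⟨n, h1, h2, ?_⟩
        rw [add bad (Nat.le_add_right s n) h2, one_mul, mul_add]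
        exact_mod_cast Nat.add_le_add_right h3 _
    rw [Finset.range_eq_Ico]
    simp only [Finset.Ico_self, Finset.filter_empty, Finset.card_empty, mul_zero, Nat.cast_zero,
      sub_zero, one_mul] at this
    exact_mod_cast this
  · have := gc1 M (fun s => ((L * ((Finset.Ico 0 (M - s)).filter bad).card : ℕ) : ℝ)) 1
      (S.image fun s => M - 1 - s) zero_le_one
      (fun s t h1 h2 => by
        rw [add bad (Nat.zero_le (M - t)) (by omega : M - t ≤ M - s)]
        exact_mod_cast Nat.mul_le_mul_left _ (Nat.le_add_right _ _))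
      fun s' hs' => by
        obtain ⟨s, hs, rfl⟩ := Finset.mem_image.1 hs'
        obtain ⟨h0, n, h1, h2, h3⟩ := hS s hs
        refine ⟨n, h1, by omega, ?_⟩
        rw [show M - (M - 1 - s) = s + 1 by omega, show M - (M - 1 - s + n) = s + 1 - n by omega,
          add bad (Nat.zero_le (s + 1 - n)) (Nat.sub_le (s + 1) n), one_mul, mul_add, add_comm]
        exact_mod_cast Nat.add_le_add_left h3 _
    rw [Finset.card_image_of_injOn fun a ha b hb e => by
      have := (hS a ha).1
      have := (hS b hb).1
      omega] at this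
    rw [Finset.range_eq_Ico]
    simp only [Nat.sub_self, Finset.Ico_self, Finset.filter_empty, Finset.card_empty, mul_zero,
      Nat.cast_zero, sub_zero, one_mul, Nat.sub_zero] at this
    exact_mod_cast this

end

end Vale.Agent.P108
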