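import Vale.Agent.P108.Basic

/-! P108: the measure of unclean points and the integrated counting inequality. -/

namespace Vale.Agent.P108

open MeasureTheory Filter Real Set Topology
open scoped Classical

noncomputable section

namespace Unc

def C (θ : ℝ) : Set (ℝ × ℝ) := {z | |cos (2 * π * z.1)| < θ}

theorem meas_C (θ : ℝ) : MeasurableSet (C θ) :=
  (isOpen_lt (by fun_prop) continuous_const).measurableSet

theorem per_C (θ : ℝ) : Per (· ∈ C θ) := fun z p q => by
  show (|cos (2 * π * (z.1 + p))| < θ) = (|cos (2 * π * z.1)| < θ)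
  rw [mul_add (2 * π) z.1, mul_comm (2 * π) (p : ℝ), cos_add_int_mul_two_pi]

theorem jordan {x : ℝ} (h0 : 0 ≤ x) (h1 : x ≤ 1 / 2) : 4 * |1 / 4 - x| ≤ |cos (2 * π * x)| := by
  have hp := pi_pos
  have e : |π / 2 - 2 * π * x| = 2 * π * |1 / 4 - x| := by
    rw [show π / 2 - 2 * π * x = 2 * π * (1 / 4 - x) by ring, abs_mul,
      abs_of_pos (by positivity : 0 < 2 * π)]
  have a : |1 / 4 - x| ≤ 1 / 4 := abs_le.2 ⟨by linarith, by linarith⟩
  have h := mul_abs_le_abs_sin (x := π / 2 - 2 * π * x) (by rw [e]; nlinarith)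
  rw [sin_pi_div_two_sub, e] at h
  refine le_trans (le_of_eq ?_) h
  field_simp
  ring

theorem mu_C {θ : ℝ} (h0 : 0 < θ) : mu (C θ) ≤ ENNReal.ofReal θ := by
  have hs : C θ ∩ Ico 0 1 ×ˢ Ico 0 1 ⊆
      (Ioo (1 / 4 - θ / 4) (1 / 4 + θ / 4) ∪ Ioo (3 / 4 - θ / 4) (3 / 4 + θ / 4)) ×ˢ
        Ico (0 : ℝ) 1 := by
    rintro ⟨x, y⟩ ⟨h1, ⟨h2, h3⟩, h4⟩
    have h1 : |cos (2 * π * x)| < θ := h1
    have h2 : 0 ≤ x := h2
    have h3 : x < 1 := h3
    refine ⟨?_, h4⟩
    rcases le_total x (1 / 2) with h | h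
    · have a := (jordan h2 h).trans_lt h1
      have b := abs_lt.1 (show |1 / 4 - x| < θ / 4 by linarith)
      exact Or.inl ⟨by linarith [b.2], by linarith [b.1]⟩
    · have a := jordan (x := x - 1 / 2) (by linarith) (by linarith)
      rw [show 2 * π * (x - 1 / 2) = 2 * π * x - π by ring, cos_sub_pi, abs_neg] at a
      have b := abs_lt.1 (show |1 / 4 - (x - 1 / 2)| < θ / 4 by linarith)
      exact Or.inr ⟨by linarith [b.2], by linarith [b.1]⟩
  unfold mu
  rw [Measure.restrict_apply (meas_C θ)]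
  refine (measure_mono hs).trans ?_
  rw [Measure.volume_eq_prod, Measure.prod_prod, Real.volume_Ico, sub_zero, ENNReal.ofReal_one,
    mul_one]
  refine (measure_union_le _ _).trans ?_
  rw [Real.volume_Ioo, Real.volume_Ioo, ← ENNReal.ofReal_add (by linarith) (by linarith)]
  exact ENNReal.ofReal_le_ofReal (by linarith)

def A (k θ : ℝ) (l : ℕ) : Set (ℝ × ℝ) := (Tm k)^[l] ⁻¹' C θ

theorem meas_A (k θ : ℝ) (l : ℕ) : MeasurableSet (A k θ l) :=
  ((cont_Tm k).iterate l).measurable (meas_C θ)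

theorem mu_A (hi : S_inv) (k : ℝ) {θ : ℝ} (h0 : 0 < θ) (l : ℕ) : mu.real (A k θ l) ≤ θ := by
  unfold A
  rw [Measure.real, hi.2.2.1 k l _ (meas_C θ) (per_C θ)]
  exact ENNReal.toReal_le_of_le_ofReal h0.le (mu_C h0)

theorem mem_A {k θ ω : ℝ} (B : Big k θ ω) (z : ℝ × ℝ) (l : ℕ) :
    z ∈ A k θ l ↔ ¬ Cl k θ (wd k z l) := by
  unfold A wd
  rw [B.cl_iff, mem_preimage, Tm_iter, not_le]
  rfl

theorem grow {g : ℝ} (hg : 2 ≤ g) {v : ℕ → ℝ} {M : ℕ} (h : ∀ l < M, g ≤ |v (l + 1)|) :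
    ∀ l ≤ M, |D v l| ≤ |D v (l + 1)| ∧ (g / 2) ^ l ≤ |D v (l + 1)| := by
  intro l
  induction l with
  | zero => intro _; simp
  | succ l ih =>
    intro hl
    obtain ⟨a, b⟩ := ih (by omega)
    have c := h l (by omega)
    have d : |v (l + 1)| * |D v (l + 1)| - |D v l| ≤ |D v (l + 2)| := by
      rw [D_add_two, ← abs_mul]
      exact abs_sub_abs_le_abs_sub _ _
    have e := mul_le_mul_of_nonneg_right c (abs_nonneg (D v (l + 1)))
    have f := mul_le_mul_of_nonneg_right hg (abs_nonneg (D v (l + 1)))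
    have f2 := mul_le_mul_of_nonneg_left b (by linarith : 0 ≤ g / 2)
    refine ⟨by linarith, ?_⟩
    rw [pow_succ]
    linarith

theorem log_eq {θ L : ℝ} (h0 : 0 < θ) (hL : 0 < L) : log (θ * L / 2 / 2) = log L - log (4 / θ) := by
  rw [← log_div hL.ne' (by positivity)]
  congr 1
  field_simp
  ring

theorem df_le {k θ ω : ℝ} (B : Big k θ ω) (M : ℕ) (z : ℝ × ℝ) :
    df k ω M z ≤ M * log (4 / θ) + M * log (ω ^ 10000) *
      (⋃ l ∈ Finset.range M, A k θ (l + 1)).indicator 1 z := by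
  have h0 := B.θ0
  have hL := pw_pos B.om 10000
  have h4 : 0 ≤ log (4 / θ) := log_nonneg (by rw [le_div_iff₀ h0]; linarith [B.θ1])
  unfold df
  by_cases hz : z ∈ ⋃ l ∈ Finset.range M, A k θ (l + 1)
  · rw [indicator_of_mem hz, Pi.one_apply, mul_one]
    have a := log_nonneg (one_le_NN (wd k z) M)
    have b := mul_nonneg (Nat.cast_nonneg (α := ℝ) M) h4
    linarith
  · rw [indicator_of_notMem hz, mul_zero, add_zero]
    have hg : 2 ≤ θ * ω ^ 10000 / 2 := by
      have a := B.g_le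
      have b := one_le_pw B.om 9999
      linarith
    have hc : ∀ l < M, θ * ω ^ 10000 / 2 ≤ |wd k z (l + 1)| := by
      intro l hl
      refine B.cl_ge ?_
      by_contra hn
      exact hz (mem_biUnion (Finset.mem_range.2 hl) ((mem_A B z _).2 hn))
    have a := (grow hg hc M le_rfl).2.trans ((abs_succ_le_pn _ M).trans (pn_D_le_NN _ M))
    have b := log_le_log (by positivity) a
    rw [log_pow, log_eq h0 hL] at b
    linarith

end Unc

open Unc in
theorem s_unc (hm : S_meas) (hi : S_inv) : S_unc := by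
  intro k θ ω B
  have := hi.1
  have h0 := B.θ0
  refine ⟨?_, fun M _ => ?_⟩
  · have hs : Unc k θ ⊆ ⋃ l ∈ Finset.range 10002, (A k θ l ∪ Prod.swap ⁻¹' A k θ l) := by
      rintro z ⟨l, hl, h⟩
      refine mem_biUnion (Finset.mem_range.2 (Nat.lt_succ_of_le hl)) ?_
      exact h.imp (mem_A B z l).2 (mem_A B z.swap l).2
    refine (measureReal_mono hs (measure_ne_top _ _)).trans ((measureReal_biUnion_finset_le _ _).trans ?_)
    have hb : ∀ l ∈ Finset.range 10002, mu.real (A k θ l ∪ Prod.swap ⁻¹' A k θ l) ≤ 2 * θ := by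
      intro l _
      refine (measureReal_union_le _ _).trans ?_
      have a := mu_A hi k h0 l
      have b : mu.real (Prod.swap ⁻¹' A k θ l) = mu.real (A k θ l) := by
        rw [Measure.real, hi.2.1.measure_preimage (meas_A k θ l).nullMeasurableSet, Measure.real]
      linarith
    refine (Finset.sum_le_card_nsmul _ _ _ hb).trans ?_
    rw [Finset.card_range, nsmul_eq_mul]
    push_cast
    linarith
  · have hU : MeasurableSet (⋃ l ∈ Finset.range M, A k θ (l + 1)) :=
      Finset.measurableSet_biUnion _ fun l _ => meas_A k θ _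
    have i1 : Integrable (fun z => (M : ℝ) * log (ω ^ 10000) *
        (⋃ l ∈ Finset.range M, A k θ (l + 1)).indicator 1 z) mu :=
      ((integrable_const (1 : ℝ)).indicator hU).const_mul _
    refine (integral_mono (hm k θ ω M 0).2.2.2.2.2.2.2.2.2 ((integrable_const _).add i1)
      (df_le B M)).trans ?_
    simp only [Pi.add_apply]
    rw [integral_add (integrable_const _) i1, integral_const, integral_const_mul,
      integral_indicator_one hU, probReal_univ, one_smul]
    have a : mu.real (⋃ l ∈ Finset.range M, A k θ (l + 1)) ≤ M * θ := by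
      refine (measureReal_biUnion_finset_le _ _).trans ?_
      refine (Finset.sum_le_card_nsmul _ _ _ fun l _ => mu_A hi k h0 (l + 1)).trans ?_
      rw [Finset.card_range, nsmul_eq_mul]
    have b : 0 ≤ (M : ℝ) * log (ω ^ 10000) :=
      mul_nonneg (Nat.cast_nonneg M) (log_nonneg (one_le_pw B.om 10000))
    have c := mul_le_mul_of_nonneg_left a b
    linarith

namespace Unc

theorem cnt {k θ ω : ℝ} (B : Big k θ ω) (M : ℕ) (z : ℝ × ℝ) :
    Cnt ω (θ * ω ^ 10000 / 2) (Cl k θ) M (wd k z) (fun t => wd k (lf k ((Tm k)^[t] z)))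
      (fun t => (Tm k)^[t] z ∈ Unc k θ) (fun t => (Tm k)^[t] z ∈ DI k ω M) where
  hω := B.om
  bd := B.bd z
  bd' := fun _ => B.bd _
  hbw := fun t l h => wd_lf_iter k z t l h
  hg := B.g_le
  hg' := B.g_le'
  hcl := fun _ h => B.cl_ge h
  hU := fun t h l h1 h2 => by
    by_contra hn
    refine h ?_
    rcases le_or_gt t l with h3 | h3
    · refine ⟨l - t, by omega, Or.inl ?_⟩
      rwa [wd_iter, show t + (l - t) = l by omega]
    · refine ⟨t + 1 - l, by omega, Or.inr ?_⟩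
      rwa [wd_swap_iter _ _ _ _ (by omega), show t + 1 - (t + 1 - l) = l by omega]
  hQ := fun t h1 h2 => by
    rw [← wd_iter'] at h1
    rw [lf_iter_succ] at h2
    exact ⟨h1, h2⟩

/-- number of visits -/
def vis (k : ℝ) (M : ℕ) (S : Set (ℝ × ℝ)) (z : ℝ × ℝ) : ℝ :=
  (((Finset.range M).filter fun t => (Tm k)^[t] z ∈ S).card : ℝ)

theorem df_cnt (hc : S_cseq) {k θ ω : ℝ} (B : Big k θ ω) {M : ℕ} (hM : 1 ≤ M) (z : ℝ × ℝ) :
    df k ω M z ≤ (M * log (4 / θ) + log (ω ^ 10000) * 10 ^ 6 * (1 + log (M + 3))) +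
      log (ω ^ 10000) * 10 ^ 6 * (vis k M (Unc k θ) z + vis k M (DI k ω M) z +
        ∑ p ∈ Pairs (M + 2) 2, vis k M (EW k θ ω p.1 p.2) z) := by
  have h := hc _ _ _ _ _ _ _ _ (cnt B M z) hM
  have h0 := B.θ0
  have hL := pw_pos B.om 10000
  have e1 : 2 * ω ^ 10000 / (θ * ω ^ 10000 / 2) = 4 / θ := by
    generalize ω ^ 10000 = L at hL
    field_simp
    ring
  have e2 : ∀ p : ℕ × ℕ, (((Finset.range M).filter fun t => PE ω (Cl k θ) p.1 p.2
      (fun i => wd k z (t + i)) (wd k (lf k ((Tm k)^[t] z)))).card : ℝ) =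
      vis k M (EW k θ ω p.1 p.2) z := by
    intro p
    unfold vis
    congr 2
    refine Finset.filter_congr fun t _ => ?_
    rw [← wd_iter']
    rfl
  rw [e1] at h
  simp only [e2] at h
  unfold df
  refine h.trans (le_of_eq ?_)
  unfold vis
  ring

end Unc

open Unc in
theorem s_cnt (hc : S_cseq) (hm : S_meas) (hi : S_inv) : S_cnt := by
  intro k θ ω M B hM
  have := hi.1
  have u := hi.2.2.2.2 k M _ (hm k θ ω 0 0).1.1 (hm k θ ω 0 0).1.2
  have q := hi.2.2.2.2 k M _ (hm k θ ω M 0).2.2.2.1.1 (hm k θ ω M 0).2.2.2.1.2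
  have w := fun p : ℕ × ℕ =>
    hi.2.2.2.2 k M _ (hm k θ ω p.1 p.2).2.2.2.2.1.1 (hm k θ ω p.1 p.2).2.2.2.2.1.2
  have u1 : Integrable (vis k M (Unc k θ)) mu := u.1
  have u2 : ∫ z, vis k M (Unc k θ) z ∂mu = M * mu.real (Unc k θ) := u.2
  have q1 : Integrable (vis k M (DI k ω M)) mu := q.1
  have q2 : ∫ z, vis k M (DI k ω M) z ∂mu = M * mu.real (DI k ω M) := q.2
  have w1 : ∀ p : ℕ × ℕ, Integrable (vis k M (EW k θ ω p.1 p.2)) mu := fun p => (w p).1
  have w2 : ∀ p : ℕ × ℕ, ∫ z, vis k M (EW k θ ω p.1 p.2) z ∂mu =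
      M * mu.real (EW k θ ω p.1 p.2) := fun p => (w p).2
  have i1 : Integrable (fun z => vis k M (Unc k θ) z + vis k M (DI k ω M) z) mu := u1.add q1
  have i2 : Integrable (fun z => ∑ p ∈ Pairs (M + 2) 2, vis k M (EW k θ ω p.1 p.2) z) mu :=
    integrable_finsetSum _ fun p _ => w1 p
  have i3 : Integrable (fun z => log (ω ^ 10000) * 10 ^ 6 * (vis k M (Unc k θ) z +
      vis k M (DI k ω M) z + ∑ p ∈ Pairs (M + 2) 2, vis k M (EW k θ ω p.1 p.2) z)) mu :=
    (i1.add i2).const_mul _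
  refine (integral_mono (hm k θ ω M 0).2.2.2.2.2.2.2.2.2 ((integrable_const _).add i3)
    (df_cnt hc B hM)).trans (le_of_eq ?_)
  simp only [Pi.add_apply]
  rw [integral_add (integrable_const _) i3, integral_const_mul, integral_add i1 i2,
    integral_add u1 q1, integral_finsetSum _ fun p _ => w1 p, integral_const, probReal_univ,
    one_smul, u2, q2]
  simp only [w2]
  rw [← Finset.mul_sum]
  generalize log (ω ^ 10000) = l
  ring

end

end Vale.Agent.P108
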