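import Vale.Agent.P108.Stm

/-! P108: the two-stage compactness argument for the sum of two reciprocals. -/

namespace Vale.Agent.P108

open MeasureTheory Filter Real Set Topology
open scoped Classical

noncomputable section

namespace W2

theorem acos (a b : ℝ) : AnalyticOnNhd ℝ (fun s : ℝ => cos (2 * π * (a + b * s))) univ :=
  fun _ _ => Real.analyticAt_cos.comp (by fun_prop)

theorem asin (a b : ℝ) : AnalyticOnNhd ℝ (fun s : ℝ => sin (2 * π * (a + b * s))) univ :=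
  fun _ _ => Real.analyticAt_sin.comp (by fun_prop)

theorem apol (p : Fin 5 → ℝ) : AnalyticOnNhd ℝ (pol p) univ := fun _ _ => by
  unfold pol
  fun_prop

theorem cancel {f : ℝ → ℝ} (hf : AnalyticOnNhd ℝ f univ) (a : ℝ) {b : ℝ} (hb : b ≠ 0)
    (h : ∀ s, f s * cos (2 * π * (a + b * s)) = 0) (s : ℝ) : f s = 0 := by
  rcases hf.eq_zero_or_eq_zero_of_mul_eq_zero (acos a b) (fun z _ => h z) isPreconnected_univ
    with h1 | h1
  · exact h1 s trivial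
  · have := h1 (-a / b) trivial
    rw [show a + b * (-a / b) = 0 by field_simp; ring] at this
    simp at this

theorem pol_zero {p : Fin 5 → ℝ} (h : ∀ s, pol p s = 0) : p = 0 := by
  have h0 := h 0
  have h1 := h 1
  have h2 := h (-1)
  have h3 := h 2
  have h4 := h (-2)
  unfold pol at h0 h1 h2 h3 h4
  funext i
  fin_cases i <;> simp <;> linarith

theorem cz (y : ℝ) (k : ℕ) : cos (2 * π * (y + 1 * (1 / 4 - y + k / 2))) = 0 ∧
    sin (2 * π * (y + 1 * (1 / 4 - y + k / 2))) = (-1) ^ k := by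
  rw [show 2 * π * (y + 1 * (1 / 4 - y + k / 2)) = π / 2 + k * π by ring, cos_add_nat_mul_pi,
    sin_add_nat_mul_pi]
  simp

theorem flip {σ : ℝ} (hσ : σ = 1 ∨ σ = -1) (x : ℝ) (m : ℤ) :
    cos (2 * π * (σ * x + m)) = cos (2 * π * x) ∧
    cos (2 * π * (σ * x + 1 / 2 + m)) = -cos (2 * π * x) := by
  have e : cos (2 * π * (σ * x)) = cos (2 * π * x) := by
    rcases hσ with rfl | rfl
    · rw [one_mul]
    · rw [show 2 * π * (-1 * x) = -(2 * π * x) by ring, cos_neg]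
  constructor
  · rw [show 2 * π * (σ * x + m) = 2 * π * (σ * x) + m * (2 * π) by ring, cos_add_int_mul_two_pi, e]
  · rw [show 2 * π * (σ * x + 1 / 2 + m) = 2 * π * (σ * x) + π + m * (2 * π) by ring,
      cos_add_int_mul_two_pi, cos_add_pi, e]

theorem rigid1 {p : Fin 5 → ℝ} {w ϱ y y' : ℝ} (hne : (p, w) ≠ 0) (h0 : ϱ ≠ 0) (h1 : |ϱ| ≤ 1)
    (h : ∀ s, pol p s * cos (2 * π * (y + 1 * s)) * (ϱ ^ 2 * cos (2 * π * (y' + ϱ * s)))
      - w * (cos (2 * π * (y + 1 * s)) + ϱ ^ 2 * cos (2 * π * (y' + ϱ * s))) = 0) :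
    (ϱ = 1 ∨ ϱ = -1) ∧ p = 0 ∧ w ≠ 0 ∧ ∃ m : ℤ, y' = ϱ * y + 1 / 2 + m := by
  have hw : w ≠ 0 := by
    rintro rfl
    refine hne (Prod.ext (pol_zero (cancel (apol p) y one_ne_zero (cancel
      ((apol p).mul (acos y 1)) y' h0 fun s => ?_))) rfl)
    have := h s
    refine mul_left_cancel₀ (pow_ne_zero 2 h0) ?_
    linarith
  have hz : ∀ k : ℕ, ∃ j : ℤ, y' + ϱ * (1 / 4 - y + k / 2) = (2 * j + 1) / 4 := fun k => by
    have := h (1 / 4 - y + k / 2)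
    rw [(cz y k).1] at this
    have h2 : cos (2 * π * (y' + ϱ * (1 / 4 - y + k / 2))) = 0 := by
      refine mul_left_cancel₀ (mul_ne_zero hw (pow_ne_zero 2 h0)) ?_
      linarith
    obtain ⟨j, hj⟩ := Real.cos_eq_zero_iff.1 h2
    exact ⟨j, mul_left_cancel₀ Real.pi_ne_zero (by linarith)⟩
  obtain ⟨j₀, e0⟩ := hz 0
  obtain ⟨j₁, e1⟩ := hz 1
  have e2 : ϱ = ((j₁ - j₀ : ℤ) : ℝ) := by
    push_cast at e0 e1 ⊢
    linarith
  have hσ : ϱ = 1 ∨ ϱ = -1 := by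
    have a1 : |j₁ - j₀| ≤ 1 := by
      rw [e2] at h1
      exact_mod_cast h1
    have a2 : j₁ - j₀ ≠ 0 := fun e => h0 (by rw [e2, e]; simp)
    have a3 : j₁ - j₀ = 1 ∨ j₁ - j₀ = -1 := by
      rw [abs_le] at a1
      omega
    rcases a3 with a | a
    · left; rw [e2, a]; simp
    · right; rw [e2, a]; simp
  have hs : ϱ ^ 2 = 1 := by rcases hσ with rfl | rfl <;> norm_num
  obtain ⟨j, hj⟩ : ∃ j : ℤ, y' = ϱ * y + j / 2 := by
    rcases hσ with rfl | rfl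
    · exact ⟨j₀, by push_cast at e0; linarith⟩
    · exact ⟨j₀ + 1, by push_cast at e0 ⊢; linarith⟩
  rcases Int.even_or_odd' j with ⟨m, rfl | rfl⟩
  · exfalso
    have := cancel (f := fun s => pol p s * cos (2 * π * (y + 1 * s)) - 2 * w)
      (((apol p).mul (acos y 1)).sub analyticOnNhd_const) y one_ne_zero (fun s => by
        have := h s
        rw [show y' + ϱ * s = ϱ * (y + 1 * s) + m by rw [hj]; push_cast; ring, (flip hσ _ m).1,
          hs] at this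
        linarith) (1 / 4 - y + (0 : ℕ) / 2)
    simp only [(cz y 0).1] at this
    exact hw (by linarith)
  · refine ⟨hσ, pol_zero (cancel (apol p) y one_ne_zero (cancel
      ((apol p).mul (acos y 1)) y one_ne_zero fun s => ?_)), hw, m, by rw [hj]; push_cast; ring⟩
    have := h s
    rw [show y' + ϱ * s = ϱ * (y + 1 * s) + 1 / 2 + m by rw [hj]; push_cast; ring,
      (flip hσ _ m).2, hs] at this
    linarith

abbrev V := (Fin 5 → ℝ) × (ℝ × ℝ × ℝ) × (ℝ × ℝ) × ℝ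

def qd (t : V) (s : ℝ) : ℝ := t.2.1.1 + t.2.1.2.1 * s + t.2.1.2.2 * s ^ 2
def ln (t : V) (s : ℝ) : ℝ := t.2.2.1.1 + t.2.2.1.2 * s

def H2 (t : V) (y s : ℝ) : ℝ :=
  -(pol t.1 s * cos (2 * π * (y + 1 * s)) * cos (2 * π * (y + 1 * s)))
    - 2 * π * qd t s * sin (2 * π * (y + 1 * s)) + 2 * ln t s * cos (2 * π * (y + 1 * s))
    - 2 * t.2.2.2

theorem aH2 (t : V) (y : ℝ) : AnalyticOnNhd ℝ (H2 t y) univ := fun s _ => by
  have h1 := acos y 1 s trivial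
  have h2 := asin y 1 s trivial
  have h3 := apol t.1 s trivial
  unfold H2 qd ln
  fun_prop

theorem rigid2 {t : V} {y : ℝ} (h : ∀ s, H2 t y s = 0) : t = 0 := by
  obtain ⟨p, ⟨a0, a1, a2⟩, ⟨b0, b1⟩, w⟩ := t
  have hk : ∀ k : ℕ, π * (a0 + a1 * (1 / 4 - y + k / 2) + a2 * (1 / 4 - y + k / 2) ^ 2) * (-1) ^ k
      = -w := fun k => by
    have := h (1 / 4 - y + k / 2)
    simp only [H2, qd, ln, (cz y k).1, (cz y k).2] at this
    linarith
  have k0 := hk 0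
  have k1 := hk 1
  have k2 := hk 2
  have k3 := hk 3
  push_cast at k0 k1 k2 k3
  have hw : w = 0 := by linarith
  have h2 : a2 = 0 := mul_left_cancel₀ Real.pi_ne_zero (by linarith)
  subst hw h2
  have h1 : a1 = 0 := mul_left_cancel₀ Real.pi_ne_zero (by linarith)
  subst h1
  have h0 : a0 = 0 := mul_left_cancel₀ Real.pi_ne_zero (by linarith)
  subst h0
  have hc := cancel (f := fun s => 2 * (b0 + b1 * s) - pol p s * cos (2 * π * (y + 1 * s)))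
    (AnalyticOnNhd.sub (fun _ _ => by fun_prop) ((apol p).mul (acos y 1))) y one_ne_zero
    fun s => by
      have := h s
      simp only [H2, qd, ln] at this
      linarith
  have c0 := hc (1 / 4 - y + (0 : ℕ) / 2)
  have c1 := hc (1 / 4 - y + (1 : ℕ) / 2)
  simp only [(cz y _).1] at c0 c1
  push_cast at c0 c1
  have g1 : b1 = 0 := by linarith
  subst g1
  have g0 : b0 = 0 := by linarith
  subst g0
  have hp : p = 0 := pol_zero (cancel (apol p) y one_ne_zero fun s => by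
    have := hc s
    linarith)
  subst hp
  rfl

def Psi (b t : V) (y α β s : ℝ) : ℝ :=
  pol b.1 s * ((1 + α * s) ^ 2 * (cos (2 * π * (y + 1 * s + β * s ^ 2)) + t.2.2.2)) *
      ((1 + α * s + ln t s) ^ 2 * (-cos (2 * π * (y + 1 * s + β * s ^ 2 + qd t s)) + t.2.2.2))
    - 2 * π * (1 + α * s) ^ 2 * qd b s * sin (2 * π * (y + 1 * s + β * s ^ 2) + π * qd t s)
      * sinc (π * qd t s)
    + ln b s * (2 * (1 + α * s) + ln t s) * cos (2 * π * (y + 1 * s + β * s ^ 2 + qd t s))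
    - b.2.2.2 * ((1 + α * s) ^ 2 + (1 + α * s + ln t s) ^ 2)

theorem cPsi : Continuous fun x : (V × V × ℝ × ℝ × ℝ) × ℝ =>
    Psi x.1.1 x.1.2.1 x.1.2.2.1 x.1.2.2.2.1 x.1.2.2.2.2 x.2 := by
  have := Real.continuous_sinc
  unfold Psi pol qd ln
  fun_prop

theorem Psi_zero (b : V) (y s : ℝ) : Psi b 0 y 0 0 s = H2 b y s := by
  simp [Psi, H2, qd, ln]
  ring

theorem Psi_eq {σ : ℝ} (hσ : σ = 1 ∨ σ = -1) (m : ℤ) (c e ϱ : ℝ) (p : Fin 5 → ℝ)
    (y y' α β α' β' s : ℝ) (t : V)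
    (ht : t = (p, (σ * (y' - 1 / 2 - m) - y, σ * ϱ - 1, σ * β' - β), (σ * ϱ - 1, σ * α' - α), e)) :
    Psi (c • t) t y α β s = c * (pol p s * Dn 1 α β y e s * Dn ϱ α' β' y' e s -
      Dn 1 α β y e s - Dn ϱ α' β' y' e s) := by
  have hs : σ * σ = 1 := by rcases hσ with rfl | rfl <;> norm_num
  have e1 : (ϱ + α' * s) ^ 2 = (1 + α * s + ln t s) ^ 2 := by
    simp only [ht, ln]
    linear_combination (-(ϱ + α' * s) ^ 2) * hs
  have e2 : cos (2 * π * (y' + ϱ * s + β' * s ^ 2))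
      = -cos (2 * π * (y + 1 * s + β * s ^ 2 + qd t s)) := by
    rw [← (flip hσ _ m).2]
    congr 2
    simp only [ht, qd]
    linear_combination (-(y' - 1 / 2 - m + ϱ * s + β' * s ^ 2)) * hs
  have e3 : sin (π * qd t s) = π * qd t s * sinc (π * qd t s) := by
    rcases eq_or_ne (π * qd t s) 0 with h | h
    · rw [h]; simp
    · rw [sinc_of_ne_zero h, mul_div_cancel₀ _ h]
  have e4 : cos (2 * π * (y + 1 * s + β * s ^ 2 + qd t s)) - cos (2 * π * (y + 1 * s + β * s ^ 2))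
      = -2 * sin (2 * π * (y + 1 * s + β * s ^ 2) + π * qd t s) * sin (π * qd t s) := by
    rw [cos_sub_cos]
    congr 3 <;> ring
  have e5 : pol (c • t).1 s = c * pol p s := by
    simp only [ht, pol, Prod.smul_fst, Pi.smul_apply, smul_eq_mul]
    ring
  have e6 : qd (c • t) s = c * qd t s := by
    simp only [qd, Prod.smul_fst, Prod.smul_snd, smul_eq_mul]
    ring
  have e7 : ln (c • t) s = c * ln t s := by
    simp only [ln, Prod.smul_fst, Prod.smul_snd, smul_eq_mul]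
    ring
  have e8 : (c • t).2.2.2 = c * e := by rw [ht]; rfl
  have e9 : t.2.2.2 = e := by rw [ht]
  unfold Psi Dn
  rw [e1, e2, e5, e6, e7, e8, e9]
  rw [e3] at e4
  linear_combination (-(c * (1 + α * s) ^ 2)) * e4

/-- a sequence of counterexamples -/
structure Sq (κ : ℝ) where
  δ : ℕ → ℝ
  e : ℕ → ℝ
  ϱ : ℕ → ℝ
  p : ℕ → Fin 5 → ℝ
  y : ℕ → ℝ
  y' : ℕ → ℝ
  α : ℕ → ℝ
  β : ℕ → ℝ
  α' : ℕ → ℝ
  β' : ℕ → ℝ
  hδ : Tendsto δ atTop (𝓝 0)
  e0 : ∀ n, 0 < e n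
  he : Tendsto e atTop (𝓝 0)
  hα : Tendsto α atTop (𝓝 0)
  hβ : Tendsto β atTop (𝓝 0)
  hα' : Tendsto α' atTop (𝓝 0)
  hβ' : Tendsto β' atTop (𝓝 0)
  vol : ∀ n, ENNReal.ofReal κ ≤ volume {s | s ∈ Icc (-5 : ℝ) 5 ∧
    |pol (p n) s * Dn 1 (α n) (β n) (y n) (e n) s * Dn (ϱ n) (α' n) (β' n) (y' n) (e n) s -
      Dn 1 (α n) (β n) (y n) (e n) s - Dn (ϱ n) (α' n) (β' n) (y' n) (e n) s| ≤ δ n * e n}

def Sq.sub {κ : ℝ} (S : Sq κ) {φ : ℕ → ℕ} (h : StrictMono φ) : Sq κ :=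
  ⟨S.δ ∘ φ, S.e ∘ φ, S.ϱ ∘ φ, S.p ∘ φ, S.y ∘ φ, S.y' ∘ φ, S.α ∘ φ, S.β ∘ φ, S.α' ∘ φ, S.β' ∘ φ,
    S.hδ.comp h.tendsto_atTop, fun _ => S.e0 _, S.he.comp h.tendsto_atTop,
    S.hα.comp h.tendsto_atTop, S.hβ.comp h.tendsto_atTop, S.hα'.comp h.tendsto_atTop,
    S.hβ'.comp h.tendsto_atTop, fun _ => S.vol _⟩

theorem stage2 (hz : S_z) {κ : ℝ} (hκ : 0 < κ) (S : Sq κ) {σ y : ℝ} (hσ : σ = 1 ∨ σ = -1) (m : ℤ)
    (hp : Tendsto S.p atTop (𝓝 0)) (hϱ : Tendsto S.ϱ atTop (𝓝 σ)) (hy : Tendsto S.y atTop (𝓝 y))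
    (hy' : Tendsto S.y' atTop (𝓝 (σ * y + 1 / 2 + m))) : False := by
  have hs : σ * σ = 1 := by rcases hσ with rfl | rfl <;> norm_num
  set t : ℕ → V := fun n => (S.p n, (σ * (S.y' n - 1 / 2 - m) - S.y n, σ * S.ϱ n - 1,
    σ * S.β' n - S.β n), (σ * S.ϱ n - 1, σ * S.α' n - S.α n), S.e n) with ht
  have t0 : Tendsto t atTop (𝓝 0) := by
    have a0 := ((((hy'.sub_const (1 / 2)).sub_const m).const_mul σ).sub hy)
    have a1 := (hϱ.const_mul σ).sub_const 1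
    have a2 := (S.hβ'.const_mul σ).sub S.hβ
    have a3 := (S.hα'.const_mul σ).sub S.hα
    rw [show σ * (σ * y + 1 / 2 + m - 1 / 2 - m) - y = 0 by linear_combination y * hs] at a0
    rw [hs, sub_self] at a1
    rw [mul_zero, sub_self] at a2 a3
    exact hp.prodMk_nhds ((a0.prodMk_nhds (a1.prodMk_nhds a2)).prodMk_nhds
      ((a1.prodMk_nhds a3).prodMk_nhds S.he))
  have hN : ∀ n, S.e n ≤ ‖t n‖ := fun n =>
    (le_abs_self _).trans ((norm_snd_le (t n).2.2).trans ((norm_snd_le (t n).2).trans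
      (norm_snd_le (t n))))
  have hN0 : ∀ n, 0 < ‖t n‖ := fun n => (S.e0 n).trans_le (hN n)
  obtain ⟨b, hb, φ, hφ, hl⟩ := (isCompact_sphere (0 : V) 1).tendsto_subseq
    (x := fun n => ‖t n‖⁻¹ • t n) fun n => by
      rw [mem_sphere_zero_iff_norm, norm_smul, norm_inv, norm_norm, inv_mul_cancel₀ (hN0 n).ne']
  have hφ' := hφ.tendsto_atTop
  have := hz (H2 b y) (fun n => Psi (‖t (φ n)‖⁻¹ • t (φ n)) (t (φ n)) (S.y (φ n)) (S.α (φ n))
    (S.β (φ n))) (fun n => |S.δ (φ n)|) κ hκ (aH2 b y)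
    (fun n => (cPsi.comp (f := fun s : ℝ => ((‖t (φ n)‖⁻¹ • t (φ n), t (φ n), S.y (φ n),
      S.α (φ n), S.β (φ n)), s)) (by fun_prop)).measurable)
    (fun s _ => by
      have := (cPsi.tendsto ((b, 0, y, 0, 0), s)).comp
        ((hl.prodMk_nhds ((t0.comp hφ').prodMk_nhds ((hy.comp hφ').prodMk_nhds
          ((S.hα.comp hφ').prodMk_nhds (S.hβ.comp hφ'))))).prodMk_nhds (tendsto_const_nhds (x := s)))
      simp only [Function.comp_def, Psi_zero] at this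
      exact this)
    (by simpa using (S.hδ.comp hφ').abs)
    fun n => (S.vol (φ n)).trans (measure_mono fun s hs => ⟨hs.1, by
      rw [Psi_eq hσ m _ (S.e (φ n)) (S.ϱ (φ n)) (S.p (φ n)) _ (S.y' (φ n)) _ _ (S.α' (φ n))
        (S.β' (φ n)) s (t (φ n)) rfl, abs_mul, abs_of_pos (inv_pos.2 (hN0 _)),
        inv_mul_le_iff₀ (hN0 _), mul_comm ‖_‖]
      exact hs.2.trans (mul_le_mul (le_abs_self _) (hN _) (S.e0 _).le (abs_nonneg _))⟩)
  rw [rigid2 this] at hb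
  simp at hb

def Phi (b : (Fin 5 → ℝ) × ℝ) (e ϱ y y' α β α' β' s : ℝ) : ℝ :=
  pol b.1 s * Dn 1 α β y e s * Dn ϱ α' β' y' e s - b.2 * (Dn 1 α β y e s + Dn ϱ α' β' y' e s)

theorem cPhi : Continuous fun x : ((((Fin 5 → ℝ) × ℝ) × ℝ × ℝ × ℝ) × ℝ × ℝ × ℝ × ℝ × ℝ) × ℝ =>
    Phi x.1.1.1 x.1.2.1 x.1.1.2.1 x.1.1.2.2.1 x.1.1.2.2.2 x.1.2.2.1 x.1.2.2.2.1 x.1.2.2.2.2.1
      x.1.2.2.2.2.2 x.2 := by
  unfold Phi pol Dn
  fun_prop

theorem stage1 (hz : S_z) {κ ϱ₁ : ℝ} (hκ : 0 < κ) (h1 : 0 < ϱ₁) (S : Sq κ)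
    (hϱ : ∀ n, ϱ₁ ≤ |S.ϱ n| ∧ |S.ϱ n| ≤ 1) (hy : ∀ n, S.y n ∈ Icc (0 : ℝ) 1)
    (hy' : ∀ n, S.y' n ∈ Icc (0 : ℝ) 1) : False := by
  set t : ℕ → (Fin 5 → ℝ) × ℝ := fun n => (S.p n, 1) with ht
  have hN : ∀ n, 1 ≤ ‖t n‖ := fun n => norm_one.ge.trans (norm_snd_le (t n))
  have hN0 : ∀ n, 0 < ‖t n‖ := fun n => one_pos.trans_le (hN n)
  obtain ⟨⟨b, ϱ, y, y'⟩, ⟨hb, hϱ1, -, -⟩, φ, hφ, hl⟩ := ((isCompact_sphere (0 : (Fin 5 → ℝ) × ℝ) 1).prod
    ((isCompact_Icc (a := (-1 : ℝ)) (b := 1)).prod ((isCompact_Icc (a := (0 : ℝ)) (b := 1)).prod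
      (isCompact_Icc (a := (0 : ℝ)) (b := 1))))).tendsto_subseq
    (x := fun n => (‖t n‖⁻¹ • t n, S.ϱ n, S.y n, S.y' n)) fun n => ⟨by
      rw [mem_sphere_zero_iff_norm, norm_smul, norm_inv, norm_norm, inv_mul_cancel₀ (hN0 n).ne'],
      abs_le.1 (hϱ n).2, hy n, hy' n⟩
  have hφ' := hφ.tendsto_atTop
  have l1 : Tendsto (fun n => ‖t (φ n)‖⁻¹ • t (φ n)) atTop (𝓝 b) :=
    (continuous_fst.tendsto _).comp hl
  have l2 : Tendsto (S.ϱ ∘ φ) atTop (𝓝 ϱ) := (continuous_snd.fst.tendsto _).comp hl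
  have l3 : Tendsto (S.y ∘ φ) atTop (𝓝 y) := (continuous_snd.snd.fst.tendsto _).comp hl
  have l4 : Tendsto (S.y' ∘ φ) atTop (𝓝 y') := (continuous_snd.snd.snd.tendsto _).comp hl
  have hϱ0 : ϱ ≠ 0 := abs_pos.1 (h1.trans_le (ge_of_tendsto' l2.abs fun n => (hϱ _).1))
  have := hz (fun s => pol b.1 s * cos (2 * π * (y + 1 * s)) * (ϱ ^ 2 * cos (2 * π * (y' + ϱ * s)))
      - b.2 * (cos (2 * π * (y + 1 * s)) + ϱ ^ 2 * cos (2 * π * (y' + ϱ * s))))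
    (fun n => Phi (‖t (φ n)‖⁻¹ • t (φ n)) (S.e (φ n)) (S.ϱ (φ n)) (S.y (φ n)) (S.y' (φ n))
      (S.α (φ n)) (S.β (φ n)) (S.α' (φ n)) (S.β' (φ n))) (fun n => |S.δ (φ n) * S.e (φ n)|) κ hκ
    (fun s _ => by
      have h1 := acos y 1 s trivial
      have h2 := acos y' ϱ s trivial
      have h3 := apol b.1 s trivial
      fun_prop)
    (fun n => (cPhi.comp (f := fun s : ℝ => (((‖t (φ n)‖⁻¹ • t (φ n), S.ϱ (φ n), S.y (φ n),
      S.y' (φ n)), S.e (φ n), S.α (φ n), S.β (φ n), S.α' (φ n), S.β' (φ n)), s))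
      (by fun_prop)).measurable)
    (fun s _ => by
      have := (cPhi.tendsto (((b, ϱ, y, y'), 0, 0, 0, 0, 0), s)).comp
        ((hl.prodMk_nhds ((S.he.comp hφ').prodMk_nhds ((S.hα.comp hφ').prodMk_nhds
          ((S.hβ.comp hφ').prodMk_nhds ((S.hα'.comp hφ').prodMk_nhds
            (S.hβ'.comp hφ')))))).prodMk_nhds (tendsto_const_nhds (x := s)))
      refine Tendsto.mono_right this (le_of_eq ?_)
      simp [Phi, Dn])
    (by simpa using ((S.hδ.mul S.he).comp hφ').abs)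
    fun n => (S.vol (φ n)).trans (measure_mono fun s hs => ⟨hs.1, by
      have e : ∀ (c : ℝ) (p : Fin 5 → ℝ) (e ϱ y y' α β α' β' : ℝ),
          Phi (c • (p, 1)) e ϱ y y' α β α' β' s = c * (pol p s * Dn 1 α β y e s *
            Dn ϱ α' β' y' e s - Dn 1 α β y e s - Dn ϱ α' β' y' e s) := by
        intros
        simp only [Phi, pol, Prod.smul_fst, Prod.smul_snd, Pi.smul_apply, smul_eq_mul]
        ring
      rw [e, abs_mul, abs_of_pos (inv_pos.2 (hN0 _)), inv_mul_le_iff₀ (hN0 _)]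
      exact (hs.2.trans (le_abs_self _)).trans (le_mul_of_one_le_left (abs_nonneg _) (hN _))⟩)
  obtain ⟨hσ, hp, hw, m, hm⟩ := rigid1 (p := b.1) (w := b.2) (fun e => by
    rw [show b = 0 from e] at hb
    simp at hb) hϱ0 (abs_le.2 hϱ1) this
  refine stage2 hz hκ (S.sub hφ) hσ m ?_ l2 l3 (hm ▸ l4)
  have a1 := (continuous_fst.tendsto _).comp l1
  have a2 := ((continuous_snd.tendsto _).comp l1).inv₀ hw
  have a3 := a2.smul a1
  rw [hp, smul_zero] at a3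
  refine a3.congr fun n => ?_
  change (‖t (φ n)‖⁻¹ * 1)⁻¹ • ‖t (φ n)‖⁻¹ • S.p (φ n) = S.p (φ n)
  rw [mul_one, inv_inv, smul_inv_smul₀ (hN0 _).ne']

theorem Dn_fract (ϱ α β y e : ℝ) : Dn ϱ α β (Int.fract y) e = Dn ϱ α β y e := by
  funext s
  unfold Dn
  rw [← (flip (Or.inl rfl) _ ⌊y⌋).1]
  congr 4
  rw [Int.fract]
  ring

end W2

open W2 in
theorem s_w2 (hz : S_z) : S_w2 := by
  intro κ ϱ₁ hκ h1
  by_contra hc
  push Not at hc
  choose e ϱ p y y' α β α' β' a1 a2 a3 a4 a5 a6 a7 a8 a9 using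
    fun n : ℕ => hc (1 / ((n : ℝ) + 1)) (by positivity)
  have hδ : Tendsto (fun n : ℕ => 1 / ((n : ℝ) + 1)) atTop (𝓝 0) :=
    tendsto_one_div_add_atTop_nhds_zero_nat
  exact stage1 hz hκ h1 ⟨_, e, ϱ, p, fun n => Int.fract (y n), fun n => Int.fract (y' n), α, β, α',
    β', hδ, a1, squeeze_zero (fun n => (a1 n).le) a2 hδ, squeeze_zero_norm a5 hδ,
    squeeze_zero_norm a6 hδ, squeeze_zero_norm a7 hδ, squeeze_zero_norm a8 hδ,
    fun n => by simpa only [Dn_fract] using (a9 n).le⟩ (fun n => ⟨a3 n, a4 n⟩)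
    (fun n => ⟨Int.fract_nonneg _, (Int.fract_lt_one _).le⟩)
    fun n => ⟨Int.fract_nonneg _, (Int.fract_lt_one _).le⟩

end

end Vale.Agent.P108
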