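import Vale.Agent.P108.Basic

/-! P108: the global estimate for tangencies. -/

namespace Vale.Agent.P108

open MeasureTheory Filter Real Set
open scoped Classical ENNReal

namespace Wg

theorem vit (S F : Set ℝ) (κ : ℝ) (hκ : 0 ≤ κ)
    (h : ∀ b ∈ S, ∃ ρ : ℝ, 0 < ρ ∧ ρ ≤ 1 ∧ (∀ t : ℝ, |t| < ρ → b + t ∈ F) ∧
      volume {t : ℝ | |t| ≤ 5 * ρ ∧ b + t ∈ S} ≤ ENNReal.ofReal (κ * ρ)) :
    volume (S ∩ Ico 0 1) ≤ ENNReal.ofReal κ * volume (F ∩ Ico (-1) 2) := by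
  choose! ρ h0 h1 h2 h3 using h
  obtain ⟨u, hu, hd, hc⟩ := Vitali.exists_disjoint_subfamily_covering_enlargement_closedBall
    (S ∩ Ico 0 1) (fun b : ℝ => b) (fun b => ρ b / 2) 1
    (fun b hb => by linarith [h1 b hb.1, h0 b hb.1]) 5 (by norm_num)
  have cu : u.Countable := hd.countable_of_nonempty_interior fun b hb =>
    ⟨b, Metric.ball_subset_interior_closedBall
      (Metric.mem_ball_self (half_pos (h0 b (hu hb).1)))⟩
  have c1 : S ∩ Ico 0 1 ⊆ ⋃ b ∈ u, (fun y => y + -b) ⁻¹' {t : ℝ | |t| ≤ 5 * ρ b ∧ b + t ∈ S} := by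
    intro y hy
    obtain ⟨b, hb, hs⟩ := hc y hy
    have := hs (Metric.mem_closedBall_self (half_pos (h0 y hy.1)).le)
    rw [Metric.mem_closedBall, Real.dist_eq] at this
    refine mem_iUnion₂.2 ⟨b, hb, ?_, ?_⟩
    · show |y + -b| ≤ 5 * ρ b
      rw [← sub_eq_add_neg]
      linarith [h0 b (hu hb).1]
    · show b + (y + -b) ∈ S
      rw [show b + (y + -b) = y by ring]
      exact hy.1
  have c2 : ⋃ b ∈ u, Metric.closedBall b (ρ b / 2) ⊆ F ∩ Ico (-1) 2 := by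
    intro y hy
    obtain ⟨b, hb, hy⟩ := mem_iUnion₂.1 hy
    rw [Metric.mem_closedBall, Real.dist_eq] at hy
    have a0 := h0 b (hu hb).1
    have a1 := h1 b (hu hb).1
    have a2 := (hu hb).2
    refine ⟨?_, ?_, ?_⟩
    · have := h2 b (hu hb).1 (y - b) (by linarith)
      rwa [add_sub_cancel] at this
    · linarith [(abs_le.1 hy).1, a2.1]
    · linarith [(abs_le.1 hy).2, a2.2]
  calc volume (S ∩ Ico 0 1) ≤ _ := measure_mono c1
    _ ≤ ∑' b : u, volume ((fun y => y + -(b : ℝ)) ⁻¹' {t : ℝ | |t| ≤ 5 * ρ b ∧ b + t ∈ S}) :=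
        measure_biUnion_le _ cu _
    _ ≤ ∑' b : u, ENNReal.ofReal κ * volume (Metric.closedBall (b : ℝ) (ρ b / 2)) := by
        refine ENNReal.tsum_le_tsum fun b => ?_
        rw [measure_preimage_add_right, Real.volume_closedBall, ← ENNReal.ofReal_mul hκ,
          show 2 * (ρ b / 2) = ρ b by ring]
        exact h3 b (hu b.2).1
    _ = ENNReal.ofReal κ * volume (⋃ b ∈ u, Metric.closedBall b (ρ b / 2)) := by
        rw [ENNReal.tsum_mul_left, measure_biUnion cu hd fun _ _ => measurableSet_closedBall]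
    _ ≤ _ := mul_le_mul_right (measure_mono c2) _

theorem per3 (F : Set ℝ) (hF : ∀ (y : ℝ) (q : ℤ), y + q ∈ F ↔ y ∈ F) :
    volume (F ∩ Ico (-1) 2) ≤ 3 * volume (F ∩ Ico 0 1) := by
  have c : F ∩ Ico (-1) 2 ⊆ ((fun y : ℝ => y + 1) ⁻¹' (F ∩ Ico 0 1) ∪ (F ∩ Ico 0 1)) ∪
      (fun y : ℝ => y + -1) ⁻¹' (F ∩ Ico 0 1) := by
    rintro y ⟨h1, h2, h3⟩
    by_cases a : y < 0
    · refine Or.inl (Or.inl ⟨?_, by show 0 ≤ y + 1; linarith, by show y + 1 < 1; linarith⟩)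
      have := (hF y 1).2 h1
      simpa using this
    · by_cases b : y < 1
      · exact Or.inl (Or.inr ⟨h1, not_lt.1 a, b⟩)
      · refine Or.inr ⟨?_, by show 0 ≤ y + -1; linarith, by show y + -1 < 1; linarith⟩
        have := (hF y (-1)).2 h1
        simpa using this
  refine (measure_mono c).trans ((measure_union_le _ _).trans ?_)
  refine (add_le_add_left (measure_union_le _ _) _).trans ?_
  rw [measure_preimage_add_right, measure_preimage_add_right]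
  exact le_of_eq (by ring)

theorem mu_eq (S : Set (ℝ × ℝ)) (hS : MeasurableSet S) :
    mu S = ∫⁻ x in Ico (0 : ℝ) 1, volume (Prod.mk x ⁻¹' S ∩ Ico 0 1) := by
  unfold mu
  rw [Measure.volume_eq_prod, ← Measure.prod_restrict, Measure.prod_apply hS]
  refine lintegral_congr fun x => ?_
  rw [Measure.restrict_apply (measurable_prodMk_left hS)]

theorem fub (S F : Set (ℝ × ℝ)) (κ : ℝ) (hκ : 0 ≤ κ) (hS : MeasurableSet S) (hF : MeasurableSet F)
    (pF : Per (· ∈ F))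
    (h : ∀ z ∈ S, ∃ ρ : ℝ, 0 < ρ ∧ ρ ≤ 1 ∧ (∀ t : ℝ, |t| < ρ → (z.1, z.2 + t) ∈ F) ∧
      volume {t : ℝ | |t| ≤ 5 * ρ ∧ (z.1, z.2 + t) ∈ S} ≤ ENNReal.ofReal (κ * ρ)) :
    mu S ≤ ENNReal.ofReal κ * 3 * mu F := by
  rw [mu_eq S hS, mu_eq F hF, ← lintegral_const_mul' _ _ (by finiteness)]
  refine lintegral_mono fun x => ?_
  refine (vit (Prod.mk x ⁻¹' S) (Prod.mk x ⁻¹' F) κ hκ fun b hb => h (x, b) hb).trans ?_
  rw [mul_assoc]
  refine mul_le_mul_right (per3 _ fun y q => ?_) _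
  have := pF (x, y) 0 q
  simp only [Int.cast_zero, add_zero] at this
  exact Iff.of_eq this

theorem fw_le (h1 : S_rm1) (hm : S_meas) (hi : S_inv) (k ω : ℝ) (hω : 10 ^ 6 ≤ ω) (J I : ℕ) :
    mu (FW k ω J I) ≤ mu {z : ℝ × ℝ | PR ω J I (wd k z.swap)} := by
  obtain ⟨m1, m2⟩ := (hm k 1 ω J I).2.2.2.2.2.2.1
  rw [← hi.2.2.1 k (J - 1) _ m1 m2]
  refine measure_mono fun z hz => ?_
  have hz' : PF ω J I (wd k z) (wd k (lf k z)) := hz
  have := h1 ω J I _ _ (wd k (lf k ((Tm k)^[J] z))) hω hz' (wd_lf_zero k z).symm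
    (fun l hl => wd_lf_iter k z J l hl) fun l _ => wd_lf_iter_add k z J l
  obtain ⟨J', rfl⟩ : ∃ J', J = J' + 1 := ⟨J - 1, by have := hz'.j1; omega⟩
  rw [lf_iter_succ] at this
  exact this

theorem sum_pr (h2 : S_rm2) (hm : S_meas) (hi : S_inv) (k ω : ℝ) (hω : 10 ^ 6 ≤ ω) (M : ℕ) :
    ∑ p ∈ Pairs M 12, mu {z : ℝ × ℝ | PR ω p.1 p.2 (wd k z.swap)} ≤ 1000 := by
  have m := fun p : ℕ × ℕ => (hm k 1 ω p.1 p.2).2.2.2.2.2.2.1.1
  have := hi.1
  calc ∑ p ∈ Pairs M 12, mu {z : ℝ × ℝ | PR ω p.1 p.2 (wd k z.swap)}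
      = ∑ p ∈ Pairs M 12, ∫⁻ z, indicator {z : ℝ × ℝ | PR ω p.1 p.2 (wd k z.swap)} 1 z ∂mu :=
        Finset.sum_congr rfl fun p _ => (lintegral_indicator_one (m p)).symm
    _ = ∫⁻ z, ∑ p ∈ Pairs M 12, indicator {z : ℝ × ℝ | PR ω p.1 p.2 (wd k z.swap)} 1 z ∂mu :=
        (lintegral_finset_sum _ fun p _ => measurable_one.indicator (m p)).symm
    _ ≤ ∫⁻ _, 1000 ∂mu := by
        refine lintegral_mono fun z => ?_
        have e : ∑ p ∈ Pairs M 12, indicator {z : ℝ × ℝ | PR ω p.1 p.2 (wd k z.swap)}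
            (1 : ℝ × ℝ → ℝ≥0∞) z =
            (((Pairs M 12).filter fun p => PR ω p.1 p.2 (wd k z.swap)).card : ℝ≥0∞) := by
          rw [Finset.card_filter]
          push_cast
          refine Finset.sum_congr rfl fun p _ => ?_
          by_cases hp : PR ω p.1 p.2 (wd k z.swap) <;> simp [indicator, hp]
        show _ ≤ (1000 : ℝ≥0∞)
        rw [e]
        exact_mod_cast h2 ω M _ hω
    _ = 1000 := by simp

theorem sum_shift (f : ℕ × ℕ → ℝ≥0∞) (M a b : ℕ) (ha : a ≤ 10) (hb : b ≤ 10) :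
    ∑ p ∈ Pairs M 2, f (p.1 + a, p.2 + b) ≤ ∑ p ∈ Pairs (M + 10) 12, f p := by
  rw [← Finset.sum_image (s := Pairs M 2) (g := fun p : ℕ × ℕ => (p.1 + a, p.2 + b)) (f := f)]
  · refine Finset.sum_le_sum_of_subset fun q hq => ?_
    obtain ⟨p, hp, rfl⟩ := Finset.mem_image.1 hq
    simp only [Pairs, Finset.mem_filter, Finset.mem_product, Finset.mem_range] at hp ⊢
    omega
  · intro p _ q _ h
    simp only [Prod.mk.injEq] at h
    exact Prod.ext (by omega) (by omega)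

end Wg

open Wg in
theorem s_wg (hw : S_wl) (h1 : S_rm1) (h2 : S_rm2) (hm : S_meas) (hi : S_inv) : S_wg := by
  intro θ κ θ0 θ1 hκ
  obtain ⟨ω₀, H⟩ := hw θ (κ / 363000) θ0 θ1 (by positivity)
  refine ⟨ω₀, fun k ω B hω M => ?_⟩
  have := hi.1
  set T : Finset (ℕ × ℕ) := Finset.range 11 ×ˢ Finset.range 11 with hT
  have a1 : ∀ p : ℕ × ℕ, mu (EW k θ ω p.1 p.2) ≤ ENNReal.ofReal (κ / 363000) * 3 *
      ∑ q ∈ T, mu {z : ℝ × ℝ | PR ω (p.1 + q.1) (p.2 + q.2) (wd k z.swap)} := by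
    intro p
    refine (fub _ (⋃ q ∈ T, FW k ω (p.1 + q.1) (p.2 + q.2)) (κ / 363000) (by positivity)
      (hm k θ ω p.1 p.2).2.2.2.2.1.1
      (Finset.measurableSet_biUnion _ fun q _ => (hm k θ ω _ _).2.2.2.2.2.1.1) ?_ ?_).trans ?_
    · intro z s t
      simp only [mem_iUnion]
      refine propext (exists_congr fun q => exists_congr fun _ => Iff.of_eq ?_)
      exact (hm k θ ω _ _).2.2.2.2.2.1.2 z s t
    · intro z hz
      obtain ⟨ρ, r0, r1, ⟨a, ha, b, hb, r2⟩, r3⟩ := H k ω B hω p.1 p.2 z hz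
      refine ⟨ρ, r0, r1, fun t ht => mem_iUnion₂.2 ⟨(a, b), ?_, r2 t ht⟩, r3⟩
      simp only [hT, Finset.mem_coe, Finset.mem_product, Finset.mem_range]
      omega
    · exact mul_le_mul_right ((measure_biUnion_finset_le _ _).trans
        (Finset.sum_le_sum fun q _ => fw_le h1 hm hi k ω B.om _ _)) _
  have a2 : ∑ p ∈ Pairs M 2, mu (EW k θ ω p.1 p.2) ≤ ENNReal.ofReal κ := by
    refine (Finset.sum_le_sum fun p _ => a1 p).trans ?_
    rw [← Finset.mul_sum, Finset.sum_comm]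
    have a3 : ∑ q ∈ T, ∑ p ∈ Pairs M 2,
        mu {z : ℝ × ℝ | PR ω (p.1 + q.1) (p.2 + q.2) (wd k z.swap)} ≤ 121 * 1000 := by
      refine (Finset.sum_le_card_nsmul T _ 1000 fun q hq => ?_).trans ?_
      · simp only [hT, Finset.mem_product, Finset.mem_range] at hq
        exact (sum_shift (fun p => mu {z : ℝ × ℝ | PR ω p.1 p.2 (wd k z.swap)}) M q.1 q.2
          (by omega) (by omega)).trans (sum_pr h2 hm hi k ω B.om _)
      · simp [hT]
    refine (mul_le_mul_right a3 _).trans (le_of_eq ?_)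
    rw [show κ = κ / 363000 * 363000 by ring, ENNReal.ofReal_mul (by positivity),
      show κ / 363000 * 363000 / 363000 = κ / 363000 by ring, ENNReal.ofReal_ofNat, mul_assoc]
    norm_num
  have a4 : ∑ p ∈ Pairs M 2, mu.real (EW k θ ω p.1 p.2) =
      (∑ p ∈ Pairs M 2, mu (EW k θ ω p.1 p.2)).toReal := by
    rw [ENNReal.toReal_sum fun p _ => measure_ne_top _ _]
    rfl
  rw [a4]
  exact ENNReal.toReal_le_of_le_ofReal hκ.le a2

end Vale.Agent.P108
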