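import Vale.Agent.P108.Wl02

/-! P108: the local estimate, ordered form. -/

namespace Vale.Agent.P108

open MeasureTheory Real Set

namespace Wl0

variable {k θ ω : ℝ}

namespace Dat
variable {j j' a b : ℕ} {z : ℝ × ℝ} {r : ℝ} {p p' : Fin 5 → ℝ} {α β α' β' : ℝ}
  (H : Dat k θ ω j j' a b z r p p' α β α' β')
include H

/-- the matching equation multiplied by `2 π k` -/
theorem hC (hprof : S_prof) {s : ℝ} (hs : |s| ≤ 5) (hE : pt k z (j + a) s ∈ EW k θ ω j j') :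
    θ ≤ |cos (2 * π * X k z.1 (pt k z (j + a) s).2 (j + a))| ∧
    θ ≤ |cos (2 * π * X k (lf k z).1 (pt k (lf k z) (j' + b) (r * s)).2 (j' + b))| ∧
    |2 * π * k * pol (PP k (j + a) z r p p') s -
      1 / ((D (wd k (pt k z (j + a) s)) (j + a) / D (wd k z) (j + a)) ^ 2 *
        (cos (2 * π * X k z.1 (pt k z (j + a) s).2 (j + a)) + ee k (wd k (pt k z (j + a) s)) (j + a))) -
      2 * π * k * D (wd k z) (j + a) ^ 2 / (D (wd k (pt k (lf k z) (j' + b) (r * s))) (j' + b) *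
        D (wd k (pt k (lf k z) (j' + b) (r * s))) (j' + b + 1))| * r ^ 2 * ω ^ 15000 ≤ 1 ∧
    2 * π * k * D (wd k z) (j + a) ^ 2 / (D (wd k (pt k (lf k z) (j' + b) (r * s))) (j' + b) *
        D (wd k (pt k (lf k z) (j' + b) (r * s))) (j' + b + 1)) =
      1 / ((r * (D (wd k (pt k (lf k z) (j' + b) (r * s))) (j' + b) / D (wd k (lf k z)) (j' + b))) ^ 2 *
        (cos (2 * π * X k (lf k z).1 (pt k (lf k z) (j' + b) (r * s)).2 (j' + b)) +
          ee k (wd k (pt k (lf k z) (j' + b) (r * s))) (j' + b))) := by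
  obtain ⟨n0, n1, n0', n1', h, -⟩ := H.hB hprof hs hE
  have hE' : PE ω (Cl k θ) j j' (wd k (pt k z (j + a) s)) (wd k (lf k (pt k z (j + a) s))) := hE
  have c1 := hE'.c a (by have := H.ha; omega)
  have c2 := hE'.c' b (by have := H.hb; omega)
  rw [H.lf_pt] at c2
  have r1 := recip' H.B (pt k z (j + a) s) (by have := H.j1; omega : 1 ≤ j + a) H.f0 n0 n1
  have r2 := recip' H.B (pt k (lf k z) (j' + b) (r * s)) (by have := H.j1'; omega : 1 ≤ j' + b)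
    H.f0 n0' n1'
  refine ⟨(H.B.cl_iff _).1 c1, (H.B.cl_iff _).1 c2, ?_, ?_⟩
  · have e1 : (pt k z (j + a) s).1 = z.1 := rfl
    rw [e1] at r1
    rw [← r1]
    have hK : 0 < 2 * π * k := by have := H.B.k0; positivity
    have hK' := H.B.lam_le.2
    generalize 2 * π * k = K at *
    rw [mul_div_assoc, mul_div_assoc, ← mul_sub, ← mul_sub, abs_mul, abs_of_pos hK]
    rw [show 25000 = 10000 + 15000 by norm_num, pow_add] at h
    have h0 := pw_pos H.B.om 15000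
    generalize ω ^ 15000 = A at *
    generalize ω ^ 10000 = L at *
    refine le_trans ?_ h
    set x := |pol (PP k (j + a) z r p p') s - _ - _|
    have : 0 ≤ x := abs_nonneg _
    calc K * x * r ^ 2 * A ≤ L * x * r ^ 2 * A := by gcongr
      _ = _ := by ring
  · rw [r2]
    have e1 : (pt k (lf k z) (j' + b) (r * s)).1 = (lf k z).1 := rfl
    have e2 : (r * (D (wd k (pt k (lf k z) (j' + b) (r * s))) (j' + b) /
        D (wd k (lf k z)) (j' + b))) ^ 2 =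
        (D (wd k (pt k (lf k z) (j' + b) (r * s))) (j' + b) / D (wd k z) (j + a)) ^ 2 := by
      rw [H.hr]; have := H.rne; have := H.f0; field_simp
    rw [e1, e2]

theorem ee_small {δ s : ℝ} (hs : |s| ≤ 5) (hδ : 1 ≤ δ * ω) :
    |ee k (wd k (pt k z (j + a) s)) (j + a)| ≤ δ := by
  have hω := H.B.om
  have h := ee_le H.B (H.ex s hs) H.f1
  have hK : 0 < 2 * π * k := by have := H.B.k0; positivity
  have hK' := H.B.lam_le.1
  have h1 : |ee k (wd k (pt k z (j + a) s)) (j + a) - 2 / (2 * π * k)| ≤ 2 / (2 * π * k) :=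
    le_trans (le_mul_of_one_le_right (abs_nonneg _) (one_le_pw hω 9000)) h
  have h2 : |ee k (wd k (pt k z (j + a) s)) (j + a)| ≤ 4 / (2 * π * k) := by
    have h3 := abs_sub_abs_le_abs_sub (ee k (wd k (pt k z (j + a) s)) (j + a)) (2 / (2 * π * k))
    rw [abs_of_pos (show 0 < 2 / (2 * π * k) by positivity)] at h3
    have : 4 / (2 * π * k) = 2 / (2 * π * k) + 2 / (2 * π * k) := by ring
    linarith
  refine le_d hω (n := 10000) (C := 8) (abs_nonneg _) ?_ (by norm_num) (by norm_num) hδ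
  rw [le_div_iff₀ hK] at h2
  have h0 := abs_nonneg (ee k (wd k (pt k z (j + a) s)) (j + a))
  generalize ω ^ 10000 = L at *
  nlinarith

theorem c2a (hprof : S_prof) {κ δ₁ : ℝ} (θ0 : 0 < θ) (δ₁0 : 0 < δ₁) (w2 : 1 ≤ δ₁ / 2 * ω)
    (hβ : |β| * ω ^ 9000 ≤ 1) (hr0 : |r| ≤ θ / 1000) (d3 : |r| ≤ δ₁ * θ ^ 6 / 10 ^ 25)
    (h1 : ∀ (p : Fin 5 → ℝ) (y₀ : ℝ) (A : Set ℝ), A ⊆ Icc (-5) 5 →
      (∀ s ∈ A, ∃ u y e : ℝ, |u - 1| ≤ δ₁ ∧ |y - y₀ - s| ≤ δ₁ ∧ |e| ≤ δ₁ ∧ θ ≤ |cos (2 * π * y)| ∧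
      |pol p s - 1 / (u ^ 2 * (cos (2 * π * y) + e))| ≤ δ₁) → volume A ≤ ENNReal.ofReal κ)
    {p'' : Fin 5 → ℝ} (hp'' : ∀ s : ℝ, |s| ≤ θ / 200 →
      |2 * π * k * D (wd k (lf k z)) (j' + b) ^ 2 / (D (wd k (pt k (lf k z) (j' + b) s)) (j' + b) *
        D (wd k (pt k (lf k z) (j' + b) s)) (j' + b + 1)) - pol p'' s| ≤ 10 ^ 20 / θ ^ 6 * |s| ^ 5) :
    volume {s | s ∈ Icc (-5 : ℝ) 5 ∧ pt k z (j + a) s ∈ EW k θ ω j j'} ≤ ENNReal.ofReal κ := by
  have hω := H.B.om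
  have B := H.B
  have ex := H.ex
  have ex' := H.ex'
  have f1 := H.f1
  have f1' := H.f1'
  have hK : 0 < 2 * π * k := by have := B.k0; positivity
  have hK' := B.lam_le.2
  set f := D (wd k z) (j + a) with hf
  set P := PP k (j + a) z r p p' with hP
  have w2' : 1 ≤ δ₁ * ω := by nlinarith
  refine h1 (sc P (2 * π * k) 1 + sc p'' (-(1 / r ^ 2)) r) (X k z.1 z.2 (j + a)) _
    (fun s hs => hs.1) fun s hs => ?_
  have hs5 : |s| ≤ 5 := abs_le.2 hs.1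
  obtain ⟨c1, -, c3, -⟩ := H.hC hprof hs5 hs.2
  have e := ex s hs5
  refine ⟨_, _, _, le_of_mul_le_mul_right (e.u1.trans w2') (by linarith), ?_,
    H.ee_small hs5 w2', c1, ?_⟩
  · have b1 := le_d hω (abs_nonneg _) e.e3 (by norm_num) (by norm_num) w2
    have b2 : |β * s ^ 2| * ω ^ 9000 ≤ 25 := by
      have : s ^ 2 ≤ 25 := by rw [← sq_abs]; nlinarith [abs_nonneg s]
      rw [abs_mul, abs_of_nonneg (sq_nonneg s), mul_right_comm]
      exact (mul_le_mul hβ this (sq_nonneg s) zero_le_one).trans (by norm_num)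
    have b3 := le_d hω (abs_nonneg _) b2 (by norm_num) (by norm_num) w2
    have b4 := abs_add_le (X k z.1 (pt k z (j + a) s).2 (j + a) -
      (X k z.1 z.2 (j + a) + s + β * s ^ 2)) (β * s ^ 2)
    rw [show X k z.1 (pt k z (j + a) s).2 (j + a) - (X k z.1 z.2 (j + a) + s + β * s ^ 2) +
      β * s ^ 2 = X k z.1 (pt k z (j + a) s).2 (j + a) - X k z.1 z.2 (j + a) - s by ring] at b4
    linarith
  · have hrs : |r * s| ≤ θ / 1000 * 5 := by rw [abs_mul]; gcongr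
    have b1 := hp'' (r * s) (hrs.trans (le_of_eq (by ring)))
    rw [H.hr] at b1
    rw [pol_add, pol_sc, pol_sc, one_mul]
    have hr2 : 0 < r ^ 2 := by have := H.rne; positivity
    set x' := D (wd k (pt k (lf k z) (j' + b) (r * s))) (j' + b) *
      D (wd k (pt k (lf k z) (j' + b) (r * s))) (j' + b + 1)
    set Y := 1 / ((D (wd k (pt k z (j + a) s)) (j + a) / f) ^ 2 *
      (cos (2 * π * X k z.1 (pt k z (j + a) s).2 (j + a)) + ee k (wd k (pt k z (j + a) s)) (j + a)))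
    generalize 2 * π * k = K at *
    have b2 : |K * pol P s - Y - K * f ^ 2 / x'| * ω ^ 5000 ≤ 1 := by
      refine le_trans ?_ c3
      rw [show 15000 = 10000 + 5000 by norm_num, pow_add, ← mul_assoc, mul_assoc _ (r ^ 2)]
      exact mul_le_mul_of_nonneg_right (le_mul_of_one_le_right (abs_nonneg _) H.r2)
        (pw_pos hω _).le
    have b3 := le_d hω (abs_nonneg _) b2 (by norm_num) (by norm_num) w2
    have b4 : |(K * (-r * f) ^ 2 / x' - pol p'' (r * s)) / r ^ 2| ≤ δ₁ / 2 := by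
      rw [abs_div, abs_of_pos hr2, div_le_iff₀ hr2]
      refine b1.trans ?_
      have d1 : |s| ^ 5 ≤ 3125 := le_trans (pow_le_pow_left₀ (abs_nonneg s) hs5 5) (by norm_num)
      have d2 : |r| ^ 2 ≤ 1 := pow_le_one₀ (abs_nonneg r) H.r1
      calc 10 ^ 20 / θ ^ 6 * |r * s| ^ 5
          = 10 ^ 20 / θ ^ 6 * (|s| ^ 5 * |r| ^ 2 * |r|) * r ^ 2 := by
            rw [abs_mul, ← sq_abs r]; ring
        _ ≤ 10 ^ 20 / θ ^ 6 * (3125 * 1 * (δ₁ * θ ^ 6 / 10 ^ 25)) * r ^ 2 := by gcongr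
        _ = 3125 / 10 ^ 5 * δ₁ * r ^ 2 := by field_simp
        _ ≤ δ₁ / 2 * r ^ 2 := by gcongr; linarith
    have b5 := abs_add_le (K * pol P s - Y - K * f ^ 2 / x')
      ((K * (-r * f) ^ 2 / x' - pol p'' (r * s)) / r ^ 2)
    have e1 : K * pol P s - Y - K * f ^ 2 / x' + (K * (-r * f) ^ 2 / x' - pol p'' (r * s)) / r ^ 2
        = K * pol P s + -(1 / r ^ 2) * pol p'' (r * s) - Y := by
      have := H.rne
      field_simp; ring
    rw [e1] at b5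
    linarith

theorem c2b (hprof : S_prof) {κ δ₂ r₁ : ℝ} (δ₂0 : 0 < δ₂) (r₁0 : 0 < r₁)
    (w3 : 1 ≤ δ₂ * r₁ ^ 2 * ω) (w3' : 1 ≤ δ₂ * ω) (hα : |α| * ω ^ 9000 ≤ 1) (hβ : |β| * ω ^ 9000 ≤ 1)
    (hα' : |α'| * ω ^ 9000 ≤ 1) (hβ' : |β'| * ω ^ 9000 ≤ 1) (hr1 : r₁ ≤ |r|)
    (h2 : ∀ (e ϱ : ℝ) (p : Fin 5 → ℝ) (y₀ y₀' α β α' β' : ℝ) (A : Set ℝ), 0 < e → e ≤ δ₂ →
      r₁ ≤ |ϱ| → |ϱ| ≤ 1 → |α| ≤ δ₂ → |β| ≤ δ₂ → |α'| ≤ δ₂ → |β'| ≤ δ₂ → A ⊆ Icc (-5) 5 →
      (∀ s ∈ A, ∃ u u' y y' e₁ e₂ : ℝ, |u - 1 - α * s| ≤ δ₂ * e ∧ |u' - ϱ - α' * s| ≤ δ₂ * e ∧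
        |y - (y₀ + s + β * s ^ 2)| ≤ δ₂ * e ∧ |y' - (y₀' + ϱ * s + β' * s ^ 2)| ≤ δ₂ * e ∧
        |e₁ - e| ≤ δ₂ * e ∧ |e₂ - e| ≤ δ₂ * e ∧ θ ≤ |cos (2 * π * y)| ∧ θ ≤ |cos (2 * π * y')| ∧
        |pol p s - 1 / (u ^ 2 * (cos (2 * π * y) + e₁)) - 1 / (u' ^ 2 * (cos (2 * π * y') + e₂))|
          ≤ δ₂ * e) → volume A ≤ ENNReal.ofReal κ) :
    volume {s | s ∈ Icc (-5 : ℝ) 5 ∧ pt k z (j + a) s ∈ EW k θ ω j j'} ≤ ENNReal.ofReal κ := by
  have hω := H.B.om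
  have B := H.B
  have ex := H.ex
  have ex' := H.ex'
  have f1 := H.f1
  have f1' := H.f1'
  have hK : 0 < 2 * π * k := by have := B.k0; positivity
  have hK' := B.lam_le.2
  set f := D (wd k z) (j + a) with hf
  set P := PP k (j + a) z r p p' with hP
  have he : 2 / (2 * π * k) ≤ δ₂ := by
    refine le_d hω (n := 10000) (C := 4) (by positivity) ?_ (by norm_num) (by norm_num) w3'
    have := B.lam_le.1
    rw [div_mul_eq_mul_div, div_le_iff₀ hK]; linarith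
  have sq1 : ∀ x : ℝ, |x| * ω ^ 9000 ≤ 1 → |x| ≤ δ₂ ∧ |x * r ^ 2| ≤ δ₂ := fun x hx => by
    have b1 := le_d hω (abs_nonneg _) hx (by norm_num) (by norm_num) w3'
    refine ⟨b1, ?_⟩
    rw [abs_mul, abs_of_nonneg (sq_nonneg r)]
    exact (mul_le_of_le_one_right (abs_nonneg _) H.r2').trans b1
  refine h2 (2 / (2 * π * k)) r (sc P (2 * π * k) 1) (X k z.1 z.2 (j + a))
    (X k (lf k z).1 (lf k z).2 (j' + b)) α β (α' * r ^ 2) (β' * r ^ 2) _ (by positivity) he hr1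
    H.r1 (sq1 _ hα).1 (sq1 _ hβ).1 (sq1 _ hα').2 (sq1 _ hβ').2 (fun s hs => hs.1) fun s hs => ?_
  have hs5 : |s| ≤ 5 := abs_le.2 hs.1
  obtain ⟨c1, c2, c3, c4⟩ := H.hC hprof hs5 hs.2
  have e := ex s hs5
  have e' := ex' _ (H.rs hs5)
  have eb : ∀ x : ℝ, 0 ≤ x → x * ω ^ 9000 ≤ 2 / (2 * π * k) → x ≤ δ₂ * (2 / (2 * π * k)) := by
    intro x hx h
    have b1 : x * ω ≤ x * ω ^ 9000 := by
      have := pw_le hω (show 1 ≤ 9000 by norm_num)
      rw [pow_one] at this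
      exact mul_le_mul_of_nonneg_left this hx
    have b2 : 2 / (2 * π * k) ≤ δ₂ * ω * (2 / (2 * π * k)) :=
      le_mul_of_one_le_left (by positivity) w3'
    refine le_of_mul_le_mul_right (a := ω) ?_ (by linarith)
    rw [mul_right_comm]; linarith
  rw [c4] at c3
  refine ⟨_, r * (D (wd k (pt k (lf k z) (j' + b) (r * s))) (j' + b) / D (wd k (lf k z)) (j' + b)),
    _, _, _, _, le_de hω (abs_nonneg _) e.e2 (by norm_num) (by norm_num) w3' hK hK',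
    ?_, le_de hω (abs_nonneg _) e.e3 (by norm_num) (by norm_num) w3' hK hK', ?_,
    eb _ (abs_nonneg _) (ee_le B e f1), eb _ (abs_nonneg _) (ee_le B e' f1'), c1, c2, ?_⟩
  rotate_left 2
  · rw [pol_sc, one_mul]
    have b1 := le_de hω (by positivity) c3 (by norm_num) (by norm_num) w3 hK hK'
    have b2 : r₁ ^ 2 ≤ r ^ 2 := by rw [← sq_abs r]; gcongr
    have b3 : δ₂ * r₁ ^ 2 * (2 / (2 * π * k)) ≤ δ₂ * (2 / (2 * π * k)) * r ^ 2 := by
      rw [mul_right_comm]; gcongr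
    exact le_of_mul_le_mul_right (b1.trans b3) (by have := H.rne; positivity)
  · have b1 := le_de hω (abs_nonneg _) e'.e2 (by norm_num) (by norm_num) w3' hK hK'
    refine le_trans ?_ ((mul_le_of_le_one_left (abs_nonneg _) H.r1).trans b1)
    rw [← abs_mul]
    exact le_of_eq (by congr 1; ring)
  · have b1 := le_de hω (abs_nonneg _) e'.e3 (by norm_num) (by norm_num) w3' hK hK'
    exact le_trans (le_of_eq (by congr 1; ring)) b1

end Dat

end Wl0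

open Wl0 in
theorem s_wl0 (hpa : S_pa) (hpt : S_pt) (hprof : S_prof) (hrem : S_remez) (h1 : S_wm1)
    (h2 : S_wm2) : S_wl0 := by
  intro θ κ θ0 θ1 κ0
  obtain ⟨δr, δr0, hrem⟩ := hrem κ κ0
  obtain ⟨δ₁, δ₁0, h1⟩ := h1 θ κ θ0 θ1 κ0
  set r₁ := min (θ / 1000) (δ₁ * θ ^ 6 / 10 ^ 25) with hr₁
  have r₁0 : 0 < r₁ := lt_min (by positivity) (by positivity)
  have r₁1 : r₁ ≤ 1 := (min_le_left _ _).trans (by linarith)
  obtain ⟨δ₂, δ₂0, h2⟩ := h2 θ κ r₁ θ0 θ1 κ0 r₁0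
  refine ⟨1 / δr + 2 / δ₁ + 1 / (δ₂ * r₁ ^ 2), fun k ω B hω₀ j j' a b z hz ha hb hle hge => ?_⟩
  have hω := B.om
  have q1 : 0 < 1 / δr := by positivity
  have q2 : 0 < 2 / δ₁ := by positivity
  have q3 : 0 < 1 / (δ₂ * r₁ ^ 2) := by positivity
  have w1 : 1 ≤ δr * ω := by rw [mul_comm, ← div_le_iff₀ δr0]; linarith
  have w2 : 1 ≤ δ₁ / 2 * ω := by
    have : 2 ≤ ω * δ₁ := by rw [← div_le_iff₀ δ₁0]; linarith
    linarith
  have w2' : 1 ≤ δ₁ * ω := by nlinarith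
  have w3 : 1 ≤ δ₂ * r₁ ^ 2 * ω := by rw [mul_comm, ← div_le_iff₀ (by positivity)]; linarith
  have w3' : 1 ≤ δ₂ * ω := by
    have : r₁ ^ 2 ≤ 1 := pow_le_one₀ r₁0.le r₁1
    calc 1 ≤ δ₂ * r₁ ^ 2 * ω := w3
      _ ≤ δ₂ * 1 * ω := by gcongr
      _ = _ := by ring
  have hz' : PE ω (Cl k θ) j j' (wd k z) (wd k (lf k z)) := hz
  obtain ⟨p1, f1, -⟩ := grow hprof B (B.bd _) hz'.j1 hz'.pr hz'.c ha
  obtain ⟨p1', f1', -⟩ := grow hprof B (B.bd _) hz'.j1' hz'.pr' hz'.c' hb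
  have hJ : 1 ≤ j + a := by have := hz'.j1; omega
  have hI : 1 ≤ j' + b := by have := hz'.j1'; omega
  obtain ⟨p, α, β, hα, hβ, ex⟩ := exists_ex hpa B z hJ p1 f1
  obtain ⟨p', α', β', hα', hβ', ex'⟩ := exists_ex hpa B (lf k z) hI p1' f1'
  have f0 : 0 < |D (wd k z) (j + a)| := by linarith
  have fne : D (wd k z) (j + a) ≠ 0 := abs_pos.1 f0
  obtain ⟨r, hr⟩ : ∃ r, r = -D (wd k (lf k z)) (j' + b) / D (wd k z) (j + a) := ⟨_, rfl⟩
  have hr' : |r| = |D (wd k (lf k z)) (j' + b)| / |D (wd k z) (j + a)| := by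
    rw [hr, abs_div, abs_neg]
  have H : Dat k θ ω j j' a b z r p p' α β α' β' :=
    ⟨B, ha, hb, hz'.j1, hz'.j1', f1, f1', by rw [hr]; field_simp,
      by rw [hr', div_le_one f0]; exact hle,
      by rw [hr', div_mul_eq_mul_div, le_div_iff₀ f0]; linarith, ex, ex'⟩
  have hpt0 : ∀ h : ℝ, pt k z (j + a) (h * D (wd k z) (j + a)) = (z.1, z.2 + h) := fun h => by
    unfold pt; rw [mul_div_cancel_right₀ _ fne]
  set f := D (wd k z) (j + a) with hf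
  set P := PP k (j + a) z r p p' with hP
  have hK : 0 < 2 * π * k := by have := B.k0; positivity
  have hK' := B.lam_le.2
  by_cases hc : ∃ s, |s| ≤ 1 ∧ ω ^ 20000 ≤ |pol P s|
  · have hcl : IsCompact {s | |s| ≤ 1 ∧ ω ^ 20000 ≤ |pol P s|} := by
      refine (isCompact_Icc (a := (-1 : ℝ)) (b := 1)).of_isClosed_subset ?_
        fun s hs => abs_le.1 hs.1
      exact (isClosed_le continuous_abs continuous_const).inter
        (isClosed_le continuous_const (cont_pol P).abs)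
    obtain ⟨s₁, ⟨hs1, hs2⟩, hmin⟩ := hcl.exists_isMinOn hc continuous_abs.continuousOn
    have w4 : ω ^ 2 ≤ δr * ω ^ 20000 := by
      have e1 := pw_le hω (show 3 ≤ 20000 by norm_num)
      have e2 := pw_pos hω 2
      calc ω ^ 2 = 1 * ω ^ 2 := by ring
        _ ≤ δr * ω * ω ^ 2 := by gcongr
        _ = δr * ω ^ 3 := by ring
        _ ≤ _ := by gcongr
    have hl0 : 0 < |s₁| := by
      refine abs_pos.2 fun h0 => ?_
      have e0 : pt k z (j + a) 0 = z := by simp [pt]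
      have e1 := (H.hB hprof (s := 0) (by simp) (by rw [e0]; exact hz)).2.2.2.2.2
      rw [h0] at hs2
      have e2 := pw_lt hω (show 2 < 20000 by norm_num)
      have e3 := pw_pos hω 2
      linarith
    refine ⟨|s₁| / |f|, by positivity, by rw [div_le_one f0]; linarith, fun h hh => ?_, ?_⟩
    · rw [lt_div_iff₀ f0, ← abs_mul] at hh
      rw [← hpt0]
      refine H.hA (by linarith) (le_of_not_ge fun h3 => ?_)
      have := hmin (show h * f ∈ {s | |s| ≤ 1 ∧ ω ^ 20000 ≤ |pol P s|} from ⟨by linarith, h3⟩)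
      exact absurd hh (not_lt.2 this)
    · have hne : s₁ / f ≠ 0 := div_ne_zero (abs_pos.1 hl0) fne
      have e1 : pol (sc P 1 s₁) 1 = pol P s₁ := by rw [pol_sc, mul_one, one_mul]
      have h3 := hrem (sc P 1 s₁) 1 (by simp) (by
        rw [e1]; exact abs_pos.1 (lt_of_lt_of_le (pw_pos hω _) hs2))
      rw [← abs_div]
      refine scale _ _ hne h3 fun h hh => ?_
      have e2 : |h / (s₁ / f)| ≤ 5 := by
        rw [abs_div, div_le_iff₀ (abs_pos.2 hne)]; exact hh.1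
      have e3 : s₁ * (h / (s₁ / f)) = h * f := by
        have := abs_pos.1 hl0
        field_simp
      refine ⟨abs_le.1 e2, ?_⟩
      rw [e1, pol_sc, one_mul, e3]
      have e4 : |h * f| ≤ 5 := by
        rw [← e3, abs_mul]; nlinarith [abs_nonneg (h / (s₁ / f))]
      have e5 := (H.hB hprof e4 (by rw [hpt0]; exact hh.2)).2.2.2.2.2
      calc _ ≤ ω ^ 2 := e5
        _ ≤ δr * ω ^ 20000 := w4
        _ ≤ _ := mul_le_mul_of_nonneg_left hs2 δr0.le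
  push Not at hc
  refine ⟨1 / |f|, by positivity, by rw [div_le_one f0]; linarith, fun h hh => ?_, ?_⟩
  · rw [lt_div_iff₀ f0, ← abs_mul] at hh
    rw [← hpt0]
    exact H.hA (by linarith) (hc _ hh.le).le
  have hne : 1 / f ≠ 0 := one_div_ne_zero fne
  have hA : volume {s | s ∈ Icc (-5 : ℝ) 5 ∧ pt k z (j + a) s ∈ EW k θ ω j j'}
      ≤ ENNReal.ofReal κ := by
    rcases le_total |r| r₁ with hr1 | hr1
    · obtain ⟨p'', hp''⟩ := hpt k θ ω (lf k z) (j' + b) B hI p1' (hz'.c' b (by omega))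
      exact H.c2a hprof θ0 δ₁0 w2 hβ (hr1.trans (min_le_left _ _)) (hr1.trans (min_le_right _ _))
        h1 hp''
    · exact H.c2b hprof δ₂0 r₁0 w3 w3' hα hβ hα' hβ' hr1 h2
  have e1 : 1 / |f| = |1 / f| := by rw [abs_div, abs_one]
  rw [e1]
  refine scale _ _ hne hA fun h hh => ?_
  have e2 : |h / (1 / f)| ≤ 5 := by rw [abs_div, div_le_iff₀ (abs_pos.2 hne)]; exact hh.1
  refine ⟨abs_le.1 e2, ?_⟩
  rw [div_div_eq_mul_div, div_one, hpt0]; exact hh.2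

end Vale.Agent.P108
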