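import Vale.Agent.P108.Stm

/-! P108: a polynomial is not close to `1 / cos` on a large set. -/

namespace Vale.Agent.P108

open MeasureTheory Filter Real Set Topology

namespace Wm1

theorem pol_zero (p : Fin 5 → ℝ) (y : ℝ) (h : ∀ k : ℕ, pol p (k - y) = 0) : p = 0 := by
  have h0 := h 0
  have h1 := h 1
  have h2 := h 2
  have h3 := h 3
  have h4 := h 4
  simp only [pol] at h0 h1 h2 h3 h4
  push_cast at h0 h1 h2 h3 h4
  have e4 : p 4 = 0 := by linear_combination (h0 - 4 * h1 + 6 * h2 - 4 * h3 + h4) / 24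
  rw [e4] at h0 h1 h2 h3
  have e3 : p 3 = 0 := by linear_combination (-h0 + 3 * h1 - 3 * h2 + h3) / 6
  rw [e3] at h0 h1 h2
  have e2 : p 2 = 0 := by linear_combination (h0 - 2 * h1 + h2) / 2
  rw [e2] at h0 h1
  have e1 : p 1 = 0 := by linear_combination h1 - h0
  rw [e1] at h0
  have e0 : p 0 = 0 := by linear_combination h0
  funext i
  fin_cases i
  exacts [e0, e1, e2, e3, e4]

theorem cos_fract (y s : ℝ) : cos (2 * π * (Int.fract y + s)) = cos (2 * π * (y + s)) := by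
  rw [← cos_add_int_mul_two_pi _ ⌊y⌋, Int.fract]
  congr 1
  ring

theorem w1 (hz : S_z) {κ : ℝ} (hκ : 0 < κ) : ∃ d : ℝ, 0 < d ∧ ∀ (p : Fin 5 → ℝ) (y : ℝ),
    volume {s | s ∈ Icc (-5 : ℝ) 5 ∧ |pol p s * cos (2 * π * (y + s)) - 1| ≤ d}
      ≤ ENNReal.ofReal κ := by
  by_contra hc
  have hc' : ∀ n : ℕ, ∃ (p : Fin 5 → ℝ) (y : ℝ), ENNReal.ofReal κ <
      volume {s | s ∈ Icc (-5 : ℝ) 5 ∧
        |pol p s * cos (2 * π * (y + s)) - 1| ≤ 1 / ((n : ℝ) + 1)} := by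
    intro n
    by_contra h
    exact hc ⟨1 / ((n : ℝ) + 1), by positivity, fun p y => not_lt.1 fun h' => h ⟨p, y, h'⟩⟩
  choose p y hp using hc'
  have hN : ∀ n, 0 < ‖p n‖ + 1 := fun n => by positivity
  obtain ⟨q, hq⟩ : ∃ q : ℕ → (Fin 5 → ℝ) × ℝ × ℝ,
      ∀ n, q n = ((‖p n‖ + 1)⁻¹ • p n, (‖p n‖ + 1)⁻¹, Int.fract (y n)) := ⟨_, fun _ => rfl⟩
  have hi : ∀ n, (‖p n‖ + 1)⁻¹ ≤ 1 := fun n =>
    inv_le_one_of_one_le₀ (by linarith [norm_nonneg (p n)])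
  have hs : ∀ n, ‖(q n).1‖ + (q n).2.1 = 1 := fun n => by
    rw [hq]
    dsimp only
    rw [norm_smul, Real.norm_of_nonneg (inv_pos.2 (hN n)).le]
    field_simp [(hN n).ne']
  have hm : ∀ n, q n ∈ Metric.closedBall (0 : Fin 5 → ℝ) 1 ×ˢ (Icc (0 : ℝ) 1 ×ˢ Icc (0 : ℝ) 1) := by
    intro n
    have h1 := hs n
    have h2 : (q n).2.1 = (‖p n‖ + 1)⁻¹ := by rw [hq]
    have h3 : (q n).2.2 = Int.fract (y n) := by rw [hq]
    refine ⟨mem_closedBall_zero_iff.2 (by linarith [inv_pos.2 (hN n)]),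
      ⟨by rw [h2]; exact (inv_pos.2 (hN n)).le, by rw [h2]; exact hi n⟩, ?_⟩
    rw [h3]
    exact ⟨Int.fract_nonneg _, (Int.fract_lt_one _).le⟩
  obtain ⟨b, -, φ, hφ, hb⟩ :=
    ((isCompact_closedBall _ _).prod (isCompact_Icc.prod isCompact_Icc)).tendsto_subseq hm
  have hb1 : ‖b.1‖ + b.2.1 = 1 := by
    have hcont : Continuous fun x : (Fin 5 → ℝ) × ℝ × ℝ => ‖x.1‖ + x.2.1 := by fun_prop
    refine tendsto_nhds_unique ((hcont.tendsto b).comp hb) ?_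
    simp only [Function.comp_def, hs]
    exact tendsto_const_nhds
  have H := hz (fun s => pol b.1 s * cos (2 * π * (b.2.2 + s)) - b.2.1)
    (fun n s => pol (q (φ n)).1 s * cos (2 * π * ((q (φ n)).2.2 + s)) - (q (φ n)).2.1)
    (fun n => 1 / ((φ n : ℝ) + 1)) κ hκ
    (fun s _ => by unfold pol; fun_prop)
    (fun n => by unfold pol; fun_prop)
    (fun s _ => by
      have hcont : Continuous fun x : (Fin 5 → ℝ) × ℝ × ℝ =>
          pol x.1 s * cos (2 * π * (x.2.2 + s)) - x.2.1 := by unfold pol; fun_prop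
      exact (hcont.tendsto b).comp hb)
    (tendsto_one_div_add_atTop_nhds_zero_nat.comp hφ.tendsto_atTop)
    (fun n => (hp (φ n)).le.trans (measure_mono fun s hs' => ⟨hs'.1, by
      have e : pol (q (φ n)).1 s * cos (2 * π * ((q (φ n)).2.2 + s)) - (q (φ n)).2.1
          = (‖p (φ n)‖ + 1)⁻¹ * (pol (p (φ n)) s * cos (2 * π * (y (φ n) + s)) - 1) := by
        rw [hq]
        simp only [cos_fract, pol, Pi.smul_apply, smul_eq_mul]
        ring
      rw [e, abs_mul, abs_of_pos (inv_pos.2 (hN _))]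
      exact (mul_le_of_le_one_left (abs_nonneg _) (hi _)).trans hs'.2⟩))
  have hw : b.2.1 = 0 := by
    have h := H (1 / 4 - b.2.2)
    have e : 2 * π * (b.2.2 + (1 / 4 - b.2.2)) = π / 2 := by ring
    simp only [e, cos_pi_div_two, mul_zero, zero_sub, neg_eq_zero] at h
    exact h
  have h0 : b.1 = 0 := pol_zero b.1 b.2.2 fun k => by
    have h := H (k - b.2.2)
    have e : 2 * π * (b.2.2 + (k - b.2.2)) = k * (2 * π) := by ring
    simp only [e, cos_nat_mul_two_pi, mul_one, hw, sub_zero] at h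
    exact h
  rw [h0, hw] at hb1
  simp at hb1

theorem key {θ δ P u c c₀ e : ℝ} (h0 : 0 < θ) (h1 : θ ≤ 1) (hδ : δ ≤ θ / 100)
    (hu : |u - 1| ≤ δ) (hc : |c - c₀| ≤ 7 * δ) (he : |e| ≤ δ) (hθ : θ ≤ |c|) (hc1 : |c| ≤ 1)
    (hc0 : |c₀| ≤ 1) (hP : |P - 1 / (u ^ 2 * (c + e))| ≤ δ) :
    |P * c₀ - 1| * θ ≤ 25 * δ := by
  have hδ0 : 0 ≤ δ := (abs_nonneg _).trans hu
  obtain ⟨u1, u2⟩ := abs_le.1 hu
  have hu2 : 9 / 10 ≤ u ^ 2 := by nlinarith
  have hu3 : u ^ 2 ≤ 2 := by nlinarith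
  have hu4 : |u ^ 2 - 1| ≤ 3 * δ := abs_le.2 ⟨by nlinarith, by nlinarith⟩
  have hce : 9 / 10 * θ ≤ |c + e| := by
    have := abs_sub_abs_le_abs_add c e
    linarith
  obtain ⟨Q, hQ⟩ : ∃ Q, Q = u ^ 2 * (c + e) := ⟨_, rfl⟩
  have hQ1 : θ / 2 ≤ |Q| := by
    rw [hQ, abs_mul, abs_of_nonneg (sq_nonneg u)]
    nlinarith
  have hQ0 : 0 < |Q| := by linarith
  have hQ2 : |c₀ - Q| ≤ 12 * δ := by
    have e1 : c₀ - Q = -(c - c₀) + -((u ^ 2 - 1) * c) + -(u ^ 2 * e) := by rw [hQ]; ring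
    have a1 : |(u ^ 2 - 1) * c| ≤ 3 * δ := by
      rw [abs_mul]
      exact (mul_le_of_le_one_right (abs_nonneg _) hc1).trans hu4
    have a2 : |u ^ 2 * e| ≤ 2 * δ := by
      rw [abs_mul, abs_of_nonneg (sq_nonneg u)]
      exact mul_le_mul hu3 he (abs_nonneg _) (by norm_num)
    rw [e1]
    refine (abs_add_three _ _ _).trans ?_
    simp only [abs_neg]
    linarith
  rw [← hQ] at hP
  have e2 : P * c₀ - 1 = (P - 1 / Q) * c₀ + (c₀ - Q) / Q := by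
    field_simp [abs_pos.1 hQ0]
    ring
  have a3 : |(P - 1 / Q) * c₀| ≤ δ := by
    rw [abs_mul]
    exact (mul_le_of_le_one_right (abs_nonneg _) hc0).trans hP
  have a4 : |(c₀ - Q) / Q| * θ ≤ 24 * δ := by
    rw [abs_div, div_mul_eq_mul_div, div_le_iff₀ hQ0]
    nlinarith [abs_nonneg (c₀ - Q)]
  have a5 : |P * c₀ - 1| ≤ δ + |(c₀ - Q) / Q| := by
    rw [e2]
    exact (abs_add_le _ _).trans (by linarith)
  nlinarith [mul_le_mul_of_nonneg_right a5 h0.le]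

end Wm1

open Wm1 in
theorem s_wm1 (hz : S_z) : S_wm1 := by
  intro θ κ h0 h1 hκ
  obtain ⟨d, hd, h⟩ := w1 hz hκ
  refine ⟨min (d * θ / 100) (θ / 100), by positivity, fun p y₀ A hA hs => ?_⟩
  refine le_trans (measure_mono fun s hsA => ?_) (h p y₀)
  refine ⟨hA hsA, ?_⟩
  obtain ⟨u, y, e, hu, hy, he, hθ, hP⟩ := hs s hsA
  have hc : |cos (2 * π * y) - cos (2 * π * (y₀ + s))| ≤ 7 * min (d * θ / 100) (θ / 100) := by
    refine (abs_cos_sub_cos_le _ _).trans ?_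
    have e1 : 2 * π * y - 2 * π * (y₀ + s) = 2 * π * (y - y₀ - s) := by ring
    rw [e1, abs_mul, abs_of_pos (by positivity : 0 < 2 * π)]
    exact mul_le_mul (by linarith [pi_lt_d2]) hy (abs_nonneg _) (by norm_num)
  have hk := key h0 h1 (min_le_right _ _) hu hc he hθ (abs_cos_le_one _) (abs_cos_le_one _) hP
  have h2 := min_le_left (d * θ / 100) (θ / 100)
  refine le_of_mul_le_mul_right (hk.trans ?_) h0
  linarith [mul_pos hd h0]

end Vale.Agent.P108
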