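import Vale.Agent.P108.Stm

/-! P108: the two-pole measure estimate with perturbed data. -/

namespace Vale.Agent.P108

open MeasureTheory Filter Real Set Topology
open scoped Classical

namespace Wm2

theorem cos_near (y z η : ℝ) (h : |y - z| ≤ η) : |cos (2 * π * y) - cos (2 * π * z)| ≤ 8 * η := by
  have h1 := Real.abs_cos_sub_cos_le (2 * π * y) (2 * π * z)
  have h2 : 2 * π * y - 2 * π * z = 2 * π * (y - z) := by ring
  have h3 : |2 * π * (y - z)| = 2 * π * |y - z| := by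
    rw [abs_mul, abs_of_pos (by positivity : (0 : ℝ) < 2 * π)]
  rw [h2, h3] at h1
  have h4 := Real.pi_le_four
  have h5 := Real.pi_pos
  have h6 := abs_nonneg (y - z)
  nlinarith

theorem one (θ ρ δ η r a u c c₀ e e₁ : ℝ) (hθ : 0 < θ) (hθ1 : θ ≤ 1) (hρ : 0 < ρ) (hρ1 : ρ ≤ 1)
    (hδθ : δ ≤ θ / 100) (hδρ : δ ≤ ρ / 100) (hη : η ≤ δ) (hr : ρ ≤ |r|) (hr1 : |r| ≤ 1)
    (ha : |a| ≤ 5 * δ) (hu : |u - (r + a)| ≤ η) (hc : |c - c₀| ≤ 8 * η) (hc1 : |c| ≤ 1)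
    (hc0 : |c₀| ≤ 1) (he : 0 < e) (he1 : e ≤ δ) (hee : |e₁ - e| ≤ η) (hcθ : θ ≤ |c|) :
    θ * ρ ^ 2 / 8 ≤ |u ^ 2 * (c + e₁)| ∧ |(r + a) ^ 2 * (c₀ + e)| ≤ 2 ∧
      |(r + a) ^ 2 * (c₀ + e) - u ^ 2 * (c + e₁)| ≤ 20 * η := by
  have hη0 : 0 ≤ η := le_trans (abs_nonneg _) hu
  have hδ1 : δ ≤ 1 / 100 := by linarith
  have hv : |r + a| ≤ 11 / 10 := by
    have := abs_add_le r a
    linarith
  have hu1 : |u| ≤ 12 / 10 := by
    have := abs_add_le (u - (r + a)) (r + a)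
    rw [sub_add_cancel] at this
    linarith
  have hu2 : ρ / 2 ≤ |u| := by
    have h1 := abs_add_le u (-(u - (r + a)))
    have h2 := abs_add_le (u + -(u - (r + a))) (-a)
    have h3 : u + -(u - (r + a)) + -a = r := by ring
    rw [h3, abs_neg] at h2
    rw [abs_neg] at h1
    linarith
  have he₁ : |e₁| ≤ 2 * δ := by
    have := abs_add_le (e₁ - e) e
    rw [sub_add_cancel, abs_of_pos he] at this
    linarith
  have hce : θ / 2 ≤ |c + e₁| := by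
    have := abs_add_le (c + e₁) (-e₁)
    rw [add_neg_cancel_right, abs_neg] at this
    linarith
  have hce1 : |c + e₁| ≤ 11 / 10 := by
    have := abs_add_le c e₁
    linarith
  have hce0 : |c₀ + e| ≤ 11 / 10 := by
    have := abs_add_le c₀ e
    rw [abs_of_pos he] at this
    linarith
  have hv2 : (r + a) ^ 2 ≤ 121 / 100 := by
    rw [← sq_abs]
    nlinarith [abs_nonneg (r + a)]
  refine ⟨?_, ?_, ?_⟩
  · rw [abs_mul, abs_pow]
    have h1 : (ρ / 2) ^ 2 ≤ |u| ^ 2 := pow_le_pow_left₀ (by positivity) hu2 2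
    calc θ * ρ ^ 2 / 8 = (ρ / 2) ^ 2 * (θ / 2) := by ring
      _ ≤ |u| ^ 2 * |c + e₁| := mul_le_mul h1 hce (by positivity) (by positivity)
  · rw [abs_mul, abs_of_nonneg (sq_nonneg _)]
    nlinarith [abs_nonneg (c₀ + e), sq_nonneg (r + a)]
  · have h1 : (r + a) ^ 2 * (c₀ + e) - u ^ 2 * (c + e₁) =
        (r + a) ^ 2 * (-(c - c₀) + -(e₁ - e)) + -(u - (r + a)) * (u + (r + a)) * (c + e₁) := by ring
    have h2 : |-(c - c₀) + -(e₁ - e)| ≤ 9 * η := by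
      have := abs_add_le (-(c - c₀)) (-(e₁ - e))
      rw [abs_neg, abs_neg] at this
      linarith
    have h3 : |u + (r + a)| ≤ 23 / 10 := by
      have := abs_add_le u (r + a)
      linarith
    have h4 : |(r + a) ^ 2 * (-(c - c₀) + -(e₁ - e))| ≤ 121 / 100 * (9 * η) := by
      rw [abs_mul, abs_of_nonneg (sq_nonneg _)]
      exact mul_le_mul hv2 h2 (abs_nonneg _) (by norm_num)
    have h5 : |-(u - (r + a)) * (u + (r + a)) * (c + e₁)| ≤ η * (23 / 10) * (11 / 10) := by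
      rw [abs_mul, abs_mul, abs_neg]
      exact mul_le_mul (mul_le_mul hu h3 (abs_nonneg _) hη0) hce1 (abs_nonneg _) (by positivity)
    rw [h1]
    have := abs_add_le ((r + a) ^ 2 * (-(c - c₀) + -(e₁ - e)))
      (-(u - (r + a)) * (u + (r + a)) * (c + e₁))
    linarith

theorem two (m η P A A' D D' : ℝ) (hm : 0 < m) (hm1 : m ≤ 1) (hA : m / 8 ≤ |A|) (hA' : m / 8 ≤ |A'|)
    (hD : |D| ≤ 2) (hD' : |D'| ≤ 2) (h : |D - A| ≤ 20 * η) (h' : |D' - A'| ≤ 20 * η)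
    (hP : |P - 1 / A - 1 / A'| ≤ η) : m * |P * D * D' - D - D'| ≤ 1000 * η := by
  have hη : 0 ≤ η := le_trans (abs_nonneg _) hP
  have hA0 : 0 < |A| := by linarith
  have hA0' : 0 < |A'| := by linarith
  have hA1 : A ≠ 0 := abs_pos.mp hA0
  have hA1' : A' ≠ 0 := abs_pos.mp hA0'
  have h1 : P * D * D' - D - D' =
      D * D' * (P - 1 / A - 1 / A') + D' * ((D - A) / A) + D * ((D' - A') / A') := by
    field_simp
    ring
  have h2 : |D * D' * (P - 1 / A - 1 / A')| ≤ 2 * 2 * η := by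
    rw [abs_mul, abs_mul]
    exact mul_le_mul (mul_le_mul hD hD' (abs_nonneg _) (by norm_num)) hP (abs_nonneg _) (by norm_num)
  have h3 : ∀ B E : ℝ, m / 8 ≤ |B| → |E| ≤ 20 * η → m * |E / B| ≤ 160 * η := by
    intro B E hB hE
    have hB0 : 0 < |B| := by linarith
    rw [abs_div, ← mul_div_assoc, div_le_iff₀ hB0]
    nlinarith [abs_nonneg E]
  have h4 : m * |D' * ((D - A) / A)| ≤ 320 * η := by
    have := h3 A (D - A) hA h
    rw [abs_mul]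
    have h5 : 0 ≤ m * |(D - A) / A| := by positivity
    nlinarith
  have h5 : m * |D * ((D' - A') / A')| ≤ 320 * η := by
    have := h3 A' (D' - A') hA' h'
    rw [abs_mul]
    have h5 : 0 ≤ m * |(D' - A') / A'| := by positivity
    nlinarith
  rw [h1]
  have h6 := abs_add_three (D * D' * (P - 1 / A - 1 / A')) (D' * ((D - A) / A))
    (D * ((D' - A') / A'))
  have h7 := mul_le_mul_of_nonneg_left h6 hm.le
  have h8 : m * |D * D' * (P - 1 / A - 1 / A')| ≤ 4 * η := by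
    nlinarith [abs_nonneg (D * D' * (P - 1 / A - 1 / A'))]
  nlinarith

end Wm2

theorem s_wm2 (hw : S_w2) : S_wm2 := by
  intro θ κ ϱ₁ hθ hθ1 hκ hϱ
  obtain ⟨d, hd, hw⟩ := hw κ ϱ₁ hκ hϱ
  obtain ⟨ρ, hρ, hρ1, hρϱ⟩ : ∃ ρ : ℝ, 0 < ρ ∧ ρ ≤ 1 ∧ ρ ≤ ϱ₁ :=
    ⟨min ϱ₁ 1, lt_min hϱ one_pos, min_le_right _ _, min_le_left _ _⟩
  obtain ⟨d', hd', hd1, hdd⟩ : ∃ d' : ℝ, 0 < d' ∧ d' ≤ 1 ∧ d' ≤ d :=
    ⟨min d 1, lt_min hd one_pos, min_le_right _ _, min_le_left _ _⟩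
  have hm : 0 < θ * ρ ^ 2 := by positivity
  have hρ2 : ρ ^ 2 ≤ ρ := by nlinarith
  have hmθ : θ * ρ ^ 2 ≤ θ := by nlinarith
  have hmρ : θ * ρ ^ 2 ≤ ρ := by nlinarith
  obtain ⟨δ, hδe⟩ : ∃ δ : ℝ, δ = d' * (θ * ρ ^ 2) / 1000 := ⟨_, rfl⟩
  have hδ0 : 0 < δ := by rw [hδe]; positivity
  have hδm : δ ≤ θ * ρ ^ 2 / 1000 := by rw [hδe]; nlinarith
  have hδd : δ ≤ d := by rw [hδe]; nlinarith
  refine ⟨δ, hδ0, ?_⟩
  intro e ϱ p y₀ y₀' α β α' β' A he he1 h1 h2 ha hb ha' hb' hA h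
  refine le_trans (measure_mono ?_)
    (hw e ϱ p y₀ y₀' α β α' β' he (he1.trans hδd) h1 h2 (ha.trans hδd) (hb.trans hδd)
      (ha'.trans hδd) (hb'.trans hδd))
  intro s hs
  refine ⟨hA hs, ?_⟩
  obtain ⟨u, u', y, y', e₁, e₂, k1, k2, k3, k4, k5, k6, k7, k8, k9⟩ := h s hs
  have hs5 : |s| ≤ 5 := abs_le.mpr ⟨(hA hs).1, (hA hs).2⟩
  have hη : δ * e ≤ δ := by nlinarith
  have hα : ∀ a : ℝ, |a| ≤ δ → |a * s| ≤ 5 * δ := by
    intro a haa
    rw [abs_mul]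
    nlinarith [abs_nonneg a, abs_nonneg s]
  have k3' : |y - (y₀ + 1 * s + β * s ^ 2)| ≤ δ * e := by rwa [one_mul]
  obtain ⟨a1, a2, a3⟩ := Wm2.one θ ρ δ (δ * e) 1 (α * s) u (cos (2 * π * y))
    (cos (2 * π * (y₀ + 1 * s + β * s ^ 2))) e e₁ hθ hθ1 hρ hρ1 (by linarith) (by linarith) hη
    (by rwa [abs_one]) (by rw [abs_one]) (hα α ha) (by rwa [← sub_sub]) (Wm2.cos_near _ _ _ k3')
    (abs_cos_le_one _) (abs_cos_le_one _) he he1 k5 k7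
  obtain ⟨b1, b2, b3⟩ := Wm2.one θ ρ δ (δ * e) ϱ (α' * s) u' (cos (2 * π * y'))
    (cos (2 * π * (y₀' + ϱ * s + β' * s ^ 2))) e e₂ hθ hθ1 hρ hρ1 (by linarith) (by linarith) hη
    (hρϱ.trans h1) h2 (hα α' ha') (by rwa [← sub_sub]) (Wm2.cos_near _ _ _ k4)
    (abs_cos_le_one _) (abs_cos_le_one _) he he1 k6 k8
  have key := Wm2.two (θ * ρ ^ 2) (δ * e) (pol p s) _ _ _ _ hm (by linarith) a1 b1 a2 b2 a3 b3 k9
  have h3 : 1000 * (δ * e) = θ * ρ ^ 2 * (d' * e) := by rw [hδe]; ring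
  rw [h3] at key
  have h4 := le_of_mul_le_mul_left key hm
  have h5 : d' * e ≤ d * e := mul_le_mul_of_nonneg_right hdd he.le
  exact h4.trans h5

end Vale.Agent.P108
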