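import Vale.Agent.P108.Basic
import Vale.Agent.P108.Stm

/-! P108: the volume growth estimate for curves. -/

namespace Vale.Agent.P108

open MeasureTheory Real Set

namespace YomAux

/-- a piece at time `t` with scale `r` -/
structure Pc (k a : ℝ) (t : ℕ) (lo hi r : ℝ) : Prop where
  r0 : 0 < r
  len : hi - lo ≤ 2 * r
  b0 : ∀ b ∈ Icc lo hi, |D (wd k (a, b)) t| * r ≤ 1
  b1 : ∀ b ∈ Icc lo hi, |D (wd k (a, b)) (t + 1)| * r ≤ 1
  l0 : ∀ b ∈ Icc lo hi, ∀ b' ∈ Icc lo hi,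
    |D (wd k (a, b)) t - D (wd k (a, b')) t| * r ^ 2 ≤ |b - b'|
  l1 : ∀ b ∈ Icc lo hi, ∀ b' ∈ Icc lo hi,
    |D (wd k (a, b)) (t + 1) - D (wd k (a, b')) (t + 1)| * r ^ 2 ≤ |b - b'|

theorem mvt (k a : ℝ) (l : ℕ) {lo hi b b' : ℝ} (hb : b ∈ Icc lo hi) (hb' : b' ∈ Icc lo hi) :
    ∃ ξ ∈ Icc lo hi, X k a b l - X k a b' l = D (wd k (a, ξ)) l * (b - b') := by
  have key : ∀ x y : ℝ, x ∈ Icc lo hi → y ∈ Icc lo hi → x < y →
      ∃ ξ ∈ Icc lo hi, X k a y l - X k a x l = D (wd k (a, ξ)) l * (y - x) := by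
    intro x y hx hy hxy
    obtain ⟨ξ, hξ, h⟩ := exists_hasDerivAt_eq_slope (fun s => X k a s l)
      (fun s => D (wd k (a, s)) l) hxy
      (fun s _ => (hasDerivAt_X k a s l).continuousAt.continuousWithinAt)
      (fun s _ => hasDerivAt_X k a s l)
    refine ⟨ξ, ⟨hx.1.trans hξ.1.le, hξ.2.le.trans hy.2⟩, ?_⟩
    rw [h, div_mul_cancel₀ _ (sub_pos.2 hxy).ne']
  rcases lt_trichotomy b b' with h | h | h
  · obtain ⟨ξ, hξ, e⟩ := key b b' hb hb' h
    exact ⟨ξ, hξ, by linarith⟩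
  · exact ⟨b, hb, by rw [h]; ring⟩
  · exact key b' b hb' hb h

variable {k θ ω a : ℝ}

theorem lip2 (B : Big k θ ω) {t : ℕ} {lo hi r : ℝ} (P : Pc k a t lo hi r) {b b' : ℝ}
    (hb : b ∈ Icc lo hi) (hb' : b' ∈ Icc lo hi) :
    |D (wd k (a, b)) (t + 2) - D (wd k (a, b')) (t + 2)| * r ^ 2 ≤ 8 * ω ^ 10000 * |b - b'| := by
  set L := ω ^ 10000 with hL
  have hr := P.r0
  obtain ⟨ξ, hξ, e⟩ := mvt k a (t + 1) hb hb'
  have h1 : |X k a b (t + 1) - X k a b' (t + 1)| * r ≤ |b - b'| := by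
    rw [e, abs_mul]
    have := P.b1 ξ hξ
    have h0 := abs_nonneg (b - b')
    nlinarith
  have h2 : |wd k (a, b) (t + 1) - wd k (a, b') (t + 1)|
      ≤ 7 * L * |X k a b (t + 1) - X k a b' (t + 1)| := B.vv_lip _ _
  have h3 : |wd k (a, b') (t + 1)| ≤ L - 2 := B.bd _ _
  have hL2 : 2 ≤ L := (B.bd (a, b)).two_le
  have e2 : D (wd k (a, b)) (t + 2) - D (wd k (a, b')) (t + 2) =
      (wd k (a, b) (t + 1) - wd k (a, b') (t + 1)) * D (wd k (a, b)) (t + 1) +
      wd k (a, b') (t + 1) * (D (wd k (a, b)) (t + 1) - D (wd k (a, b')) (t + 1)) -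
      (D (wd k (a, b)) t - D (wd k (a, b')) t) := by
    rw [D_add_two, D_add_two]; ring
  have h4 := P.b1 b hb
  have h5 := P.l1 b hb b' hb'
  have h6 := P.l0 b hb b' hb'
  set A := |wd k (a, b) (t + 1) - wd k (a, b') (t + 1)|
  set A' := |D (wd k (a, b)) (t + 1)|
  set C := |wd k (a, b') (t + 1)|
  set C' := |D (wd k (a, b)) (t + 1) - D (wd k (a, b')) (t + 1)|
  set F := |D (wd k (a, b)) t - D (wd k (a, b')) t|
  set d := |b - b'|
  set x := |X k a b (t + 1) - X k a b' (t + 1)|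
  have hA : 0 ≤ A := abs_nonneg _
  have hC : 0 ≤ C := abs_nonneg _
  have hd : 0 ≤ d := abs_nonneg _
  have h7 : |D (wd k (a, b)) (t + 2) - D (wd k (a, b')) (t + 2)| ≤ A * A' + C * C' + F := by
    rw [e2]
    refine (abs_sub _ _).trans (add_le_add ((abs_add_le _ _).trans ?_) le_rfl)
    rw [abs_mul, abs_mul]
  have h8 : A * r ≤ 7 * L * d := by
    calc A * r ≤ 7 * L * x * r := by gcongr
      _ = 7 * L * (x * r) := by ring
      _ ≤ 7 * L * d := by gcongr
  calc _ ≤ (A * A' + C * C' + F) * r ^ 2 := by gcongr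
    _ = (A * r) * (A' * r) + C * (C' * r ^ 2) + F * r ^ 2 := by ring
    _ ≤ (7 * L * d) * 1 + (L - 2) * d + d := by
        have : 0 ≤ A' * r := by positivity
        have : 0 ≤ C' * r ^ 2 := by positivity
        gcongr
    _ ≤ 8 * L * d := by nlinarith

theorem sub_piece (B : Big k θ ω) {t : ℕ} {lo hi r N ρ c lo' hi' : ℝ} (P : Pc k a t lo hi r)
    (hN : 128 * ω ^ 10000 ≤ N ^ 2) (hN1 : 1 ≤ N) (hρ : ρ ≤ 1 / 28) (h1 : lo ≤ lo') (h2 : hi' ≤ hi)
    (h3 : hi' - lo' ≤ 2 * (r / N)) :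
    ∃ lo'' hi'' r'', Pc k a (t + 1) lo'' hi'' r'' ∧
      ∀ b ∈ Icc lo' hi', |X k a b (t + 2) - c| ≤ ρ → b ∈ Icc lo'' hi'' := by
  have hr := P.r0
  set s := r / N with hs
  have hs0 : 0 < s := by positivity
  have hsr : s ≤ r := div_le_self hr.le hN1
  have hsub : ∀ b ∈ Icc lo' hi', b ∈ Icc lo hi := fun b hb => ⟨h1.trans hb.1, hb.2.trans h2⟩
  have hL : ∀ b ∈ Icc lo' hi', ∀ b' ∈ Icc lo' hi',
      |D (wd k (a, b)) (t + 2) - D (wd k (a, b')) (t + 2)| * s ^ 2 ≤ |b - b'| / 16 := by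
    intro b hb b' hb'
    have h := lip2 B P (hsub b hb) (hsub b' hb')
    have hN0 : 0 < N ^ 2 := by positivity
    rw [hs, div_pow, ← mul_div_assoc, div_le_div_iff₀ hN0 (by norm_num)]
    have := abs_nonneg (b - b')
    nlinarith
  -- generic constructor
  have mk : ∀ lo'' hi'' s', 0 < s' → s' ≤ s → lo' ≤ lo'' → hi'' ≤ hi' → hi'' - lo'' ≤ 2 * s' →
      (∀ b ∈ Icc lo'' hi'', |D (wd k (a, b)) (t + 2)| * s' ≤ 1) → Pc k a (t + 1) lo'' hi'' s' := by
    intro lo'' hi'' s' h0 hss e1 e2 e3 e4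
    have hsub' : ∀ b ∈ Icc lo'' hi'', b ∈ Icc lo' hi' := fun b hb => ⟨e1.trans hb.1, hb.2.trans e2⟩
    refine ⟨h0, e3, fun b hb => ?_, e4, fun b hb b' hb' => ?_, fun b hb b' hb' => ?_⟩
    · refine le_trans ?_ (P.b1 b (hsub b (hsub' b hb)))
      gcongr; exact hss.trans hsr
    · refine le_trans ?_ (P.l1 b (hsub b (hsub' b hb)) b' (hsub b' (hsub' b' hb')))
      gcongr; exact hss.trans hsr
    · have := hL b (hsub' b hb) b' (hsub' b' hb')
      have h0' := abs_nonneg (b - b')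
      calc _ ≤ |D (wd k (a, b)) (t + 2) - D (wd k (a, b')) (t + 2)| * s ^ 2 := by gcongr
        _ ≤ _ := by linarith
  by_cases hA : ∀ b ∈ Icc lo' hi', |D (wd k (a, b)) (t + 2)| * s ≤ 1
  · exact ⟨lo', hi', s, mk _ _ _ hs0 le_rfl le_rfl le_rfl h3 hA, fun b hb _ => hb⟩
  push Not at hA
  obtain ⟨b₁, hb₁, hV⟩ := hA
  set V := |D (wd k (a, b₁)) (t + 2)| with hVdef
  have hV0 : 0 < V := by
    rcases (abs_nonneg (D (wd k (a, b₁)) (t + 2))).lt_or_eq with h | h
    · exact h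
    · rw [hVdef, ← h] at hV; norm_num at hV
  have hvar : ∀ b ∈ Icc lo' hi', |D (wd k (a, b)) (t + 2) - D (wd k (a, b₁)) (t + 2)| ≤ V / 8 := by
    intro b hb
    have h := hL b hb b₁ hb₁
    have hd : |b - b₁| ≤ 2 * s := abs_le.2 ⟨by linarith [hb.1, hb₁.2], by linarith [hb.2, hb₁.1]⟩
    set e := |D (wd k (a, b)) (t + 2) - D (wd k (a, b₁)) (t + 2)|
    have he : 0 ≤ e := abs_nonneg _
    have h4 : e * s ≤ 1 / 8 := by
      have : e * s * s ≤ 1 / 8 * s := by nlinarith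
      exact le_of_mul_le_mul_right this hs0
    have : e * s ≤ V / 8 * s := by linarith
    exact le_of_mul_le_mul_right this hs0
  have hup : ∀ b ∈ Icc lo' hi', |D (wd k (a, b)) (t + 2)| ≤ 9 * V / 8 := by
    intro b hb
    have := hvar b hb
    have := abs_sub_abs_le_abs_sub (D (wd k (a, b)) (t + 2)) (D (wd k (a, b₁)) (t + 2))
    linarith
  have hlo : ∀ b ∈ Icc lo' hi', 7 * V / 8 ≤ |D (wd k (a, b)) (t + 2)| := by
    intro b hb
    have := hvar b hb
    have h := abs_sub_abs_le_abs_sub (D (wd k (a, b₁)) (t + 2)) (D (wd k (a, b)) (t + 2))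
    rw [abs_sub_comm] at h
    linarith
  have hs' : 1 / (2 * V) ≤ s := by
    rw [div_le_iff₀ (by positivity)]; nlinarith
  have hbd : ∀ b ∈ Icc lo' hi', |D (wd k (a, b)) (t + 2)| * (1 / (2 * V)) ≤ 1 := by
    intro b hb
    rw [mul_one_div, div_le_one (by positivity)]
    linarith [hup b hb]
  by_cases hE : ∃ b₀ ∈ Icc lo' hi', |X k a b₀ (t + 2) - c| ≤ ρ
  · obtain ⟨b₀, hb₀, hc⟩ := hE
    refine ⟨max lo' (b₀ - 1 / (2 * V)), min hi' (b₀ + 1 / (2 * V)), 1 / (2 * V),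
      mk _ _ _ (by positivity) hs' (le_max_left _ _) (min_le_left _ _) ?_ ?_, ?_⟩
    · linarith [le_max_right lo' (b₀ - 1 / (2 * V)), min_le_right hi' (b₀ + 1 / (2 * V))]
    · exact fun b hb => hbd b ⟨(le_max_left _ _).trans hb.1, hb.2.trans (min_le_left _ _)⟩
    · intro b hb hc'
      obtain ⟨ξ, hξ, e⟩ := mvt k a (t + 2) hb hb₀
      have h5 : |X k a b (t + 2) - X k a b₀ (t + 2)| ≤ 1 / 14 := by
        have := abs_sub_le (X k a b (t + 2)) c (X k a b₀ (t + 2))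
        rw [abs_sub_comm c] at this
        linarith
      rw [e, abs_mul] at h5
      have h6 := hlo ξ hξ
      have h7 : |b - b₀| ≤ 1 / (2 * V) := by
        rw [le_div_iff₀ (by positivity)]
        have := abs_nonneg (b - b₀)
        nlinarith
      have := abs_le.1 h7
      exact ⟨max_le hb.1 (by linarith [this.1]), le_min hb.2 (by linarith [this.2])⟩
  · refine ⟨lo', min hi' lo', 1 / (2 * V),
      mk _ _ _ (by positivity) hs' le_rfl (min_le_left _ _) ?_ ?_, ?_⟩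
    · have : 0 < 1 / (2 * V) := by positivity
      linarith [min_le_right hi' lo']
    · exact fun b hb => hbd b ⟨hb.1, hb.2.trans (min_le_left _ _)⟩
    · exact fun b hb hc => absurd ⟨b, hb, hc⟩ hE

theorem main (B : Big k θ ω) {ρ G : ℝ} (c : ℕ → ℝ) (N : ℕ) (hN : 128 * ω ^ 10000 ≤ (N : ℝ) ^ 2)
    (hN1 : 1 ≤ N) (hρ : ρ ≤ 1 / 28) (hG : 0 < G) (m : ℕ) : ∀ (t : ℕ) (lo hi r : ℝ),
    Pc k a t lo hi r →
    volume {b | b ∈ Icc lo hi ∧ (∀ l, t + 2 ≤ l → l ≤ t + m + 1 → |X k a b l - c l| ≤ ρ) ∧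
      G ≤ pn (D (wd k (a, b))) (t + m)} ≤ ENNReal.ofReal ((N : ℝ) ^ m * (4 / G)) := by
  have hN0 : (0 : ℝ) < N := by exact_mod_cast hN1
  induction m with
  | zero =>
    intro t lo hi r P
    rcases Set.eq_empty_or_nonempty {b | b ∈ Icc lo hi ∧
      (∀ l, t + 2 ≤ l → l ≤ t + 0 + 1 → |X k a b l - c l| ≤ ρ) ∧
      G ≤ pn (D (wd k (a, b))) (t + 0)} with h | ⟨b, hb, -, hg⟩
    · rw [h]; simp
    · have h0 := P.b0 b hb
      have h1 := P.b1 b hb
      have hr := P.r0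
      have h2 : G * r ≤ 2 := by
        simp only [pn, add_zero] at hg
        nlinarith
      calc _ ≤ volume (Icc lo hi) := measure_mono fun b hb => hb.1
        _ = ENNReal.ofReal (hi - lo) := Real.volume_Icc
        _ ≤ _ := by
          refine ENNReal.ofReal_le_ofReal ?_
          rw [pow_zero, one_mul, le_div_iff₀ hG]
          nlinarith [P.len]
  | succ m ih =>
    intro t lo hi r P
    have hr := P.r0
    set δ := 2 * (r / N) with hδ
    have hδ0 : 0 < δ := by positivity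
    have hsub : ∀ i : ℕ, ∃ lo'' hi'' r'', Pc k a (t + 1) lo'' hi'' r'' ∧
        ∀ b ∈ Icc (lo + i * δ) (min hi (lo + (i + 1) * δ)), |X k a b (t + 2) - c (t + 2)| ≤ ρ →
          b ∈ Icc lo'' hi'' := fun i =>
      sub_piece B P hN (by exact_mod_cast hN1) hρ (by have : 0 ≤ i * δ := by positivity
                                                      linarith)
        (min_le_left _ _) (by linarith [min_le_right hi (lo + (i + 1) * δ)])
    choose lo' hi' r' hP hin using hsub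
    have hcov : {b | b ∈ Icc lo hi ∧
        (∀ l, t + 2 ≤ l → l ≤ t + (m + 1) + 1 → |X k a b l - c l| ≤ ρ) ∧
        G ≤ pn (D (wd k (a, b))) (t + (m + 1))} ⊆ ⋃ i ∈ Finset.range N,
        {b | b ∈ Icc (lo' i) (hi' i) ∧
          (∀ l, t + 1 + 2 ≤ l → l ≤ t + 1 + m + 1 → |X k a b l - c l| ≤ ρ) ∧
          G ≤ pn (D (wd k (a, b))) (t + 1 + m)} := by
      rintro b ⟨hb, h1, h2⟩
      have hx0 : 0 ≤ (b - lo) / δ := div_nonneg (by linarith [hb.1]) hδ0.le
      have hxN : b - lo ≤ N * δ := by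
        have : (N : ℝ) * δ = 2 * r := by rw [hδ]; field_simp
        linarith [hb.2, P.len]
      obtain ⟨i, hi1, hi2, hi3⟩ : ∃ i : ℕ, i < N ∧ lo + i * δ ≤ b ∧ b ≤ lo + (i + 1) * δ := by
        by_cases hf : ⌊(b - lo) / δ⌋₊ < N
        · refine ⟨_, hf, ?_, ?_⟩
          · have := Nat.floor_le hx0
            rw [le_div_iff₀ hδ0] at this; linarith
          · have := (Nat.lt_floor_add_one ((b - lo) / δ)).le
            rw [div_le_iff₀ hδ0] at this; linarith
        · obtain ⟨n, rfl⟩ : ∃ n, N = n + 1 := ⟨N - 1, by omega⟩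
          have h3 : ((n + 1 : ℕ) : ℝ) ≤ (b - lo) / δ :=
            le_trans (by exact_mod_cast not_lt.1 hf) (Nat.floor_le hx0)
          rw [le_div_iff₀ hδ0] at h3
          push_cast at h3 hxN
          exact ⟨n, by omega, by nlinarith, by linarith⟩
      simp only [mem_iUnion, Finset.mem_range]
      refine ⟨i, hi1, hin i b ⟨hi2, le_min hb.2 hi3⟩ (h1 _ le_rfl (by omega)),
        fun l h3 h4 => h1 l (by omega) (by omega), ?_⟩
      rwa [show t + 1 + m = t + (m + 1) by omega]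
    calc _ ≤ _ := measure_mono hcov
      _ ≤ _ := measure_biUnion_finset_le _ _
      _ ≤ ∑ _i ∈ Finset.range N, ENNReal.ofReal ((N : ℝ) ^ m * (4 / G)) :=
          Finset.sum_le_sum fun i _ => ih _ _ _ _ (hP i)
      _ = _ := by
          rw [Finset.sum_const, Finset.card_range, nsmul_eq_mul, ← ENNReal.ofReal_natCast,
            ← ENNReal.ofReal_mul hN0.le]
          congr 1; ring

end YomAux

open YomAux in
theorem s_yom : S_yom := by
  intro k θ ω ρ a c n B hρ0 hρ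
  have hω := B.om
  have hω0 : 0 < ω := by linarith
  rcases Nat.eq_zero_or_pos n with rfl | hn
  · calc _ ≤ volume (Icc (c 1 - ρ) (c 1 + ρ)) := measure_mono fun b hb => by
          have := abs_le.1 (hb.1 1 le_rfl (by omega))
          simp only [X] at this
          exact ⟨by linarith [this.1], by linarith [this.2]⟩
      _ = ENNReal.ofReal (c 1 + ρ - (c 1 - ρ)) := Real.volume_Icc
      _ ≤ _ := ENNReal.ofReal_le_ofReal (by simp; linarith)
  set q := ω ^ 5000 with hq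
  have hq1 : 1 ≤ q := one_le_pw hω 5000
  set N := ⌈12 * q⌉₊ with hN
  have hN1 : 12 * q ≤ N := Nat.le_ceil _
  have hN2 : (N : ℝ) ≤ 13 * q := by
    have := Nat.ceil_lt_add_one (show 0 ≤ 12 * q by positivity)
    linarith
  have hq2 : ω ^ 10000 = q ^ 2 := by rw [hq, ← pow_mul]
  have hP : Pc k a 0 (c 1 - ρ) (c 1 + ρ) 1 :=
    ⟨one_pos, by linarith, fun b _ => by simp [D], fun b _ => by simp [D],
      fun b _ b' _ => by simp [D], fun b _ b' _ => by simp [D]⟩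
  have h := main (a := a) (ρ := ρ) B c N (by rw [hq2]; nlinarith)
    (by have : (1 : ℝ) ≤ N := by linarith
        exact_mod_cast this) hρ (pw_pos hω (9998 * n)) n 0 _ _ _ hP
  refine le_trans (measure_mono ?_) (h.trans (ENNReal.ofReal_le_ofReal ?_))
  · rintro b ⟨h1, h2⟩
    have := abs_le.1 (h1 1 le_rfl (by omega))
    simp only [X] at this
    exact ⟨⟨by linarith [this.1], by linarith [this.2]⟩,
      fun l h3 h4 => h1 l (by omega) (by omega), by simpa using h2⟩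
  · have h52 : (52 : ℝ) ≤ ω ^ 998 := by
      have := pw_lt hω (show 0 < 998 by norm_num)
      rw [pow_zero] at this; linarith
    have e : ω ^ (9998 * n) = (ω ^ 998 * q) ^ n * ω ^ (4000 * n) := by
      rw [hq, ← pow_add, ← pow_mul, ← pow_add]; congr 1; omega
    have h4 : (N : ℝ) ^ n * 4 ≤ (ω ^ 998 * q) ^ n := by
      calc (N : ℝ) ^ n * 4 ≤ (13 * q) ^ n * 4 ^ n := by
            gcongr
            exact le_self_pow₀ (by norm_num) hn.ne'
        _ = (52 * q) ^ n := by rw [← mul_pow]; congr 1; ring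
        _ ≤ _ := by gcongr
    rw [← mul_div_assoc, div_le_div_iff₀ (pw_pos hω _) (pw_pos hω _), e, one_mul]
    gcongr

end Vale.Agent.P108
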