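import Vale.Agent.P108.Stm

/-! P108: vanishing of analytic limits and a Remez type inequality. -/

namespace Vale.Agent.P108

open MeasureTheory Filter Real Set Topology

namespace Zed

theorem an_zero {H : ℝ → ℝ} (hH : AnalyticOnNhd ℝ H univ) {Z : Set ℝ} (hZ : Z ⊆ Icc (-5 : ℝ) 5)
    (h0 : ∀ s ∈ Z, H s = 0) (hm : volume Z ≠ 0) (s : ℝ) : H s = 0 := by
  have hinf : Z.Infinite := fun hf => hm (hf.measure_zero _)
  obtain ⟨x, _, hx⟩ := hinf.exists_accPt_of_subset_isCompact isCompact_Icc hZ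
  have hf : ∃ᶠ y in 𝓝[≠] x, H y = 0 := (accPt_iff_frequently_nhdsNE.1 hx).mono h0
  exact hH.eqOn_zero_of_preconnected_of_frequently_eq_zero isPreconnected_univ (mem_univ x) hf
    (mem_univ s)

theorem pol_smul (c : ℝ) (p : Fin 5 → ℝ) (s : ℝ) : pol (c • p) s = c * pol p s := by
  simp only [pol, Pi.smul_apply, smul_eq_mul]
  ring

theorem pol_le (p : Fin 5 → ℝ) {s : ℝ} (hs : |s| ≤ 1) : |pol p s| ≤ 5 * ‖p‖ := by
  have h : ∀ (i : Fin 5) (k : ℕ), |p i * s ^ k| ≤ ‖p‖ := fun i k => by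
    rw [abs_mul, abs_pow]
    exact (mul_le_of_le_one_right (abs_nonneg _) (pow_le_one₀ (abs_nonneg _) hs)).trans
      (norm_le_pi_norm p i)
  have h0 := abs_le.1 (h 0 0)
  have h1 := abs_le.1 (h 1 1)
  have h2 := abs_le.1 (h 2 2)
  have h3 := abs_le.1 (h 3 3)
  have h4 := abs_le.1 (h 4 4)
  rw [pow_zero, mul_one] at h0
  rw [pow_one] at h1
  unfold pol
  exact abs_le.2 ⟨by linarith [h0.1, h1.1, h2.1, h3.1, h4.1],
    by linarith [h0.2, h1.2, h2.2, h3.2, h4.2]⟩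

theorem pol_inj {p : Fin 5 → ℝ} (h : ∀ s, pol p s = 0) : p = 0 := by
  have a := h 0
  have b := h 1
  have c := h (-1)
  have d := h 2
  have e := h (-2)
  unfold pol at a b c d e
  norm_num at a b c d e
  funext i
  fin_cases i <;> simp <;> linarith

theorem pol_an (p : Fin 5 → ℝ) : AnalyticOnNhd ℝ (pol p) univ := fun x _ => by
  unfold pol
  fun_prop

theorem pol_cont (s : ℝ) : Continuous fun p : Fin 5 → ℝ => pol p s := by
  unfold pol
  fun_prop

end Zed

open Zed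

theorem s_z : S_z := by
  intro H G δ κ hκ hH hG hT hδ hA
  set A : ℕ → Set ℝ := fun n => {s | s ∈ Icc (-5 : ℝ) 5 ∧ |G n s| ≤ δ n} with hAd
  have hAm : ∀ n, MeasurableSet (A n) := fun n =>
    measurableSet_Icc.inter (measurableSet_le (hG n).abs measurable_const)
  set B : ℕ → Set ℝ := fun N => ⋃ n, ⋃ _ : N ≤ n, A n with hB
  have hBm : ∀ N, MeasurableSet (B N) := fun N =>
    MeasurableSet.iUnion fun n => MeasurableSet.iUnion fun _ => hAm n
  have hBs : ∀ N, B N ⊆ Icc (-5 : ℝ) 5 := fun N =>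
    iUnion_subset fun n => iUnion_subset fun _ s hs => hs.1
  have hanti : Antitone B := fun N N' h s hs => by
    simp only [hB, mem_iUnion] at hs ⊢
    obtain ⟨n, hn, h'⟩ := hs
    exact ⟨n, h.trans hn, h'⟩
  have hfin : volume (B 0) ≠ ⊤ := ((measure_mono (hBs 0)).trans_lt measure_Icc_lt_top).ne
  have hI := hanti.measure_iInter (μ := volume) (fun N => (hBm N).nullMeasurableSet) ⟨0, hfin⟩
  have hk : ENNReal.ofReal κ ≤ volume (⋂ N, B N) := by
    rw [hI]
    refine le_iInf fun N => (hA N).trans (measure_mono fun s hs => ?_)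
    simp only [hB, mem_iUnion]
    exact ⟨N, le_rfl, hs⟩
  refine an_zero hH ((iInter_subset B 0).trans (hBs 0)) (fun s hs => ?_)
    ((ENNReal.ofReal_pos.2 hκ).trans_le hk).ne'
  have hs0 : s ∈ Icc (-5 : ℝ) 5 := hBs 0 (mem_iInter.1 hs 0)
  have hf : ∃ᶠ n in atTop, |G n s| ≤ δ n := frequently_atTop.2 fun N => by
    have := mem_iInter.1 hs N
    simp only [hB, mem_iUnion] at this
    obtain ⟨n, hn, h'⟩ := this
    exact ⟨n, hn, h'.2⟩
  exact abs_nonpos_iff.1 (le_of_tendsto_of_tendsto_of_frequently (hT s hs0).abs hδ hf)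

theorem s_remez : S_remez := by
  intro κ hκ
  by_contra hc
  push Not at hc
  choose p s₁ h1 h2 h3 using fun n : ℕ => hc (1 / ((n : ℝ) + 1)) Nat.one_div_pos_of_nat
  have hp : ∀ n, 0 < ‖p n‖ := fun n => by
    have := (abs_pos.2 (h2 n)).trans_le (pol_le (p n) (h1 n))
    linarith
  set q : ℕ → Fin 5 → ℝ := fun n => ‖p n‖⁻¹ • p n with hq
  have hqs : ∀ n, q n ∈ Metric.sphere (0 : Fin 5 → ℝ) 1 := fun n => by
    rw [mem_sphere_zero_iff_norm, hq]
    simp only
    rw [norm_smul, norm_inv, norm_norm, inv_mul_cancel₀ (hp n).ne']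
  obtain ⟨b, hb, φ, hφ, hl⟩ := (isCompact_sphere (0 : Fin 5 → ℝ) 1).tendsto_subseq hqs
  have hz := s_z (pol b) (fun n => pol (q (φ n))) (fun n => 5 * (1 / ((φ n : ℝ) + 1))) κ hκ
    (pol_an b) (fun n => (pol_an _).continuous.measurable)
    (fun s _ => ((pol_cont s).tendsto b).comp hl) ?_ fun n => ?_
  · rw [pol_inj hz] at hb
    simp at hb
  · have := (tendsto_one_div_add_atTop_nhds_zero_nat.comp hφ.tendsto_atTop).const_mul (5 : ℝ)
    simpa using this
  · refine (h3 (φ n)).le.trans (measure_mono fun s hs => ⟨hs.1, ?_⟩)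
    have e1 := hs.2
    have e2 := pol_le (p (φ n)) (h1 (φ n))
    have e3 : (0 : ℝ) < 1 / ((φ n : ℝ) + 1) := Nat.one_div_pos_of_nat
    rw [hq]
    simp only
    rw [pol_smul, abs_mul, abs_of_pos (inv_pos.2 (hp _)), inv_mul_le_iff₀ (hp _)]
    calc _ ≤ 1 / ((φ n : ℝ) + 1) * (5 * ‖p (φ n)‖) :=
          e1.trans (mul_le_mul_of_nonneg_left e2 e3.le)
      _ = _ := by ring

end Vale.Agent.P108
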