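import Vale.Agent.P108.Boot
import Vale.Agent.P108.Close
import Vale.Agent.P108.Cover
import Vale.Agent.P108.Cseq
import Vale.Agent.P108.Curve
import Vale.Agent.P108.Desc
import Vale.Agent.P108.Ent
import Vale.Agent.P108.Ind
import Vale.Agent.P108.Inv
import Vale.Agent.P108.Key
import Vale.Agent.P108.Lin
import Vale.Agent.P108.Max
import Vale.Agent.P108.Neg
import Vale.Agent.P108.Pa
import Vale.Agent.P108.Pert
import Vale.Agent.P108.Prof
import Vale.Agent.P108.Pt
import Vale.Agent.P108.Rm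
import Vale.Agent.P108.Sh
import Vale.Agent.P108.Side
import Vale.Agent.P108.Tay
import Vale.Agent.P108.Unc
import Vale.Agent.P108.W2
import Vale.Agent.P108.Wg
import Vale.Agent.P108.Wl0
import Vale.Agent.P108.Wm1
import Vale.Agent.P108.Wm2
import Vale.Agent.P108.Yom
import Vale.Agent.P108.Zed

/-! P108: assembly. -/

namespace Vale.Agent.P108

open MeasureTheory

theorem boot : S_boot :=
  s_boot (s_unc s_meas s_inv)
    (s_wg (s_wl (s_wl0 (s_pa s_sh s_tay) (s_pt s_sh s_tay) s_prof s_remez (s_wm1 s_z)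
      (s_wm2 (s_w2 s_z))) s_prof) s_rm1 s_rm2 s_meas s_inv)
    (s_ind (s_cover (s_curve s_lin s_sh) (s_close s_pert) (s_strip s_pert s_l1) s_meas) s_meas s_inv)
    (s_max s_gc s_meas s_inv) (s_dbl s_meas s_inv)
    (s_cnt (s_cseq (s_key (s_fail (s_desc s_lin) (s_top s_lin)) (s_side s_lin s_l1)) s_sol s_gc)
      s_meas s_inv) s_inv

theorem large : ∃ k₀ : ℝ, ∀ k : ℝ, k₀ ≤ |k| → 0 < ksEntropy volume (stdMap k) := by
  obtain ⟨k₀, h⟩ := boot
  have H (k : ℝ) (hk : k₀ ≤ k) : 0 < ksEntropy volume (stdMap k) := by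
    obtain ⟨θ, ω, B, hI⟩ := h k hk
    exact s_ent s_l1 s_yom s_meas s_inv k θ ω B hI
  refine ⟨k₀, fun k hk => ?_⟩
  rcases abs_choice k with e | e
  · exact H k (e ▸ hk)
  · have := (H (-k) (e ▸ hk)).trans_le (ks_neg (-k))
    rwa [neg_neg] at this

end Vale.Agent.P108
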