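import Vale.Agent.P108.Basic

/-! P108: return events seen from the end point, and their number. -/

namespace Vale.Agent.P108

open MeasureTheory Filter Real Set

namespace Rm

/-- the entries of the transfer matrix through the middle point -/
def G (v v' : ℕ → ℝ) (m l : ℕ) : ℝ := D v m * E v' l + (v 0 * D v m + E v m) * D v' l

theorem G_right (v v' : ℕ → ℝ) (m i : ℕ) :
    D v' (i + 1) * G v v' m i = D v m + D v' i * G v v' m (i + 1) := by
  have h := wronsk v' i
  unfold G
  linear_combination D v m * h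

theorem G_left (v v' : ℕ → ℝ) (j l : ℕ) :
    D v (j + 1) * G v v' j l = D v' l + D v j * G v v' (j + 1) l := by
  have h := wronsk v j
  unfold G
  linear_combination D v' l * h

theorem DE_w {j I : ℕ} {v v' w : ℕ → ℝ} (h1 : ∀ l ≤ j + 1, w l = v (j + 1 - l))
    (h2 : ∀ l ≤ I, w (j + 1 + l) = v' l) {l : ℕ} (hl : l ≤ I) :
    D w (j + 1 + l) = G v v' (j + 1) l ∧ E w (j + 1 + l) = -G v v' j l := by
  obtain ⟨r1, r2, r3⟩ := DE_rev v j
  have a1 : D w (j + 1) = D v (j + 1) :=
    (D_congr fun l _ b => h1 l b.le).trans (D_rev v j)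
  have a2 : D w j = -E v (j + 1) := (D_congr fun l _ b => h1 l (by omega)).trans r1
  have a3 : E w (j + 1) = -D v j := (E_congr fun l _ b => h1 l b.le).trans r2
  have a4 : E w j = E v j := (E_congr fun l _ b => h1 l (by omega)).trans r3
  have a5 : w (j + 1) = v 0 := by rw [h1 _ le_rfl, Nat.sub_self]
  have b1 : D (fun i => w (j + 1 + i)) l = D v' l := D_congr fun i _ b => h2 i (by omega)
  have b2 : E (fun i => w (j + 1 + i)) l = E v' l := E_congr fun i _ b => h2 i (by omega)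
  constructor
  · rw [sol_shift (solN_D w (j + 1 + l)) (j + 1) l (by omega) (by omega), b1, b2, D_add_two, a1, a2,
      a5]
    unfold G
    ring
  · rw [sol_shift (solN_E w (j + 1 + l)) (j + 1) l (by omega) (by omega), b1, b2, E_add_two, a3, a4,
      a5]
    unfold G
    ring

theorem prof_le {ω : ℝ} {J l : ℕ} {v : ℕ → ℝ} (hω : 10 ^ 6 ≤ ω) (h : Prof ω 9000 2 J v)
    (hl : l ≤ J) : |D v l| ≤ 2 * |D v J| :=
  (le_mul_of_one_le_right (abs_nonneg _) (one_le_pw hω _)).trans (h l hl)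

theorem prof_pos {ω : ℝ} {J : ℕ} {v : ℕ → ℝ} (hω : 10 ^ 6 ≤ ω) (h : Prof ω 9000 2 J v)
    (hJ : 1 ≤ J) : 0 < |D v J| := by
  have := prof_le hω h hJ
  rw [D_one, abs_one] at this
  linarith

theorem prof_pn {ω : ℝ} {j n : ℕ} {v : ℕ → ℝ} (hω : 10 ^ 6 ≤ ω) (h : Prof ω 9000 2 (j + 1) v)
    (hn : n ≤ j) : pn (D v) (j - n) * ω ^ (9000 * n) ≤ 4 * |D v (j + 1)| := by
  have h1 := h (j - n + 1) (by omega)
  have h2 := h (j - n) (by omega)
  rw [show j + 1 - (j - n + 1) = n by omega] at h1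
  have h3 := mul_le_mul_of_nonneg_left
    (pw_le hω (a := 9000 * n) (b := 9000 * (j + 1 - (j - n))) (by omega)) (abs_nonneg (D v (j - n)))
  unfold pn
  linarith

theorem fin_le {d N q P L : ℝ} (hd : 0 < d) (hN : 0 ≤ N) (hP : 0 ≤ P) (hL : 4 ≤ L) (h1 : d ≤ N * q)
    (h2 : q * P ≤ 4 * d) : P ≤ L * N := by
  have h3 : d * P ≤ d * (4 * N) := by
    have := mul_le_mul_of_nonneg_right h1 hP
    have := mul_le_mul_of_nonneg_left h2 hN
    nlinarith
  exact (le_of_mul_le_mul_left h3 hd).trans (mul_le_mul_of_nonneg_right hL hN)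

theorem entry {d x y e g a b : ℝ} (hd : 0 < |d|) (h : d * x = y + e * g) (hy : |y| ≤ a * |d|)
    (he : |e| ≤ 2 * |d|) (hg : |g| ≤ b) : |x| ≤ a + 2 * b := by
  have h1 : |d| * |x| ≤ |d| * (a + 2 * b) := by
    rw [← abs_mul, h]
    refine (abs_add_le _ _).trans ?_
    rw [abs_mul]
    have := mul_le_mul he hg (abs_nonneg _) (by positivity)
    linarith
  exact le_of_mul_le_mul_left h1 hd

theorem exp_le {ω : ℝ} (hω : 10 ^ 6 ≤ ω) {a b : ℕ} (h : ω ^ a ≤ ω ^ b) : a ≤ b :=
  (pow_le_pow_iff_right₀ (by linarith)).1 h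

end Rm

open Rm

theorem s_rm1 : S_rm1 := by
  intro ω J I v v' w hω hF _ h1 h2
  obtain ⟨j, rfl⟩ : ∃ j, J = j + 1 := ⟨J - 1, by have := hF.j1; omega⟩
  obtain ⟨i, rfl⟩ : ∃ i, I = i + 1 := ⟨I - 1, by have := hF.j1'; omega⟩
  have p1 := prof_pos hω hF.pr hF.j1
  have p2 := prof_pos hω hF.pr' hF.j1'
  have hL : 4 ≤ ω ^ 10000 := by
    have := pw_lt hω (a := 0) (b := 10000) (by norm_num)
    rw [pow_zero] at this
    linarith
  refine ⟨hF.j1, hF.j1', ?_, fun n hn => ?_, fun n hn => ?_⟩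
  · obtain ⟨a1, a2⟩ := DE_w h1 h2 (l := i + 1) le_rfl
    obtain ⟨a3, a4⟩ := DE_w h1 h2 (l := i) (by omega)
    have q1 := prof_le hω hF.pr (l := j) (by omega)
    have q2 := prof_le hω hF.pr' (l := i) (by omega)
    have e1 : |G v v' (j + 1) (i + 1)| ≤ ω ^ 40000 := by
      refine le_trans (le_of_eq ?_) hF.m
      rw [← abs_mul, ← abs_mul]
      congr 1
      have := abs_pos.1 p1
      have := abs_pos.1 p2
      unfold G Th
      field_simp
      ring
    have e2 := entry p2 (G_right v v' (j + 1) i) hF.r q2 e1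
    have e3 := entry p1 (G_left v v' j (i + 1)) hF.r' q1 e1
    have e4 := entry (a := 2 * ω ^ 10000) p1 (G_left v v' j i) (by linarith [hF.r']) q1 e2
    have e5 := pw_le hω (a := 10000) (b := 40000) (by norm_num)
    have e6 := pw_lt hω (a := 40000) (b := 50000) (by norm_num)
    rw [show j + 1 + (i + 1) - 1 = j + 1 + i by omega]
    unfold NN pn
    rw [show j + 1 + i + 1 = j + 1 + (i + 1) by omega, a1, a2, a3, a4, abs_neg, abs_neg]
    generalize ω ^ 10000 = A at *
    generalize ω ^ 40000 = B at *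
    generalize ω ^ 50000 = C at *
    linarith
  · rw [Nat.add_sub_cancel] at hn
    have hs : SolN w (fun l => D v (j + 1 - l)) j :=
      (solN_D v j).rev.congr fun l _ b => h1 l (by omega)
    have e1 := pn_zero_le hs n hn
    rw [pn_rev _ _ _ hn, pn_rev _ _ _ (Nat.zero_le _), Nat.sub_zero] at e1
    exact fin_le p1 (NN_pos _ _).le (pw_pos hω _).le hL ((abs_succ_le_pn _ _).trans e1)
      (prof_pn hω hF.pr hn)
  · rw [Nat.add_sub_cancel] at hn
    have hs : SolN (fun l => w (l + (j + 1 + (i + 1) - 1 - n))) (fun l => D v' (i - n + l)) n :=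
      (((solN_D v' i).shift (i - n)).mono (by omega)).congr fun l _ b => by
        rw [← h2 (i - n + l) (by omega)]
        congr 1
        omega
    have e1 := pn_le_NN hs n le_rfl
    rw [pn_shift, pn_shift, add_zero, show i - n + n = i by omega] at e1
    exact fin_le p2 (NN_pos _ _).le (pw_pos hω _).le hL ((abs_succ_le_pn _ _).trans e1)
      (prof_pn hω hF.pr' hn)

open scoped Classical in
theorem s_rm2 : S_rm2 := by
  intro ω M w hω
  rcases ((Pairs M 12).filter fun p => PR ω p.1 p.2 w).eq_empty_or_nonempty with h | h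
  · rw [h]; simp
  obtain ⟨q, hq, hmax⟩ := Finset.exists_max_image _ (fun p : ℕ × ℕ => p.1 + p.2 - 1) h
  have hq' := (Finset.mem_filter.1 hq).2
  have key : ∀ p ∈ (Pairs M 12).filter fun p => PR ω p.1 p.2 w,
      p.1 + p.2 - 1 ≤ 6 ∨ q.1 + q.2 - 1 ≤ p.1 + p.2 - 1 + 12 := fun p hp => by
    have hp' := (Finset.mem_filter.1 hp).2
    have hm : p.1 + p.2 - 1 ≤ q.1 + q.2 - 1 := hmax p hp
    have r1 := hp'.ret
    have r2 := hq'.ret
    have j1 := hq'.j1
    have j2 := hq'.j1'
    obtain ⟨l, hl⟩ : ∃ l, l = p.1 + p.2 - 1 := ⟨_, rfl⟩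
    rw [← hl] at hm r1 ⊢
    by_cases hc : l ≤ q.1 - 1
    · have e1 := (hq'.b l hc).trans (mul_le_mul_of_nonneg_left r1 (pw_pos hω _).le)
      rw [← pow_add] at e1
      have := exp_le hω e1
      omega
    · obtain ⟨n, hn⟩ : ∃ n, q.1 + q.2 - 1 = l + n := ⟨q.1 + q.2 - 1 - l, by omega⟩
      have e1 := hq'.f n (by omega)
      rw [hn] at r2
      rw [hn, Nat.add_sub_cancel] at e1
      have e2 : NN (fun i => w (i + l)) n ≤ ω ^ 50000 * ω ^ 50000 := by
        simp only [add_comm _ l]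
        exact (NN_shift_le w l n).trans (mul_le_mul r1 r2 (NN_pos _ _).le (pw_pos hω _).le)
      have e3 := e1.trans (mul_le_mul_of_nonneg_left e2 (pw_pos hω _).le)
      rw [← pow_add, ← pow_add] at e3
      have := exp_le hω e3
      omega
  refine (Finset.card_le_card_of_injOn (t := (Finset.range 7 ∪
    Finset.Icc (q.1 + q.2 - 1 - 12) (q.1 + q.2 - 1)) ×ˢ Finset.range 25)
    (fun p : ℕ × ℕ => (p.1 + p.2 - 1, p.1 + 12 - p.2)) (fun p hp => ?_) fun p hp p' hp' he => ?_).trans ?_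
  · have hp1 := Finset.mem_coe.1 hp
    have e1 := key p hp1
    have e2 : p.1 + p.2 - 1 ≤ q.1 + q.2 - 1 := hmax p hp1
    have e3 := (Finset.mem_filter.1 (Finset.mem_filter.1 hp1).1).2
    simp only [Finset.coe_product, Finset.coe_union, Finset.coe_range, Finset.coe_Icc, mem_prod,
      mem_union, mem_Iio, mem_Icc]
    omega
  · have hp1 := Finset.mem_filter.1 (Finset.mem_coe.1 hp)
    have hp2 := Finset.mem_filter.1 (Finset.mem_coe.1 hp')
    have e1 := (Finset.mem_filter.1 hp1.1).2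
    have e2 := (Finset.mem_filter.1 hp2.1).2
    have e3 := hp1.2.j1
    have e4 := hp2.2.j1
    simp only [Prod.mk.injEq] at he
    ext <;> omega
  · rw [Finset.card_product, Finset.card_range]
    have e1 := Finset.card_union_le (Finset.range 7)
      (Finset.Icc (q.1 + q.2 - 1 - 12) (q.1 + q.2 - 1))
    rw [Finset.card_range, Nat.card_Icc] at e1
    omega

end Vale.Agent.P108
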