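import Vale.Agent.P108.Basic

/-! P108: auxiliary lemmas for the local estimate. -/

namespace Vale.Agent.P108

open MeasureTheory Real Set

namespace Wl0

variable {k θ ω : ℝ}

theorem sm (hω : 10 ^ 6 ≤ ω) {x C : ℝ} {m n : ℕ} (hx : 0 ≤ x) (h : x * ω ^ n ≤ C)
    (hC : C ≤ 10 ^ 6) (hmn : m < n) : x * ω ^ m ≤ 1 := by
  have h1 := pw_lt hω hmn
  have h2 : x * (10 ^ 6 * ω ^ m) ≤ x * ω ^ n := mul_le_mul_of_nonneg_left h1 hx
  generalize ω ^ m = A at *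
  generalize ω ^ n = A' at *
  nlinarith

theorem grow (hprof : S_prof) (B : Big k θ ω) {v : ℕ → ℝ} (hb : Bd ω v) {j a : ℕ} (hj : 1 ≤ j)
    (hp : Prof ω 9800 1 j v) (hc : ∀ l ≤ 12, Cl k θ (v (j + l))) (ha : a ≤ 10) :
    Prof ω 9800 1 (j + a) v ∧ 1 ≤ |D v (j + a)| ∧
      ω ^ 9999 * |D v (j + a)| ≤ |D v (j + a + 1)| ∧
      ω ^ 9999 * |D v (j + a + 1)| ≤ |D v (j + a + 2)| := by
  have h1 := hprof ω _ j a v B.om hb B.g_le hj hp fun l hl => B.cl_ge (hc l (by omega))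
  have h2 := hprof ω _ j (a + 2) v B.om hb B.g_le hj hp fun l hl => B.cl_ge (hc l (by omega))
  refine ⟨h1.1, ?_, (h2.2.2 a (by omega)).1, (h2.2.2 (a + 1) (by omega)).1⟩
  have h3 := h1.1 1 (by omega)
  have h4 := one_le_pw B.om (9800 * (j + a - 1))
  simp only [D, abs_one, one_mul] at h3
  linarith

theorem th_succ {v v' : ℕ → ℝ} {J I : ℕ} (h0 : D v J ≠ 0) (h1 : D v (J + 1) ≠ 0)
    (h0' : D v' I ≠ 0) (h1' : D v' (I + 1) ≠ 0) :
    Th (J + 1) (I + 1) v v' =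
      Th J I v v' - 1 / (D v J * D v (J + 1)) - 1 / (D v' I * D v' (I + 1)) := by
  have e : ∀ (v : ℕ → ℝ) (J : ℕ), D v J ≠ 0 → D v (J + 1) ≠ 0 →
      E v (J + 1) / D v (J + 1) = E v J / D v J - 1 / (D v J * D v (J + 1)) := by
    intro v J h0 h1
    have := wronsk v J
    field_simp
    linarith
  unfold Th
  rw [e v J h0 h1, e v' I h0' h1']; ring

theorem recip {K c f d d1 dm : ℝ} (hK : K ≠ 0) (hf : f ≠ 0) (hd : d ≠ 0) (hd1 : d1 ≠ 0)
    (h : d1 = (2 + K * c) * d - dm) :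
    K * f ^ 2 / (d * d1) = 1 / ((d / f) ^ 2 * (c + (2 / K - dm / (K * d)))) := by
  have e : c + (2 / K - dm / (K * d)) = d1 / (K * d) := by
    rw [h]; field_simp; ring
  rw [e]; field_simp

theorem tail {W f d d1 d2 : ℝ} (hW : 0 < W) (hf : 0 < |f|) (h : |f| ≤ 2 * |d|)
    (h1 : W * |d| ≤ |d1|) (h2 : W * |d1| ≤ |d2|) :
    f ^ 2 * (3 / |d1 * d2|) * W ^ 3 ≤ 12 ∧ |f ^ 2 / (d * d1)| * W ≤ 4 := by
  have hd : 0 < |d| := by linarith
  have hd1 : 0 < |d1| := lt_of_lt_of_le (by positivity) h1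
  have hd2 : 0 < |d2| := lt_of_lt_of_le (by positivity) h2
  have hf2 : f ^ 2 ≤ 4 * |d| ^ 2 := by rw [← sq_abs f]; nlinarith
  constructor
  · rw [abs_mul, ← mul_div_assoc, div_mul_eq_mul_div, div_le_iff₀ (by positivity)]
    have a1 : W * (W * |d|) ≤ |d2| := le_trans (by gcongr) h2
    have a2 : (W * |d|) * (W * (W * |d|)) ≤ |d1| * |d2| := by gcongr
    calc f ^ 2 * 3 * W ^ 3 ≤ 4 * |d| ^ 2 * 3 * W ^ 3 := by gcongr
      _ = 12 * ((W * |d|) * (W * (W * |d|))) := by ring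
      _ ≤ _ := by gcongr
  · rw [abs_div, abs_mul, abs_of_nonneg (sq_nonneg f), div_mul_eq_mul_div,
      div_le_iff₀ (by positivity)]
    calc f ^ 2 * W ≤ 4 * |d| ^ 2 * W := by gcongr
      _ = 4 * (|d| * (W * |d|)) := by ring
      _ ≤ _ := by gcongr

/-- rescaling the argument of a polynomial -/
def sc (p : Fin 5 → ℝ) (c r : ℝ) : Fin 5 → ℝ := fun i => c * r ^ (i : ℕ) * p i

theorem pol_sc (p : Fin 5 → ℝ) (c r s : ℝ) : pol (sc p c r) s = c * pol p (r * s) := by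
  simp only [pol, sc]
  simp only [Fin.val_zero, Fin.val_one, Fin.val_two, show ((3 : Fin 5) : ℕ) = 3 from rfl,
    show ((4 : Fin 5) : ℕ) = 4 from rfl]
  ring

theorem pol_add (p q : Fin 5 → ℝ) (s : ℝ) : pol (p + q) s = pol p s + pol q s := by
  simp only [pol, Pi.add_apply]; ring

theorem pol_const (c s : ℝ) : pol (Pi.single 0 c) s = c := by
  simp [pol]

theorem cont_pol (p : Fin 5 → ℝ) : Continuous (pol p) := by unfold pol; fun_prop

/-- the output of the expansion lemma at one value of the parameter -/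
structure Ex (k ω : ℝ) (z : ℝ × ℝ) (J : ℕ) (p : Fin 5 → ℝ) (α β s : ℝ) : Prop where
  e1 : |D (wd k z) J ^ 2 * (E (wd k (pt k z J s)) J / D (wd k (pt k z J s)) J) - pol p s|
    * ω ^ 26000 ≤ |s| ^ 5
  e2 : |D (wd k (pt k z J s)) J / D (wd k z) J - 1 - α * s| * ω ^ 11000 ≤ 25
  e3 : |X k z.1 (pt k z J s).2 J - (X k z.1 z.2 J + s + β * s ^ 2)| * ω ^ 11000 ≤ 125
  e4 : |D (wd k (pt k z J s)) (J - 1)| * ω ^ 9000 ≤ |D (wd k z) J|
  e5 : Prof ω 9000 2 J (wd k (pt k z J s))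
  u1 : |D (wd k (pt k z J s)) J / D (wd k z) J - 1| * ω ≤ 1
  lo : |D (wd k z) J| ≤ 2 * |D (wd k (pt k z J s)) J|
  hi : |D (wd k (pt k z J s)) J| ≤ 2 * |D (wd k z) J|

theorem exists_ex (hpa : S_pa) (B : Big k θ ω) (z : ℝ × ℝ) {J : ℕ} (hJ : 1 ≤ J)
    (hp : Prof ω 9800 1 J (wd k z)) (hf : 1 ≤ |D (wd k z) J|) :
    ∃ (p : Fin 5 → ℝ) (α β : ℝ), |α| * ω ^ 9000 ≤ 1 ∧ |β| * ω ^ 9000 ≤ 1 ∧
      ∀ s, |s| ≤ 5 → Ex k ω z J p α β s := by
  obtain ⟨p, α, β, hα, hβ, h⟩ := hpa k θ ω z J B hJ hp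
  have hω := B.om
  refine ⟨p, α, β, hα, hβ, fun s hs => ?_⟩
  obtain ⟨h1, h2, h3, h4, h5⟩ := h s hs
  have hs0 := abs_nonneg s
  have hs2 : s ^ 2 ≤ 25 := by rw [← sq_abs]; nlinarith
  have hs3 : |s| ^ 3 ≤ 125 := le_trans (pow_le_pow_left₀ hs0 hs 3) (by norm_num)
  set u := D (wd k (pt k z J s)) J / D (wd k z) J with hu
  have a1 : |u - 1 - α * s| * ω ^ 2 ≤ 1 := sm hω (abs_nonneg _) (h2.trans hs2) (by norm_num) (by norm_num)
  have a2 : |α| * ω ^ 2 ≤ 1 := sm hω (abs_nonneg _) hα (by norm_num) (by norm_num)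
  have a3 : |u - 1| ≤ |u - 1 - α * s| + |α| * 5 := by
    have := abs_add_le (u - 1 - α * s) (α * s)
    rw [sub_add_cancel, abs_mul] at this
    have : |α| * |s| ≤ |α| * 5 := by gcongr
    linarith
  have a4 : |u - 1| * ω ≤ 1 := by
    have h0 := abs_nonneg (u - 1)
    have : |u - 1| * ω ^ 2 ≤ 6 := by nlinarith [sq_nonneg ω]
    have := sm (m := 1) hω h0 this (by norm_num) (by norm_num)
    rwa [pow_one] at this
  have a5 : |u - 1| ≤ 1 / 2 := by nlinarith [abs_nonneg (u - 1)]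
  have hf0 : D (wd k z) J ≠ 0 := fun h => by rw [h, abs_zero] at hf; linarith
  have a6 : |D (wd k (pt k z J s)) J| = |u| * |D (wd k z) J| := by
    rw [← abs_mul, hu, div_mul_cancel₀ _ hf0]
  have a7 := abs_le.1 a5
  have a8 : |u| = u := abs_of_pos (by linarith [a7.1])
  refine ⟨h1, h2.trans hs2, ?_, h4, h5, a4, ?_, ?_⟩
  · rw [show X k z.1 (pt k z J s).2 J - (X k z.1 z.2 J + s + β * s ^ 2) =
      X k z.1 (pt k z J s).2 J - X k z.1 z.2 J - s - β * s ^ 2 by ring]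
    exact h3.trans hs3
  · rw [a6, a8]; nlinarith [a7.1]
  · rw [a6, a8]; nlinarith [a7.2]

/-- the correction of the potential -/
noncomputable def ee (k : ℝ) (v : ℕ → ℝ) (J : ℕ) : ℝ :=
  2 / (2 * π * k) - D v (J - 1) / (2 * π * k * D v J)

theorem recip' (B : Big k θ ω) (w : ℝ × ℝ) {J : ℕ} (hJ : 1 ≤ J) {f : ℝ} (hf : f ≠ 0)
    (h0 : D (wd k w) J ≠ 0) (h1 : D (wd k w) (J + 1) ≠ 0) :
    2 * π * k * f ^ 2 / (D (wd k w) J * D (wd k w) (J + 1)) =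
      1 / ((D (wd k w) J / f) ^ 2 * (cos (2 * π * X k w.1 w.2 J) + ee k (wd k w) J)) := by
  have hK : 2 * π * k ≠ 0 := by have := B.k0; positivity
  obtain ⟨n, rfl⟩ : ∃ n, J = n + 1 := ⟨J - 1, by omega⟩
  exact recip hK hf h0 h1 (D_add_two _ n)

theorem ee_le (B : Big k θ ω) {z : ℝ × ℝ} {J : ℕ} {p : Fin 5 → ℝ} {α β s : ℝ}
    (h : Ex k ω z J p α β s) (hf : 1 ≤ |D (wd k z) J|) :
    |ee k (wd k (pt k z J s)) J - 2 / (2 * π * k)| * ω ^ 9000 ≤ 2 / (2 * π * k) := by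
  have hK : 0 < 2 * π * k := by have := B.k0; positivity
  have h1 := h.lo
  have h2 := h.e4
  have h3 : 0 < |D (wd k (pt k z J s)) J| := by linarith
  unfold ee
  rw [sub_sub_cancel_left, abs_neg, abs_div, abs_mul, abs_of_pos hK, div_mul_eq_mul_div,
    div_le_div_iff₀ (by positivity) hK]
  nlinarith

theorem scale (A S : Set ℝ) {c κ : ℝ} (hc : c ≠ 0) (hA : volume A ≤ ENNReal.ofReal κ)
    (h : ∀ x ∈ S, x / c ∈ A) : volume S ≤ ENNReal.ofReal (κ * |c|) := by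
  calc volume S ≤ volume ((fun x => c⁻¹ * x) ⁻¹' A) :=
        measure_mono fun x hx => by simpa [div_eq_inv_mul] using h x hx
    _ = ENNReal.ofReal |c⁻¹⁻¹| * volume A := Real.volume_preimage_mul_left (inv_ne_zero hc) A
    _ ≤ ENNReal.ofReal |c| * ENNReal.ofReal κ := by rw [inv_inv]; gcongr
    _ = _ := by rw [← ENNReal.ofReal_mul (abs_nonneg c), mul_comm]

end Wl0

end Vale.Agent.P108
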