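import Vale.Agent.P108.Wl01

/-! P108: the local estimate, ordered form. -/

namespace Vale.Agent.P108

open MeasureTheory Real Set

namespace Wl0

variable {k θ ω : ℝ}

theorem le_d (hω : 10 ^ 6 ≤ ω) {x C δ : ℝ} {n : ℕ} (hx : 0 ≤ x) (h : x * ω ^ n ≤ C)
    (hC : C ≤ 10 ^ 6) (hn : 1 < n) (hδ : 1 ≤ δ * ω) : x ≤ δ := by
  have h1 := sm hω hx h hC hn
  rw [pow_one] at h1
  exact le_of_mul_le_mul_right (h1.trans hδ) (by linarith)

theorem le_de (hω : 10 ^ 6 ≤ ω) {x C δ K : ℝ} {n : ℕ} (hx : 0 ≤ x) (h : x * ω ^ n ≤ C)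
    (hC : C ≤ 10 ^ 6) (hn : 10001 < n) (hδ : 1 ≤ δ * ω) (hK : 0 < K) (hK' : K ≤ ω ^ 10000) :
    x ≤ δ * (2 / K) := by
  have h1 := sm hω hx h hC hn
  rw [pow_succ] at h1
  have h2 : x * ω ^ 10000 ≤ δ :=
    le_of_mul_le_mul_right (by rw [mul_assoc]; exact h1.trans hδ) (show 0 < ω by linarith)
  have h3 : x * K ≤ x * ω ^ 10000 := mul_le_mul_of_nonneg_left hK' hx
  have h4 : 0 ≤ x * K := by positivity
  rw [← mul_div_assoc, le_div_iff₀ hK]
  linarith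

/-- the data at a base point -/
structure Dat (k θ ω : ℝ) (j j' a b : ℕ) (z : ℝ × ℝ) (r : ℝ) (p p' : Fin 5 → ℝ)
    (α β α' β' : ℝ) : Prop where
  B : Big k θ ω
  ha : a ≤ 10
  hb : b ≤ 10
  j1 : 1 ≤ j
  j1' : 1 ≤ j'
  f1 : 1 ≤ |D (wd k z) (j + a)|
  f1' : 1 ≤ |D (wd k (lf k z)) (j' + b)|
  hr : D (wd k (lf k z)) (j' + b) = -r * D (wd k z) (j + a)
  r1 : |r| ≤ 1
  r0 : 1 ≤ |r| * ω ^ 5000
  ex : ∀ s, |s| ≤ 5 → Ex k ω z (j + a) p α β s
  ex' : ∀ s, |s| ≤ 5 → Ex k ω (lf k z) (j' + b) p' α' β' s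

/-- the approximating polynomial -/
noncomputable def PP (k : ℝ) (J : ℕ) (z : ℝ × ℝ) (r : ℝ) (p p' : Fin 5 → ℝ) : Fin 5 → ℝ :=
  Pi.single 0 (D (wd k z) J ^ 2 * wd k z 0) + p + sc p' (1 / r ^ 2) r

namespace Dat
variable {j j' a b : ℕ} {z : ℝ × ℝ} {r : ℝ} {p p' : Fin 5 → ℝ} {α β α' β' : ℝ}
  (H : Dat k θ ω j j' a b z r p p' α β α' β')
include H

theorem f0 : D (wd k z) (j + a) ≠ 0 := fun h => by have := H.f1; rw [h, abs_zero] at this; linarith
theorem f0' : D (wd k (lf k z)) (j' + b) ≠ 0 := fun h => by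
  have := H.f1'; rw [h, abs_zero] at this; linarith
theorem rne : r ≠ 0 := fun h => by have := H.r0; rw [h, abs_zero, zero_mul] at this; linarith
theorem rs {s : ℝ} (hs : |s| ≤ 5) : |r * s| ≤ 5 := by
  rw [abs_mul]; nlinarith [H.r1, abs_nonneg r, abs_nonneg s]
theorem r2 : 1 ≤ r ^ 2 * ω ^ 10000 := by
  have h := H.r0
  calc (1 : ℝ) = 1 * 1 := by ring
    _ ≤ (|r| * ω ^ 5000) * (|r| * ω ^ 5000) := by gcongr
    _ = |r| ^ 2 * (ω ^ 5000 * ω ^ 5000) := by rw [mul_mul_mul_comm, sq]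
    _ = _ := by rw [sq_abs, ← pow_add]
theorem r2' : r ^ 2 ≤ 1 := by rw [← sq_abs]; nlinarith [H.r1, abs_nonneg r]

theorem lf_pt (s : ℝ) : lf k (pt k z (j + a) s) = pt k (lf k z) (j' + b) (r * s) := by
  unfold pt
  rw [lf_add, H.hr]
  have := H.f0; have := H.rne
  congr 2; field_simp

theorem hT {s : ℝ} (hs : |s| ≤ 5) :
    |D (wd k z) (j + a) ^ 2 * Th (j + a) (j' + b) (wd k (pt k z (j + a) s))
      (wd k (lf k (pt k z (j + a) s))) - pol (PP k (j + a) z r p p') s| * ω ^ 26000 ≤ 6250 := by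
  have h1 := (H.ex s hs).e1
  have h2 := (H.ex' _ (H.rs hs)).e1
  have hr := H.rne
  rw [H.lf_pt, PP, pol_add, pol_add, pol_const, pol_sc]
  rw [H.hr] at h2
  unfold Th
  have e0 : wd k (pt k z (j + a) s) 0 = wd k z 0 := rfl
  rw [e0]
  set f := D (wd k z) (j + a)
  set A := E (wd k (pt k z (j + a) s)) (j + a) / D (wd k (pt k z (j + a) s)) (j + a)
  set A' := E (wd k (pt k (lf k z) (j' + b) (r * s))) (j' + b) /
    D (wd k (pt k (lf k z) (j' + b) (r * s))) (j' + b)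
  have e : f ^ 2 * (wd k z 0 + A + A') - (f ^ 2 * wd k z 0 + pol p s + 1 / r ^ 2 * pol p' (r * s))
      = (f ^ 2 * A - pol p s) + ((-r * f) ^ 2 * A' - pol p' (r * s)) / r ^ 2 := by
    field_simp; ring
  have hs5 : |s| ^ 5 ≤ 3125 := le_trans (pow_le_pow_left₀ (abs_nonneg s) hs 5) (by norm_num)
  have hr2 : 0 < r ^ 2 := by positivity
  have h3 : |((-r * f) ^ 2 * A' - pol p' (r * s)) / r ^ 2| * ω ^ 26000 ≤ 3125 := by
    rw [abs_div, abs_of_pos hr2, div_mul_eq_mul_div, div_le_iff₀ hr2]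
    refine h2.trans ?_
    have h4 : |r| ^ 3 ≤ 1 := pow_le_one₀ (abs_nonneg r) H.r1
    calc |r * s| ^ 5 = |s| ^ 5 * |r| ^ 3 * r ^ 2 := by rw [abs_mul, ← sq_abs r]; ring
      _ ≤ 3125 * 1 * r ^ 2 := by gcongr
      _ = _ := by ring
  rw [e]
  have h5 := abs_add_le (f ^ 2 * A - pol p s) (((-r * f) ^ 2 * A' - pol p' (r * s)) / r ^ 2)
  have h6 := mul_le_mul_of_nonneg_right h5 (pw_pos H.B.om 26000).le
  rw [add_mul] at h6
  linarith

theorem hA {s : ℝ} (hs : |s| ≤ 5) (hP : |pol (PP k (j + a) z r p p') s| ≤ ω ^ 20000) :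
    pt k z (j + a) s ∈ FW k ω (j + a) (j' + b) := by
  have hω := H.B.om
  have e := H.ex s hs
  have e' := H.ex' _ (H.rs hs)
  have hT := H.hT hs
  have h1 := e.lo; have h2 := e.hi; have h3 := e'.lo; have h4 := e'.hi
  rw [← H.lf_pt] at h3 h4
  have hf' : |D (wd k (lf k z)) (j' + b)| = |r| * |D (wd k z) (j + a)| := by
    rw [H.hr, abs_mul, abs_neg]
  have h5 := H.r0; have h6 := H.r1; have h7 := H.f1
  have hr0 := abs_nonneg r
  have w1 := pw_lt hω (show 5000 < 10000 by norm_num)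
  have w2 := one_le_pw hω 5000
  have w3 := pw_lt hω (show 20000 < 40000 by norm_num)
  have w4 := one_le_pw hω 20000
  have hT1 := sm (m := 0) hω (abs_nonneg _) hT (by norm_num) (by norm_num)
  rw [pow_zero, mul_one] at hT1
  refine ⟨by have := H.j1; omega, by have := H.j1'; omega, e.e5, by rw [H.lf_pt]; exact e'.e5,
    ?_, ?_, ?_⟩
  all_goals
    set f := |D (wd k z) (j + a)| with hf
    set d := |D (wd k (pt k z (j + a) s)) (j + a)|
    set d' := |D (wd k (lf k (pt k z (j + a) s))) (j' + b)|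
    have hd : 0 ≤ d := abs_nonneg _
    have hd' : 0 ≤ d' := abs_nonneg _
    rw [hf'] at h3 h4
  · generalize ω ^ 5000 = A at *
    generalize ω ^ 10000 = A' at *
    have a1 : f ≤ |r| * A * f := by nlinarith
    have a2 : |r| * f * A ≤ 2 * d' * A := by gcongr
    nlinarith
  · generalize ω ^ 5000 = A at *
    generalize ω ^ 10000 = A' at *
    have a1 : |r| * f ≤ f := by nlinarith
    nlinarith
  · set T := Th (j + a) (j' + b) (wd k (pt k z (j + a) s)) (wd k (lf k (pt k z (j + a) s)))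
    have a0 : |D (wd k z) (j + a) ^ 2 * T| ≤ ω ^ 20000 + 1 := by
      have := abs_sub_abs_le_abs_sub (D (wd k z) (j + a) ^ 2 * T) (pol (PP k (j + a) z r p p') s)
      linarith
    rw [abs_mul, abs_pow, ← hf] at a0
    have a1 : |r| * f ≤ f := by nlinarith
    have a2 : d * d' ≤ (2 * f) * (2 * f) := by gcongr; linarith
    have a3 : |T| * (d * d') ≤ |T| * ((2 * f) * (2 * f)) := by gcongr
    generalize ω ^ 20000 = A at *
    generalize ω ^ 40000 = A' at *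
    nlinarith

theorem hB (hprof : S_prof) {s : ℝ} (hs : |s| ≤ 5) (hE : pt k z (j + a) s ∈ EW k θ ω j j') :
    D (wd k (pt k z (j + a) s)) (j + a) ≠ 0 ∧ D (wd k (pt k z (j + a) s)) (j + a + 1) ≠ 0 ∧
    D (wd k (pt k (lf k z) (j' + b) (r * s))) (j' + b) ≠ 0 ∧
    D (wd k (pt k (lf k z) (j' + b) (r * s))) (j' + b + 1) ≠ 0 ∧
    |pol (PP k (j + a) z r p p') s - D (wd k z) (j + a) ^ 2 /
        (D (wd k (pt k z (j + a) s)) (j + a) * D (wd k (pt k z (j + a) s)) (j + a + 1)) -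
      D (wd k z) (j + a) ^ 2 / (D (wd k (pt k (lf k z) (j' + b) (r * s))) (j' + b) *
        D (wd k (pt k (lf k z) (j' + b) (r * s))) (j' + b + 1))| * r ^ 2 * ω ^ 25000 ≤ 1 ∧
    |pol (PP k (j + a) z r p p') s| ≤ ω ^ 2 := by
  have hω := H.B.om
  have e := H.ex s hs
  have e' := H.ex' _ (H.rs hs)
  have hT := H.hT hs
  have hE' : PE ω (Cl k θ) j j' (wd k (pt k z (j + a) s)) (wd k (lf k (pt k z (j + a) s))) := hE
  have hm := hE'.m a H.ha b H.hb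
  obtain ⟨-, g1, g2, g3⟩ := grow hprof H.B (H.B.bd _) H.j1 hE'.pr hE'.c H.ha
  obtain ⟨-, g1', g2', g3'⟩ := grow hprof H.B (H.B.bd _) H.j1' hE'.pr' hE'.c' H.hb
  rw [H.lf_pt] at hT hm g1' g2' g3'
  have hW := pw_pos hω 9999
  have ne : ∀ x y : ℝ, 1 ≤ |x| → ω ^ 9999 * |x| ≤ |y| → x ≠ 0 ∧ y ≠ 0 := fun x y h1 h2 =>
    ⟨abs_pos.1 (by linarith), abs_pos.1 (lt_of_lt_of_le (mul_pos hW (by linarith)) h2)⟩
  obtain ⟨n0, n1⟩ := ne _ _ g1 g2
  obtain ⟨n0', n1'⟩ := ne _ _ g1' g2'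
  obtain ⟨t1, t2⟩ := tail hW (by linarith [H.f1]) e.lo g2 g3
  obtain ⟨t1', t2'⟩ := tail hW (by linarith [H.f1']) e'.lo g2' g3'
  rw [th_succ n0 n1 n0' n1'] at hm
  rw [H.hr] at t1' t2'
  rw [← pow_mul] at t1 t1'
  refine ⟨n0, n1, n0', n1', ?_⟩
  have hr2 := H.r2; have hr2' := H.r2'
  set f := D (wd k z) (j + a)
  set P := pol (PP k (j + a) z r p p') s
  set T := Th (j + a) (j' + b) (wd k (pt k z (j + a) s)) (wd k (pt k (lf k z) (j' + b) (r * s)))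
  set x := D (wd k (pt k z (j + a) s)) (j + a) * D (wd k (pt k z (j + a) s)) (j + a + 1)
  set x' := D (wd k (pt k (lf k z) (j' + b) (r * s))) (j' + b) *
    D (wd k (pt k (lf k z) (j' + b) (r * s))) (j' + b + 1)
  set y := 3 / |D (wd k (pt k z (j + a) s)) (j + a + 1) * D (wd k (pt k z (j + a) s)) (j + a + 2)|
  set y' := 3 / |D (wd k (pt k (lf k z) (j' + b) (r * s))) (j' + b + 1) *
    D (wd k (pt k (lf k z) (j' + b) (r * s))) (j' + b + 2)|
  have hy : 0 ≤ y := by positivity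
  have hy' : 0 ≤ y' := by positivity
  have s1 := sm (m := 25001) hω (abs_nonneg _) hT (by norm_num) (by norm_num)
  have s2 := sm (m := 25001) hω (by positivity) t1 (by norm_num) (by norm_num)
  have s3 := sm (m := 25001) hω (by positivity) t1' (by norm_num) (by norm_num)
  have a1 : |P - f ^ 2 / x - f ^ 2 / x'| ≤ |f ^ 2 * T - P| + (f ^ 2 * y + f ^ 2 * y') := by
    have e1 : P - f ^ 2 / x - f ^ 2 / x' = -(f ^ 2 * T - P) + f ^ 2 * (T - 1 / x - 1 / x') := by ring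
    rw [e1]
    refine (abs_add_le _ _).trans ?_
    rw [abs_neg, abs_mul, abs_of_nonneg (sq_nonneg f), ← mul_add]
    gcongr
  have a2 : |P - f ^ 2 / x - f ^ 2 / x'| * r ^ 2 ≤
      |f ^ 2 * T - P| + f ^ 2 * y + (-r * f) ^ 2 * y' := by
    have b1 : |f ^ 2 * T - P| * r ^ 2 ≤ |f ^ 2 * T - P| := mul_le_of_le_one_right (abs_nonneg _) hr2'
    have b2 : f ^ 2 * y * r ^ 2 ≤ f ^ 2 * y := mul_le_of_le_one_right (by positivity) hr2'
    calc _ ≤ (|f ^ 2 * T - P| + (f ^ 2 * y + f ^ 2 * y')) * r ^ 2 := by gcongr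
      _ = |f ^ 2 * T - P| * r ^ 2 + f ^ 2 * y * r ^ 2 + (-r * f) ^ 2 * y' := by ring
      _ ≤ _ := by linarith
  have a3 : |P - f ^ 2 / x - f ^ 2 / x'| * r ^ 2 * ω ^ 25001 ≤ 3 := by
    have := mul_le_mul_of_nonneg_right a2 (pw_pos hω 25001).le
    rw [add_mul, add_mul] at this
    linarith
  have a4 := sm (m := 25000) hω (by positivity) a3 (by norm_num) (by norm_num)
  refine ⟨a4, ?_⟩
  have c1 : |P - f ^ 2 / x - f ^ 2 / x'| ≤ 1 := by
    have d1 := sm (m := 10000) hω (by positivity) a4 (by norm_num) (by norm_num)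
    rw [mul_assoc] at d1
    exact le_trans (le_mul_of_one_le_right (abs_nonneg _) hr2) d1
  have c2 : |f ^ 2 / x| ≤ 4 :=
    le_trans (le_mul_of_one_le_right (abs_nonneg _) (one_le_pw hω 9999)) t2
  have c3 : |f ^ 2 / x'| ≤ 4 * ω := by
    have d1 : |(-r * f) ^ 2 / x'| = |f ^ 2 / x'| * r ^ 2 := by
      rw [← abs_of_nonneg (sq_nonneg r), ← abs_mul]; congr 1; ring
    rw [d1] at t2'
    have d2 := mul_le_mul_of_nonneg_right t2' (show 0 ≤ ω by linarith)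
    rw [mul_assoc _ _ ω, ← pow_succ, mul_assoc] at d2
    exact le_trans (le_mul_of_one_le_right (abs_nonneg _) hr2) d2
  have c4 : |P| ≤ |P - f ^ 2 / x - f ^ 2 / x'| + |f ^ 2 / x| + |f ^ 2 / x'| := by
    have d1 := abs_add_three (P - f ^ 2 / x - f ^ 2 / x') (f ^ 2 / x) (f ^ 2 / x')
    rwa [show P - f ^ 2 / x - f ^ 2 / x' + f ^ 2 / x + f ^ 2 / x' = P by ring] at d1
  have : 5 + 4 * ω ≤ ω ^ 2 := by nlinarith
  linarith

end Dat

end Wl0

end Vale.Agent.P108
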